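import Crest.Agent.R94.Cfg

/-!
# R94/Aff: two rigidity lemmas
-/

set_option autoImplicit false
set_option linter.unusedSectionVars false
set_option linter.unusedVariables false

open Set Filter Topology Metric
open scoped InnerProductSpace

namespace R94

variable {E : Type} [NormedAddCommGroup E] [InnerProductSpace ℝ E] [FiniteDimensional ℝ E]

variable {w : E × ℝ → ℝ}

/-- continuous solutions of Jensen's equation vanishing at `0` are linear -/
theorem aff_jensen {F : Type} [NormedAddCommGroup F] [InnerProductSpace ℝ F] [FiniteDimensional ℝ F]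
    {c : ℝ} (hc0 : 0 < c) (hc1 : c < 1) {u : F → ℝ} (hu : Continuous u) (h0 : u 0 = 0)
    (h : ∀ z₁ z₂ : F, u ((1 - c) • z₁ + c • z₂) = (1 - c) * u z₁ + c * u z₂) :
    ∃ q : F, ∀ y, u y = ⟪q, y⟫_ℝ := by
  have hc : (1 - c) ≠ 0 := by linarith
  have key : ∀ a b : F, u (a + b) = (1 - c) * u ((1 - c)⁻¹ • a) + c * u (c⁻¹ • b) := by
    intro a b
    rw [← h, smul_inv_smul₀ hc, smul_inv_smul₀ hc0.ne']
  have hadd : ∀ a b : F, u (a + b) = u a + u b := by
    intro a b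
    have h1 := key a 0
    have h2 := key 0 b
    rw [smul_zero, h0, add_zero] at h1
    rw [smul_zero, h0, zero_add] at h2
    rw [key, h1, h2]
    ring
  let f : F →+ ℝ := AddMonoidHom.mk' u hadd
  haveI : CompleteSpace F := FiniteDimensional.complete ℝ F
  refine ⟨(InnerProductSpace.toDual ℝ F).symm (f.toRealLinearMap hu), fun y => ?_⟩
  rw [InnerProductSpace.toDual_symm_apply]
  rfl

theorem aff_young (q η : E) {s : ℝ} (hs : 0 < s) :
    ⟪q, η⟫_ℝ - ‖η‖ ^ 2 / (2 * s) ≤ s * ‖q‖ ^ 2 / 2 := by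
  have h1 := real_inner_le_norm q η
  have h2 : ‖q‖ * ‖η‖ - s * ‖q‖ ^ 2 / 2 ≤ ‖η‖ ^ 2 / (2 * s) := by
    rw [le_div_iff₀ (by positivity)]
    nlinarith [sq_nonneg (‖η‖ - s * ‖q‖)]
  linarith

theorem aff_opt (q : E) {s : ℝ} (hs : 0 < s) :
    ⟪q, s • q⟫_ℝ - ‖s • q‖ ^ 2 / (2 * s) = s * ‖q‖ ^ 2 / 2 := by
  rw [real_inner_smul_right, real_inner_self_eq_norm_sq, norm_smul, Real.norm_eq_abs, abs_of_pos hs]
  field_simp
  ring

theorem aff_Tp {a : ℝ → ℝ} {q : ℝ → E} (hw : SQ w) (H : ∀ y t, w (y, t) = a t + ⟪q t, y⟫_ℝ)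
    {s : ℝ} (hs : 0 < s) (y : E) (t : ℝ) :
    Tp s w (y, t) = a (t + s) + ⟪q (t + s), y⟫_ℝ + s * ‖q (t + s)‖ ^ 2 / 2 := by
  apply le_antisymm
  · refine Tp_le fun η => ?_
    have := aff_young (q (t + s)) η hs
    simp only [H, inner_add_right]
    linarith
  · have h1 := hw.le_Tp hs (y, t) (s • q (t + s))
    have h2 := aff_opt (q (t + s)) hs
    simp only [H, inner_add_right] at h1
    linarith

theorem aff_Tm {a : ℝ → ℝ} {q : ℝ → E} (hw : SQ w) (H : ∀ y t, w (y, t) = a t + ⟪q t, y⟫_ℝ)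
    {s : ℝ} (hs : 0 < s) (y : E) (t : ℝ) :
    Tm s w (y, t) = a (t - s) + ⟪q (t - s), y⟫_ℝ - s * ‖q (t - s)‖ ^ 2 / 2 := by
  apply le_antisymm
  · have h1 := hw.Tm_le hs (y, t) (-(s • q (t - s)))
    have h2 := aff_opt (q (t - s)) hs
    simp only [H, inner_add_right, inner_neg_right, norm_neg] at h1
    linarith
  · refine le_Tm fun η => ?_
    have := aff_young (q (t - s)) (-η) hs
    simp only [H, inner_add_right]
    simp only [inner_neg_right, norm_neg] at this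
    linarith

theorem aff_zero_of_nat {x C : ℝ} (hx : 0 ≤ x) (h : ∀ n : ℕ, n * x ≤ C) : x = 0 := by
  by_contra hne
  have hpos : 0 < x := lt_of_le_of_ne hx (Ne.symm hne)
  obtain ⟨n, hn⟩ := exists_nat_gt (C / x)
  rw [div_lt_iff₀ hpos] at hn
  linarith [h n]

theorem aff_zero_of_inner {v : E} {C : ℝ} (h : ∀ y : E, ⟪v, y⟫_ℝ ≤ C) : v = 0 := by
  have h1 : ‖v‖ ^ 2 = 0 := by
    refine aff_zero_of_nat (C := C) (sq_nonneg _) fun n => ?_
    have := h ((n : ℝ) • v)
    rwa [real_inner_smul_right, real_inner_self_eq_norm_sq] at this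
  simpa using h1

theorem aff_const {q : ℝ → E} {C : ℝ} (hm : ∀ m r : ℝ, q (m + r) - q m = q m - q (m - r))
    (hb : ∀ σ, ‖q σ - q 0‖ ≤ C) (r : ℝ) : q r = q 0 := by
  have h1 : ∀ k : ℕ, q ((k + 1) * r) - q (k * r) = q r - q 0 := by
    intro k
    induction k with
    | zero => simp
    | succ k ih =>
      have := hm ((k + 1) * r) r
      rw [show ((k : ℝ) + 1) * r - r = k * r by ring, ih] at this
      rw [← this]
      push_cast
      congr 2
      ring
  have h2 : ∀ k : ℕ, q (k * r) - q 0 = (k : ℝ) • (q r - q 0) := by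
    intro k
    induction k with
    | zero => simp
    | succ k ih =>
      push_cast
      rw [add_smul, one_smul, ← ih, ← h1 k]
      abel
  have h3 : ‖q r - q 0‖ = 0 := by
    refine aff_zero_of_nat (C := C) (norm_nonneg _) fun n => ?_
    have := hb (n * r)
    rwa [h2, norm_smul, Real.norm_natCast] at this
  exact sub_eq_zero.1 (norm_eq_zero.1 h3)

theorem aff_frame {a : ℝ → ℝ} {q : ℝ → E} (H : ∀ y t, w (y, t) = a t + ⟪q t, y⟫_ℝ)
    {ρ h : ℝ} {b : E} (hρ : 0 < ρ) (hC : CFw univ w 0 ρ 1 b h) {σ : ℝ} (hσ : |σ| ≤ ρ) :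
    ‖q σ - b‖ ≤ 2 := by
  have h1 := hC ((ρ / 2) • (q σ - b)) σ hσ (mem_univ _)
  have h2 := hC (-((ρ / 2) • (q σ - b))) σ hσ (mem_univ _)
  simp only [Prod.fst_zero, Prod.snd_zero, zero_add, H, inner_add_right, inner_neg_right,
    norm_neg] at h1 h2
  have h3 : ⟪q σ, (ρ / 2) • (q σ - b)⟫_ℝ - ⟪b, (ρ / 2) • (q σ - b)⟫_ℝ =
      ρ / 2 * ‖q σ - b‖ ^ 2 := by
    rw [← inner_sub_left, real_inner_smul_right, real_inner_self_eq_norm_sq]
  have h4 : ‖(ρ / 2) • (q σ - b)‖ ^ 2 / ρ = ρ / 4 * ‖q σ - b‖ ^ 2 := by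
    rw [norm_smul, Real.norm_eq_abs, abs_of_pos (by positivity)]
    field_simp
    ring
  rw [h4] at h1 h2
  have h5 := (abs_le.1 h1).2
  have h6 := (abs_le.1 h2).1
  have h7 : ρ * ‖q σ - b‖ ^ 2 ≤ ρ * 2 ^ 2 := by linarith
  exact (pow_le_pow_iff_left₀ (norm_nonneg _) (by norm_num) two_ne_zero).1
    (le_of_mul_le_mul_left h7 hρ)

/-- `Del c (rev w) x η t = - Del c w (-x) (-η) (-t)`, so `Del c w = 0` identically. For fixed `t`,
`u y = w (y,t) - w (0,t)` satisfies `u ((1-c) • z₁ + c • z₂) = (1-c) u z₁ + c u z₂`; `z₁ = 0`,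
`z₂ = 0` give homogeneity under `c` and `1-c`, hence additivity; continuity gives linearity
(`AddMonoidHom.toRealLinearMap`), Riesz: `w (y,t) = a t + ⟪q t, y⟫`.
Then `Tp s w (y,t) = a (t+s) + ⟪q (t+s), y⟫ + s ‖q (t+s)‖²/2` is convex in `s > 0` for every `y`
(`convex_Tp`); scaling `y → ± N y`, `N → ∞`, gives `q (m) = (q (m-r) + q (m+r))/2` for all `m` and
`r > 0`. `Cls.fl_one` at `0`, scale `ρ ≥ 1`, frame `(b,h)`: testing `± η`, `‖η‖ = ρ` gives
`‖q σ - b‖ ≤ 2` for `|σ| ≤ ρ`, so `‖q σ - q 0‖ ≤ 4`: `q` is bounded; `k ↦ q (k r)` is an arithmetic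
progression, so `q` is a constant `q₀`. Then `a` is midpoint convex (`second_Tp`) and midpoint
concave (`second_Tm`), continuous, hence affine (same additivity argument on `ℝ`). -/
theorem affine_of_del {c : ℝ} (hc0 : 0 < c) (hc1 : c < 1) (hw : Cls w) (h1 : FLe c 0 w)
    (h2 : FLe c 0 (rev w)) : Affine w := by
  have hE := hw.ent
  have hcont : Continuous w := hE.csq.1
  have hD : ∀ (z₁ z₂ : E) (t : ℝ),
      w ((1 - c) • z₁ + c • z₂, t) = (1 - c) * w (z₁, t) + c * w (z₂, t) := by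
    intro z₁ z₂ t
    have e1 : (1 - c) • z₁ + c • z₂ - c • (z₂ - z₁) = z₁ := by module
    have e2 : (1 - c) • z₁ + c • z₂ + (1 - c) • (z₂ - z₁) = z₂ := by module
    have e3 : -((1 - c) • z₁ + c • z₂) - c • (-(z₂ - z₁)) = -z₁ := by module
    have e4 : -((1 - c) • z₁ + c • z₂) + (1 - c) • (-(z₂ - z₁)) = -z₂ := by module
    have a1 := h1 ((1 - c) • z₁ + c • z₂) (z₂ - z₁) t
    have a2 := h2 (-((1 - c) • z₁ + c • z₂)) (-(z₂ - z₁)) (-t)
    unfold Del at a1 a2
    rw [e1, e2] at a1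
    rw [e3, e4] at a2
    simp only [rev_apply, Prod.neg_mk, neg_neg] at a2
    linarith
  have hq : ∀ t : ℝ, ∃ q : E, ∀ y, w (y, t) - w (0, t) = ⟪q, y⟫_ℝ := by
    intro t
    refine aff_jensen hc0 hc1 (u := fun y => w (y, t) - w (0, t)) (by fun_prop) (sub_self _) ?_
    intro z₁ z₂
    rw [hD]
    ring
  choose q hq using hq
  obtain ⟨a, ha⟩ : ∃ a : ℝ → ℝ, a = fun t => w (0, t) := ⟨_, rfl⟩
  have hac : Continuous a := by
    rw [ha]
    fun_prop
  have H : ∀ y t, w (y, t) = a t + ⟪q t, y⟫_ℝ := by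
    intro y t
    rw [← hq, ha]
    ring
  have hP : ∀ (m r : ℝ), 0 < r → ∀ y : E,
      2 * (a m + ⟪q m, y⟫_ℝ + 2 * r * ‖q m‖ ^ 2 / 2) ≤
        a (m + r) + ⟪q (m + r), y⟫_ℝ + (2 * r + r) * ‖q (m + r)‖ ^ 2 / 2 +
        (a (m - r) + ⟪q (m - r), y⟫_ℝ + (2 * r - r) * ‖q (m - r)‖ ^ 2 / 2) := by
    intro m r hr y
    have := hE.second_Tp (δ := 2 * r) (τ := r) hr (by linarith) (y, m - 2 * r)
    rw [aff_Tp hE.2 H (by linarith), aff_Tp hE.2 H (by linarith), aff_Tp hE.2 H (by linarith),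
      show m - 2 * r + 2 * r = m by ring, show m - 2 * r + (2 * r + r) = m + r by ring,
      show m - 2 * r + (2 * r - r) = m - r by ring] at this
    exact this
  have hM : ∀ (m r : ℝ), 0 < r → ∀ y : E,
      a (m - r) + ⟪q (m - r), y⟫_ℝ - (2 * r + r) * ‖q (m - r)‖ ^ 2 / 2 +
        (a (m + r) + ⟪q (m + r), y⟫_ℝ - (2 * r - r) * ‖q (m + r)‖ ^ 2 / 2) ≤
      2 * (a m + ⟪q m, y⟫_ℝ - 2 * r * ‖q m‖ ^ 2 / 2) := by
    intro m r hr y
    have := hE.second_Tm (δ := 2 * r) (τ := r) hr (by linarith) (y, m + 2 * r)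
    rw [aff_Tm hE.2 H (by linarith), aff_Tm hE.2 H (by linarith), aff_Tm hE.2 H (by linarith),
      show m + 2 * r - 2 * r = m by ring, show m + 2 * r - (2 * r + r) = m - r by ring,
      show m + 2 * r - (2 * r - r) = m + r by ring] at this
    exact this
  have hm0 : ∀ m r : ℝ, 0 < r → q (m + r) - q m = q m - q (m - r) := by
    intro m r hr
    have : (q m - q (m - r)) - (q (m + r) - q m) = 0 := by
      refine aff_zero_of_inner (C := a (m + r) + (2 * r + r) * ‖q (m + r)‖ ^ 2 / 2 +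
        (a (m - r) + (2 * r - r) * ‖q (m - r)‖ ^ 2 / 2) - 2 * (a m + 2 * r * ‖q m‖ ^ 2 / 2))
        fun y => ?_
      have := hP m r hr y
      simp only [inner_sub_left]
      linarith
    exact (sub_eq_zero.1 this).symm
  have hm : ∀ m r : ℝ, q (m + r) - q m = q m - q (m - r) := by
    intro m r
    rcases lt_trichotomy r 0 with hr | rfl | hr
    · have := hm0 m (-r) (by linarith)
      rw [← sub_eq_add_neg, sub_neg_eq_add] at this
      rw [← neg_inj, neg_sub, neg_sub]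
      exact this.symm
    · simp
    · exact hm0 m r hr
  have hb : ∀ σ, ‖q σ - q 0‖ ≤ 4 := by
    intro σ
    obtain ⟨b, h, hC⟩ := hw.fl_one 0 (le_max_left 1 |σ|)
    have hρ : 0 < max 1 |σ| := lt_max_of_lt_left one_pos
    have b1 := aff_frame H hρ hC (le_max_right _ _)
    have b2 := aff_frame H hρ hC (σ := 0) (by rw [abs_zero]; exact hρ.le)
    have b3 := norm_sub_le (q σ - b) (q 0 - b)
    rw [sub_sub_sub_cancel_right] at b3
    linarith
  have hqc : ∀ t, q t = q 0 := aff_const hm hb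
  have ha0 : ∀ m r : ℝ, 0 < r → a (m + r) + a (m - r) = 2 * a m := by
    intro m r hr
    have p1 := hP m r hr 0
    have p2 := hM m r hr 0
    rw [hqc m, hqc (m + r), hqc (m - r)] at p1 p2
    simp only [inner_zero_right] at p1 p2
    linarith
  have ha1 : ∀ m r : ℝ, a (m + r) + a (m - r) = 2 * a m := by
    intro m r
    rcases lt_trichotomy r 0 with hr | rfl | hr
    · have := ha0 m (-r) (by linarith)
      rw [← sub_eq_add_neg, sub_neg_eq_add] at this
      linarith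
    · rw [add_zero, sub_zero]
      ring
    · exact ha0 m r hr
  obtain ⟨r, hr⟩ := aff_jensen (F := ℝ) (c := 1 / 2) (by norm_num) (by norm_num)
    (u := fun t => a t - a 0) (by fun_prop) (sub_self _) (by
      intro z₁ z₂
      have := ha1 ((z₁ + z₂) / 2) ((z₂ - z₁) / 2)
      rw [show (z₁ + z₂) / 2 + (z₂ - z₁) / 2 = z₂ by ring,
        show (z₁ + z₂) / 2 - (z₂ - z₁) / 2 = z₁ by ring] at this
      rw [show (1 - 1 / 2 : ℝ) • z₁ + (1 / 2 : ℝ) • z₂ = (z₁ + z₂) / 2 by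
        simp only [smul_eq_mul]; ring]
      linarith)
  refine ⟨q 0, r, a 0, fun X => ?_⟩
  have h3 := hr X.2
  have h4 := H X.1 X.2
  rw [hqc] at h4
  simp only [RCLike.inner_apply, conj_trivial] at h3
  rw [show w X = w (X.1, X.2) from rfl, h4]
  linarith

end R94
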