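import Crest.Agent.R94.Engine

/-!
# R94/EngineC: the engine in configuration coordinates, with the barrier `κ' ‖η‖`
-/

set_option autoImplicit false
set_option linter.unusedSectionVars false
set_option linter.unusedVariables false

open Set Filter Topology Metric
open scoped InnerProductSpace

namespace R94

variable {E : Type} [NormedAddCommGroup E] [InnerProductSpace ℝ E] [FiniteDimensional ℝ E]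

variable {w : E × ℝ → ℝ}

theorem engineC_sq (x y : E) : ‖x - y‖ ^ 2 ≤ 2 * ‖x‖ ^ 2 + 2 * ‖y‖ ^ 2 := by
  have := flow0_sq x (-y)
  rwa [norm_neg, ← sub_eq_add_neg] at this

theorem engineC_smul (a : ℝ) (x : E) : ‖a • x‖ ^ 2 = a ^ 2 * ‖x‖ ^ 2 := by
  rw [norm_smul, mul_pow, Real.norm_eq_abs, sq_abs]

theorem engineC_perp {η : E} (hη : η ≠ 0) (u : E) :
    ‖u - (⟪η, u⟫_ℝ / ‖η‖ ^ 2) • η‖ ^ 2 ≤ ‖u‖ ^ 2 := by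
  have hN : 0 < ‖η‖ := norm_pos_iff.2 hη
  have h2 : ‖u - (⟪η, u⟫_ℝ / ‖η‖ ^ 2) • η‖ ^ 2 = ‖u‖ ^ 2 - (⟪η, u⟫_ℝ / ‖η‖) ^ 2 := by
    rw [norm_sub_sq_real, inner_smul_right, norm_smul, mul_pow, Real.norm_eq_abs, sq_abs,
      real_inner_comm η u]
    field_simp
    ring
  rw [h2]
  linarith [sq_nonneg (⟪η, u⟫_ℝ / ‖η‖)]

theorem engineC_perp' {η : E} (hη : η ≠ 0) (σ : ℝ) (d f : E) :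
    ‖(σ • d + f) - (⟪η, σ • d + f⟫_ℝ / ‖η‖ ^ 2) • η‖ ^ 2 ≤
      2 * (σ ^ 2 * ‖d - (⟪η, d⟫_ℝ / ‖η‖ ^ 2) • η‖ ^ 2) + 2 * ‖f‖ ^ 2 := by
  have e : (σ • d + f) - (⟪η, σ • d + f⟫_ℝ / ‖η‖ ^ 2) • η =
      σ • (d - (⟪η, d⟫_ℝ / ‖η‖ ^ 2) • η) + (f - (⟪η, f⟫_ℝ / ‖η‖ ^ 2) • η) := by
    rw [inner_add_right, inner_smul_right]
    match_scalars <;> ring
  rw [e]
  have h1 := flow0_sq (σ • (d - (⟪η, d⟫_ℝ / ‖η‖ ^ 2) • η)) (f - (⟪η, f⟫_ℝ / ‖η‖ ^ 2) • η)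
  rw [engineC_smul] at h1
  linarith [engineC_perp hη f]

theorem engineC_half {δ : ℝ} (hδ : 0 < δ) (p m : E) :
    ‖m - (δ / 2) • p‖ ^ 2 / δ = ‖m‖ ^ 2 / δ - ⟪p, m⟫_ℝ + δ / 4 * ‖p‖ ^ 2 := by
  rw [norm_sub_sq_real, inner_smul_right, engineC_smul, real_inner_comm p m]
  field_simp
  ring

/-- all quadratic error terms. -/
theorem engineC_quad {δ κ' : ℝ} (hδ : 0 < δ) (hκ : 0 ≤ κ') {η : E} (hη : η ≠ 0) (c A σ : ℝ)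
    (v₁ v₂ p H₁ H₂ H₀ : E) :
    A * (‖((1 - c) • H₁ + c • H₂) - σ • ((1 - c) • v₁ + c • v₂)‖ ^ 2 +
          ‖(H₂ - H₁) - σ • (v₂ - v₁)‖ ^ 2) +
        κ' * (‖(H₂ - H₁) - (⟪η, H₂ - H₁⟫_ℝ / ‖η‖ ^ 2) • η‖ ^ 2 / ‖η‖) +
        ‖H₀ - ((1 - c) • H₁ + c • H₂)‖ ^ 2 / δ ≤
      (|A| * (2 * (1 - c) ^ 2 + 2 * c ^ 2 + 2) + 4 * κ' / ‖η‖ +
          (4 + 4 * (2 * (1 - c) ^ 2 + 2 * c ^ 2)) / δ) *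
          (‖H₁ - σ • v₁‖ ^ 2 + ‖H₂ - σ • v₂‖ ^ 2 + ‖H₀ - σ • p‖ ^ 2) +
        (2 * κ' * ‖(v₂ - v₁) - (⟪η, v₂ - v₁⟫_ℝ / ‖η‖ ^ 2) • η‖ ^ 2 / ‖η‖ +
          2 * ‖(1 - c) • v₁ + c • v₂ - p‖ ^ 2 / δ) * σ ^ 2 := by
  have hN : 0 < ‖η‖ := norm_pos_iff.2 hη
  obtain ⟨e₁, rfl⟩ : ∃ e₁, H₁ = σ • v₁ + e₁ := ⟨H₁ - σ • v₁, by abel⟩
  obtain ⟨e₂, rfl⟩ : ∃ e₂, H₂ = σ • v₂ + e₂ := ⟨H₂ - σ • v₂, by abel⟩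
  obtain ⟨e₀, rfl⟩ : ∃ e₀, H₀ = σ • p + e₀ := ⟨H₀ - σ • p, by abel⟩
  have r1 : ((1 - c) • (σ • v₁ + e₁) + c • (σ • v₂ + e₂)) - σ • ((1 - c) • v₁ + c • v₂) =
      (1 - c) • e₁ + c • e₂ := by module
  have r2 : (σ • v₂ + e₂) - (σ • v₁ + e₁) = σ • (v₂ - v₁) + (e₂ - e₁) := by module
  have r3 : (σ • p + e₀) - ((1 - c) • (σ • v₁ + e₁) + c • (σ • v₂ + e₂)) =
      (e₀ - ((1 - c) • e₁ + c • e₂)) - σ • ((1 - c) • v₁ + c • v₂ - p) := by module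
  rw [r1, r2, r3]
  simp only [add_sub_cancel_left]
  have q1 := flow0_sq ((1 - c) • e₁) (c • e₂)
  rw [engineC_smul, engineC_smul] at q1
  have q2 := engineC_sq e₂ e₁
  have q3 := engineC_perp' hη σ (v₂ - v₁) (e₂ - e₁)
  have q4 := engineC_sq (e₀ - ((1 - c) • e₁ + c • e₂)) (σ • ((1 - c) • v₁ + c • v₂ - p))
  rw [engineC_smul] at q4
  have q5 := engineC_sq e₀ ((1 - c) • e₁ + c • e₂)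
  have n₁ := sq_nonneg ‖e₁‖
  have n₂ := sq_nonneg ‖e₂‖
  have n₀ := sq_nonneg ‖e₀‖
  have n₃ := sq_nonneg ‖(1 - c) • e₁ + c • e₂‖
  have n₄ := sq_nonneg ‖e₂ - e₁‖
  generalize ‖e₁‖ ^ 2 = N₁ at *
  generalize ‖e₂‖ ^ 2 = N₂ at *
  generalize ‖e₀‖ ^ 2 = N₀ at *
  generalize ‖(1 - c) • e₁ + c • e₂‖ ^ 2 = N₃ at *
  generalize ‖e₂ - e₁‖ ^ 2 = N₄ at *
  generalize ‖(σ • (v₂ - v₁) + (e₂ - e₁)) - (⟪η, σ • (v₂ - v₁) + (e₂ - e₁)⟫_ℝ / ‖η‖ ^ 2) • η‖ ^ 2 =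
    N₅ at *
  generalize ‖(v₂ - v₁) - (⟪η, v₂ - v₁⟫_ℝ / ‖η‖ ^ 2) • η‖ ^ 2 = P₁ at *
  generalize ‖(e₀ - ((1 - c) • e₁ + c • e₂)) - σ • ((1 - c) • v₁ + c • v₂ - p)‖ ^ 2 = N₆ at *
  generalize ‖e₀ - ((1 - c) • e₁ + c • e₂)‖ ^ 2 = N₇ at *
  generalize ‖(1 - c) • v₁ + c • v₂ - p‖ ^ 2 = P₂ at *
  have hK : 0 ≤ 2 * (1 - c) ^ 2 + 2 * c ^ 2 := by positivity
  have s1 : N₃ ≤ (2 * (1 - c) ^ 2 + 2 * c ^ 2) * (N₁ + N₂ + N₀) := by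
    nlinarith [mul_nonneg (sq_nonneg (1 - c)) n₂, mul_nonneg (sq_nonneg c) n₁, mul_nonneg hK n₀]
  generalize 2 * (1 - c) ^ 2 + 2 * c ^ 2 = K at *
  have s2 : A * (N₃ + N₄) ≤ |A| * (K + 2) * (N₁ + N₂ + N₀) := by
    rw [mul_assoc]
    exact mul_le_mul (le_abs_self A) (by linarith) (by linarith) (abs_nonneg A)
  have s3 : κ' * (N₅ / ‖η‖) ≤ 4 * κ' / ‖η‖ * (N₁ + N₂ + N₀) + 2 * κ' * P₁ / ‖η‖ * σ ^ 2 := by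
    have : κ' / ‖η‖ * N₅ ≤ κ' / ‖η‖ * (4 * (N₁ + N₂ + N₀) + 2 * (σ ^ 2 * P₁)) :=
      mul_le_mul_of_nonneg_left (by linarith) (by positivity)
    calc κ' * (N₅ / ‖η‖) = κ' / ‖η‖ * N₅ := by ring
      _ ≤ _ := this
      _ = _ := by ring
  have s4 : N₆ / δ ≤ (4 + 4 * K) / δ * (N₁ + N₂ + N₀) + 2 * P₂ / δ * σ ^ 2 := by
    have : N₆ / δ ≤ ((4 + 4 * K) * (N₁ + N₂ + N₀) + 2 * (σ ^ 2 * P₂)) / δ :=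
      div_le_div_of_nonneg_right (by linarith) hδ.le
    calc N₆ / δ ≤ _ := this
      _ = _ := by ring
  linarith

/-- Apply `engine3` with `X₁ = (x - c • η, t)`, `X₂ = (x + (1-c) • η, t)`, `δ' = δ/2`,
`X₀ = (x + y₀ - (δ/2) • p, t - δ/2)`. For displacements `(H₁, H₂, H₀, σ)` put
`ξ = (1-c) • H₁ + c • H₂`, `u = H₂ - H₁` (so `z₁ + H₁ = (x + ξ) - c • (η + u)` etc.). By
`Tm_half_le` and `IsVel`, with `m = H₀ - ξ`: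
`-Tm (δ/2) w (X₀ + (H₀,σ)) ≤ -Tm δ w (x + ξ + y₀, t + σ) + (δ/4)‖p‖² - ⟪p, m⟫ + ‖m‖²/δ`.
Wlog `A ≥ 0`. With `v̄ = (1-c) • v₁ + c • v₂`, `d = v₂ - v₁`, `eᵢ = Hᵢ - σ • vᵢ`:
`m = (H₀ - σ • p) - (1-c) • e₁ - c • e₂ + σ • (p - v̄)`, so `‖m‖²/δ ≤ 2σ²‖v̄ - p‖²/δ + A'(…)`;
`ξ - σ • v̄ = (1-c) • e₁ + c • e₂`; `u - σ • d = e₂ - e₁`; `norm_add_le_expand` with
`‖u⊥‖² ≤ 2σ²‖d⊥‖² + 2‖u - σ • d‖²`. The linear terms are `a₁⟪v₁,H₁⟫ + a₂⟪v₂,H₂⟫ - ⟪p,H₀⟫` by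
`hv₁`, `hv₂`. So `engine3` applies with `D' = D + 2κ'‖d⊥‖²/‖η‖ + 2‖v̄ - p‖²/δ`. -/
theorem engineC (hw : Ent w) {δ : ℝ} (hδ : 0 < δ) (c : ℝ) (x η y₀ : E) (t : ℝ) (hη : η ≠ 0)
    {α₁ γ₁ α₂ γ₂ a₁ a₂ κ' : ℝ} (hγ₁ : 0 ≤ γ₁) (hγ₂ : 0 ≤ γ₂)
    (ha₁ : a₁ = α₁ + γ₁ * Tp δ w (x - c • η, t))
    (ha₂ : a₂ = α₂ + γ₂ * Tp δ w (x + (1 - c) • η, t)) (hp₁ : 0 < a₁) (hp₂ : 0 < a₂)
    (hκ : 0 ≤ κ') {p : E} (hp : IsVel δ w (x + y₀, t) p) (gx gη v₁ v₂ : E)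
    (hv₁ : a₁ • v₁ = (1 - c) • (p + gx) - (κ' / ‖η‖) • η - gη)
    (hv₂ : a₂ • v₂ = c • (p + gx) + (κ' / ‖η‖) • η + gη) (r A D : ℝ)
    (hmax : ∀ᶠ Z : E × E × ℝ in 𝓝 0,
      Phi c δ α₁ γ₁ α₂ γ₂ w (x + Z.1) (η + Z.2.1) (t + Z.2.2) y₀ - κ' * ‖η + Z.2.1‖ ≤
        Phi c δ α₁ γ₁ α₂ γ₂ w x η t y₀ - κ' * ‖η‖ + ⟪gx, Z.1⟫_ℝ + ⟪gη, Z.2.1⟫_ℝ + r * Z.2.2 +
          A * (‖Z.1 - Z.2.2 • ((1 - c) • v₁ + c • v₂)‖ ^ 2 + ‖Z.2.1 - Z.2.2 • (v₂ - v₁)‖ ^ 2) +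
          D * Z.2.2 ^ 2) :
    ∃ k₁ k₂ : ℝ, Sp δ w (x - c • η, t) ≤ k₁ ∧
      k₁ ≤ (Tp (2 * δ) w (x - c • η, t) - Tp δ w (x - c • η, t)) / δ ∧
      Sp δ w (x + (1 - c) • η, t) ≤ k₂ ∧
      k₂ ≤ (Tp (2 * δ) w (x + (1 - c) • η, t) - Tp δ w (x + (1 - c) • η, t)) / δ ∧
      γ₁ * (k₁ + ‖v₁‖ ^ 2 / 2) ^ 2 + γ₂ * (k₂ + ‖v₂‖ ^ 2 / 2) ^ 2 ≤
        4 * D + 8 * κ' * ‖(v₂ - v₁) - (⟪η, v₂ - v₁⟫_ℝ / ‖η‖ ^ 2) • η‖ ^ 2 / ‖η‖ +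
          8 * ‖(1 - c) • v₁ + c • v₂ - p‖ ^ 2 / δ := by
  have hN : 0 < ‖η‖ := norm_pos_iff.2 hη
  have hc : Continuous fun Z : E × E × E × ℝ =>
      (((1 - c) • Z.1 + c • Z.2.1, Z.2.1 - Z.1, Z.2.2.2) : E × E × ℝ) := by fun_prop
  have ht := hc.tendsto' 0 0 (by simp)
  have hc2 : Continuous fun Z : E × E × E × ℝ => ‖Z.2.1 - Z.1‖ := by fun_prop
  have hu := (hc2.tendsto' 0 0 (by simp)).eventually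
    (eventually_le_nhds (show (0 : ℝ) < ‖η‖ / 2 by positivity))
  obtain ⟨k₁, k₂, h1, h2, h3, h4, h5⟩ := engine3 hw hδ (show 0 < δ / 2 by positivity)
    (x - c • η, t) (x + (1 - c) • η, t) (x + y₀ - (δ / 2) • p, t - δ / 2) hγ₁ hγ₂ ha₁ ha₂ hp₁ hp₂
    v₁ v₂ p r (|A| * (2 * (1 - c) ^ 2 + 2 * c ^ 2 + 2) + 4 * κ' / ‖η‖ +
      (4 + 4 * (2 * (1 - c) ^ 2 + 2 * c ^ 2)) / δ)
    (D + (2 * κ' * ‖(v₂ - v₁) - (⟪η, v₂ - v₁⟫_ℝ / ‖η‖ ^ 2) • η‖ ^ 2 / ‖η‖ +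
      2 * ‖(1 - c) • v₁ + c • v₂ - p‖ ^ 2 / δ)) (by
    filter_upwards [ht.eventually hmax, hu] with Z hZ hZu
    obtain ⟨H₁, H₂, H₀, σ⟩ := Z
    simp only [Phi] at hZ hZu ⊢
    have r1 : x + ((1 - c) • H₁ + c • H₂) - c • (η + (H₂ - H₁)) = x - c • η + H₁ := by module
    have r2 : x + ((1 - c) • H₁ + c • H₂) + (1 - c) • (η + (H₂ - H₁)) = x + (1 - c) • η + H₂ := by
      module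
    rw [r1, r2] at hZ
    have f1 := hw.csq.Tm_half_le hδ (x + ((1 - c) • H₁ + c • H₂) + y₀)
      (x + y₀ - (δ / 2) • p + H₀) (t + σ)
    have r3 : x + y₀ - (δ / 2) • p + H₀ - (x + ((1 - c) • H₁ + c • H₂) + y₀) =
        (H₀ - ((1 - c) • H₁ + c • H₂)) - (δ / 2) • p := by module
    have r4 : t + σ - δ / 2 = t - δ / 2 + σ := by ring
    rw [r3, r4, engineC_half hδ] at f1
    have f2 : Tm δ w (x + y₀, t) =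
        Tm (δ / 2) w (x + y₀ - (δ / 2) • p, t - δ / 2) + δ / 4 * ‖p‖ ^ 2 := hp
    have f3 := mul_le_mul_of_nonneg_left (norm_add_le_expand hη hZu) hκ
    have f4 := engineC_quad hδ hκ hη c A σ v₁ v₂ p H₁ H₂ H₀
    have l1 : a₁ * ⟪v₁, H₁⟫_ℝ = (1 - c) * (⟪p, H₁⟫_ℝ + ⟪gx, H₁⟫_ℝ) - κ' / ‖η‖ * ⟪η, H₁⟫_ℝ -
        ⟪gη, H₁⟫_ℝ := by
      rw [← real_inner_smul_left, hv₁]
      simp only [inner_sub_left, inner_add_left, real_inner_smul_left]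
    have l2 : a₂ * ⟪v₂, H₂⟫_ℝ = c * (⟪p, H₂⟫_ℝ + ⟪gx, H₂⟫_ℝ) + κ' / ‖η‖ * ⟪η, H₂⟫_ℝ +
        ⟪gη, H₂⟫_ℝ := by
      rw [← real_inner_smul_left, hv₂]
      simp only [inner_add_left, real_inner_smul_left]
    have l3 : ⟪gx, (1 - c) • H₁ + c • H₂⟫_ℝ = (1 - c) * ⟪gx, H₁⟫_ℝ + c * ⟪gx, H₂⟫_ℝ := by
      simp only [inner_add_right, real_inner_smul_right]
    have l4 : ⟪gη, H₂ - H₁⟫_ℝ = ⟪gη, H₂⟫_ℝ - ⟪gη, H₁⟫_ℝ := inner_sub_right _ _ _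
    have l5 : ⟪p, H₀ - ((1 - c) • H₁ + c • H₂)⟫_ℝ =
        ⟪p, H₀⟫_ℝ - ((1 - c) * ⟪p, H₁⟫_ℝ + c * ⟪p, H₂⟫_ℝ) := by
      simp only [inner_sub_right, inner_add_right, real_inner_smul_right]
    have l6 : κ' * (⟪η, H₂ - H₁⟫_ℝ / ‖η‖) = κ' / ‖η‖ * ⟪η, H₂⟫_ℝ - κ' / ‖η‖ * ⟪η, H₁⟫_ℝ := by
      rw [inner_sub_right]
      ring
    rw [mul_add, mul_add, l6] at f3
    rw [l3, l4] at hZ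
    rw [l5] at f1
    rw [l1, l2, add_mul D]
    linarith)
  refine ⟨k₁, k₂, h1, h2, h3, h4, h5.trans (le_of_eq ?_)⟩
  ring

end R94
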