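import Crest.Agent.R94.Grow
import Crest.Agent.R94.EngineC

/-!
# R94/B1: the ratio `Del / ‖η‖` can only grow with the scale
-/

set_option autoImplicit false
set_option linter.unusedSectionVars false
set_option linter.unusedVariables false

open Set Filter Topology Metric
open scoped InnerProductSpace

namespace R94

variable {E : Type} [NormedAddCommGroup E] [InnerProductSpace ℝ E] [FiniteDimensional ℝ E]

/-- upper bound for `Reg` at flow time `θ²` -/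
theorem b1_up (Λ : ℝ) : ∃ C : ℝ, 0 < C ∧ ∀ w : E × ℝ → ℝ, Cls w → Nrm Λ w → ∀ c R θ : ℝ, 0 ≤ c →
    c ≤ 1 → 0 < θ → θ ≤ 1 / 2 → 8 * C * θ ≤ 1 → ∀ (x η : E) (t : ℝ), ‖η‖ ≤ R →
      Reg c (θ ^ 2) w x η t 0 ≤
        Del c w x η t + θ * (2 * C * (1 + 2 * (R + 1) ^ 2)) + θ ^ 4 * (‖x‖ ^ 2 + t ^ 2) / 2 := by
  obtain ⟨C, hC, H⟩ := grow_flow (E := E) Λ
  refine ⟨C, hC, fun w hw hN c R θ hc0 hc1 hθ hθ1 hθ2 x η t hη => ?_⟩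
  have hη0 := norm_nonneg η
  have hc' : 0 ≤ 1 - c := by linarith
  obtain ⟨N, hN0, hN1, hN2, hN3⟩ : ∃ N : ℝ, 0 ≤ N ∧ ‖x‖ ≤ N ∧ |t| ≤ N ∧ N ^ 2 ≤ ‖x‖ ^ 2 + t ^ 2 := by
    refine ⟨max ‖x‖ |t|, le_max_of_le_left (norm_nonneg _), le_max_left _ _, le_max_right _ _, ?_⟩
    rcases le_total ‖x‖ |t| with h | h
    · rw [max_eq_right h, sq_abs]; linarith [sq_nonneg ‖x‖]
    · rw [max_eq_left h]; linarith [sq_nonneg t]
  have hb : ∀ z : E, ‖z‖ ≤ N + R →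
      Sp (θ ^ 2) w (z, t) ≤ C * √(R + 1 + N) ∧ Sm (θ ^ 2) w (z, t) ≤ C * √(R + 1 + N) := by
    intro z hz
    have := H w hw hN (z, t) (R + 1 + N) (by linarith) (by
      rw [Prod.norm_mk, max_le_iff]
      exact ⟨by linarith, hN2.trans (by linarith)⟩) (θ ^ 2) (by positivity) (by nlinarith)
    exact ⟨this.1, this.2.1⟩
  have b1 := (hb (x - c • η) ((norm_sub_le _ _).trans (by
    rw [norm_smul, Real.norm_of_nonneg hc0]; nlinarith))).1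
  have b2 := (hb (x + (1 - c) • η) ((norm_add_le _ _).trans (by
    rw [norm_smul, Real.norm_of_nonneg hc']; nlinarith))).1
  have b3 := (hb x (by linarith)).2
  rw [Reg_eq (by positivity)]
  have c1 := mul_le_mul_of_nonneg_left b1 hc'
  have c2 := mul_le_mul_of_nonneg_left b2 hc0
  have c3 : (1 - c) * Sp (θ ^ 2) w (x - c • η, t) + c * Sp (θ ^ 2) w (x + (1 - c) • η, t) +
      Sm (θ ^ 2) w (x, t) ≤ 2 * C * √(R + 1 + N) := by linarith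
  have c4 := mul_le_mul_of_nonneg_left c3 (sq_nonneg θ)
  have hs0 := Real.sqrt_nonneg (R + 1 + N)
  have hs := Real.sq_sqrt (show 0 ≤ R + 1 + N by linarith)
  generalize √(R + 1 + N) = y at *
  have d1 : θ * y ≤ 1 + (θ * y) ^ 4 := by
    generalize θ * y = u
    nlinarith [sq_nonneg (u ^ 2 - 1 / 2), sq_nonneg (u - 1 / 2)]
  have d2 : (θ * y) ^ 4 ≤ 2 * (R + 1) ^ 2 + 2 * θ ^ 4 * (‖x‖ ^ 2 + t ^ 2) := by
    have e : (θ * y) ^ 4 = θ ^ 4 * (R + 1 + N) ^ 2 := by rw [← hs]; ring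
    have a1 : (R + 1 + N) ^ 2 ≤ 2 * (R + 1) ^ 2 + 2 * (‖x‖ ^ 2 + t ^ 2) := by
      nlinarith [sq_nonneg (R + 1 - N)]
    have a2 : θ ^ 4 ≤ 1 := pow_le_one₀ hθ.le (by linarith)
    have a3 := mul_le_mul_of_nonneg_left a1 (show 0 ≤ θ ^ 4 by positivity)
    have a4 := mul_le_mul_of_nonneg_right a2 (show 0 ≤ 2 * (R + 1) ^ 2 by positivity)
    rw [e]; linarith
  have d3 := mul_le_mul_of_nonneg_left (d1.trans (add_le_add_right d2 1))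
    (show 0 ≤ 2 * C * θ by positivity)
  have d4 := mul_le_mul_of_nonneg_right hθ2
    (show 0 ≤ θ ^ 4 * (‖x‖ ^ 2 + t ^ 2) / 2 by positivity)
  linarith

/-- bound for optimal velocities -/
theorem b1_vel (Λ : ℝ) : ∃ C : ℝ, 0 < C ∧ ∀ w : E × ℝ → ℝ, Cls w → Nrm Λ w → ∀ δ : ℝ, 0 < δ →
    δ ≤ 1 / 8 → ∀ (X : E × ℝ) (p : E), IsVel δ w X p → ‖p‖ ^ 2 ≤ 45 / δ + C * (1 + ‖X‖) := by
  obtain ⟨C, hC, H⟩ := grow_frame (E := E) Λ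
  refine ⟨3 * C, by positivity, fun w hw hN δ hδ hδ1 X p hp => ?_⟩
  have h8 : 0 < 8 * δ := by positivity
  obtain ⟨b', h', H'⟩ := hw.2 X (8 * δ) h8
  obtain ⟨b, h, H1⟩ := hw.fl_one X (le_refl (1 : ℝ))
  have hl : max 1 ((8 * δ) ^ (-(7 / 8) : ℝ)) ≤ 1 / (8 * δ) := by
    refine max_le (by rw [le_div_iff₀ h8]; linarith) ?_
    rw [one_div, ← Real.rpow_neg_one]
    exact Real.rpow_le_rpow_of_exponent_ge h8 (by linarith) (by norm_num)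
  have H2 := H'.mono_lam h8 hl
  have a1 := hp.norm_sub_sq_le hw.ent.csq hδ H2
  have a2 := (H2.compare_univ H1 h8 le_rfl (by linarith) (D := 2) two_pos (by
    rw [one_div_mul_cancel h8.ne']; norm_num)).1
  have hX := norm_nonneg X
  have a3 := (H w hw hN X (1 + ‖X‖) (by linarith) (by linarith) b h H1).1
  have a4 : √(1 + ‖X‖) ≤ 1 + ‖X‖ := Real.sqrt_le_iff.2 ⟨by linarith, by nlinarith⟩
  have a5 := mul_le_mul_of_nonneg_left a4 hC.le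
  have a6 : ‖p‖ ≤ ‖p - b'‖ + ‖b' - b‖ + ‖b‖ := by
    have := norm_add₃_le (a := p - b') (b := b' - b) (c := b)
    simpa using this
  have a7 : ‖p‖ ^ 2 ≤ 3 * (‖p - b'‖ ^ 2 + ‖b' - b‖ ^ 2 + ‖b‖ ^ 2) := by
    refine (pow_le_pow_left₀ (norm_nonneg _) a6 2).trans ?_
    nlinarith [sq_nonneg (‖p - b'‖ - ‖b' - b‖), sq_nonneg (‖p - b'‖ - ‖b‖),
      sq_nonneg (‖b' - b‖ - ‖b‖)]
  have a8 : 3 * (100 * (1 / (8 * δ)) + 9 * 2 / (8 * δ)) ≤ 45 / δ := by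
    have : 45 / δ - 3 * (100 * (1 / (8 * δ)) + 9 * 2 / (8 * δ)) = 3 / (4 * δ) := by
      field_simp; ring
    have h2 : 0 ≤ 3 / (4 * δ) := by positivity
    linarith
  linarith

theorem b1_sq (a b : E) : ‖a‖ ^ 2 ≤ 2 * ‖a - b‖ ^ 2 + 2 * ‖b‖ ^ 2 := by
  have h : ‖a‖ ≤ ‖a - b‖ + ‖b‖ := by simpa using norm_add_le (a - b) b
  refine (pow_le_pow_left₀ (norm_nonneg _) h 2).trans ?_
  nlinarith [sq_nonneg (‖a - b‖ - ‖b‖)]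

/-- the maximum principle at an interior maximum -/
theorem b1_engine {w : E × ℝ → ℝ} (hw : Ent w) {c κ₁ δ B β t : ℝ} {x η p : E} (hc0 : 0 < c)
    (hc1 : c < 1) (hκ : 0 ≤ κ₁) (hδ : 0 < δ) (hB : 0 ≤ B) (hβ : 0 ≤ β) (hη : η ≠ 0)
    (hBη : 2 * B * ‖η‖ ≤ κ₁) (hp : IsVel δ w (x + 0, t) p)
    (hmax : IsLocalMax (fun Y : E × E × ℝ => Reg c δ w Y.1 Y.2.1 Y.2.2 0 - κ₁ * ‖Y.2.1‖ +
      B * ‖Y.2.1‖ ^ 2 - β * (‖Y.1‖ ^ 2 + Y.2.2 ^ 2)) (x, η, t)) :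
    B * (κ₁ - 2 * B * ‖η‖) ^ 2 ≤ 4 * β * ‖p + (2 * β) • x‖ ^ 2 + 2 * β + 16 * β ^ 2 * ‖x‖ ^ 2 / δ := by
  have hc' : 0 < 1 - c := by linarith
  have hη0 : 0 < ‖η‖ := norm_pos_iff.2 hη
  obtain ⟨l, hl⟩ : ∃ l, l = κ₁ / ‖η‖ - 2 * B := ⟨_, rfl⟩
  obtain ⟨v, hv⟩ : ∃ v, v = p + (2 * β) • x := ⟨_, rfl⟩
  obtain ⟨d, hd⟩ : ∃ d, d = (l / (c * (1 - c))) • η := ⟨_, rfl⟩
  have e1 : (1 - c) • (v - (l / (1 - c)) • η) + c • (v + (l / c) • η) = v := by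
    rw [smul_sub, smul_add, smul_smul, smul_smul, mul_div_cancel₀ _ hc'.ne',
      mul_div_cancel₀ _ hc0.ne']
    module
  have e2 : (v + (l / c) • η) - (v - (l / (1 - c)) • η) = d := by
    rw [hd, show l / (c * (1 - c)) = l / c + l / (1 - c) by field_simp; ring]
    module
  have hT : Tendsto (fun Z : E × E × ℝ => ((x + Z.1, η + Z.2.1, t + Z.2.2) : E × E × ℝ)) (𝓝 0)
      (𝓝 (x, η, t)) := Continuous.tendsto' (by fun_prop) _ _ (by simp)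
  obtain ⟨k₁, k₂, -, -, -, -, H⟩ := engineC hw hδ c x η 0 t hη (α₁ := 1 - c) (γ₁ := 0) (α₂ := c)
    (γ₂ := 0) (a₁ := 1 - c) (a₂ := c) le_rfl le_rfl (by simp) (by simp) hc' hc0 hκ hp
    ((2 * β) • x) (-(2 * B) • η) (v - (l / (1 - c)) • η) (v + (l / c) • η)
    (by
      rw [smul_sub, smul_smul, mul_div_cancel₀ _ hc'.ne', ← hv, hl]
      module)
    (by
      rw [smul_add, smul_smul, mul_div_cancel₀ _ hc0.ne', ← hv, hl]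
      module) (2 * β * t) (B + 2 * β) (-(B * ‖d‖ ^ 2 / 2) + 2 * β * ‖v‖ ^ 2 + β) (by
      filter_upwards [hT.eventually hmax] with Z hZ
      rw [e1, e2]
      simp only [Phi_eq_Reg]
      simp only [norm_add_sq_real] at hZ
      rw [real_inner_smul_left, real_inner_smul_left]
      have a1 := b1_sq Z.1 (Z.2.2 • v)
      have a2 := b1_sq (Z.2.2 • d) Z.2.1
      rw [norm_sub_rev] at a2
      rw [norm_smul, mul_pow, Real.norm_eq_abs, sq_abs] at a1 a2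
      have a3 := mul_le_mul_of_nonneg_left a1 hβ
      have a4 := mul_le_mul_of_nonneg_left a2 hB
      have a5 := mul_nonneg hB (sq_nonneg ‖Z.1 - Z.2.2 • v‖)
      have a6 := mul_nonneg hβ (sq_nonneg ‖Z.2.1 - Z.2.2 • d‖)
      linarith)
  rw [e1, e2] at H
  have e3 : d - (⟪η, d⟫_ℝ / ‖η‖ ^ 2) • η = 0 := by
    rw [hd, real_inner_smul_right, real_inner_self_eq_norm_sq,
      mul_div_cancel_right₀ _ (by positivity), sub_self]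
  have e4 : ‖v - p‖ ^ 2 = 4 * β ^ 2 * ‖x‖ ^ 2 := by
    rw [hv, add_sub_cancel_left, norm_smul, mul_pow, Real.norm_eq_abs, sq_abs]; ring
  have e5 : (κ₁ - 2 * B * ‖η‖) ^ 2 ≤ ‖d‖ ^ 2 := by
    have a1 : l * ‖η‖ = κ₁ - 2 * B * ‖η‖ := by rw [hl]; field_simp
    have a2 : 0 ≤ l := nonneg_of_mul_nonneg_left (by linarith : 0 ≤ l * ‖η‖) hη0
    have a3 : l ≤ l / (c * (1 - c)) := by
      rw [le_div_iff₀ (by positivity)]
      exact mul_le_of_le_one_right a2 (by nlinarith)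
    refine pow_le_pow_left₀ (by linarith) ?_ 2
    rw [hd, norm_smul, Real.norm_of_nonneg (a2.trans a3), ← a1]
    exact mul_le_mul_of_nonneg_right a3 hη0.le
  rw [e3, e4] at H
  rw [← hv]
  have a1 := mul_le_mul_of_nonneg_left e5 hB
  have a2 : 8 * (4 * β ^ 2 * ‖x‖ ^ 2) / δ = 2 * (16 * β ^ 2 * ‖x‖ ^ 2 / δ) := by ring
  simp only [norm_zero, zero_mul, ne_eq, OfNat.ofNat_ne_zero, not_false_eq_true, zero_pow, mul_zero,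
    zero_div, add_zero] at H
  linarith

theorem b1_fin {δ K₂ C₂ P X N : ℝ} (hδ : 0 < δ) (hδ1 : δ ≤ 1) (hK : 0 ≤ K₂) (hC : 0 ≤ C₂)
    (hX : δ ^ 2 * X ≤ K₂) (hX0 : 0 ≤ X) (hN : δ ^ 2 * N ^ 2 ≤ K₂) (hN0 : 0 ≤ N)
    (hP : P ≤ 45 / δ + C₂ * (1 + N)) :
    4 * δ ^ 2 * (2 * P + 8 * δ ^ 4 * X) + 2 * δ ^ 2 + 16 * (δ ^ 2) ^ 2 * X / δ ≤
      δ * (362 + 8 * C₂ * (2 + K₂) + 48 * K₂) := by
  have a1 : δ * N ≤ 1 + K₂ := by nlinarith [sq_nonneg (δ * N - 1)]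
  have a2 : δ * P ≤ 45 + C₂ * (2 + K₂) := by
    have b1 := mul_le_mul_of_nonneg_left hP hδ.le
    have b2 : δ * (45 / δ + C₂ * (1 + N)) = 45 + C₂ * (δ + δ * N) := by field_simp
    have b3 : C₂ * (δ + δ * N) ≤ C₂ * (2 + K₂) := mul_le_mul_of_nonneg_left (by linarith) hC
    linarith
  have a3 : 16 * (δ ^ 2) ^ 2 * X / δ = 16 * (δ * (δ ^ 2 * X)) := by field_simp
  have a4 := mul_le_mul_of_nonneg_left hX hδ.le
  have a5 : δ ^ 3 * (δ ^ 2 * X) ≤ 1 * K₂ :=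
    mul_le_mul (pow_le_one₀ hδ.le hδ1) hX (by positivity) zero_le_one
  have a6 := mul_le_mul_of_nonneg_left a5 hδ.le
  have a7 := mul_le_mul_of_nonneg_left a2 hδ.le
  have a8 := mul_le_mul_of_nonneg_left hδ1 hδ.le
  rw [a3]
  nlinarith

theorem b1_core {w : E × ℝ → ℝ} {c κ₁ R Λ : ℝ} {η₀ : E} (hc0 : 0 < c) (hc1 : c < 1) (hw : Cls w)
    (hN : Nrm Λ w) (hκ : 0 < κ₁) (h0 : κ₁ * ‖η₀‖ < Del c w 0 η₀ 0) (hR : ‖η₀‖ < R)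
    (hD : ∀ (x η : E) (t : ℝ), ‖η‖ = R → Del c w x η t ≤ κ₁ * R) : False := by
  obtain ⟨C₁, hC₁, H₁⟩ := b1_up (E := E) Λ
  obtain ⟨C₂, hC₂, H₂⟩ := b1_vel (E := E) Λ
  have hR0 : 0 < R := (norm_nonneg _).trans_lt hR
  obtain ⟨m, hm⟩ : ∃ m, m = Del c w 0 η₀ 0 - κ₁ * ‖η₀‖ := ⟨_, rfl⟩
  have hm0 : 0 < m := by linarith
  obtain ⟨B, hB0, hB1, hB2⟩ : ∃ B : ℝ, 0 < B ∧ B * R ^ 2 ≤ m / 4 ∧ 2 * B * R ≤ κ₁ / 2 := by
    refine ⟨min (m / 4 / R ^ 2) (κ₁ / 4 / R), by positivity, ?_, ?_⟩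
    · rw [← le_div_iff₀ (by positivity)]; exact min_le_left _ _
    · have := min_le_right (m / 4 / R ^ 2) (κ₁ / 4 / R)
      rw [le_div_iff₀ hR0] at this
      linarith
  obtain ⟨K₁, hK₁⟩ : ∃ K, K = 2 * C₁ * (1 + 2 * (R + 1) ^ 2) := ⟨_, rfl⟩
  obtain ⟨K₂, hK₂⟩ : ∃ K, K = 2 * (1 + R ^ 2 + m / 2) := ⟨_, rfl⟩
  have hK₂0 : 0 < K₂ := by rw [hK₂]; positivity
  obtain ⟨K₃, hK₃⟩ : ∃ K, K = 362 + 8 * C₂ * (2 + K₂) + 48 * K₂ := ⟨_, rfl⟩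
  have hq := hw.ent.csq
  have small : ∀ K a : ℝ, 0 < a → ∀ᶠ θ : ℝ in 𝓝[>] 0, K * θ < a := fun K a ha =>
    ((Continuous.tendsto' (f := fun θ : ℝ => K * θ) (by fun_prop) 0 0 (by simp)).eventually
      (gt_mem_nhds ha)).filter_mono nhdsWithin_le_nhds
  have hsq : Tendsto (fun θ : ℝ => θ ^ 2) (𝓝[>] 0) (𝓝[>] 0) := by
    refine tendsto_nhdsWithin_iff.2 ⟨tendsto_nhdsWithin_of_tendsto_nhds
      (Continuous.tendsto' (by fun_prop) 0 0 (by simp)), ?_⟩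
    filter_upwards [self_mem_nhdsWithin] with θ hθ
    exact pow_pos (show 0 < θ from hθ) 2
  have ev := ((hq.tendsto_Reg_zero c 0 η₀ 0).comp hsq).eventually
    (lt_mem_nhds (show Del c w 0 η₀ 0 - m / 8 < Del c w 0 η₀ 0 by linarith))
  obtain ⟨θ, hθ0, hθ1, hθ2, hθ3, hθ4, hθ5⟩ := ((show ∀ᶠ θ : ℝ in 𝓝[>] 0, 0 < θ from
    self_mem_nhdsWithin).and
    ((small 1 (1 / 4) (by norm_num)).and ((small (8 * C₁) 1 one_pos).and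
    ((small K₁ (m / 4) (by positivity)).and
    ((small K₃ (B * (κ₁ / 2) ^ 2) (by positivity)).and ev))))).exists
  have hθ : 0 < θ := hθ0
  simp only [Function.comp] at hθ5
  have hup := H₁ w hw hN c R θ hc0.le hc1.le hθ (by linarith) hθ2.le
  rw [← hK₁, show θ ^ 4 = (θ ^ 2) ^ 2 by ring] at hup
  have hδ0 : 0 < θ ^ 2 := by positivity
  have hδ1 : θ ^ 2 ≤ 1 / 16 := by nlinarith
  have hδ2 : θ ^ 2 * K₃ < B * (κ₁ / 2) ^ 2 := by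
    have hK₃0 : 0 < K₃ := by rw [hK₃]; positivity
    have : θ * (K₃ * θ) ≤ 1 * (K₃ * θ) := mul_le_mul_of_nonneg_right (by linarith) (by positivity)
    linarith
  generalize θ ^ 2 = δ at *
  obtain ⟨Φ, hΦ⟩ : ∃ Φ : E × E × ℝ → ℝ, Φ = fun Y => Reg c δ w Y.1 Y.2.1 Y.2.2 0 - κ₁ * ‖Y.2.1‖ +
      B * ‖Y.2.1‖ ^ 2 - δ ^ 2 * (‖Y.1‖ ^ 2 + Y.2.2 ^ 2) := ⟨_, rfl⟩
  have hΦc : Continuous Φ := by
    have := hq.continuous_Reg hδ0 c 0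
    rw [hΦ]; fun_prop
  obtain ⟨T, hT0, hT⟩ : ∃ T : ℝ, 0 < T ∧ K₂ < δ ^ 2 * T ^ 2 := by
    refine ⟨(K₂ + 1) / δ, by positivity, ?_⟩
    rw [show δ ^ 2 * ((K₂ + 1) / δ) ^ 2 = (K₂ + 1) ^ 2 by field_simp]
    nlinarith
  have hK : IsCompact (closedBall (0 : E) T ×ˢ closedBall (0 : E) R ×ˢ closedBall (0 : ℝ) T) :=
    (isCompact_closedBall _ _).prod ((isCompact_closedBall _ _).prod (isCompact_closedBall _ _))
  have hmem : (((0 : E), η₀, (0 : ℝ)) : E × E × ℝ) ∈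
      closedBall (0 : E) T ×ˢ closedBall (0 : E) R ×ˢ closedBall (0 : ℝ) T :=
    ⟨mem_closedBall_self hT0.le, mem_closedBall_zero_iff.2 hR.le, mem_closedBall_self hT0.le⟩
  obtain ⟨⟨x, η, t⟩, ⟨-, hη, -⟩, hmax⟩ := hK.exists_isMaxOn ⟨_, hmem⟩ hΦc.continuousOn
  have hη' : ‖η‖ ≤ R := mem_closedBall_zero_iff.1 hη
  have hη0 := norm_nonneg η
  have hlow : 7 * m / 8 ≤ Φ (x, η, t) := by
    refine le_trans ?_ (hmax hmem)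
    simp only [hΦ, norm_zero]
    have := mul_nonneg hB0.le (sq_nonneg ‖η₀‖)
    linarith
  have hBη : B * ‖η‖ ^ 2 ≤ m / 4 :=
    (mul_le_mul_of_nonneg_left (pow_le_pow_left₀ hη0 hη' 2) hB0.le).trans hB1
  have hkey : 3 * m / 8 + δ ^ 2 * (‖x‖ ^ 2 + t ^ 2) / 2 ≤ Del c w x η t - κ₁ * ‖η‖ := by
    have := hup x η t hη'
    simp only [hΦ] at hlow
    linarith
  have hpos : 0 ≤ δ ^ 2 * (‖x‖ ^ 2 + t ^ 2) / 2 := by positivity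
  have hη1 : η ≠ 0 := by
    rintro rfl
    have : Del c w x 0 t = 0 := by simp only [Del, smul_zero, sub_zero, add_zero]; ring
    rw [this, norm_zero] at hkey
    linarith
  have hη2 : ‖η‖ < R := by
    refine lt_of_le_of_ne hη' fun e => ?_
    have := hD x η t e
    rw [e] at hkey
    linarith
  have hxt : δ ^ 2 * (‖x‖ ^ 2 + t ^ 2) ≤ K₂ := by
    obtain ⟨b, h, H1⟩ := hw.fl_one (x, t) (le_refl (1 : ℝ))
    have a1 := (le_abs_self _).trans (H1.abs_del_le one_pos hc0.le hc1.le η)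
    have a2 := pow_le_pow_left₀ hη0 hη' 2
    have a3 := mul_nonneg hκ.le hη0
    rw [hK₂]
    linarith
  have hx2 : δ ^ 2 * ‖x‖ ^ 2 ≤ K₂ := by
    have := mul_nonneg (sq_nonneg δ) (sq_nonneg t)
    linarith
  have ht2 : δ ^ 2 * |t| ^ 2 ≤ K₂ := by
    have := mul_nonneg (sq_nonneg δ) (sq_nonneg ‖x‖)
    rw [sq_abs]
    linarith
  have hlt : ∀ a : ℝ, δ ^ 2 * a ^ 2 ≤ K₂ → a < T := fun a ha =>
    lt_of_pow_lt_pow_left₀ 2 hT0.le (lt_of_mul_lt_mul_left (ha.trans_lt hT) (sq_nonneg δ))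
  have hloc : IsLocalMax Φ (x, η, t) := hmax.isLocalMax (prod_mem_nhds
    (closedBall_mem_nhds_of_mem (mem_ball_zero_iff.2 (hlt _ hx2))) (prod_mem_nhds
    (closedBall_mem_nhds_of_mem (mem_ball_zero_iff.2 hη2))
    (closedBall_mem_nhds_of_mem (mem_ball_zero_iff.2 (hlt _ ht2)))))
  obtain ⟨p, hp⟩ := hq.exists_isVel hδ0 (x + 0, t)
  have hBη2 : 2 * B * ‖η‖ ≤ κ₁ / 2 :=
    (mul_le_mul_of_nonneg_left hη' (by positivity)).trans hB2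
  rw [hΦ] at hloc
  have f1 := b1_engine hw.ent hc0 hc1 hκ.le hδ0 hB0.le (sq_nonneg δ) hη1 (by linarith) hp hloc
  have f2 := H₂ w hw hN δ hδ0 (by linarith) _ p hp
  have f3 : δ ^ 2 * ‖((x + 0, t) : E × ℝ)‖ ^ 2 ≤ K₂ := by
    rw [add_zero, Prod.norm_mk]
    rcases le_total ‖x‖ ‖t‖ with h | h
    · rw [max_eq_right h]; exact ht2
    · rw [max_eq_left h]; exact hx2
  have f4 := b1_fin hδ0 (by linarith) hK₂0.le hC₂.le hx2 (sq_nonneg _) f3 (norm_nonneg _) f2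
  have f5 : ‖p + (2 * δ ^ 2) • x‖ ^ 2 ≤ 2 * ‖p‖ ^ 2 + 8 * δ ^ 4 * ‖x‖ ^ 2 := by
    have := b1_sq (p + (2 * δ ^ 2) • x) ((2 * δ ^ 2) • x)
    rw [add_sub_cancel_right, norm_smul, mul_pow, Real.norm_eq_abs, sq_abs] at this
    linarith
  have f6 := mul_le_mul_of_nonneg_left f5 (show 0 ≤ 4 * δ ^ 2 by positivity)
  have f7 : B * (κ₁ / 2) ^ 2 ≤ B * (κ₁ - 2 * B * ‖η‖) ^ 2 :=
    mul_le_mul_of_nonneg_left (pow_le_pow_left₀ (by positivity) (by linarith) 2) hB0.le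
  rw [← hK₃] at f4
  linarith

/-- Normalise with `Cls.gal` (frame at `(x₀,t₀)`, scale 1; `Del_sym`, `CFw.nrm`): `x₀ = 0`, `t₀ = 0`,
`Nrm 1 w`. Suppose `Del ≤ κ₁ R` whenever `‖η‖ = R`. Let `m = Del (0,η₀,0) - κ₁‖η₀‖ > 0`, choose
`B > 0` with `B R² ≤ m/4`, `2 B R ≤ κ₁/2`, and `0 < s₀ < ‖η₀‖` with `Del ≤ m/8` for `‖η‖ ≤ s₀`
(`abs_del_le` at a small scale `ρ`: `ρ^(1/8) + ‖η‖²/ρ`). For small `δ` put `β = δ²` and maximise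
`Φ = Reg c δ w x η t 0 - κ₁‖η‖ + B‖η‖² - β(‖x‖² + t²)` over `s₀ ≤ ‖η‖ ≤ R`. By `Reg_eq`,
`grow_flow`: `Reg ≤ Del + 2 δ C √R'`, `R' = R + 1 + ‖(x,t)‖`, and `Del ≤ 1 + R²` (scale 1), so the
maximum exists (restrict to a large compact set; `continuous_Reg`); `Φ (0,η₀,0) ≥ 3m/4`
(`tendsto_Reg_zero`); `sup (2δC√R' - δ²‖(x,t)‖²) → 0`, so the maximiser has `s₀ < ‖η‖ < R`, and
`δ²‖(x,t)‖² ≤ C'`. Apply `engineC` (`Phi_eq_Reg`, `a₁ = 1-c`, `a₂ = c`, `κ' = κ₁`, `gx = 2β • x`,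
`gη = -2B • η`, `r = 2βt`): `d = v₂ - v₁ = ((κ₁ - 2B‖η‖)/(c(1-c)‖η‖)) • η` is parallel to `η`,
`‖d‖ ≥ 2κ₁`; `v̄ = p + 2β • x`. Second-order terms: `-B‖u‖² ≤ -B‖d‖²σ²/2 + B‖u - σ • d‖²`,
`β‖ξ‖² ≤ 2β‖v̄‖²σ² + 2β‖ξ - σ • v̄‖²`, so `D = -B‖d‖²/2 + β(2‖v̄‖² + 1)` and
`0 ≤ 4D + 32β²‖x‖²/δ`. Finally `‖p‖² ≤ C''/δ`: `norm_sub_sq_le` (constant `max 1 (8δ)^(-7/8) ≤
1/(8δ)`), `compare_univ` between scales `8δ` and `1` (`D = 2`), `grow_frame` (`√R' ≲ 1/√δ`).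
So `β‖p‖² → 0`, `β²‖x‖²/δ → 0`: contradiction for small `δ`. -/
theorem b1 {w : E × ℝ → ℝ} {c κ₁ R t₀ : ℝ} {x₀ η₀ : E} (hc0 : 0 < c) (hc1 : c < 1) (hw : Cls w)
    (hκ : 0 < κ₁) (h0 : κ₁ * ‖η₀‖ < Del c w x₀ η₀ t₀) (hR : ‖η₀‖ < R) :
    ∃ (x η : E) (t : ℝ), ‖η‖ = R ∧ κ₁ * R < Del c w x η t := by
  by_contra hc
  push Not at hc
  obtain ⟨b, h, H⟩ := hw.fl_one (x₀, t₀) (le_refl (1 : ℝ))
  refine b1_core hc0 hc1 (hw.gal (X₀ := (x₀, t₀)) (b := b) (h := h)) (H.nrm one_pos) hκ ?_ hR ?_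
  · rw [Del_sym]
    simpa [pt] using h0
  · intro x η t hη
    rw [Del_sym]
    simpa using hc _ η _ hη

end R94
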