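import Crest.Agent.R94.B3a

/-!
# R94/B3: the extremal level is `≥ -C (1 + Q²)`, and consequences at the base configuration
-/

set_option autoImplicit false
set_option linter.unusedSectionVars false
set_option linter.unusedVariables false

open Set Filter Topology Metric
open scoped InnerProductSpace

namespace R94

variable {E : Type} [NormedAddCommGroup E] [InnerProductSpace ℝ E] [FiniteDimensional ℝ E]

/-- the maximiser of the last quarter of `Tp (2δ)` is small -/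
theorem b3_opt {Λ : ℝ} : ∃ δ₀ : ℝ, 0 < δ₀ ∧ ∀ (w : E × ℝ → ℝ), Cls w → Nrm Λ w → ∀ δ : ℝ, 0 < δ →
    δ ≤ δ₀ → ∀ (z : E) (t : ℝ), ‖z‖ ≤ 2 → |t| ≤ 1 → ∃ ζ : E, ‖ζ‖ ≤ 1 / 32 ∧
      Tp (3 / 2 * δ) w (z + ζ, t + δ / 2) = Tp (2 * δ) w (z, t) + ‖ζ‖ ^ 2 / δ := by
  obtain ⟨C, hC, H⟩ := grow_flow (E := E) Λ
  refine ⟨min (1 / 4) (1 / (24 * 1024 * C)), by positivity, fun w hw hN δ hδ hδ' z t hz ht => ?_⟩
  rw [le_min_iff] at hδ'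
  obtain ⟨hδ1, hδ2⟩ := hδ'
  rw [le_div_iff₀ (by positivity)] at hδ2
  have hq := hw.ent.csq
  obtain ⟨ζ, hζ⟩ := (hq.flowp (s := 3 / 2 * δ) (by positivity)).exists_Tp (s := δ / 2)
    (by positivity) (z, t)
  rw [← hq.Tp_add (by positivity) (by positivity), show δ / 2 + 3 / 2 * δ = 2 * δ by ring,
    show 2 * (δ / 2) = δ by ring] at hζ
  simp only at hζ
  refine ⟨ζ, ?_, by linarith⟩
  have h0 := norm_nonneg ζ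
  have h1 := (H w hw hN (z, t) 2 (by norm_num)
    (by rw [Prod.norm_mk, max_le_iff]; exact ⟨hz, ht.trans (by norm_num)⟩) (2 * δ) (by positivity)
    (by linarith)).2.2.1
  have h2 := (H w hw hN (z + ζ, t + δ / 2) (2 + ‖ζ‖) (by linarith) (by
    rw [Prod.norm_mk, max_le_iff]
    refine ⟨(norm_add_le _ _).trans (by linarith), (abs_add_le _ _).trans ?_⟩
    rw [abs_of_pos (show 0 < δ / 2 by positivity)]
    linarith) (3 / 2 * δ) (by positivity) (by linarith)).2.2.1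
  have h3 : √2 ≤ (2 : ℝ) := Real.sqrt_le_iff.2 ⟨by norm_num, by norm_num⟩
  have h4 : √(2 + ‖ζ‖) ≤ 2 + ‖ζ‖ := Real.sqrt_le_iff.2 ⟨by linarith, by nlinarith⟩
  have h5 : C * (2 * √2) ≤ C * 4 := mul_le_mul_of_nonneg_left (by linarith) hC.le
  have h6 : C * ((2 + ‖ζ‖) * √(2 + ‖ζ‖)) ≤ C * (8 + 2 * ‖ζ‖ ^ 2) := by
    refine mul_le_mul_of_nonneg_left ?_ hC.le
    have := mul_le_mul_of_nonneg_left h4 (show 0 ≤ 2 + ‖ζ‖ by linarith)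
    nlinarith [sq_nonneg (‖ζ‖ - 2)]
  have h7 : ‖ζ‖ ^ 2 / δ ≤ C * (12 + 2 * ‖ζ‖ ^ 2) := by
    have a1 := neg_abs_le (Tp (2 * δ) w (z, t))
    have a2 := le_abs_self (Tp (3 / 2 * δ) w (z + ζ, t + δ / 2))
    linarith
  rw [div_le_iff₀ hδ] at h7
  have h8 : ‖ζ‖ ^ 2 ≤ (1 / 32) ^ 2 := by
    have a1 : C * δ ≤ 1 / (24 * 1024) := by rw [le_div_iff₀ (by norm_num)]; linarith
    have a2 := mul_le_mul_of_nonneg_right a1 (show 0 ≤ 12 + 2 * ‖ζ‖ ^ 2 by positivity)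
    nlinarith
  exact (pow_le_pow_iff_left₀ h0 (by norm_num) two_ne_zero).1 h8

theorem b3_var (c : ℝ) (a b : E) : (1 - c) * ‖a‖ ^ 2 + c * ‖b‖ ^ 2 =
    ‖(1 - c) • a + c • b‖ ^ 2 + c * (1 - c) * ‖b - a‖ ^ 2 := by
  rw [norm_add_sq_real, norm_sub_sq_real, norm_smul, norm_smul, real_inner_smul_left,
    real_inner_smul_right, real_inner_comm, mul_pow, mul_pow, Real.norm_eq_abs, Real.norm_eq_abs,
    sq_abs, sq_abs]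
  ring

/-- Kinematic shift. Take `(x,η,t)` from `b3a`, and maximisers `ζᵢ` of
`Tp (2δ) = Tp (δ/2) (Tp (3δ/2))` at `zᵢ` (`Tp_add`, `exists_Tp`); `‖ζᵢ‖²/δ ≤ C(2 + ‖ζᵢ‖)^(3/2) + M`
(`grow_flow`), so `‖ζᵢ‖ ≤ 1/32` for small `δ`. `ζ̄ = (1-c) • ζ₁ + c • ζ₂`, `η'' = η + ζ₂ - ζ₁`,
`y₀ = δ • Z₀ = (3δ/2) • ((2/3) • Z₀)`; `Tm (3δ/2) w (x + ζ̄ + y₀, t + δ/2) ≤ Tm δ w (x + y₀, t) +
‖ζ̄‖²/δ` (`Tm_add`, `Tm_le`). So `Reg δ (x,η,t) - κ‖η‖ - Cδ(1+Q²) ≤ Reg (3δ/2) (x+ζ̄, η'', t+δ/2)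
- κ‖η''‖ + δκ²/(4c(1-c))`. Insert the lower bound of `b3a` and `e2` (`δ' = 3δ/2`, `r = 1/4`):
`n/2 ≥ a(‖η‖ - ‖η''‖ + 1/2) - C(1+Q²)`, and the coefficient of `a ≥ -CE` lies in `[1/4, 3/4]`. -/
theorem b3 {c κ Λ CE : ℝ} (hc0 : 0 < c) (hc1 : c < 1) (hκ : 0 < κ) (hCE : 0 ≤ CE) :
    ∃ C δ₀ : ℝ, 0 < C ∧ 0 < δ₀ ∧ ∀ (w : E × ℝ → ℝ) (δ : ℝ) (η₀ Z₀ : E) (n a : ℝ),
      Ext c κ Λ CE w δ η₀ Z₀ n a → δ * (1 + ‖Z₀‖) ≤ δ₀ → -(C * (1 + ‖Z₀‖ ^ 2)) ≤ n := by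
  obtain ⟨C₁, δ₁, hC₁, hδ₁, H₁⟩ := b3a (E := E) (Λ := Λ) hc0 hc1 hκ hCE
  obtain ⟨δ₂, hδ₂, H₂⟩ := b3_opt (E := E) (Λ := Λ)
  have hc' : 0 < 1 - c := by linarith
  obtain ⟨k, hk⟩ : ∃ k, k = κ ^ 2 / (4 * (c * (1 - c))) := ⟨_, rfl⟩
  have hk0 : 0 ≤ k := by rw [hk]; positivity
  refine ⟨2 * (2 * C₁ + k + 6 * CE), min δ₁ (min δ₂ (1 / 4)), by positivity, by positivity,
    fun w δ η₀ Z₀ n a hE hδ => ?_⟩
  simp only [le_min_iff] at hδ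
  obtain ⟨hδa, hδb, hδc⟩ := hδ
  have hδ0 := hE.δpos
  have hQ := norm_nonneg Z₀
  have hδle : δ ≤ δ * (1 + ‖Z₀‖) := by nlinarith
  obtain ⟨x, η, t, hx, ht, hη, hJ, hT1, hT2⟩ := H₁ w δ η₀ Z₀ n a hE hδa
  have hu := hE.unit
  have hηu : ‖η‖ ≤ 9 / 8 := by
    have := norm_sub_norm_le η η₀
    linarith
  have hz1 : ‖x - c • η‖ ≤ 2 := by
    refine (norm_sub_le _ _).trans ?_
    rw [norm_smul, Real.norm_of_nonneg hc0.le]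
    nlinarith [norm_nonneg η]
  have hz2 : ‖x + (1 - c) • η‖ ≤ 2 := by
    refine (norm_add_le _ _).trans ?_
    rw [norm_smul, Real.norm_of_nonneg hc'.le]
    nlinarith [norm_nonneg η]
  have hcl := hE.bmo.cls
  have hq := hcl.ent.csq
  obtain ⟨ζ₁, hζ₁, e₁⟩ := H₂ w hcl hE.nrm δ hδ0 (by linarith) _ t hz1 (by linarith)
  obtain ⟨ζ₂, hζ₂, e₂⟩ := H₂ w hcl hE.nrm δ hδ0 (by linarith) _ t hz2 (by linarith)
  obtain ⟨ζ, hζ⟩ : ∃ ζ, ζ = (1 - c) • ζ₁ + c • ζ₂ := ⟨_, rfl⟩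
  have hζn : ‖ζ‖ ≤ 1 / 32 := by
    rw [hζ]
    refine (norm_add_le _ _).trans ?_
    rw [norm_smul, norm_smul, Real.norm_of_nonneg hc0.le, Real.norm_of_nonneg hc'.le]
    nlinarith
  have hd : ‖ζ₂ - ζ₁‖ ≤ 1 / 16 := (norm_sub_le _ _).trans (by linarith)
  have hη2 : ‖η + (ζ₂ - ζ₁) - η₀‖ ≤ 1 / 4 := by
    rw [show η + (ζ₂ - ζ₁) - η₀ = (η - η₀) + (ζ₂ - ζ₁) by abel]
    exact (norm_add_le _ _).trans (by linarith)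
  have hE2 := hE.e2 (3 / 2 * δ) (Or.inr rfl) (1 / 4) (x + ζ) (η + (ζ₂ - ζ₁)) (t + δ / 2)
    ((2 / 3 : ℝ) • Z₀) le_rfl ((norm_add_le _ _).trans (by linarith))
    ((abs_add_le _ _).trans (by rw [abs_of_pos (show 0 < δ / 2 by positivity)]; linarith)) hη2
  have hTm : Tm (3 / 2 * δ) w (x + ζ + δ • Z₀, t + δ / 2) ≤
      Tm δ w (x + δ • Z₀, t) + ‖ζ‖ ^ 2 / δ := by
    rw [show 3 / 2 * δ = δ / 2 + δ by ring, hq.Tm_add (by positivity) hδ0]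
    have := (hq.flowm hδ0).2.Tm_le (s := δ / 2) (by positivity) (x + ζ + δ • Z₀, t + δ / 2) (-ζ)
    simp only [norm_neg, add_sub_cancel_right] at this
    rwa [show x + ζ + δ • Z₀ + -ζ = x + δ • Z₀ by abel, show 2 * (δ / 2) = δ by ring] at this
  have p1 : x + ζ - c • (η + (ζ₂ - ζ₁)) = x - c • η + ζ₁ := by rw [hζ]; module
  have p2 : x + ζ + (1 - c) • (η + (ζ₂ - ζ₁)) = x + (1 - c) • η + ζ₂ := by rw [hζ]; module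
  have p3 : (3 / 2 * δ) • (2 / 3 : ℝ) • Z₀ = δ • Z₀ := by module
  have p4 : ‖η + (ζ₂ - ζ₁)‖ * δ / (3 / 2 * δ) = 2 / 3 * ‖η + (ζ₂ - ζ₁)‖ := by field_simp
  have p5 : ‖(2 / 3 : ℝ) • Z₀‖ = 2 / 3 * ‖Z₀‖ := by
    rw [norm_smul, Real.norm_of_nonneg (by norm_num)]
  simp only [J0, Reg] at hE2 hJ
  rw [p1, p2, p3, p4, p5, e₁, e₂] at hE2
  have hvar := b3_var c ζ₁ ζ₂
  rw [← hζ] at hvar
  have hn1 := norm_add_le η (ζ₂ - ζ₁)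
  have hn2 : ‖η‖ ≤ ‖η + (ζ₂ - ζ₁)‖ + ‖ζ₂ - ζ₁‖ := by
    simpa using norm_sub_le (η + (ζ₂ - ζ₁)) (ζ₂ - ζ₁)
  have hn3 : 7 / 8 ≤ ‖η‖ := by
    have := norm_sub_norm_le η₀ η
    rw [norm_sub_rev] at this
    linarith
  have hs : √(√(1 / 4 : ℝ)) ≤ 1 := Real.sqrt_le_one.2 (Real.sqrt_le_one.2 (by norm_num))
  have hd0 := norm_nonneg (ζ₂ - ζ₁)
  generalize ‖η + (ζ₂ - ζ₁)‖ = e' at *
  generalize ‖ζ₂ - ζ₁‖ = u at *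
  generalize ‖η‖ = e at *
  generalize ‖Z₀‖ = Q at *
  generalize Tp (2 * δ) w (x - c • η, t) = A₁' at *
  generalize Tp (2 * δ) w (x + (1 - c) • η, t) = A₂' at *
  generalize Tp δ w (x - c • η, t) = A₁ at *
  generalize Tp δ w (x + (1 - c) • η, t) = A₂ at *
  generalize Tm (3 / 2 * δ) w (x + ζ + δ • Z₀, t + δ / 2) = G' at *
  generalize Tm δ w (x + δ • Z₀, t) = G at *
  -- the key inequality
  have k1 : κ * u - c * (1 - c) * u ^ 2 / δ ≤ δ * k := by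
    have : δ * k - (κ * u - c * (1 - c) * u ^ 2 / δ) =
        (δ * κ - 2 * (c * (1 - c)) * u) ^ 2 / (4 * (c * (1 - c)) * δ) := by
      rw [hk]; field_simp; ring
    have h2 : 0 ≤ (δ * κ - 2 * (c * (1 - c)) * u) ^ 2 / (4 * (c * (1 - c)) * δ) := by positivity
    linarith
  have k2 : (1 - c) * (‖ζ₁‖ ^ 2 / δ) + c * (‖ζ₂‖ ^ 2 / δ) =
      ‖ζ‖ ^ 2 / δ + c * (1 - c) * u ^ 2 / δ := by
    rw [← add_div, ← hvar]; ring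
  have k3 : (1 - c) * A₁ + c * A₂ - G - κ * e - C₁ * δ * (1 + Q ^ 2) - δ * k ≤
      (1 - c) * (A₁' + ‖ζ₁‖ ^ 2 / δ) + c * (A₂' + ‖ζ₂‖ ^ 2 / δ) - G' - κ * e' := by
    have a1 := mul_le_mul_of_nonneg_left hT1 hc'.le
    have a2 := mul_le_mul_of_nonneg_left hT2 hc0.le
    have a3 := mul_le_mul_of_nonneg_left hn1 hκ.le
    linarith
  generalize (1 - c) * (A₁' + ‖ζ₁‖ ^ 2 / δ) + c * (A₂' + ‖ζ₂‖ ^ 2 / δ) - G' - κ * e' = P' at *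
  generalize (1 - c) * A₁ + c * A₂ - G - κ * e = P at *
  have k4 : P / δ - C₁ * (1 + Q ^ 2) - k ≤ 3 / 2 * (P' / (3 / 2 * δ)) := by
    have a1 : P / δ - C₁ * (1 + Q ^ 2) - k = (P - C₁ * δ * (1 + Q ^ 2) - δ * k) / δ := by
      field_simp
    have a2 : 3 / 2 * (P' / (3 / 2 * δ)) = P' / δ := by field_simp
    rw [a1, a2]
    exact div_le_div_of_nonneg_right k3 hδ0.le
  generalize P' / (3 / 2 * δ) = S' at *
  generalize P / δ = S at *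
  have k5 : CE * (2 / 3 * e' - 1) ^ 2 ≤ CE := mul_le_of_le_one_right hCE
    ((sq_le_one_iff_abs_le_one _).2 (abs_le.2 ⟨by linarith, by linarith⟩))
  have k6 : CE * √(√(1 / 4 : ℝ)) * (1 + 2 / 3 * Q) ≤ CE * (2 + Q ^ 2) := by
    have a1 : CE * √(√(1 / 4 : ℝ)) ≤ CE := mul_le_of_le_one_right hCE hs
    exact mul_le_mul a1 (by linarith [sq_nonneg (Q - 1)]) (by positivity) hCE
  have k7 : -CE ≤ a * (e - e' + 1 / 2) := by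
    have a1 := mul_le_mul_of_nonneg_right hE.alow (show 0 ≤ e - e' + 1 / 2 by linarith)
    have a2 : CE * (e - e' + 1 / 2) ≤ CE := mul_le_of_le_one_right hCE (by linarith)
    linarith
  have hQ2 := sq_nonneg Q
  have k8 := mul_nonneg hC₁.le hQ2
  have k9 := mul_nonneg hk0 hQ2
  have k10 := mul_nonneg hCE hQ2
  linarith

/-- `g = Tm δ w (·,0)`. `e2` with `r = 0`, `Z = 2 • Z₀` gives `J0 (2 • Z₀) ≤ n ≤ J0 Z₀ + δ`, i.e.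
`g (δZ₀) - g (2δZ₀) ≤ δ(δ + 3Q²/2)`; `Tm_midpoint` at `δ • Z₀`: `g 0 ≤ 2 g (δZ₀) - g (2δZ₀) + δQ²`;
so `Jd = J0 0 ≥ J0 Z₀ - δ - 2Q²`. The other two claims: `Jd_eq`, `FLe`, and the upper bounds of
`grow_flow` for the three slopes. -/
theorem ext_cons {c κ Λ CE : ℝ} (hc0 : 0 < c) (hc1 : c < 1) (hκ : 0 < κ) (hCE : 0 ≤ CE) :
    ∃ C δ₀ : ℝ, 0 < C ∧ 0 < δ₀ ∧ ∀ (w : E × ℝ → ℝ) (δ : ℝ) (η₀ Z₀ : E) (n a : ℝ),
      Ext c κ Λ CE w δ η₀ Z₀ n a → δ * (1 + ‖Z₀‖) ≤ δ₀ →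
      -(C * (1 + ‖Z₀‖ ^ 2)) ≤ Jd c κ δ w 0 η₀ 0 ∧
      κ - C * δ * (1 + ‖Z₀‖ ^ 2) ≤ Del c w 0 η₀ 0 ∧
      -(C * (1 + ‖Z₀‖ ^ 2)) ≤ Sp δ w ((1 - c) • η₀, 0) := by
  obtain ⟨C₁, δ₁, hC₁, hδ₁, H₁⟩ := b3 (E := E) (Λ := Λ) hc0 hc1 hκ hCE
  obtain ⟨C₂, hC₂, H₂⟩ := grow_flow (E := E) Λ
  have hc' : 0 < 1 - c := by linarith
  refine ⟨(C₁ + 2 + 2 * C₂) / c, min δ₁ (1 / 2), by positivity, by positivity,
    fun w δ η₀ Z₀ n a hE hδ => ?_⟩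
  simp only [le_min_iff] at hδ
  obtain ⟨hδa, hδb⟩ := hδ
  have hδ0 := hE.δpos
  have hQ := norm_nonneg Z₀
  have hδle : δ ≤ 1 / 2 := by nlinarith
  have hn := H₁ w δ η₀ Z₀ n a hE hδa
  have hu := hE.unit
  have hcl := hE.bmo.cls
  have hq := hcl.ent.csq
  have hE1 := hE.e1
  have hE2 := hE.e2 δ (Or.inl rfl) 0 0 η₀ 0 ((2 : ℝ) • Z₀) (by norm_num) (by simp) (by simp)
    (by simp)
  rw [hu, one_mul, div_self hδ0.ne'] at hE2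
  simp only [sub_self, mul_zero, add_zero, Real.sqrt_zero, zero_mul, ne_eq, OfNat.ofNat_ne_zero,
    not_false_eq_true, zero_pow] at hE2
  have hm := hq.Tm_midpoint hδ0 (δ • Z₀) (δ • Z₀) 0
  have hJ : -((C₁ + 2) * (1 + ‖Z₀‖ ^ 2)) ≤ Jd c κ δ w 0 η₀ 0 := by
    simp only [J0, Jd, Reg, zero_add] at hE1 hE2 ⊢
    rw [show δ • (2 : ℝ) • Z₀ = δ • Z₀ + δ • Z₀ by module, norm_smul,
      Real.norm_of_nonneg (show (0 : ℝ) ≤ 2 by norm_num)] at hE2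
    rw [sub_self, norm_smul, Real.norm_of_nonneg hδ0.le,
      show (δ * ‖Z₀‖) ^ 2 / δ = δ * ‖Z₀‖ ^ 2 by field_simp] at hm
    generalize (1 - c) * Tp δ w (0 - c • η₀, 0) + c * Tp δ w ((1 - c) • η₀, 0) = P at *
    generalize Tm δ w (δ • Z₀ + δ • Z₀, 0) = G₂ at *
    generalize Tm δ w (δ • Z₀, 0) = G₁ at *
    generalize Tm δ w ((0 : E), 0) = G₀ at *
    have a1 : 2 * ((P - G₁ - κ * ‖η₀‖) / δ) - (P - G₂ - κ * ‖η₀‖) / δ - ‖Z₀‖ ^ 2 ≤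
        (P - G₀ - κ * ‖η₀‖) / δ := by
      have : 2 * ((P - G₁ - κ * ‖η₀‖) / δ) - (P - G₂ - κ * ‖η₀‖) / δ - ‖Z₀‖ ^ 2 =
          (P - (2 * G₁ - G₂ + δ * ‖Z₀‖ ^ 2) - κ * ‖η₀‖) / δ := by field_simp; ring
      rw [this]
      exact div_le_div_of_nonneg_right (by linarith) hδ0.le
    nlinarith
  have hb : ∀ z : E, ‖z‖ ≤ 1 → Sp δ w (z, 0) ≤ C₂ ∧ Sm δ w (z, 0) ≤ C₂ := by
    intro z hz
    have := H₂ w hcl hE.nrm (z, 0) 1 le_rfl (by simpa using hz) δ hδ0 hδle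
    simp only [Real.sqrt_one, mul_one] at this
    exact ⟨this.1, this.2.1⟩
  have b1 := (hb (0 - c • η₀) (by
    rw [zero_sub, norm_neg, norm_smul, hu, Real.norm_of_nonneg hc0.le]; linarith)).1
  have b2 := (hb (0 + (1 - c) • η₀) (by
    rw [zero_add, norm_smul, hu, Real.norm_of_nonneg hc'.le]; linarith)).1
  have b3 := (hb 0 (by simp)).2
  have hF := hE.fle 0 η₀ 0
  have hJe := Jd_eq (c := c) (κ := κ) (w := w) (x := 0) (η := η₀) (t := 0) hδ0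
  rw [hu, mul_one] at hJe hF
  rw [zero_add] at hJe b2
  have hC : C₁ + 2 + 2 * C₂ ≤ (C₁ + 2 + 2 * C₂) / c := by
    rw [le_div_iff₀ hc0]
    exact mul_le_of_le_one_right (by positivity) hc1.le
  have hQ1 : 0 ≤ 1 + ‖Z₀‖ ^ 2 := by positivity
  have hC' := mul_le_mul_of_nonneg_right hC hQ1
  have hC2 : C₂ ≤ C₂ * (1 + ‖Z₀‖ ^ 2) := le_mul_of_one_le_right hC₂.le (by nlinarith)
  have c1 := mul_le_mul_of_nonneg_left b1 hc'.le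
  have c2 := mul_le_mul_of_nonneg_left b2 hc0.le
  refine ⟨by nlinarith, ?_, ?_⟩
  · have a1 : -((C₁ + 2 + 2 * C₂) / c * (1 + ‖Z₀‖ ^ 2)) ≤ (Del c w 0 η₀ 0 - κ) / δ := by
      nlinarith
    rw [le_div_iff₀ hδ0] at a1
    linarith
  · have a1 : (Del c w 0 η₀ 0 - κ) / δ ≤ 0 := div_nonpos_of_nonpos_of_nonneg (by linarith) hδ0.le
    have a2 : -((C₁ + 2 + 2 * C₂) * (1 + ‖Z₀‖ ^ 2)) ≤ c * Sp δ w ((1 - c) • η₀, 0) := by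
      have := mul_pos hc0 hC₂
      nlinarith
    refine le_of_mul_le_mul_left ?_ hc0
    have a3 : c * -((C₁ + 2 + 2 * C₂) / c * (1 + ‖Z₀‖ ^ 2)) =
        -((C₁ + 2 + 2 * C₂) * (1 + ‖Z₀‖ ^ 2)) := by field_simp
    rw [a3]
    exact a2

end R94
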