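import Crest.Agent.R94.Grow
import Crest.Agent.R94.EngineC

/-!
# R94/B3a: the forward slopes at a near-extremal configuration are `≥ -C (1 + Q²)`
-/

set_option autoImplicit false
set_option linter.unusedSectionVars false
set_option linter.unusedVariables false

open Set Filter Topology Metric
open scoped InnerProductSpace

namespace R94

variable {E : Type} [NormedAddCommGroup E] [InnerProductSpace ℝ E] [FiniteDimensional ℝ E]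

/-- an interior maximum. -/
theorem b3a_max {P : Type*} [NormedAddCommGroup P] [ProperSpace P] {F : P → ℝ} (hF : Continuous F)
    (Y₀ : P) {r : ℝ} (hr : 0 < r) (hb : ∀ Y, ‖Y - Y₀‖ = r → F Y < F Y₀) :
    ∃ Y, ‖Y - Y₀‖ < r ∧ F Y₀ ≤ F Y ∧ ∀ᶠ Z in 𝓝 (0 : P), F (Y + Z) ≤ F Y := by
  obtain ⟨Y, hY, hmax⟩ := (isCompact_closedBall Y₀ r).exists_isMaxOn
    ⟨Y₀, mem_closedBall_self hr.le⟩ hF.continuousOn
  have h0 : F Y₀ ≤ F Y := hmax (mem_closedBall_self hr.le)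
  have hlt : ‖Y - Y₀‖ < r :=
    lt_of_le_of_ne (mem_closedBall_iff_norm.1 hY) fun h => (hb Y h).not_ge h0
  refine ⟨Y, hlt, h0, ?_⟩
  have h1 : Tendsto (fun Z : P => Y + Z) (𝓝 0) (𝓝 Y) := by
    have : Continuous fun Z : P => Y + Z := by fun_prop
    simpa using this.tendsto 0
  exact (h1.eventually (isOpen_ball.mem_nhds (mem_ball_iff_norm.2 hlt))).mono fun Z hZ =>
    hmax (ball_subset_closedBall hZ)

/-- the orthogonal projection minimises the distance. -/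
theorem b3a_perp {η : E} (hη : η ≠ 0) (d : E) (l : ℝ) :
    ‖d - (⟪η, d⟫_ℝ / ‖η‖ ^ 2) • η‖ ≤ ‖d - l • η‖ := by
  have hn : 0 < ‖η‖ ^ 2 := by positivity
  refine (pow_le_pow_iff_left₀ (norm_nonneg _) (norm_nonneg _) two_ne_zero).1 ?_
  rw [norm_sub_sq_real, norm_sub_sq_real, real_inner_smul_right, real_inner_smul_right, norm_smul,
    norm_smul, mul_pow, mul_pow, Real.norm_eq_abs, Real.norm_eq_abs, sq_abs, sq_abs,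
    real_inner_comm η d]
  obtain ⟨s, hs⟩ : ∃ s, s = ⟪η, d⟫_ℝ / ‖η‖ ^ 2 := ⟨_, rfl⟩
  have h1 : ⟪η, d⟫_ℝ = s * ‖η‖ ^ 2 := by rw [hs, div_mul_cancel₀ _ hn.ne']
  rw [← hs, h1]
  nlinarith [mul_nonneg hn.le (sq_nonneg (l - s))]

theorem b3a_split (ξ v : E) (σ : ℝ) : ‖ξ‖ ^ 2 ≤ 2 * ‖ξ - σ • v‖ ^ 2 + 2 * ‖v‖ ^ 2 * σ ^ 2 := by
  have h1 : ‖ξ‖ ≤ ‖ξ - σ • v‖ + |σ| * ‖v‖ := by
    have := norm_add_le (ξ - σ • v) (σ • v)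
    rwa [sub_add_cancel, norm_smul, Real.norm_eq_abs] at this
  have h2 : ‖ξ‖ ^ 2 ≤ (‖ξ - σ • v‖ + |σ| * ‖v‖) ^ 2 := pow_le_pow_left₀ (norm_nonneg _) h1 2
  rw [← sq_abs σ]
  nlinarith [sq_nonneg (‖ξ - σ • v‖ - |σ| * ‖v‖)]

theorem b3a_smul_le {δ M f g : ℝ} (hδ : 0 < δ) (hf : |f| ≤ M) (hg0 : 0 ≤ g) (hg1 : g ≤ 1) (v : E) :
    ‖(g * (δ * f)) • v‖ ≤ δ * M * ‖v‖ := by
  rw [norm_smul, Real.norm_eq_abs, abs_mul, abs_mul, abs_of_nonneg hg0, abs_of_pos hδ]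
  refine mul_le_mul_of_nonneg_right ?_ (norm_nonneg _)
  calc g * (δ * |f|) ≤ 1 * (δ * M) := by gcongr
    _ = δ * M := one_mul _

theorem b3a_pos {c δ M f : ℝ} (hc0 : 0 < c) (hc1 : c < 1) (hδ : 0 < δ)
    (hM : δ * M ≤ c * (1 - c) / 2) (hf : |f| ≤ M) : 0 < 1 - c + δ * f ∧ 0 < c + δ * f := by
  have := mul_le_mul_of_nonneg_left (abs_le.1 hf).1 hδ.le
  constructor <;> nlinarith

/-- the vector algebra. -/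
theorem b3a_vec {c δ M κ' f₁ f₂ : ℝ} {p gx gη η v₁ v₂ : E} (hc0 : 0 < c) (hc1 : c < 1) (hδ : 0 < δ)
    (hM : δ * M ≤ c * (1 - c) / 2) (hf₁ : |f₁| ≤ M) (hf₂ : |f₂| ≤ M) (hκ : 0 ≤ κ') (hη : η ≠ 0)
    (hv₁ : (1 - c + δ * f₁) • v₁ = (1 - c) • (p + gx) - (κ' / ‖η‖) • η - gη)
    (hv₂ : (c + δ * f₂) • v₂ = c • (p + gx) + (κ' / ‖η‖) • η + gη) :
    c * (1 - c) / 2 * ‖v₁‖ ≤ ‖p‖ + ‖gx‖ + κ' + ‖gη‖ ∧
    c * (1 - c) / 2 * ‖v₂‖ ≤ ‖p‖ + ‖gx‖ + κ' + ‖gη‖ ∧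
    ‖(1 - c) • v₁ + c • v₂ - p‖ ≤ ‖gx‖ + δ * M * (‖v₁‖ + ‖v₂‖) ∧
    c * (1 - c) * ‖(v₂ - v₁) - (⟪η, v₂ - v₁⟫_ℝ / ‖η‖ ^ 2) • η‖ ≤
      ‖gη‖ + δ * M * (‖v₁‖ + ‖v₂‖) := by
  have hc' : 0 < 1 - c := sub_pos.2 hc1
  have hm : 0 < c * (1 - c) := mul_pos hc0 hc'
  have hn : 0 < ‖η‖ := norm_pos_iff.2 hη
  have hk : ‖(κ' / ‖η‖) • η‖ = κ' := by
    rw [norm_smul, Real.norm_eq_abs, abs_of_nonneg (div_nonneg hκ hn.le), div_mul_cancel₀ _ hn.ne']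
  have hpg : ∀ g : ℝ, 0 ≤ g → g ≤ 1 → ‖g • (p + gx)‖ ≤ ‖p‖ + ‖gx‖ := fun g h0 h1 => by
    rw [norm_smul, Real.norm_eq_abs, abs_of_nonneg h0]
    exact (mul_le_of_le_one_left (norm_nonneg _) h1).trans (norm_add_le _ _)
  have hd₁ : |δ * f₁| ≤ c * (1 - c) / 2 := by
    rw [abs_mul, abs_of_pos hδ]; exact (mul_le_mul_of_nonneg_left hf₁ hδ.le).trans hM
  have hd₂ : |δ * f₂| ≤ c * (1 - c) / 2 := by
    rw [abs_mul, abs_of_pos hδ]; exact (mul_le_mul_of_nonneg_left hf₂ hδ.le).trans hM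
  have ha₁ : c * (1 - c) / 2 ≤ 1 - c + δ * f₁ := by nlinarith [abs_le.1 hd₁]
  have ha₂ : c * (1 - c) / 2 ≤ c + δ * f₂ := by nlinarith [abs_le.1 hd₂]
  refine ⟨?_, ?_, ?_, ?_⟩
  · calc c * (1 - c) / 2 * ‖v₁‖ ≤ (1 - c + δ * f₁) * ‖v₁‖ := by gcongr
      _ = ‖(1 - c + δ * f₁) • v₁‖ := by
        rw [norm_smul, Real.norm_eq_abs, abs_of_nonneg (le_trans (by positivity) ha₁)]
      _ ≤ ‖(1 - c) • (p + gx)‖ + ‖(κ' / ‖η‖) • η‖ + ‖gη‖ := by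
        rw [hv₁]
        exact (norm_sub_le _ _).trans (add_le_add_left (norm_sub_le _ _) _)
      _ ≤ _ := by rw [hk]; linarith [hpg (1 - c) hc'.le (by linarith)]
  · calc c * (1 - c) / 2 * ‖v₂‖ ≤ (c + δ * f₂) * ‖v₂‖ := by gcongr
      _ = ‖(c + δ * f₂) • v₂‖ := by
        rw [norm_smul, Real.norm_eq_abs, abs_of_nonneg (le_trans (by positivity) ha₂)]
      _ ≤ ‖c • (p + gx)‖ + ‖(κ' / ‖η‖) • η‖ + ‖gη‖ := by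
        rw [hv₂]
        exact norm_add₃_le
      _ ≤ _ := by rw [hk]; linarith [hpg c hc0.le hc1.le]
  · have e : (1 - c) • v₁ + c • v₂ - p = gx - (1 * (δ * f₁)) • v₁ - (1 * (δ * f₂)) • v₂ := by
      linear_combination (norm := module) hv₁ + hv₂
    rw [e, mul_add, ← add_assoc]
    exact ((norm_sub_le _ _).trans (add_le_add_left (norm_sub_le _ _) _)).trans
      (add_le_add_three le_rfl (b3a_smul_le hδ hf₁ zero_le_one le_rfl _)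
        (b3a_smul_le hδ hf₂ zero_le_one le_rfl _))
  · have e : (c * (1 - c)) • ((v₂ - v₁) - (κ' / ‖η‖ / (c * (1 - c))) • η) =
        gη + (c * (δ * f₁)) • v₁ - ((1 - c) * (δ * f₂)) • v₂ := by
      rw [smul_sub, smul_smul, mul_div_cancel₀ _ hm.ne']
      linear_combination (norm := module) (1 - c) • hv₂ - c • hv₁
    calc c * (1 - c) * ‖(v₂ - v₁) - (⟪η, v₂ - v₁⟫_ℝ / ‖η‖ ^ 2) • η‖
        ≤ c * (1 - c) * ‖(v₂ - v₁) - (κ' / ‖η‖ / (c * (1 - c))) • η‖ :=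
          mul_le_mul_of_nonneg_left (b3a_perp hη _ _) hm.le
      _ = ‖gη + (c * (δ * f₁)) • v₁ - ((1 - c) * (δ * f₂)) • v₂‖ := by
        rw [← e, norm_smul, Real.norm_eq_abs, abs_of_pos hm]
      _ ≤ _ := by
        rw [mul_add, ← add_assoc]
        exact ((norm_sub_le _ _).trans (add_le_add_left (norm_add_le _ _) _)).trans
          (add_le_add_three le_rfl (b3a_smul_le hδ hf₁ hc0.le hc1.le _)
            (b3a_smul_le hδ hf₂ hc'.le (by linarith) _))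

/-- the last step. -/
theorem b3a_last {δ L V Q k u T : ℝ} (hδ : 0 < δ) (hL : 0 ≤ L) (hQ : 0 ≤ Q) (hu0 : 0 ≤ u)
    (hu : u ≤ V * (1 + Q)) (hk : δ * (k + u ^ 2 / 2) ^ 2 ≤ δ * (L * (1 + Q) ^ 3)) (hT : k ≤ T / δ)
    {C : ℝ} (hC : 2 * (L + 1 + V ^ 2) ≤ C) : -(C * δ * (1 + Q ^ 2)) ≤ T := by
  have h1 : (k + u ^ 2 / 2) ^ 2 ≤ L * (1 + Q) ^ 3 := le_of_mul_le_mul_left hk hδ
  have hq : 1 ≤ 1 + Q := by linarith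
  have h2 : L * (1 + Q) ^ 3 ≤ ((L + 1) * (1 + Q) ^ 2) ^ 2 := by
    rw [mul_pow, ← pow_mul]
    exact mul_le_mul (by nlinarith) (pow_le_pow_right₀ hq (by norm_num)) (by positivity)
      (by positivity)
  have h3 := (abs_le_of_sq_le_sq' (h1.trans h2) (by positivity)).1
  have h4 : u ^ 2 ≤ (V * (1 + Q)) ^ 2 := pow_le_pow_left₀ hu0 hu 2
  rw [mul_pow] at h4
  have h5 : (1 + Q) ^ 2 ≤ 2 * (1 + Q ^ 2) := by nlinarith [sq_nonneg (1 - Q)]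
  have h6 : (L + 1 + V ^ 2) * (1 + Q) ^ 2 ≤ C * (1 + Q ^ 2) :=
    calc (L + 1 + V ^ 2) * (1 + Q) ^ 2 ≤ (L + 1 + V ^ 2) * (2 * (1 + Q ^ 2)) := by gcongr
      _ = 2 * (L + 1 + V ^ 2) * (1 + Q ^ 2) := by ring
      _ ≤ _ := by gcongr
  have h7 : -(C * (1 + Q ^ 2)) ≤ k := by nlinarith [sq_nonneg u]
  have h8 := (le_div_iff₀ hδ).1 (h7.trans hT)
  linarith

/-- the size of the right-hand side of `engineC`. -/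
theorem b3a_rhs {δ β B V G m κ κ' q nb nd np nq N : ℝ} (hδ : 0 < δ) (hδ1 : δ ≤ 1) (hq : 1 ≤ q)
    (hβ0 : 0 ≤ β) (hβ : β ≤ B * q) (hm : 0 < m) (hκ0 : 0 ≤ κ') (hκ : κ' ≤ 2 * κ) (hN : 1 / 2 ≤ N)
    (hnb0 : 0 ≤ nb) (hnb : nb ≤ V * q) (hnd0 : 0 ≤ nd) (hnd : nd ≤ 2 * (V * q))
    (hnp0 : 0 ≤ np) (hnp : m * np ≤ δ * q * G) (hnq0 : 0 ≤ nq) (hnq : nq ≤ δ * q * G) :
    4 * (δ * β * (2 * nb ^ 2 + 2 * nd ^ 2 + 1)) + 8 * κ' * np ^ 2 / N + 8 * nq ^ 2 / δ ≤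
      δ * ((4 * B * (10 * V ^ 2 + 1) + 32 * κ * (G / m) ^ 2 + 8 * G ^ 2) * q ^ 3) := by
  have hq0 : 0 ≤ q := zero_le_one.trans hq
  have hq2 : 1 ≤ q ^ 2 := one_le_pow₀ hq
  have hq3 : q ^ 2 ≤ q ^ 3 := pow_le_pow_right₀ hq (by norm_num)
  have hκ1 : 0 ≤ κ := by linarith
  have h1 : 2 * nb ^ 2 + 2 * nd ^ 2 + 1 ≤ (10 * V ^ 2 + 1) * q ^ 2 := by
    have a1 : nb ^ 2 ≤ (V * q) ^ 2 := pow_le_pow_left₀ hnb0 hnb 2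
    have a2 : nd ^ 2 ≤ (2 * (V * q)) ^ 2 := pow_le_pow_left₀ hnd0 hnd 2
    nlinarith
  have h2 : δ * β * (2 * nb ^ 2 + 2 * nd ^ 2 + 1) ≤ δ * (B * q) * ((10 * V ^ 2 + 1) * q ^ 2) :=
    mul_le_mul (mul_le_mul_of_nonneg_left hβ hδ.le) h1 (by positivity)
      (mul_nonneg hδ.le (hβ0.trans hβ))
  have h3 : 8 * κ' * np ^ 2 / N ≤ δ * (32 * κ * (G / m) ^ 2 * q ^ 3) := by
    have a1 : np ≤ δ * q * (G / m) := by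
      rw [← mul_div_assoc, le_div_iff₀ hm, mul_comm]
      exact hnp
    have a2 : np ^ 2 ≤ (δ * q * (G / m)) ^ 2 := pow_le_pow_left₀ hnp0 a1 2
    have a3 : (δ * q * (G / m)) ^ 2 ≤ δ * q ^ 3 * (G / m) ^ 2 := by
      rw [mul_pow, mul_pow]
      refine mul_le_mul_of_nonneg_right (mul_le_mul ?_ hq3 (by positivity) hδ.le) (sq_nonneg _)
      nlinarith
    calc 8 * κ' * np ^ 2 / N ≤ 8 * (2 * κ) * (δ * q ^ 3 * (G / m) ^ 2) / (1 / 2) := by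
          gcongr
          exact a2.trans a3
      _ = _ := by ring
  have h4 : 8 * nq ^ 2 / δ ≤ δ * (8 * G ^ 2 * q ^ 3) := by
    have a2 : nq ^ 2 ≤ (δ * q * G) ^ 2 := pow_le_pow_left₀ hnq0 hnq 2
    rw [div_le_iff₀ hδ]
    calc 8 * nq ^ 2 ≤ 8 * (δ * q * G) ^ 2 := by gcongr
      _ = 8 * (δ * G) ^ 2 * q ^ 2 := by ring
      _ ≤ 8 * (δ * G) ^ 2 * q ^ 3 := by gcongr
      _ = _ := by ring
  nlinarith

theorem b3a_phi {c κ δ : ℝ} (hδ : 0 < δ) (w : E × ℝ → ℝ) (x η Z : E) (t : ℝ) :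
    Phi c δ (1 - c) δ c δ w x η t (δ • Z) = κ * ‖η‖ + δ * (J0 c κ δ w x η t Z + ‖Z‖ ^ 2 / 2 +
      (Tp δ w (x - c • η, t) ^ 2 + Tp δ w (x + (1 - c) • η, t) ^ 2) / 2) := by
  simp only [Phi, Gam, J0, Reg]
  field_simp
  ring

/-- the upper bound `e2` on the box of size `1/8`. -/
theorem b3a_up {c κ Λ CE δ n a : ℝ} {w : E × ℝ → ℝ} {η₀ Z₀ : E} (hCE : 0 ≤ CE)
    (H : Ext c κ Λ CE w δ η₀ Z₀ n a) {x η : E} {t : ℝ} (hx : ‖x‖ ≤ 1 / 8) (ht : |t| ≤ 1 / 8)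
    (hη : ‖η - η₀‖ ≤ 1 / 8) (Z : E) :
    J0 c κ δ w x η t Z ≤ n + a * (‖η‖ - 1) + CE + CE * (1 + ‖Z‖) := by
  have h := H.e2 δ (Or.inl rfl) (1 / 8) x η t Z (by norm_num) hx ht hη
  rw [mul_div_cancel_right₀ _ H.δpos.ne'] at h
  have h1 : |‖η‖ - 1| ≤ 1 / 8 := by
    have := abs_norm_sub_norm_le η η₀
    rw [H.unit] at this
    exact this.trans hη
  have h2 : (‖η‖ - 1) ^ 2 ≤ 1 := by
    rw [sq_le_one_iff_abs_le_one]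
    linarith
  have h3 : √(√(1 / 8 : ℝ)) ≤ 1 := Real.sqrt_le_one.2 (Real.sqrt_le_one.2 (by norm_num))
  have h4 : CE * (‖η‖ - 1) ^ 2 ≤ CE := mul_le_of_le_one_right hCE h2
  have h5 : CE * √(√(1 / 8 : ℝ)) * (1 + ‖Z‖) ≤ CE * (1 + ‖Z‖) :=
    mul_le_mul_of_nonneg_right (mul_le_of_le_one_right hCE h3) (by positivity)
  linarith

/-- The maximum point. -/
theorem b3a_point {c κ Λ CE δ n a M β : ℝ} {w : E × ℝ → ℝ} {η₀ Z₀ : E} (hc0 : 0 < c) (hc1 : c < 1)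
    (hCE : 0 ≤ CE) (H : Ext c κ Λ CE w δ η₀ Z₀ n a) (hδ1 : δ ≤ 1)
    (hM : ∀ X : E × ℝ, ‖X‖ ≤ 2 → |Tp δ w X| ≤ M)
    (hβ : β = 64 * (2 + M ^ 2 + CE + CE * (1 + ‖Z₀‖))) :
    ∃ (x η : E) (t : ℝ), ‖x‖ ≤ 1 / 8 ∧ |t| ≤ 1 / 8 ∧ ‖η - η₀‖ ≤ 1 / 8 ∧
      |Tp δ w (x - c • η, t)| ≤ M ∧ |Tp δ w (x + (1 - c) • η, t)| ≤ M ∧
      n + a * (‖η‖ - 1) - (1 + M ^ 2) ≤ J0 c κ δ w x η t Z₀ ∧
      ∀ᶠ Z : E × E × ℝ in 𝓝 0,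
        Phi c δ (1 - c) δ c δ w (x + Z.1) (η + Z.2.1) (t + Z.2.2) (δ • Z₀) -
            (κ + δ * a) * ‖η + Z.2.1‖ -
            δ * β * (‖x + Z.1‖ ^ 2 + (t + Z.2.2) ^ 2 + ‖η + Z.2.1 - η₀‖ ^ 2) ≤
          Phi c δ (1 - c) δ c δ w x η t (δ • Z₀) - (κ + δ * a) * ‖η‖ -
            δ * β * (‖x‖ ^ 2 + t ^ 2 + ‖η - η₀‖ ^ 2) := by
  have hδ := H.δpos
  have hw : CSQ w := H.bmo.ent.csq
  have hβ0 : 0 ≤ β := by rw [hβ]; positivity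
  have hf : ∀ (x η : E) (t : ℝ), ‖x‖ ≤ 1 / 8 → |t| ≤ 1 / 8 → ‖η - η₀‖ ≤ 1 / 8 →
      |Tp δ w (x - c • η, t)| ≤ M ∧ |Tp δ w (x + (1 - c) • η, t)| ≤ M := by
    intro x η t hx ht hη
    have h1 : ‖η‖ ≤ 9 / 8 := by
      have := norm_sub_norm_le η η₀
      rw [H.unit] at this
      linarith
    have h2 : ∀ g : ℝ, 0 ≤ g → g ≤ 1 → ‖g • η‖ ≤ 9 / 8 := fun g h0 h1' => by
      rw [norm_smul, Real.norm_eq_abs, abs_of_nonneg h0]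
      exact (mul_le_of_le_one_left (norm_nonneg _) h1').trans h1
    refine ⟨hM _ (norm_prod_le_iff.2 ⟨?_, ?_⟩), hM _ (norm_prod_le_iff.2 ⟨?_, ?_⟩)⟩
    · linarith [norm_sub_le x (c • η), h2 c hc0.le hc1.le]
    · exact ht.trans (by norm_num)
    · linarith [norm_add_le x ((1 - c) • η), h2 (1 - c) (by linarith) (by linarith)]
    · exact ht.trans (by norm_num)
  have hsq : ∀ {u : ℝ}, |u| ≤ M → u ^ 2 ≤ M ^ 2 := fun hu =>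
    sq_le_sq' (abs_le.1 hu).1 (abs_le.1 hu).2
  have := FiniteDimensional.proper_real E
  obtain ⟨F, hF⟩ : ∃ F : E × E × ℝ → ℝ, ∀ Y, F Y =
      Phi c δ (1 - c) δ c δ w Y.1 Y.2.1 Y.2.2 (δ • Z₀) - (κ + δ * a) * ‖Y.2.1‖ -
        δ * β * (‖Y.1‖ ^ 2 + Y.2.2 ^ 2 + ‖Y.2.1 - η₀‖ ^ 2) := ⟨_, fun _ => rfl⟩
  have hFc : Continuous F := by
    have h1 : Continuous (Tp δ w) := (hw.flowp hδ).1
    have h2 : Continuous (Tm δ w) := (hw.flowm hδ).1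
    rw [funext hF]
    simp only [Phi, Gam]
    fun_prop
  have hFe : ∀ (x η : E) (t : ℝ), F (x, η, t) = δ * (J0 c κ δ w x η t Z₀ + ‖Z₀‖ ^ 2 / 2 +
      (Tp δ w (x - c • η, t) ^ 2 + Tp δ w (x + (1 - c) • η, t) ^ 2) / 2 - a * ‖η‖ -
      β * (‖x‖ ^ 2 + t ^ 2 + ‖η - η₀‖ ^ 2)) := fun x η t => by
    rw [hF, b3a_phi (κ := κ) hδ]
    ring
  have h0 : δ * (n - 1 + ‖Z₀‖ ^ 2 / 2 - a) ≤ F (0, η₀, 0) := by
    rw [hFe]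
    refine mul_le_mul_of_nonneg_left ?_ hδ.le
    have := H.e1
    rw [H.unit, sub_self, norm_zero]
    nlinarith [sq_nonneg (Tp δ w (0 - c • η₀, 0)), sq_nonneg (Tp δ w (0 + (1 - c) • η₀, 0))]
  have hnorm : ∀ (x η : E) (t : ℝ),
      ‖((x, η, t) : E × E × ℝ) - (0, η₀, 0)‖ = max ‖x‖ (max ‖η - η₀‖ |t|) := fun x η t => by
    simp [Prod.norm_def]
  obtain ⟨⟨x, η, t⟩, hY, hY0, hmax⟩ := b3a_max hFc (0, η₀, 0) (r := 1 / 8) (by norm_num) (by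
    rintro ⟨x, η, t⟩ hY
    rw [hnorm] at hY
    have hx : ‖x‖ ≤ 1 / 8 := (le_max_left _ _).trans hY.le
    have hη : ‖η - η₀‖ ≤ 1 / 8 := ((le_max_left _ _).trans (le_max_right _ _)).trans hY.le
    have ht : |t| ≤ 1 / 8 := ((le_max_right _ _).trans (le_max_right _ _)).trans hY.le
    have hs : 1 / 64 ≤ ‖x‖ ^ 2 + t ^ 2 + ‖η - η₀‖ ^ 2 := by
      rw [← sq_abs t]
      rcases max_choice ‖x‖ (max ‖η - η₀‖ |t|) with h | h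
      · rw [h] at hY
        rw [hY]
        nlinarith [sq_nonneg |t|, sq_nonneg ‖η - η₀‖]
      · rw [h] at hY
        rcases max_choice ‖η - η₀‖ |t| with h' | h' <;> rw [h'] at hY <;> rw [hY] <;>
          nlinarith [sq_nonneg |t|, sq_nonneg ‖η - η₀‖, sq_nonneg ‖x‖]
    refine lt_of_lt_of_le ?_ h0
    rw [hFe]
    refine mul_lt_mul_of_pos_left ?_ hδ
    have h1 := b3a_up hCE H hx ht hη Z₀
    have h2 := hsq (hf x η t hx ht hη).1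
    have h3 := hsq (hf x η t hx ht hη).2
    have h4 := mul_le_mul_of_nonneg_left hs hβ0
    linarith)
  rw [hnorm] at hY
  have hx : ‖x‖ ≤ 1 / 8 := (le_max_left _ _).trans hY.le
  have hη : ‖η - η₀‖ ≤ 1 / 8 := ((le_max_left _ _).trans (le_max_right _ _)).trans hY.le
  have ht : |t| ≤ 1 / 8 := ((le_max_right _ _).trans (le_max_right _ _)).trans hY.le
  refine ⟨x, η, t, hx, ht, hη, (hf x η t hx ht hη).1, (hf x η t hx ht hη).2, ?_, ?_⟩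
  · have h1 := h0.trans hY0
    rw [hFe] at h1
    have h5 := le_of_mul_le_mul_left h1 hδ
    have h2 := hsq (hf x η t hx ht hη).1
    have h3 := hsq (hf x η t hx ht hη).2
    have h4 : 0 ≤ β * (‖x‖ ^ 2 + t ^ 2 + ‖η - η₀‖ ^ 2) := by positivity
    linarith
  · refine hmax.mono fun Z hZ => ?_
    rw [hF, hF] at hZ
    exact hZ

/-- `Q = ‖Z₀‖`, `f = Tp δ w`, `|f| ≤ M` on `‖X‖ ≤ 2` (`grow_flow`), `β = 64(2 + M² + CE + CE(1+Q))`.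
Maximise `Φ = Phi c δ (1-c) δ c δ w x η t (δ • Z₀) - (κ + δa)‖η‖ - δβ(‖x‖² + t² + ‖η-η₀‖²)`
(`= Reg - … + δ(f₁² + f₂²)/2`) over the compact set `‖x‖, |t|, ‖η - η₀‖ ≤ 1/8`. `e1` at the centre,
`e2` (`δ' = δ`, `r = 1/8`) on the boundary: the maximiser is interior and
`J0 ≥ n + a(‖η‖-1) - δ - M²` there. `pin` (with `e2`, `e = CE`, `d = O(1+Q)`) gives `‖p‖ ≤ C(1+Q)`.
`engineC` with `aᵢ = cᵢ + δfᵢ ≥ cᵢ/2`, `κ' = κ + δa ∈ [κ/2, 3κ/2]`, `gx = 2δβ • x`,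
`gη = 2δβ • (η - η₀)`, `r = 2δβt`, `A = 2δβ`, `D = δβ(2‖v̄‖² + 2‖d‖² + 1)`; `‖vᵢ‖ ≤ C(1+Q)`;
`v̄ - p = gx - δ(f₁ • v₁ + f₂ • v₂)` and
`d = (c(1-c))⁻¹ • (κ' • η̂ + gη) - δ((f₂/c) • v₂ - (f₁/(1-c)) • v₁)`, so `‖v̄ - p‖, ‖d⊥‖ ≤ Cδ(1+Q)`.
Hence `δ(kᵢ + ‖vᵢ‖²/2)² ≤ Cδ(1+Q)³` and `kᵢ ≥ -C(1+Q²)`. -/
theorem b3a {c κ Λ CE : ℝ} (hc0 : 0 < c) (hc1 : c < 1) (hκ : 0 < κ) (hCE : 0 ≤ CE) :
    ∃ C δ₀ : ℝ, 0 < C ∧ 0 < δ₀ ∧ ∀ (w : E × ℝ → ℝ) (δ : ℝ) (η₀ Z₀ : E) (n a : ℝ),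
      Ext c κ Λ CE w δ η₀ Z₀ n a → δ * (1 + ‖Z₀‖) ≤ δ₀ →
      ∃ (x η : E) (t : ℝ), ‖x‖ ≤ 1 / 8 ∧ |t| ≤ 1 / 8 ∧ ‖η - η₀‖ ≤ 1 / 8 ∧
        n + a * (‖η‖ - 1) - C ≤ J0 c κ δ w x η t Z₀ ∧
        -(C * δ * (1 + ‖Z₀‖ ^ 2)) ≤ Tp (2 * δ) w (x - c • η, t) - Tp δ w (x - c • η, t) ∧
        -(C * δ * (1 + ‖Z₀‖ ^ 2)) ≤
          Tp (2 * δ) w (x + (1 - c) • η, t) - Tp δ w (x + (1 - c) • η, t) := by
  obtain ⟨Cg, hCg, hg⟩ := grow_flow (E := E) Λ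
  obtain ⟨M, hMe⟩ : ∃ M, M = Cg * (2 * √2) := ⟨_, rfl⟩
  have hM0 : 0 < M := by rw [hMe]; positivity
  obtain ⟨m, hme⟩ : ∃ m, m = c * (1 - c) := ⟨_, rfl⟩
  have hm : 0 < m := by rw [hme]; exact mul_pos hc0 (sub_pos.2 hc1)
  obtain ⟨B, hBe⟩ : ∃ B, B = 64 * (2 + M ^ 2 + 2 * CE) := ⟨_, rfl⟩
  have hB : 0 < B := by rw [hBe]; positivity
  obtain ⟨K, hKe⟩ : ∃ K, K = 12 * (1 + M ^ 2 + 2 * CE) + 4 * CE ^ 2 := ⟨_, rfl⟩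
  have hK : 1 ≤ K := by rw [hKe]; nlinarith [sq_nonneg M, sq_nonneg CE]
  obtain ⟨V, hVe⟩ : ∃ V, V = 2 * (K + 3 + 2 * κ) / m := ⟨_, rfl⟩
  obtain ⟨G, hGe⟩ : ∃ G, G = B + 2 * M * V := ⟨_, rfl⟩
  obtain ⟨L, hLe⟩ : ∃ L, L = 4 * B * (10 * V ^ 2 + 1) + 32 * κ * (G / m) ^ 2 + 8 * G ^ 2 := ⟨_, rfl⟩
  have hL : 0 ≤ L := by rw [hLe]; positivity
  refine ⟨2 * (L + 1 + V ^ 2) + (1 + M ^ 2), min (1 / 2) (min (m / 2 / M) (1 / B)), by positivity,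
    by positivity, fun w δ η₀ Z₀ n a H hδ₀ => ?_⟩
  have hδ := H.δpos
  have hw : Ent w := H.bmo.ent
  have hQ : 0 ≤ ‖Z₀‖ := norm_nonneg _
  have hq : 1 ≤ 1 + ‖Z₀‖ := by linarith
  have hδq : δ ≤ δ * (1 + ‖Z₀‖) := le_mul_of_one_le_right hδ.le hq
  have hδ1 : δ ≤ 1 / 2 := hδq.trans (hδ₀.trans (min_le_left _ _))
  have hδ2 : δ * M ≤ c * (1 - c) / 2 := by
    rw [← hme, ← le_div_iff₀ hM0]
    exact hδq.trans (hδ₀.trans ((min_le_right _ _).trans (min_le_left _ _)))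
  have hδ3 : δ * (1 + ‖Z₀‖) * B ≤ 1 := by
    rw [← le_div_iff₀ hB]
    exact hδ₀.trans ((min_le_right _ _).trans (min_le_right _ _))
  obtain ⟨β, hβe⟩ : ∃ β, β = 64 * (2 + M ^ 2 + CE + CE * (1 + ‖Z₀‖)) := ⟨_, rfl⟩
  have hβ0 : 0 ≤ β := by rw [hβe]; positivity
  have hβ : β ≤ B * (1 + ‖Z₀‖) := by
    rw [hβe, hBe]
    linarith [mul_nonneg hQ (sq_nonneg M), mul_nonneg hQ hCE]
  obtain ⟨x, η, t, hx, ht, hη, hf₁, hf₂, hJ, hmax⟩ := b3a_point hc0 hc1 hCE H (by linarith)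
    (M := M) (fun X hX => by
      rw [hMe]
      exact (hg w H.bmo.cls H.nrm X 2 (by norm_num) hX δ hδ hδ1).2.2.1) hβe
  have hηn : 1 / 2 ≤ ‖η‖ := by
    have := norm_sub_norm_le η₀ η
    rw [H.unit, norm_sub_rev] at this
    linarith
  have hη0 : η ≠ 0 := norm_pos_iff.1 (by linarith)
  obtain ⟨p, hp⟩ := hw.csq.exists_isVel hδ (x + δ • Z₀, t)
  have hp1 : ‖p + Z₀‖ ^ 2 ≤ 12 * (1 + M ^ 2 + CE + CE * (1 + ‖Z₀‖)) + 4 * CE ^ 2 := by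
    refine pin (c := c) (κ := κ) (η := η) hw.csq hδ hp hCE fun Z => ?_
    have h1 := b3a_up hCE H hx ht hη Z
    have h2 : ‖Z‖ ≤ ‖Z₀‖ + ‖Z - Z₀‖ := by linarith [norm_sub_norm_le Z Z₀]
    have h3 := mul_le_mul_of_nonneg_left h2 hCE
    linarith
  have hp2 : ‖p‖ ≤ (K + 1) * (1 + ‖Z₀‖) := by
    have h1 : ‖p + Z₀‖ ^ 2 ≤ K * (1 + ‖Z₀‖) := by
      rw [hKe]
      linarith [mul_nonneg hQ (sq_nonneg M), mul_nonneg hQ hCE, mul_nonneg hQ (sq_nonneg CE)]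
    have h2 : 1 ≤ K * (1 + ‖Z₀‖) := one_le_mul_of_one_le_of_one_le hK hq
    have h3 : ‖p + Z₀‖ ≤ K * (1 + ‖Z₀‖) :=
      (abs_le_of_sq_le_sq' (h1.trans (le_self_pow₀ h2 two_ne_zero)) (zero_le_one.trans h2)).2
    have h4 := norm_sub_le (p + Z₀) Z₀
    rw [add_sub_cancel_right] at h4
    linarith
  have hκa := abs_le.1 (show |δ * a| ≤ κ / 2 by rw [abs_mul, abs_of_pos hδ]; exact H.aup)
  have hκ0 : 0 ≤ κ + δ * a := by linarith [hκa.1]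
  have hκ2 : κ + δ * a ≤ 2 * κ := by linarith [hκa.2]
  have hgv : ∀ y : E, ‖y‖ ≤ 1 / 8 → ‖(2 * (δ * β)) • y‖ ≤ δ * (1 + ‖Z₀‖) * B := fun y hy => by
    rw [norm_smul, Real.norm_eq_abs, abs_of_nonneg (by positivity)]
    calc 2 * (δ * β) * ‖y‖ ≤ 2 * (δ * (B * (1 + ‖Z₀‖))) * (1 / 2) := by
          gcongr
          linarith
      _ = _ := by ring
  have hgx := hgv x hx
  have hgη := hgv _ hη
  generalize hf1 : Tp δ w (x - c • η, t) = f₁ at hf₁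
  generalize hf2 : Tp δ w (x + (1 - c) • η, t) = f₂ at hf₂
  have ha₁ : 0 < 1 - c + δ * f₁ := (b3a_pos hc0 hc1 hδ hδ2 hf₁).1
  have ha₂ : 0 < c + δ * f₂ := (b3a_pos hc0 hc1 hδ hδ2 hf₂).2
  obtain ⟨v₁, hv₁⟩ : ∃ v₁ : E, (1 - c + δ * f₁) • v₁ = (1 - c) • (p + (2 * (δ * β)) • x) -
      ((κ + δ * a) / ‖η‖) • η - (2 * (δ * β)) • (η - η₀) := ⟨_, smul_inv_smul₀ ha₁.ne' _⟩
  obtain ⟨v₂, hv₂⟩ : ∃ v₂ : E, (c + δ * f₂) • v₂ = c • (p + (2 * (δ * β)) • x) +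
      ((κ + δ * a) / ‖η‖) • η + (2 * (δ * β)) • (η - η₀) := ⟨_, smul_inv_smul₀ ha₂.ne' _⟩
  obtain ⟨b1, b2, b3, b4⟩ := b3a_vec hc0 hc1 hδ hδ2 hf₁ hf₂ hκ0 hη0 hv₁ hv₂
  rw [← hme] at b1 b2 b4
  have hV : ∀ {u : ℝ}, m / 2 * u ≤ ‖p‖ + ‖(2 * (δ * β)) • x‖ + (κ + δ * a) +
      ‖(2 * (δ * β)) • (η - η₀)‖ → u ≤ V * (1 + ‖Z₀‖) := fun {u} hu => by
    rw [hVe, div_mul_eq_mul_div, le_div_iff₀ hm]
    linarith [mul_nonneg hQ hκ.le]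
  have hV₁ := hV b1
  have hV₂ := hV b2
  have hG : δ * (1 + ‖Z₀‖) * B + δ * M * (‖v₁‖ + ‖v₂‖) ≤ δ * (1 + ‖Z₀‖) * G := by
    have := mul_le_mul_of_nonneg_left (add_le_add hV₁ hV₂) (mul_pos hδ hM0).le
    rw [hGe]
    linarith
  obtain ⟨k₁, k₂, -, hk₁, -, hk₂, hk⟩ := engineC hw hδ c x η (δ • Z₀) t hη0 (α₁ := 1 - c) (γ₁ := δ)
    (α₂ := c) (γ₂ := δ) hδ.le hδ.le (by rw [hf1]) (by rw [hf2]) ha₁ ha₂ hκ0 hp _ _ v₁ v₂ hv₁ hv₂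
    (2 * (δ * β) * t) (2 * (δ * β))
    (δ * β * (2 * ‖(1 - c) • v₁ + c • v₂‖ ^ 2 + 2 * ‖v₂ - v₁‖ ^ 2 + 1)) (hmax.mono fun Z hZ => by
      have e1 := norm_add_sq_real x Z.1
      have e2 := norm_add_sq_real (η - η₀) Z.2.1
      rw [add_sub_right_comm, e1, e2] at hZ
      rw [real_inner_smul_left, real_inner_smul_left]
      have s1 := mul_le_mul_of_nonneg_left (b3a_split Z.1 ((1 - c) • v₁ + c • v₂) Z.2.2)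
        (mul_nonneg hδ.le hβ0)
      have s2 := mul_le_mul_of_nonneg_left (b3a_split Z.2.1 (v₂ - v₁) Z.2.2) (mul_nonneg hδ.le hβ0)
      linarith)
  have hnb : ‖(1 - c) • v₁ + c • v₂‖ ≤ V * (1 + ‖Z₀‖) := by
    refine (norm_add_le _ _).trans ?_
    rw [norm_smul, norm_smul, Real.norm_eq_abs, Real.norm_eq_abs, abs_of_pos hc0,
      abs_of_pos (sub_pos.2 hc1)]
    linarith [mul_le_mul_of_nonneg_left hV₁ (sub_pos.2 hc1).le, mul_le_mul_of_nonneg_left hV₂ hc0.le]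
  have hR := hk.trans (b3a_rhs (κ := κ) (V := V) (G := G) hδ (by linarith) hq hβ0 hβ hm hκ0 hκ2 hηn
    (norm_nonneg _) hnb (norm_nonneg _) (by linarith [norm_sub_le v₂ v₁]) (norm_nonneg _)
    (by linarith) (norm_nonneg _) (by linarith))
  rw [← hLe] at hR
  have hs₁ : 0 ≤ δ * (k₁ + ‖v₁‖ ^ 2 / 2) ^ 2 := by positivity
  have hs₂ : 0 ≤ δ * (k₂ + ‖v₂‖ ^ 2 / 2) ^ 2 := by positivity
  have hC : 2 * (L + 1 + V ^ 2) ≤ 2 * (L + 1 + V ^ 2) + (1 + M ^ 2) :=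
    le_add_of_nonneg_right (by positivity)
  refine ⟨x, η, t, hx, ht, hη, ?_, b3a_last hδ hL hQ (norm_nonneg _) hV₁ (by linarith) hk₁ hC,
    b3a_last hδ hL hQ (norm_nonneg _) hV₂ (by linarith) hk₂ hC⟩
  have : 0 ≤ 2 * (L + 1 + V ^ 2) := by positivity
  linarith

end R94
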