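import Crest.Agent.R94.Hold0

/-!
# R94/Hold: Hölder bounds from flatness gauges and back; the a-priori class `AP`
-/

set_option autoImplicit false
set_option linter.unusedSectionVars false
set_option linter.unusedVariables false

open Set Filter Topology Metric
open scoped InnerProductSpace

namespace R94

variable {E : Type} [NormedAddCommGroup E] [InnerProductSpace ℝ E] [FiniteDimensional ℝ E]

variable {w : E × ℝ → ℝ} {X X₀ : E × ℝ} {O O' : Set (E × ℝ)} {b : E} {h a τ β β' L : ℝ}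

theorem AP.mono (H : AP O w) (hO : O' ⊆ O) : AP O' w := fun X hX => H X (hO hX)

theorem hold_aux {p : E × ℝ → E × ℝ} {g u : E × ℝ → ℝ} {A B c r : ℝ} (hr : 0 < r) (hA : 0 ≤ A)
    (hB : 0 ≤ B) (H : HolOn (1 / 4) L (ball (p X) r) w)
    (hp : ∀ Y Y', ‖p Y - p Y'‖ ≤ A * ‖Y - Y'‖) (hg : ∀ Y Y', |g Y - g Y'| ≤ B * ‖Y - Y'‖)
    (hu : ∀ Y, u Y = c * w (p Y) + g Y) :
    ∃ r' L' : ℝ, 0 < r' ∧ HolOn (1 / 4) L' (ball X r') u := by
  have hm : ∀ Y ∈ ball X (min (1 / 2) (r / (A + 1))), p Y ∈ ball (p X) r := by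
    intro Y hY
    rw [mem_ball_iff_norm] at hY ⊢
    have h1 : ‖Y - X‖ < r / (A + 1) := hY.trans_le (min_le_right _ _)
    rw [lt_div_iff₀ (by positivity)] at h1
    have := hp Y X
    nlinarith [norm_nonneg (Y - X)]
  refine ⟨min (1 / 2) (r / (A + 1)), |c| * (|L| * A ^ (1 / 4 : ℝ)) + B,
    lt_min (by norm_num) (by positivity), fun Y hY Y' hY' => ?_⟩
  have h1 := H _ (hm Y hY) _ (hm Y' hY')
  have hd : ‖Y - Y'‖ ≤ 1 := by
    rw [mem_ball_iff_norm] at hY hY'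
    have e : Y - Y' = (Y - X) - (Y' - X) := by abel
    have := norm_sub_le (Y - X) (Y' - X)
    have := min_le_left (1 / 2 : ℝ) (r / (A + 1))
    rw [e]; linarith
  have h2 : ‖Y - Y'‖ ≤ ‖Y - Y'‖ ^ (1 / 4 : ℝ) :=
    Real.self_le_rpow_of_le_one (norm_nonneg _) hd (by norm_num)
  have h3 : ‖p Y - p Y'‖ ^ (1 / 4 : ℝ) ≤ A ^ (1 / 4 : ℝ) * ‖Y - Y'‖ ^ (1 / 4 : ℝ) := by
    rw [← Real.mul_rpow hA (norm_nonneg _)]
    exact Real.rpow_le_rpow (norm_nonneg _) (hp Y Y') (by norm_num)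
  have h4 : |w (p Y) - w (p Y')| ≤ |L| * (A ^ (1 / 4 : ℝ) * ‖Y - Y'‖ ^ (1 / 4 : ℝ)) :=
    h1.trans (mul_le_mul (le_abs_self _) h3 (Real.rpow_nonneg (norm_nonneg _) _) (abs_nonneg _))
  have h5 : |g Y - g Y'| ≤ B * ‖Y - Y'‖ ^ (1 / 4 : ℝ) :=
    (hg Y Y').trans (mul_le_mul_of_nonneg_left h2 hB)
  have e : u Y - u Y' = c * (w (p Y) - w (p Y')) + (g Y - g Y') := by rw [hu, hu]; ring
  rw [e]
  refine (abs_add_le _ _).trans ?_
  rw [abs_mul]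
  have h6 := mul_le_mul_of_nonneg_left h4 (abs_nonneg c)
  nlinarith

theorem AP.rev (H : AP O w) : AP {X | -X ∈ O} (rev w) := by
  intro X hX
  obtain ⟨r, L, hr, h⟩ := H (-X) hX
  refine hold_aux (p := fun Y => -Y) (g := fun _ => 0) (A := 1) (B := 0) (c := -1) hr zero_le_one
    le_rfl h (fun Y Y' => ?_) (fun Y Y' => by simp) fun Y => by simp
  rw [one_mul, neg_sub_neg, norm_sub_rev]

theorem hold_pt_lip (X₀ : E × ℝ) (b : E) (ha : 0 < a) (hτ : 0 < τ) (Y Y' : E × ℝ) :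
    ‖pt X₀ b a τ Y - pt X₀ b a τ Y'‖ ≤ (a + τ * ‖b‖ + τ) * ‖Y - Y'‖ := by
  have e : pt X₀ b a τ Y - pt X₀ b a τ Y' =
      (a • (Y - Y').1 + (τ * (Y - Y').2) • b, τ * (Y - Y').2) := by
    refine Prod.ext ?_ ?_
    · simp only [pt, Prod.fst_sub, Prod.snd_sub, smul_sub, mul_sub, sub_smul]; abel
    · simp only [pt, Prod.snd_sub]; ring
  have h1 : ‖(Y - Y').1‖ ≤ ‖Y - Y'‖ := norm_fst_le _
  have h2 : |(Y - Y').2| ≤ ‖Y - Y'‖ := norm_snd_le (Y - Y')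
  have h0 := norm_nonneg (Y - Y')
  have h3 : τ * |(Y - Y').2| ≤ τ * ‖Y - Y'‖ := mul_le_mul_of_nonneg_left h2 hτ.le
  have hb := norm_nonneg b
  rw [e, Prod.norm_mk]
  refine max_le ((norm_add_le _ _).trans ?_) ?_
  · rw [norm_smul, norm_smul, Real.norm_of_nonneg ha.le, Real.norm_eq_abs, abs_mul, abs_of_pos hτ]
    have := mul_le_mul_of_nonneg_left h1 ha.le
    have := mul_le_mul_of_nonneg_right h3 hb
    nlinarith [mul_nonneg hτ.le h0]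
  · rw [Real.norm_eq_abs, abs_mul, abs_of_pos hτ]
    nlinarith [mul_nonneg ha.le h0, mul_nonneg (mul_nonneg hτ.le hb) h0]

/-- `pt` is Lipschitz, the affine part of `sym` is Lipschitz, hence Hölder on small balls. -/
theorem AP.sym (H : AP O w) (ha : 0 < a) (hτ : 0 < τ) :
    AP (pt X₀ b a τ ⁻¹' O) (sym X₀ b h a τ w) := by
  intro X hX
  obtain ⟨r, L, hr, hh⟩ := H _ hX
  refine hold_aux (p := pt X₀ b a τ)
    (g := fun Y => (-w X₀ - a * ⟪b, Y.1⟫_ℝ - (h + ‖b‖ ^ 2 / 2) * (τ * Y.2)) * (τ / a ^ 2))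
    (A := a + τ * ‖b‖ + τ) (B := (a * ‖b‖ + |h + ‖b‖ ^ 2 / 2| * τ) * (τ / a ^ 2)) (c := τ / a ^ 2)
    hr (by positivity) (by positivity) hh (hold_pt_lip X₀ b ha hτ) (fun Y Y' => ?_)
    fun Y => by simp only [R94.sym]; ring
  have e : (-w X₀ - a * ⟪b, Y.1⟫_ℝ - (h + ‖b‖ ^ 2 / 2) * (τ * Y.2)) * (τ / a ^ 2) -
      (-w X₀ - a * ⟪b, Y'.1⟫_ℝ - (h + ‖b‖ ^ 2 / 2) * (τ * Y'.2)) * (τ / a ^ 2) =
      -((a * ⟪b, (Y - Y').1⟫_ℝ + (h + ‖b‖ ^ 2 / 2) * (τ * (Y - Y').2)) * (τ / a ^ 2)) := by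
    rw [Prod.fst_sub, Prod.snd_sub, inner_sub_right]; ring
  have h1 : ‖(Y - Y').1‖ ≤ ‖Y - Y'‖ := norm_fst_le _
  have h2 : |(Y - Y').2| ≤ ‖Y - Y'‖ := norm_snd_le (Y - Y')
  have h3 : |⟪b, (Y - Y').1⟫_ℝ| ≤ ‖b‖ * ‖Y - Y'‖ :=
    (abs_real_inner_le_norm _ _).trans (mul_le_mul_of_nonneg_left h1 (norm_nonneg _))
  rw [e, abs_neg, abs_mul, abs_of_pos (by positivity : 0 < τ / a ^ 2), mul_right_comm]
  refine mul_le_mul_of_nonneg_right ((abs_add_le _ _).trans ?_) (by positivity)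
  rw [abs_mul, abs_mul, abs_mul, abs_of_pos ha, abs_of_pos hτ]
  have h4 := mul_le_mul_of_nonneg_left h3 ha.le
  have h5 := mul_le_mul_of_nonneg_left (mul_le_mul_of_nonneg_left h2 hτ.le)
    (abs_nonneg (h + ‖b‖ ^ 2 / 2))
  nlinarith

theorem AP.add_time (H : AP O w) (l : ℝ) : AP O (fun Y => w Y + l * Y.2) := by
  intro X hX
  obtain ⟨r, L, hr, h⟩ := H X hX
  refine hold_aux (p := fun Y => Y) (g := fun Y => l * Y.2) (A := 1) (B := |l|) (c := 1) hr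
    zero_le_one (abs_nonneg _) h (fun Y Y' => by rw [one_mul]) (fun Y Y' => ?_) fun Y => by simp
  rw [← mul_sub, abs_mul]
  exact mul_le_mul_of_nonneg_left (norm_snd_le (Y - Y')) (abs_nonneg _)

/-- Lebesgue number of the cover by the balls of `AP`, and boundedness of `w` on `K`. -/
theorem AP.holOn_compact (H : AP O w) {K : Set (E × ℝ)} (hK : IsCompact K) (hKO : K ⊆ O) :
    ∃ L : ℝ, 0 ≤ L ∧ HolOn (1 / 4) L K w := by
  have hc : ContinuousOn w K := fun X hX => by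
    obtain ⟨r, L, hr, h⟩ := H X (hKO hX)
    exact ((h.continuousOn (by norm_num)).continuousAt (ball_mem_nhds X hr)).continuousWithinAt
  obtain ⟨M, hM⟩ := hK.exists_bound_of_continuousOn hc
  have key : ∃ L δ : ℝ, 0 ≤ L ∧ 0 < δ ∧ ∀ Y ∈ K, ∀ Y', ‖Y - Y'‖ < δ →
      |w Y - w Y'| ≤ L * ‖Y - Y'‖ ^ (1 / 4 : ℝ) := by
    refine hK.induction_on (p := fun s => ∃ L δ : ℝ, 0 ≤ L ∧ 0 < δ ∧ ∀ Y ∈ s, ∀ Y', ‖Y - Y'‖ < δ →
      |w Y - w Y'| ≤ L * ‖Y - Y'‖ ^ (1 / 4 : ℝ)) ⟨0, 1, le_rfl, one_pos, by simp⟩ ?_ ?_ ?_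
    · rintro s t hst ⟨L, δ, hL, hδ, h⟩
      exact ⟨L, δ, hL, hδ, fun Y hY => h Y (hst hY)⟩
    · rintro s t ⟨L, δ, hL, hδ, h⟩ ⟨L', δ', hL', hδ', h'⟩
      refine ⟨max L L', min δ δ', le_max_of_le_left hL, lt_min hδ hδ', ?_⟩
      rintro Y (hY | hY) Y' hd
      · exact (h Y hY Y' (hd.trans_le (min_le_left _ _))).trans (mul_le_mul_of_nonneg_right
          (le_max_left _ _) (Real.rpow_nonneg (norm_nonneg _) _))
      · exact (h' Y hY Y' (hd.trans_le (min_le_right _ _))).trans (mul_le_mul_of_nonneg_right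
          (le_max_right _ _) (Real.rpow_nonneg (norm_nonneg _) _))
    · intro X hX
      obtain ⟨r, L, hr, h⟩ := H X (hKO hX)
      refine ⟨ball X (r / 2), mem_nhdsWithin_of_mem_nhds (ball_mem_nhds X (by positivity)),
        |L|, r / 2, abs_nonneg _, by positivity, fun Y hY Y' hd => ?_⟩
      have h1 : Y' ∈ ball X r := by
        rw [mem_ball_iff_norm] at hY ⊢
        have e : Y' - X = (Y - X) - (Y - Y') := by abel
        have := norm_sub_le (Y - X) (Y - Y')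
        rw [e]; linarith
      exact (h Y (ball_subset_ball (by linarith) hY) Y' h1).trans (mul_le_mul_of_nonneg_right
        (le_abs_self _) (Real.rpow_nonneg (norm_nonneg _) _))
  obtain ⟨L, δ, hL, hδ, h⟩ := key
  have hp : 0 < δ ^ (1 / 4 : ℝ) := Real.rpow_pos_of_pos hδ _
  refine ⟨L + 2 * |M| / δ ^ (1 / 4 : ℝ), by positivity, fun Y hY Y' hY' => ?_⟩
  have hn : 0 ≤ ‖Y - Y'‖ ^ (1 / 4 : ℝ) := Real.rpow_nonneg (norm_nonneg _) _
  rw [add_mul]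
  rcases lt_or_ge ‖Y - Y'‖ δ with hd | hd
  · have := h Y hY Y' hd
    have h2 : 0 ≤ 2 * |M| / δ ^ (1 / 4 : ℝ) * ‖Y - Y'‖ ^ (1 / 4 : ℝ) := by positivity
    linarith
  · have h1 : |w Y| ≤ |M| := (hM Y hY).trans (le_abs_self _)
    have h2 : |w Y'| ≤ |M| := (hM Y' hY').trans (le_abs_self _)
    have h3 := abs_sub (w Y) (w Y')
    have h4 : δ ^ (1 / 4 : ℝ) ≤ ‖Y - Y'‖ ^ (1 / 4 : ℝ) := Real.rpow_le_rpow hδ.le hd (by norm_num)
    have h5 : 2 * |M| ≤ 2 * |M| / δ ^ (1 / 4 : ℝ) * ‖Y - Y'‖ ^ (1 / 4 : ℝ) := by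
      calc 2 * |M| = 2 * |M| / δ ^ (1 / 4 : ℝ) * δ ^ (1 / 4 : ℝ) := by field_simp
        _ ≤ _ := mul_le_mul_of_nonneg_left h4 (by positivity)
    have h6 : 0 ≤ L * ‖Y - Y'‖ ^ (1 / 4 : ℝ) := by positivity
    linarith

/-- `hol_of_gauge` with `γ = 0` on `ball X (1/2)` (`w` is bounded on `closedBall X 1`), `lower`. -/
theorem BMO.ap (hw : BMO w) : AP univ w := by
  intro X _
  obtain ⟨M, hM⟩ := (isCompact_closedBall X 1).exists_bound_of_continuousOn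
    (hw.1.1.1.mono (subset_univ _))
  obtain ⟨H, hH, hh⟩ := hol_of_gauge (E := E) (γ := 0) (M := M) (C := 1) (r := 1 / 2)
    le_rfl one_pos zero_le_one (by norm_num)
  have h1 := hh univ w X (subset_univ _)
    (fun Y hY => hM Y (ball_subset_closedBall (by simpa using hY)))
    fun Y _ ρ h0 _ => by simpa using hw.2 Y ρ h0
  refine ⟨1 / 2, _, by norm_num, h1.lower (D := 1) hH (by norm_num) (by norm_num) ?_⟩
  intro Y hY Y' hY'
  rw [mem_ball_iff_norm] at hY hY'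
  have e : Y - Y' = (Y - X) - (Y' - X) := by abel
  have := norm_sub_le (Y - X) (Y' - X)
  rw [e]; linarith

/-- `IsSol.sym`, `AP.sym`, `CFw.sym_self` (with `lam = 1`, `h' = h`) read at `η = y`. -/
theorem BMO.slab_sym {ρ v : ℝ} (hw : BMO w) (hρ : 0 < ρ) (hv : 0 < v)
    (H : CFw univ w X₀ ρ (v ^ 2) b h) : Slab 1 1 (sym X₀ b h (v * ρ) ρ w) := by
  have ha : 0 < v * ρ := mul_pos hv hρ
  refine ⟨(hw.1.sym ha hρ).mono (subset_univ _), (hw.ap.sym ha hρ).mono (subset_univ _),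
    sym_zero _ _ _ _ _ _, fun X hX => ?_⟩
  have h1 : CFw univ w X₀ ρ (v ^ 2 * 1) b h := by rwa [mul_one]
  have h2 := h1.sym_self hρ hv h X.1 X.2 hX.le (mem_univ _)
  simpa using h2

theorem Slab.rev {K Λ : ℝ} (hw : Slab K Λ w) : Slab K Λ (rev w) := by
  have hs : slab E 1 ⊆ {X : E × ℝ | -X ∈ slab E 1} := fun X hX => by simpa using hX
  refine ⟨hw.1.rev.mono hs, hw.2.1.rev.mono hs, by simp [hw.2.2.1], fun X hX => ?_⟩
  have := hw.2.2.2 (-X) (by simpa using hX)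
  simpa using this

theorem Slab.add_time {K Λ : ℝ} (hw : Slab K Λ w) (l : ℝ) :
    Slab (K + |l|) Λ (fun Y => w Y + l * Y.2) := by
  refine ⟨hw.1.add_time l, hw.2.1.add_time l, by simp [hw.2.2.1], fun X hX => ?_⟩
  have h1 := hw.2.2.2 X hX
  have h2 := abs_add_le (w X) (l * X.2)
  have h3 : |l * X.2| ≤ |l| := by
    rw [abs_mul]; exact mul_le_of_le_one_right (abs_nonneg _) hX.le
  show |w X + l * X.2| ≤ _
  linarith

/-- Galilean change of frame at the origin: `‖y + σ • b‖² ≤ 2‖y‖² + 2‖b‖²`, `‖b‖‖y‖ ≤ ‖y‖² + ‖b‖²`. -/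
theorem Slab.gal {K Λ : ℝ} (hw : Slab K Λ w) (hΛ : 0 ≤ Λ) (b : E) (h : ℝ) :
    ∃ K' : ℝ, Slab K' (2 * Λ + 1) (sym 0 b h 1 1 w) := by
  have hs : slab E 1 ⊆ pt (0 : E × ℝ) b 1 1 ⁻¹' slab E 1 := fun X hX => by simpa [pt] using hX
  refine ⟨K + 2 * Λ * ‖b‖ ^ 2 + ‖b‖ ^ 2 + |h + ‖b‖ ^ 2 / 2|, (hw.1.sym one_pos one_pos).mono hs,
    (hw.2.1.sym one_pos one_pos).mono hs, sym_zero _ _ _ _ _ _, fun X hX => ?_⟩
  have e : sym 0 b h 1 1 w X =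
      w (X.1 + X.2 • b, X.2) - ⟪b, X.1⟫_ℝ - (h + ‖b‖ ^ 2 / 2) * X.2 := by
    simp [R94.sym, pt, hw.2.2.1]
  have h1 := hw.2.2.2 (X.1 + X.2 • b, X.2) hX
  have h2 : ‖X.1 + X.2 • b‖ ≤ ‖X.1‖ + ‖b‖ := by
    refine (norm_add_le _ _).trans ?_
    rw [norm_smul, Real.norm_eq_abs]
    have := mul_le_of_le_one_left (norm_nonneg b) hX.le
    linarith
  have h3 : ‖X.1 + X.2 • b‖ ^ 2 ≤ 2 * ‖X.1‖ ^ 2 + 2 * ‖b‖ ^ 2 := by
    have := pow_le_pow_left₀ (norm_nonneg _) h2 2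
    nlinarith [sq_nonneg (‖X.1‖ - ‖b‖)]
  have h4 : |⟪b, X.1⟫_ℝ| ≤ ‖X.1‖ ^ 2 + ‖b‖ ^ 2 := by
    have := abs_real_inner_le_norm b X.1
    nlinarith [sq_nonneg (‖X.1‖ - ‖b‖), norm_nonneg b, norm_nonneg X.1]
  have h5 : |(h + ‖b‖ ^ 2 / 2) * X.2| ≤ |h + ‖b‖ ^ 2 / 2| := by
    rw [abs_mul]; exact mul_le_of_le_one_right (abs_nonneg _) hX.le
  have h6 := mul_le_mul_of_nonneg_left h3 hΛ
  have h7 := abs_sub (w (X.1 + X.2 • b, X.2) - ⟪b, X.1⟫_ℝ) ((h + ‖b‖ ^ 2 / 2) * X.2)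
  have h8 := abs_sub (w (X.1 + X.2 • b, X.2)) ⟪b, X.1⟫_ℝ
  rw [e]
  simp only at h1
  nlinarith

end R94
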