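import Crest.Agent.R94.Cfg
import Crest.Agent.R94.Hold

/-!
# R94/Grow: growth of normalised functions of the classes `Cls`, `BMO`
All constants depend only on `Λ` (and the radius where stated).
-/

set_option autoImplicit false
set_option linter.unusedSectionVars false
set_option linter.unusedVariables false

open Set Filter Topology Metric
open scoped InnerProductSpace

namespace R94

variable {E : Type} [NormedAddCommGroup E] [InnerProductSpace ℝ E] [FiniteDimensional ℝ E]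

theorem grow_one_le_sqrt {R : ℝ} (hR : 1 ≤ R) : 1 ≤ √R := Real.one_le_sqrt.2 hR

theorem grow_log {R ρ : ℝ} (hR : 1 ≤ R) (hρ : 0 < ρ) (hle : ρ ≤ 2 * R) :
    1 + Real.log ρ ≤ 4 * √(√R) := by
  have h0 : 0 < R := by linarith
  have h1 : Real.log ρ ≤ Real.log 2 + Real.log R := by
    rw [← Real.log_mul two_ne_zero h0.ne']
    exact Real.log_le_log hρ hle
  have h2 : Real.log 2 ≤ 1 := by
    have := Real.log_le_sub_one_of_pos (show (0 : ℝ) < 2 by norm_num)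
    linarith
  have h3 : Real.log (√(√R)) = Real.log R / 4 := by
    rw [Real.log_sqrt (Real.sqrt_nonneg _), Real.log_sqrt h0.le]
    ring
  have h4 := Real.log_le_sub_one_of_pos (Real.sqrt_pos.2 (Real.sqrt_pos.2 h0))
  linarith

theorem grow_zero (Λ : ℝ) : ∃ C : ℝ, 0 < C ∧ ∀ w : E × ℝ → ℝ, Cls w → Nrm Λ w →
    ∀ (R ρ : ℝ), 1 ≤ R → 1 ≤ ρ → ρ ≤ 2 * R → ∀ (b : E) (h : ℝ), CFw univ w 0 ρ 1 b h →
      ‖b‖ ≤ C * √(√R) ∧ |h| ≤ C * √(√R) := by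
  obtain ⟨C, hC, H⟩ := chain_log (E := E) (Λ := max Λ 1) (lt_max_of_lt_right one_pos)
  refine ⟨4 * C, by positivity, fun w hw hN R ρ hR hρ hle b h hb => ?_⟩
  have hρ0 : 0 < ρ := by linarith
  obtain ⟨h1, h2⟩ := H w 0 ρ 1 b 0 h 0 one_pos hρ
    (fun ρ'' h1 _ => (hw.fl_one 0 h1).mono_lam (by linarith) (le_max_right _ _))
    (hb.mono_lam hρ0 (le_max_right _ _)) (hN.2.mono_lam one_pos (le_max_left _ _))
  rw [sub_zero, div_one] at h1 h2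
  have h3 := mul_le_mul_of_nonneg_left (grow_log hR hρ0 hle) hC.le
  constructor <;> linarith

theorem grow_norm_le {X : E × ℝ} {R : ℝ} (h : ‖X‖ ≤ R) : ‖X.1‖ ≤ R ∧ |X.2| ≤ R :=
  ⟨(norm_fst_le X).trans h, (norm_snd_le X).trans h⟩

/-- Frames at `0`: at scale `2R` a frame `(b₁,h₁)` (constant 1, `Cls.fl_one`) has
`‖b₁‖, |h₁| ≤ C(1 + log R)` (`chain_log` with `max Λ 1` against the zero frame of `Nrm`).
`recenter` it to `X = (y,t)` (`θ = t`, `ζ = y - t • b₁`, `‖ζ‖ ≤ R(1 + ‖b₁‖)`), compare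
(`compare_univ`) with a frame of constant 1 at `X`, scale `R`, then `chain_log` from `R` to `1`.
Everything is `≤ C (1 + log R)²  ≤ C' √R` (`log R ≤ 4 R^(1/4)`). -/
theorem grow_frame (Λ : ℝ) : ∃ C : ℝ, 0 < C ∧ ∀ w : E × ℝ → ℝ, Cls w → Nrm Λ w →
    ∀ (X : E × ℝ) (R : ℝ), 1 ≤ R → ‖X‖ ≤ R → ∀ (b : E) (h : ℝ), CFw univ w X 1 1 b h →
      ‖b‖ ^ 2 ≤ C * √R ∧ |h| ≤ C * √R := by
  obtain ⟨C₁, hC₁, H₁⟩ := grow_zero (E := E) Λ
  obtain ⟨C₂, hC₂, H₂⟩ := chain_log (E := E) (Λ := 1) one_pos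
  obtain ⟨A, hA⟩ : ∃ A : ℝ, A = 5 + 2 * (1 + C₁) ^ 2 := ⟨_, rfl⟩
  have hA1 : 1 ≤ A := by nlinarith [sq_nonneg (1 + C₁)]
  refine ⟨(C₁ + 3 * A + 4 * C₂) ^ 2 + (C₁ + 15 * A + 4 * C₂), by positivity,
    fun w hw hN X R hR hX b h hb => ?_⟩
  obtain ⟨hy, ht⟩ := grow_norm_le hX
  have hR0 : 0 < R := by linarith
  obtain ⟨u, hu⟩ : ∃ u : ℝ, u = √(√R) := ⟨_, rfl⟩
  have hu1 : 1 ≤ u := by rw [hu]; exact grow_one_le_sqrt (grow_one_le_sqrt hR)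
  have hu2 : √R = u ^ 2 := by rw [hu, Real.sq_sqrt (Real.sqrt_nonneg _)]
  have huu : u ≤ u ^ 2 := by nlinarith
  obtain ⟨b₁, h₁, F₁⟩ := hw.fl_one 0 (show 1 ≤ 2 * R by linarith)
  obtain ⟨hb₁, hh₁⟩ := H₁ w hw hN R (2 * R) hR (by linarith) le_rfl b₁ h₁ F₁
  rw [← hu] at hb₁ hh₁
  have hζ : ‖X.1 - X.2 • b₁‖ ≤ R * ((1 + C₁) * u) := by
    have e1 := norm_sub_le X.1 (X.2 • b₁)
    rw [norm_smul, Real.norm_eq_abs] at e1
    have e2 : |X.2| * ‖b₁‖ ≤ R * (C₁ * u) := mul_le_mul ht hb₁ (norm_nonneg _) hR0.le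
    have e3 : R * 1 ≤ R * u := mul_le_mul_of_nonneg_left hu1 hR0.le
    linarith
  have F₂ := F₁.recenter (by linarith) (ζ := X.1 - X.2 • b₁) (θ := X.2) (by linarith) (mem_univ _)
  have e1 : (((0 : E × ℝ).1 + (X.1 - X.2 • b₁) + X.2 • b₁, (0 : E × ℝ).2 + X.2) : E × ℝ) = X := by
    simp
  rw [e1, show 2 * R / 2 = R by ring] at F₂
  have hlam : 4 * 1 + 6 * ‖X.1 - X.2 • b₁‖ ^ 2 / (2 * R) ^ 2 ≤ (A - 1) * u ^ 2 := by
    have e2 : ‖X.1 - X.2 • b₁‖ ^ 2 ≤ (R * ((1 + C₁) * u)) ^ 2 :=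
      pow_le_pow_left₀ (norm_nonneg _) hζ 2
    have e3 : 6 * ‖X.1 - X.2 • b₁‖ ^ 2 / (2 * R) ^ 2 ≤ 2 * ((1 + C₁) ^ 2 * u ^ 2) := by
      rw [div_le_iff₀ (by positivity)]
      have : 0 ≤ (R * ((1 + C₁) * u)) ^ 2 := sq_nonneg _
      have e4 : 2 * ((1 + C₁) ^ 2 * u ^ 2) * (2 * R) ^ 2 = 8 * (R * ((1 + C₁) * u)) ^ 2 := by ring
      linarith
    have e5 : (A - 1) * u ^ 2 = 4 * u ^ 2 + 2 * ((1 + C₁) ^ 2 * u ^ 2) := by rw [hA]; ring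
    linarith
  obtain ⟨b₂, h₂, F₃⟩ := hw.fl_one X hR
  obtain ⟨c1, c2⟩ := (F₂.mono_lam hR0 hlam).compare_univ F₃ hR0 le_rfl le_rfl
    (D := A * u ^ 2 * R) (by positivity) (by
      have : 1 * R ≤ u ^ 2 * R := mul_le_mul_of_nonneg_right (by linarith) hR0.le
      linarith)
  rw [show 9 * (A * u ^ 2 * R) / R = 9 * (A * u ^ 2) by field_simp] at c1
  rw [show 15 * (A * u ^ 2 * R) / R = 15 * (A * u ^ 2) by field_simp] at c2
  have c3 : ‖b₁ - b₂‖ ≤ 3 * A * u := by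
    refine (pow_le_pow_iff_left₀ (norm_nonneg _) (by positivity) two_ne_zero).1 (c1.trans ?_)
    have : A * u ^ 2 ≤ A ^ 2 * u ^ 2 := mul_le_mul_of_nonneg_right (by nlinarith) (sq_nonneg _)
    linarith [show (3 * A * u) ^ 2 = 9 * (A ^ 2 * u ^ 2) by ring]
  obtain ⟨d1, d2⟩ := H₂ w X R 1 b₂ b h₂ h one_pos hR (fun ρ'' h1 _ => hw.fl_one X h1) F₃ hb
  rw [div_one] at d1 d2
  have d3 := mul_le_mul_of_nonneg_left (grow_log hR hR0 (by linarith)) hC₂.le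
  rw [← hu] at d3
  have f1 : ‖b‖ ≤ (C₁ + 3 * A + 4 * C₂) * u := by
    have e2 : b = b₁ - (b₁ - b₂) - (b₂ - b) := by abel
    have e3 := norm_sub_le (b₁ - (b₁ - b₂)) (b₂ - b)
    have e4 := norm_sub_le b₁ (b₁ - b₂)
    rw [← e2] at e3
    linarith
  have f2 : |h| ≤ (C₁ + 15 * A + 4 * C₂) * u ^ 2 := by
    have e2 := abs_le.1 hh₁
    have e3 := abs_le.1 c2
    have e4 := abs_le.1 d2
    have e5 : C₁ * u ≤ C₁ * u ^ 2 := mul_le_mul_of_nonneg_left huu hC₁.le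
    have e6 : C₂ * u ≤ C₂ * u ^ 2 := mul_le_mul_of_nonneg_left huu hC₂.le
    rw [abs_le]
    constructor <;> linarith [e2.1, e2.2, e3.1, e3.2, e4.1, e4.2]
  have f3 : ‖b‖ ^ 2 ≤ (C₁ + 3 * A + 4 * C₂) ^ 2 * u ^ 2 := by
    rw [← mul_pow]
    exact pow_le_pow_left₀ (norm_nonneg _) f1 2
  have g1 : 0 ≤ (C₁ + 3 * A + 4 * C₂) ^ 2 * u ^ 2 := by positivity
  have g2 : 0 ≤ (C₁ + 15 * A + 4 * C₂) * u ^ 2 := by positivity
  rw [hu2, add_mul]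
  constructor <;> linarith

/-- `CFw.growth` with the frame at `0`, scale `R`. -/
theorem grow_val (Λ : ℝ) : ∃ C : ℝ, 0 < C ∧ ∀ w : E × ℝ → ℝ, Cls w → Nrm Λ w →
    ∀ (X : E × ℝ) (R : ℝ), 1 ≤ R → ‖X‖ ≤ R → |w X| ≤ C * (R * √R) := by
  obtain ⟨C₁, hC₁, H₁⟩ := grow_zero (E := E) Λ
  refine ⟨4 + C₁ + 4 * C₁ ^ 2, by positivity, fun w hw hN X R hR hX => ?_⟩
  obtain ⟨hy, ht⟩ := grow_norm_le hX
  have hR0 : 0 < R := by linarith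
  obtain ⟨u, hu⟩ : ∃ u : ℝ, u = √(√R) := ⟨_, rfl⟩
  have hu1 : 1 ≤ u := by rw [hu]; exact grow_one_le_sqrt (grow_one_le_sqrt hR)
  have hu2 : √R = u ^ 2 := by rw [hu, Real.sq_sqrt (Real.sqrt_nonneg _)]
  have huu : u ≤ u ^ 2 := by nlinarith
  obtain ⟨b, h, F⟩ := hw.fl_one 0 hR
  obtain ⟨hb, hh⟩ := H₁ w hw hN R R hR hR (by linarith) b h F
  rw [← hu] at hb hh
  have G := F.growth hR0 (Y := X) (mem_univ _) (by simpa using ht)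
  rw [hN.1, sub_zero, Prod.fst_zero, sub_zero] at G
  have e1 : 3 * ‖X.1‖ ^ 2 / R ≤ 3 * R := by
    rw [div_le_iff₀ hR0]
    have := pow_le_pow_left₀ (norm_nonneg _) hy 2
    linarith [show 3 * R * R = 3 * R ^ 2 by ring]
  have e2 : ‖b‖ ^ 2 ≤ C₁ ^ 2 * u ^ 2 := by
    rw [← mul_pow]
    exact pow_le_pow_left₀ (norm_nonneg _) hb 2
  have e3 : C₁ * u ≤ C₁ * u ^ 2 := mul_le_mul_of_nonneg_left huu hC₁.le
  have e4 : 1 + |h| + 4 * ‖b‖ ^ 2 + 3 ≤ (4 + C₁ + 4 * C₁ ^ 2) * u ^ 2 := by linarith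
  have e5 := mul_le_mul_of_nonneg_right e4 hR0.le
  rw [hu2]
  linarith

/-- uniform `SQ` (from `grow_val` with `R = max 1 (max T ‖y‖)`). -/
theorem grow_sq (Λ T ε : ℝ) (hε : 0 < ε) : ∃ K : ℝ, ∀ w : E × ℝ → ℝ, Cls w → Nrm Λ w →
    ∀ X : E × ℝ, |X.2| ≤ T → |w X| ≤ K + ε * ‖X.1‖ ^ 2 := by
  obtain ⟨C, hC, H⟩ := grow_val (E := E) Λ
  refine ⟨C * (C / ε) ^ 3 + ε * (max 1 T) ^ 2, fun w hw hN X ht => ?_⟩
  obtain ⟨R, hR⟩ : ∃ R : ℝ, R = max (max 1 T) ‖X.1‖ := ⟨_, rfl⟩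
  have hR1 : 1 ≤ R := by rw [hR]; exact le_max_of_le_left (le_max_left _ _)
  have hX : ‖X‖ ≤ R := by
    rw [hR, Prod.norm_def]
    exact max_le (le_max_right _ _) (le_max_of_le_left (le_max_of_le_right ht))
  have h1 := H w hw hN X R hR1 hX
  have h2 : R ^ 2 ≤ (max 1 T) ^ 2 + ‖X.1‖ ^ 2 := by
    rw [hR]
    rcases le_total (max 1 T) ‖X.1‖ with h | h
    · rw [max_eq_right h]
      linarith [sq_nonneg (max 1 T)]
    · rw [max_eq_left h]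
      linarith [sq_nonneg ‖X.1‖]
  obtain ⟨v, hv⟩ : ∃ v : ℝ, v = √R := ⟨_, rfl⟩
  have hv0 : 0 ≤ v := by rw [hv]; exact Real.sqrt_nonneg _
  have hv2 : R = v ^ 2 := by rw [hv, Real.sq_sqrt (by linarith)]
  have h3 : C * v ^ 3 ≤ C * (C / ε) ^ 3 + ε * v ^ 4 := by
    rcases le_total v (C / ε) with h | h
    · have := mul_le_mul_of_nonneg_left (pow_le_pow_left₀ hv0 h 3) hC.le
      have : 0 ≤ ε * v ^ 4 := by positivity
      linarith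
    · rw [div_le_iff₀ hε] at h
      have h4 := mul_le_mul_of_nonneg_right h (pow_nonneg hv0 3)
      have : 0 ≤ C * (C / ε) ^ 3 := by positivity
      linarith [show v * ε * v ^ 3 = ε * v ^ 4 by ring]
  have h4 := mul_le_mul_of_nonneg_left h2 hε.le
  rw [← hv] at h1
  rw [hv2] at h1 h4
  linarith [show C * (v ^ 2 * v) = C * v ^ 3 by ring, show ε * (v ^ 2) ^ 2 = ε * v ^ 4 by ring]

/-- `Sp s ≤ Sp (1/2) ≤ h + 2` (`Sp_mono`, `abs_Sp_le`, `grow_frame`). For `Tp`: upper bound from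
this and `grow_val`; lower bound `Tp s w X ≥ w (X.1, X.2 + s)`. -/
theorem grow_flow (Λ : ℝ) : ∃ C : ℝ, 0 < C ∧ ∀ w : E × ℝ → ℝ, Cls w → Nrm Λ w →
    ∀ (X : E × ℝ) (R : ℝ), 1 ≤ R → ‖X‖ ≤ R → ∀ s : ℝ, 0 < s → s ≤ 1 / 2 →
      Sp s w X ≤ C * √R ∧ Sm s w X ≤ C * √R ∧ |Tp s w X| ≤ C * (R * √R) ∧
        |Tm s w X| ≤ C * (R * √R) := by
  obtain ⟨C₁, hC₁, H₁⟩ := grow_frame (E := E) Λ
  obtain ⟨C₂, hC₂, H₂⟩ := grow_val (E := E) Λ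
  refine ⟨C₁ + C₂ + 2, by positivity, fun w hw hN X R hR hX s hs hs' => ?_⟩
  obtain ⟨b, h, F⟩ := hw.fl_one X le_rfl
  have hh := (H₁ w hw hN X R hR hX b h F).2
  have hv := H₂ w hw hN X R hR hX
  have hq := grow_one_le_sqrt hR
  have a1 := (abs_le.1 (F.abs_Sp_le (s := 1 / 2) (by norm_num) (by norm_num))).2
  have a2 := (abs_le.1 (F.abs_Sm_le (s := 1 / 2) (by norm_num) (by norm_num))).2
  have a3 := abs_le.1 (F.abs_Tp_le hs (by linarith))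
  have a4 := abs_le.1 (F.abs_Tm_le hs (by linarith))
  have b1 := hw.ent.Sp_mono hs hs' X
  have b2 := hw.ent.Sm_mono hs hs' X
  have b3 : |h * s| ≤ C₁ * √R := by
    rw [abs_mul, abs_of_pos hs]
    have := mul_le_mul_of_nonneg_left (show s ≤ 1 by linarith) (abs_nonneg h)
    linarith
  have b4 : √R ≤ R * √R := le_mul_of_one_le_left (by linarith) hR
  have b5 := mul_le_mul_of_nonneg_left b4 hC₁.le
  have b6 : 0 ≤ C₂ * √R := by positivity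
  have c1 := abs_le.1 hh
  have c2 := abs_le.1 hv
  have c3 := abs_le.1 b3
  norm_num at a1 a2
  refine ⟨by linarith [c1.2], by linarith [c1.2], ?_, ?_⟩
  · rw [abs_le]
    constructor <;> linarith [a3.1, a3.2, c2.1, c2.2, c3.1, c3.2]
  · rw [abs_le]
    constructor <;> linarith [a4.1, a4.2, c2.1, c2.2, c3.1, c3.2]

/-- `hol_of_gauge` with `γ = 0`, `r = R`, bound from `grow_val`. -/
theorem grow_hol (Λ R : ℝ) : ∃ H : ℝ, 0 ≤ H ∧ ∀ w : E × ℝ → ℝ, BMO w → Nrm Λ w →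
    HolOn (1 / 2) H (ball 0 R) w := by
  obtain ⟨C, hC, H⟩ := grow_val (E := E) Λ
  have hr : 1 ≤ max R 1 := le_max_right _ _
  obtain ⟨L, hL, G⟩ := hol_of_gauge (E := E) (γ := 0) (M := C * (2 * max R 1 * √(2 * max R 1)))
    (C := 1) (r := max R 1) le_rfl one_pos zero_le_one (by linarith)
  refine ⟨L, hL, fun w hw hN => ?_⟩
  have := G univ w 0 (subset_univ _)
    (fun Y hY => H w hw.cls hN Y _ (by linarith) (mem_ball_zero_iff.1 hY).le)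
    (fun Y _ ρ hρ _ => by simpa using hw.2 Y ρ hρ)
  rw [sub_zero] at this
  exact this.mono (ball_subset_ball (le_max_left _ _))

/-- `grow_frame` and `chain_log` from scale `1` down to `ρ`. -/
theorem grow_frame_small (Λ R : ℝ) : ∃ C : ℝ, 0 < C ∧ ∀ w : E × ℝ → ℝ, BMO w → Nrm Λ w →
    ∀ X : E × ℝ, ‖X‖ ≤ R → ∀ (ρ : ℝ) (b : E) (h : ℝ), 0 < ρ → ρ ≤ 1 → CFw univ w X ρ 1 b h →
      ‖b‖ ≤ C * (1 + Real.log ρ⁻¹) ∧ |h| ≤ C * (1 + Real.log ρ⁻¹) := by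
  obtain ⟨C₁, hC₁, H₁⟩ := grow_frame (E := E) Λ
  obtain ⟨C₂, hC₂, H₂⟩ := chain_log (E := E) (Λ := 1) one_pos
  obtain ⟨M, hM⟩ : ∃ M : ℝ, M = C₁ * √(max R 1) := ⟨_, rfl⟩
  have hM0 : 0 ≤ M := by rw [hM]; positivity
  refine ⟨1 + M + C₂, by positivity, fun w hw hN X hX ρ b h hρ hρ1 F => ?_⟩
  obtain ⟨b₁, h₁, F₁⟩ := hw.2 X 1 one_pos
  obtain ⟨a1, a2⟩ := H₁ w hw.cls hN X (max R 1) (le_max_right _ _) (hX.trans (le_max_left _ _))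
    b₁ h₁ F₁
  rw [← hM] at a1 a2
  obtain ⟨d1, d2⟩ := H₂ w X 1 ρ b₁ b h₁ h hρ hρ1
    (fun ρ'' h1 _ => hw.2 X ρ'' (lt_of_lt_of_le hρ h1)) F₁ F
  rw [one_div] at d1 d2
  have hl : 0 ≤ Real.log ρ⁻¹ := Real.log_nonneg ((one_le_inv₀ hρ).2 hρ1)
  have e1 : ‖b₁‖ ≤ 1 + M := by nlinarith [sq_nonneg (‖b₁‖ - 1), norm_nonneg b₁]
  have e2 : 0 ≤ (1 + M) * Real.log ρ⁻¹ := by positivity
  have e3 := norm_sub_le b₁ (b₁ - b)
  rw [sub_sub_cancel] at e3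
  have e4 := abs_le.1 a2
  have e5 := abs_le.1 d2
  refine ⟨by linarith, ?_⟩
  rw [abs_le]
  constructor <;> linarith [e4.1, e4.2, e5.1, e5.2]

end R94
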