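import Crest.Agent.R94.CompG
import Crest.Agent.R94.Grow

/-!
# R94/CompB: limits of normalised `BMO` functions and of configurations
-/

set_option autoImplicit false
set_option linter.unusedSectionVars false
set_option linter.unusedVariables false

open Set Filter Topology Metric
open scoped InnerProductSpace

namespace R94

variable {E : Type} [NormedAddCommGroup E] [InnerProductSpace ℝ E] [FiniteDimensional ℝ E]

variable {ι : Type} {l : Filter ι} {W : ι → E × ℝ → ℝ} {v : E × ℝ → ℝ} {c κ Λ : ℝ}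

/-- `compG` with `On = univ`, `G = 1`. -/
theorem compB (U : Ultrafilter ℕ) (W : ℕ → E × ℝ → ℝ) (Λ : ℝ) (hW : ∀ n, BMO (W n))
    (hN : ∀ n, Nrm Λ (W n)) :
    ∃ v : E × ℝ → ℝ, BMO v ∧ Nrm Λ v ∧ TendstoLocallyUniformly W v U := by
  obtain ⟨v, h1, h2, h3, h4, -⟩ := compG U W (fun _ => univ) (fun _ => 1) Λ
    (fun R => Eventually.of_forall fun n => subset_univ _)
    (Eventually.of_forall fun n => (hW n).1) (fun n => (hN n).1)
    (Eventually.of_forall fun n => (hN n).2)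
    (fun R ρ ε hρ hε => Eventually.of_forall fun n X _ =>
      ((hW n).2 X ρ hρ).mono_lam hρ (by linarith))
    (fun R => ⟨1, zero_le_one, Eventually.of_forall fun n X _ ρ hρ hρ1 =>
      ((hW n).2 X ρ hρ).mono_lam hρ (by
        rw [one_mul]
        exact Real.one_le_rpow_of_pos_of_le_one_of_nonpos hρ hρ1 (by norm_num))⟩)
  exact ⟨v, ⟨h1, h4⟩, h3, h2⟩

theorem compB_moving (ht : TendstoLocallyUniformly W v l) (hv : Continuous v)
    {X : ι → E × ℝ} {X' : E × ℝ} (hX : Tendsto X l (𝓝 X')) :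
    Tendsto (fun n => W n (X n)) l (𝓝 (v X')) :=
  tendsto_moving (tendstoLocallyUniformlyOn_univ.2 ht) isOpen_univ hv.continuousOn (mem_univ _) hX

theorem compB_pt (ht : TendstoLocallyUniformly W v l) (X : E × ℝ) :
    Tendsto (fun n => W n X) l (𝓝 (v X)) :=
  (tendstoLocallyUniformlyOn_univ.2 ht).tendsto_at (mem_univ X)

theorem tendsto_Del (ht : TendstoLocallyUniformly W v l) (hv : Continuous v) {x η : ι → E}
    {t : ι → ℝ} {x' η' : E} {t' : ℝ} (hx : Tendsto x l (𝓝 x')) (hη : Tendsto η l (𝓝 η'))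
    (htt : Tendsto t l (𝓝 t')) :
    Tendsto (fun n => Del c (W n) (x n) (η n) (t n)) l (𝓝 (Del c v x' η' t')) := by
  unfold Del
  refine Tendsto.sub (Tendsto.add (Tendsto.const_mul _ ?_) (Tendsto.const_mul _ ?_)) ?_
  · exact compB_moving ht hv ((hx.sub (hη.const_smul c)).prodMk_nhds htt)
  · exact compB_moving ht hv ((hx.add (hη.const_smul (1 - c))).prodMk_nhds htt)
  · exact compB_moving ht hv (hx.prodMk_nhds htt)

theorem FLe.of_tendsto [l.NeBot] (ht : TendstoLocallyUniformly W v l)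
    (hF : ∀ᶠ n in l, FLe c κ (W n)) : FLe c κ v := by
  intro x η t
  refine le_of_tendsto (f := fun n => Del c (W n) x η t) (x := l) ?_ (hF.mono fun n hn => hn x η t)
  unfold Del
  exact (((compB_pt ht _).const_mul _).add ((compB_pt ht _).const_mul _)).sub (compB_pt ht _)

theorem HLe.of_tendsto [l.NeBot] (ht : TendstoLocallyUniformly W v l)
    (hF : ∀ᶠ n in l, HLe (W n)) : HLe v := by
  intro X η s hs
  exact le_of_tendsto_of_tendsto (compB_pt ht _) ((compB_pt ht _).add_const _)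
    (hF.mono fun n hn => hn X η s hs)

/-- `tendsto_Tp`, `tendsto_Tm` with the uniform growth `grow_sq`. -/
theorem tendsto_S [l.NeBot] (hW : ∀ n, BMO (W n)) (hN : ∀ n, Nrm Λ (W n))
    (ht : TendstoLocallyUniformly W v l) (hv : Continuous v) {X : ι → E × ℝ} {X' : E × ℝ}
    (hX : Tendsto X l (𝓝 X')) {s : ℝ} (hs : 0 < s) :
    Tendsto (fun n => Sp s (W n) (X n)) l (𝓝 (Sp s v X')) ∧
      Tendsto (fun n => Sm s (W n) (X n)) l (𝓝 (Sm s v X')) := by
  obtain ⟨K, hK⟩ := grow_sq (E := E) Λ (|X'.2| + s + 1) (1 / (4 * s)) (by positivity)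
  have hΛ : 2 * (1 / (4 * s)) * s < 1 := by field_simp; norm_num
  have hg : ∀ᶠ n in l, ∀ Y : E × ℝ, |Y.2| ≤ |X'.2| + s + 1 →
      |W n Y| ≤ K + 1 / (4 * s) * ‖Y.1‖ ^ 2 :=
    Eventually.of_forall fun n Y hY => hK _ (hW n).cls (hN n) Y hY
  exact ⟨((tendsto_Tp hs hΛ ht hv hX hg).sub (compB_moving ht hv hX)).div_const s,
    ((compB_moving ht hv hX).sub (tendsto_Tm hs hΛ ht hv hX hg)).div_const s⟩

/-- For fixed `δ > 0`, eventually `δₙ ≤ δ`, so `Lₙ ≤ Jd δₙ ≤ Jd δ` (`Jd_mono`), and `Jd δ` converges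
(`Jd_eq`, `tendsto_Del`, `tendsto_S`). -/
theorem JGe.of_tendsto [l.NeBot] (hc0 : 0 ≤ c) (hc1 : c ≤ 1) (hW : ∀ n, BMO (W n))
    (hN : ∀ n, Nrm Λ (W n)) (hF : ∀ n, FLe c κ (W n)) (ht : TendstoLocallyUniformly W v l)
    (hv : Continuous v) {x η : ι → E} {t δ L : ι → ℝ} {x' η' : E} {t' L' : ℝ}
    (hx : Tendsto x l (𝓝 x')) (hη : Tendsto η l (𝓝 η')) (htt : Tendsto t l (𝓝 t'))
    (hL : Tendsto L l (𝓝 L')) (hδ0 : ∀ n, 0 < δ n) (hδ : Tendsto δ l (𝓝 0))
    (hJ : ∀ᶠ n in l, L n ≤ Jd c κ (δ n) (W n) (x n) (η n) (t n)) : JGe c κ v x' η' t' L' := by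
  intro d hd
  have h1 : Tendsto (fun n => Jd c κ d (W n) (x n) (η n) (t n)) l (𝓝 (Jd c κ d v x' η' t')) := by
    simp only [Jd_eq hd]
    refine (((tendsto_Del ht hv hx hη htt).sub (hη.norm.const_mul κ)).div_const d).add
      ((Tendsto.add (Tendsto.const_mul _ ?_) (Tendsto.const_mul _ ?_)).add ?_)
    · exact (tendsto_S hW hN ht hv ((hx.sub (hη.const_smul c)).prodMk_nhds htt) hd).1
    · exact (tendsto_S hW hN ht hv ((hx.add (hη.const_smul (1 - c))).prodMk_nhds htt) hd).1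
    · exact (tendsto_S hW hN ht hv (hx.prodMk_nhds htt) hd).2
  refine le_of_tendsto_of_tendsto hL h1 ?_
  filter_upwards [hJ, hδ.eventually (eventually_le_nhds hd)] with n h2 h3
  exact h2.trans (Jd_mono (hW n).ent (hF n) hc0 hc1 (hδ0 n) h3)

end R94
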