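import Crest.Agent.R94.B1
import Crest.Agent.R94.Aff
import Crest.Agent.R94.CompB

/-!
# R94/BD: consequences of `b1` — the sublinear Liouville theorem and the blow-down
-/

set_option autoImplicit false
set_option linter.unusedSectionVars false
set_option linter.unusedVariables false

open Set Filter Topology Metric
open scoped InnerProductSpace

namespace R94

variable {E : Type} [NormedAddCommGroup E] [InnerProductSpace ℝ E] [FiniteDimensional ℝ E]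

private theorem BD_del_zero (c : ℝ) (w : E × ℝ → ℝ) (x : E) (t : ℝ) : Del c w x 0 t = 0 := by
  simp only [Del, smul_zero, sub_zero, add_zero]
  ring

private theorem BD_cls {w : E × ℝ → ℝ} (hs : IsSol univ w)
    (hf : ∀ (X : E × ℝ) (ρ : ℝ), 0 < ρ →
      Fl univ w X ρ (max (ρ ^ (-(1 / 2) : ℝ)) (ρ ^ (-(7 / 8) : ℝ)))) : Cls w := by
  refine ⟨hs, fun X ρ hρ => (hf X ρ hρ).mono_lam hρ (max_le ?_ (le_max_right _ _))⟩
  rcases le_total 1 ρ with h | h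
  · exact (Real.rpow_le_one_of_one_le_of_nonpos h (by norm_num)).trans (le_max_left _ _)
  · exact (Real.rpow_le_rpow_of_exponent_ge hρ h (by norm_num)).trans (le_max_right _ _)

private theorem BD_fle {w : E × ℝ → ℝ} (hs : IsSol univ w)
    (hf : ∀ (X : E × ℝ) (ρ : ℝ), 0 < ρ →
      Fl univ w X ρ (max (ρ ^ (-(1 / 2) : ℝ)) (ρ ^ (-(7 / 8) : ℝ)))) : FLe (1 / 2) 0 w := by
  intro x₀ η₀ t₀
  by_contra hcon
  rw [zero_mul, not_le] at hcon
  have hη : η₀ ≠ 0 := by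
    rintro rfl
    rw [BD_del_zero] at hcon
    exact lt_irrefl _ hcon
  have hn : 0 < ‖η₀‖ := norm_pos_iff.mpr hη
  set D := Del (1 / 2) w x₀ η₀ t₀ with hD
  set κ₁ := D / (2 * ‖η₀‖) with hκ₁
  have hκ : 0 < κ₁ := by positivity
  have h0 : κ₁ * ‖η₀‖ < D := by
    have : κ₁ * ‖η₀‖ = D / 2 := by rw [hκ₁]; field_simp
    linarith
  set u := 1 + ‖η₀‖ + 2 / κ₁ with hu
  have h2κ : 0 < 2 / κ₁ := by positivity
  have hu1 : 1 ≤ u := by linarith
  have hu0 : 0 < u := by linarith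
  have hR : ‖η₀‖ < u ^ 3 := by
    have : u ≤ u ^ 3 := le_self_pow₀ hu1 (by norm_num)
    linarith
  obtain ⟨x, η, t, hηR, hlt⟩ := b1 (by norm_num) (by norm_num) (BD_cls hs hf) hκ h0 hR
  have hρ : 0 < u ^ 4 := by positivity
  have hρ1 : 1 ≤ u ^ 4 := one_le_pow₀ hu1
  have e1 : (u ^ 4) ^ (-(1 / 2) : ℝ) = (u ^ 2)⁻¹ := by
    rw [Real.rpow_neg hρ.le, ← Real.sqrt_eq_rpow, show u ^ 4 = (u ^ 2) ^ 2 by ring,
      Real.sqrt_sq (by positivity)]
  have hm : max ((u ^ 4) ^ (-(1 / 2) : ℝ)) ((u ^ 4) ^ (-(7 / 8) : ℝ)) ≤ (u ^ 2)⁻¹ := by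
    rw [← e1]
    exact max_le le_rfl (Real.rpow_le_rpow_of_exponent_le hρ1 (by norm_num))
  obtain ⟨b, h, H⟩ := (hf (x, t) (u ^ 4) hρ).mono_lam hρ hm
  have h3 := (le_abs_self _).trans (H.abs_del_le (c := 1 / 2) hρ (by norm_num) (by norm_num) η)
  rw [hηR] at h3
  have e2 : (u ^ 2)⁻¹ * u ^ 4 + (u ^ 3) ^ 2 / u ^ 4 = 2 * u ^ 2 := by field_simp; ring
  rw [e2] at h3
  have h4 : κ₁ * u * u ^ 2 < 2 * u ^ 2 := by
    calc κ₁ * u * u ^ 2 = κ₁ * u ^ 3 := by ring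
      _ < _ := hlt.trans_le h3
  have h5 : κ₁ * u < 2 := lt_of_mul_lt_mul_right h4 (by positivity)
  have h6 : κ₁ * (2 / κ₁) = 2 := by field_simp
  have h7 : κ₁ * (2 / κ₁) ≤ κ₁ * u := mul_le_mul_of_nonneg_left (by linarith) hκ.le
  linarith

private theorem BD_one {w : E × ℝ → ℝ} (hw : Cls w) (X : E × ℝ) {ρ : ℝ} (hρ : 1 ≤ ρ) :
    Fl univ w X ρ 1 :=
  (hw.2 X ρ (by linarith)).mono_lam (by linarith)
    (max_le le_rfl (Real.rpow_le_one_of_one_le_of_nonpos hρ (by norm_num)))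

private theorem BD_two {w : E × ℝ → ℝ} {c : ℝ} (hc0 : 0 < c) (hc1 : c < 1) (hw : Cls w) :
    FLe c 2 w := by
  have big : ∀ (x η : E) (t : ℝ), 1 ≤ ‖η‖ → Del c w x η t ≤ 2 * ‖η‖ := by
    intro x η t hη
    have hρ : 0 < ‖η‖ := by linarith
    obtain ⟨b, h, H⟩ := BD_one hw (x, t) hη
    have h3 := (le_abs_self _).trans (H.abs_del_le hρ hc0.le hc1.le η)
    have e : 1 * ‖η‖ + ‖η‖ ^ 2 / ‖η‖ = 2 * ‖η‖ := by field_simp; ring
    rwa [e] at h3
  intro x η t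
  rcases le_or_gt 1 ‖η‖ with h | h
  · exact big x η t h
  · by_contra hcon
    obtain ⟨x', η', t', h1, h2⟩ := b1 hc0 hc1 hw two_pos (not_le.mp hcon) h
    have := big x' η' t' h1.ge
    rw [h1] at this
    linarith

private theorem BD_main {w : E × ℝ → ℝ} {c : ℝ} (hc0 : 0 < c) (hc1 : c < 1) (hw : Cls w)
    (hna : ¬ FLe c 0 w) : ∃ (κ : ℝ) (W : E × ℝ → ℝ) (η : E), 0 < κ ∧ BMO W ∧ FLe c κ W ∧
      ‖η‖ = 1 ∧ Del c W 0 η 0 = κ := by
  set A : Set ℝ := {r | ∃ (x η : E) (t : ℝ), η ≠ 0 ∧ r = Del c w x η t / ‖η‖} with hA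
  have hbdd : BddAbove A := by
    refine ⟨2, ?_⟩
    rintro _ ⟨x, η, t, hη, rfl⟩
    rw [div_le_iff₀ (norm_pos_iff.mpr hη)]
    exact BD_two hc0 hc1 hw x η t
  obtain ⟨r₀, hr₀A, hr₀⟩ : ∃ r ∈ A, 0 < r := by
    simp only [FLe, not_forall, not_le, zero_mul] at hna
    obtain ⟨x, η, t, h⟩ := hna
    have hη : η ≠ 0 := by
      rintro rfl
      rw [BD_del_zero] at h
      exact lt_irrefl _ h
    exact ⟨_, ⟨x, η, t, hη, rfl⟩, div_pos h (norm_pos_iff.mpr hη)⟩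
  set κ := sSup A with hκdef
  have hκ : 0 < κ := hr₀.trans_le (le_csSup hbdd hr₀A)
  have hF : FLe c κ w := by
    intro x η t
    by_cases hη : η = 0
    · subst hη
      rw [BD_del_zero, norm_zero, mul_zero]
    · have := le_csSup hbdd (show Del c w x η t / ‖η‖ ∈ A from ⟨x, η, t, hη, rfl⟩)
      rwa [div_le_iff₀ (norm_pos_iff.mpr hη)] at this
  have hex : ∀ n : ℕ, ∃ (x η : E) (t : ℝ) (b : E) (h : ℝ), (n : ℝ) + 1 ≤ ‖η‖ ∧
      (κ - κ / ((n : ℝ) + 2)) * ‖η‖ < Del c w x η t ∧ CFw univ w (x, t) ‖η‖ 1 b h := by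
    intro n
    have hn : (0 : ℝ) ≤ n := n.cast_nonneg
    have h1 : 0 < κ / ((n : ℝ) + 2) := by positivity
    have h2 : 0 < κ - κ / ((n : ℝ) + 2) := by
      have : κ / ((n : ℝ) + 2) < κ := by
        rw [div_lt_iff₀ (by positivity)]
        nlinarith
      linarith
    obtain ⟨_, ⟨x₀, η₀, t₀, hη₀, rfl⟩, hlt⟩ :=
      exists_lt_of_lt_csSup ⟨r₀, hr₀A⟩ (show κ - κ / ((n : ℝ) + 2) < sSup A by linarith)
    rw [lt_div_iff₀ (norm_pos_iff.mpr hη₀)] at hlt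
    obtain ⟨x, η, t, h3, h4⟩ := b1 (R := ‖η₀‖ + n + 1) hc0 hc1 hw h2 hlt (by linarith)
    have h5 : (n : ℝ) + 1 ≤ ‖η‖ := by rw [h3]; linarith [norm_nonneg η₀]
    obtain ⟨b, h, H⟩ := BD_one hw (x, t) (show 1 ≤ ‖η‖ by linarith)
    exact ⟨x, η, t, b, h, h5, by rwa [h3], H⟩
  choose x η t b h hs hD H using hex
  have hs1 : ∀ n, 1 ≤ ‖η n‖ := fun n => by linarith [hs n, (n.cast_nonneg : (0 : ℝ) ≤ n)]
  have hs0 : ∀ n, 0 < ‖η n‖ := fun n => by linarith [hs1 n]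
  set W : ℕ → E × ℝ → ℝ := fun n => sym (x n, t n) (b n) (h n) ‖η n‖ ‖η n‖ w with hW
  have hN : ∀ n, Nrm 1 (W n) := fun n => by
    have := (H n).nrm (h' := h n) (hs0 n)
    simpa using this
  have hfl : ∀ n X ρ lam, 0 < ρ → max 1 ((‖η n‖ * ρ) ^ (-(7 / 8) : ℝ)) ≤ lam →
      Fl univ (W n) X ρ lam := by
    intro n X ρ lam hρ hl
    have h1 := (fl_sym_iff (O := univ) (w := w) (X₀ := (x n, t n)) (b := b n) (h := h n) (X := X)
      (lam := lam) (hs0 n) (hs0 n) hρ).mpr (by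
        rw [div_self (hs0 n).ne', one_pow, one_mul]
        have hp : 0 < ‖η n‖ * ρ := mul_pos (hs0 n) hρ
        exact (hw.2 _ _ hp).mono_lam hp hl)
    simpa only [preimage_univ] using h1
  let U : Ultrafilter ℕ := Ultrafilter.of atTop
  have hU : (U : Filter ℕ) ≤ atTop := Ultrafilter.of_le _
  obtain ⟨v, hv, ht, -, hvf, -⟩ := compG U W (fun _ => univ) (fun _ => 1) 1
    (fun R => Eventually.of_forall fun n => subset_univ _)
    (Eventually.of_forall fun n => by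
      simpa only [preimage_univ] using
        hw.1.sym (X₀ := (x n, t n)) (b := b n) (h := h n) (hs0 n) (hs0 n))
    (fun n => (hN n).1) (Eventually.of_forall fun n => (hN n).2)
    (fun R ρ ε hρ hε => by
      have h1 : ∀ᶠ n : ℕ in atTop, ρ⁻¹ ≤ (n : ℝ) :=
        tendsto_natCast_atTop_atTop.eventually_ge_atTop _
      filter_upwards [hU h1] with n hn X _
      refine hfl n X ρ _ hρ (max_le (by linarith) ?_)
      have h2 : 1 ≤ ‖η n‖ * ρ := by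
        have h3 : ρ⁻¹ ≤ ‖η n‖ := by linarith [hs n, (show ρ⁻¹ ≤ (n : ℝ) from hn)]
        calc 1 = ρ⁻¹ * ρ := by field_simp
          _ ≤ _ := mul_le_mul_of_nonneg_right h3 hρ.le
      exact (Real.rpow_le_one_of_one_le_of_nonpos h2 (by norm_num)).trans (by linarith))
    (fun R => ⟨1, zero_le_one, Eventually.of_forall fun n X _ ρ hρ hρ1 => by
      refine hfl n X ρ _ hρ ?_
      rw [one_mul]
      refine max_le (Real.one_le_rpow_of_pos_of_le_one_of_nonpos hρ hρ1 (by norm_num)) ?_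
      exact Real.rpow_le_rpow_of_nonpos hρ (by nlinarith [hs1 n]) (by norm_num)⟩)
  have hvc : Continuous v := continuousOn_univ.mp hv.1.1
  have hFv : FLe c κ v := FLe.of_tendsto ht (Eventually.of_forall fun n => hF.sym (hs0 n))
  set e : ℕ → E := fun n => ‖η n‖⁻¹ • η n with he
  have he1 : ∀ n, ‖e n‖ = 1 := fun n => by
    rw [he]
    simp only [norm_smul, norm_inv, norm_norm]
    exact inv_mul_cancel₀ (hs0 n).ne'
  obtain ⟨y, -, hy⟩ := exists_ulim U (x := e) (M := 1) (Eventually.of_forall fun n => (he1 n).le)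
  have hy1 : ‖y‖ = 1 := by
    have h1 : Tendsto (fun n => ‖e n‖) U (𝓝 ‖y‖) := hy.norm
    simp only [he1] at h1
    exact (tendsto_nhds_unique tendsto_const_nhds h1).symm
  refine ⟨κ, v, y, hκ, ⟨hv, hvf⟩, hFv, hy1, le_antisymm (by simpa [hy1] using hFv 0 y 0) ?_⟩
  have hlim := tendsto_Del (c := c) ht hvc (x := fun _ => 0) (η := e) (t := fun _ => 0)
    tendsto_const_nhds hy tendsto_const_nhds
  have hκn : Tendsto (fun n : ℕ => κ - κ / ((n : ℝ) + 2)) U (𝓝 κ) := by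
    have h1 : Tendsto (fun n : ℕ => κ / ((n : ℝ) + 2)) atTop (𝓝 0) :=
      tendsto_const_nhds.div_atTop (tendsto_atTop_add_const_right _ _ tendsto_natCast_atTop_atTop)
    simpa using (tendsto_const_nhds.sub h1).mono_left hU
  refine le_of_tendsto_of_tendsto' hκn hlim fun n => ?_
  have e1 : Del c (W n) 0 (e n) 0 = Del c w (x n) (η n) (t n) * (‖η n‖ / ‖η n‖ ^ 2) := by
    rw [hW]
    simp only
    rw [Del_sym, show ((0 : E), (0 : ℝ)) = (0 : E × ℝ) from rfl, pt_zero, he]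
    simp only [smul_smul, mul_inv_cancel₀ (hs0 n).ne', one_smul]
  rw [e1]
  have e2 : ‖η n‖ / ‖η n‖ ^ 2 = ‖η n‖⁻¹ := by
    have := (hs0 n).ne'
    field_simp
  rw [e2, ← div_eq_mul_inv, le_div_iff₀ (hs0 n)]
  exact (hD n).le

/-- Such a `w` is in `Cls` (`max ρ^(-1/2) ρ^(-7/8) ≤ max 1 ρ^(-7/8)`), and so is `rev w` with the same
gauge (`CFw.rev`). For `‖η‖ = R ≥ 1`, `abs_del_le` at scale `ρ = R^(4/3)` gives `Del ≤ 2 R^(2/3)`.
If `Del (1/2) w > 0` somewhere (then `η₀ ≠ 0`; take `κ₁` half the ratio), `b1` contradicts this for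
large `R`. So `FLe (1/2) 0` holds for `w` and `rev w`; `affine_of_del`. -/
theorem liou_half : Liou E (-(1 / 2)) := by
  intro w hs hf
  have hs' : IsSol univ (rev w) := by simpa using hs.rev
  have hf' : ∀ (X : E × ℝ) (ρ : ℝ), 0 < ρ →
      Fl univ (rev w) X ρ (max (ρ ^ (-(1 / 2) : ℝ)) (ρ ^ (-(7 / 8) : ℝ))) := by
    intro X ρ hρ
    obtain ⟨b, h, H⟩ := hf (-X) ρ hρ
    exact ⟨b, h, by simpa using H.rev⟩
  exact affine_of_del (c := 1 / 2) (by norm_num) (by norm_num) (BD_cls hs hf) (BD_fle hs hf)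
    (BD_fle hs' hf')

/-- By `affine_of_del`, `Del c w' > 0` somewhere for `w' = w` or `w' = rev w` (`Cls.rev`). Let `κ` be
the supremum of `Del c w' x η t / ‖η‖` over `η ≠ 0`; it is `≤ 2` (for `‖η‖ ≥ 1` by `abs_del_le` at
scale `‖η‖`; for smaller `η` by `b1`), `κ > 0`, `FLe c κ w'` (`Del = 0` at `η = 0`). By `b1` there
are configurations with `‖ηₙ‖ = sₙ ≥ n + 1` and ratio `> κ - κ/(n+2)`. Let
`Wₙ = sym (xₙ,tₙ) bₙ hₙ sₙ sₙ w'` with a frame of constant 1 at scale `sₙ`: `Nrm 1`, gauge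
`max 1 (sₙ ρ)^(-7/8)` (`fl_sym_iff`), `FLe.sym`, `Del_sym`. `compG` with `G = 1`; ultralimit of the
unit vectors `sₙ⁻¹ • ηₙ`; `tendsto_moving`. -/
theorem blow_down {w : E × ℝ → ℝ} {c : ℝ} (hc0 : 0 < c) (hc1 : c < 1) (hw : Cls w)
    (hna : ¬ Affine w) : ∃ (κ : ℝ) (W : E × ℝ → ℝ) (η : E), 0 < κ ∧ BMO W ∧ FLe c κ W ∧ ‖η‖ = 1 ∧
      Del c W 0 η 0 = κ := by
  by_cases h1 : FLe c 0 w
  · by_cases h2 : FLe c 0 (rev w)
    · exact absurd (affine_of_del hc0 hc1 hw h1 h2) hna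
    · exact BD_main hc0 hc1 hw.rev h2
  · exact BD_main hc0 hc1 hw h1

end R94
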