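import Crest.Agent.R94.BU
import Crest.Agent.R94.BD

/-!
# R94/HE: uniform Hölder estimate and compactness for bounded a-priori solutions
-/

set_option autoImplicit false
set_option linter.unusedSectionVars false
set_option linter.unusedVariables false

open Set Filter Topology Metric
open scoped InnerProductSpace

namespace R94

variable {E : Type} [NormedAddCommGroup E] [InnerProductSpace ℝ E] [FiniteDimensional ℝ E]

/-- `blow_up` with `liou_half` gives the gauge `C ρ^γ ≤ C ρ^(-1/2)`; `hol_of_gauge`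
(`X = 0`, `r = 1/2`, `γ = 1/2`). -/
theorem he_unit : ∃ H : ℝ, 0 ≤ H ∧ ∀ w : E × ℝ → ℝ, Box w →
    HolOn (1 / 4) H (ball 0 (1 / 2)) w := by
  obtain ⟨γ, C, hγ, -, hC, h⟩ := blow_up (E := E) (γ₀ := -(1 / 2)) le_rfl (by norm_num) liou_half
  obtain ⟨H, hH, hh⟩ := hol_of_gauge (E := E) (γ := 1 / 2) (M := 1) (C := C) (r := 1 / 2)
    (by norm_num) (by norm_num) hC.le (by norm_num)
  refine ⟨H, hH, fun w hw => ?_⟩
  have e1 : (2 * (1 / 2) : ℝ) = 1 := by norm_num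
  have e2 : ((1 - 1 / 2) / 2 : ℝ) = 1 / 4 := by norm_num
  have := hh (ball 0 1) w 0 (by rw [e1]) (by rw [e1]; exact hw.2.1) fun Y hY ρ h0 h1 =>
    (h w hw Y hY ρ h0 h1).mono_lam h0
      (mul_le_mul_of_nonneg_left (Real.rpow_le_rpow_of_exponent_ge h0 h1 hγ.le) hC.le)
  rwa [e2] at this

/-- the inverse of `pt X 0 a τ`. -/
noncomputable def heInv (X : E × ℝ) (a τ : ℝ) (Y : E × ℝ) : E × ℝ :=
  (a⁻¹ • (Y.1 - X.1), τ⁻¹ * (Y.2 - X.2))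

theorem he_pt_inv (X : E × ℝ) {a τ : ℝ} (ha : 0 < a) (hτ : 0 < τ) (Y : E × ℝ) :
    pt X 0 a τ (heInv X a τ Y) = Y := by
  refine Prod.ext ?_ ?_
  · simp [pt, heInv, smul_smul, mul_inv_cancel₀ ha.ne']
  · simp [pt, heInv, ← mul_assoc, mul_inv_cancel₀ hτ.ne']

theorem he_inv_self (X : E × ℝ) (a τ : ℝ) : heInv X a τ X = 0 := by simp [heInv]

theorem he_inv_lip (X : E × ℝ) {a τ : ℝ} (hτ : 0 < τ) (hτa : τ ≤ a) (Y Y' : E × ℝ) :
    ‖heInv X a τ Y - heInv X a τ Y'‖ ≤ τ⁻¹ * ‖Y - Y'‖ := by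
  have ha : 0 < a := hτ.trans_le hτa
  have e : heInv X a τ Y - heInv X a τ Y' = (a⁻¹ • (Y - Y').1, τ⁻¹ * (Y - Y').2) := by
    refine Prod.ext ?_ ?_
    · simp [heInv, smul_sub]
    · simp [heInv, mul_sub]
  rw [e, Prod.norm_mk]
  refine max_le ?_ ?_
  · rw [norm_smul, Real.norm_of_nonneg (inv_pos.2 ha).le]
    exact mul_le_mul (inv_anti₀ hτ hτa) (norm_fst_le _) (norm_nonneg _) (inv_pos.2 hτ).le
  · rw [norm_mul, Real.norm_of_nonneg (inv_pos.2 hτ).le]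
    exact mul_le_mul_of_nonneg_left (norm_snd_le _) (inv_pos.2 hτ).le

theorem he_pt_dist (X : E × ℝ) {a τ : ℝ} (hτ : 0 < τ) (hτa : τ ≤ a) (Z : E × ℝ) :
    ‖pt X 0 a τ Z - X‖ ≤ a * ‖Z‖ := by
  have ha : 0 < a := hτ.trans_le hτa
  have e : pt X 0 a τ Z - X = (a • Z.1, τ * Z.2) := by
    refine Prod.ext ?_ ?_ <;> simp [pt]
  rw [e, Prod.norm_mk]
  refine max_le ?_ ?_
  · rw [norm_smul, Real.norm_of_nonneg ha.le]
    exact mul_le_mul_of_nonneg_left (norm_fst_le _) ha.le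
  · rw [norm_mul, Real.norm_of_nonneg hτ.le]
    exact mul_le_mul hτa (norm_snd_le _) (norm_nonneg _) ha.le

theorem he_sym_eq (X : E × ℝ) (a τ : ℝ) (w : E × ℝ → ℝ) (Z : E × ℝ) :
    sym X 0 0 a τ w Z = (w (pt X 0 a τ Z) - w X) * (τ / a ^ 2) := by
  simp [sym]

/-- Wlog `M ≥ 0`. `W = sym X 0 0 a τ w`, `a = r/2`, `τ = min (r/2) (a²/(2M+1))`; `pt` maps
`closedBall 0 1` into `closedBall X (r/2) ⊆ ball X r`, `|W| ≤ 1`, `AP.sym` + `holOn_compact` give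
`Box W`. Transfer `he_unit` back: `pt` is a bijection `ball 0 (1/2) → ` a box containing
`ball X (τ/2)` (`τ ≤ a`), whose inverse is `τ⁻¹`-Lipschitz. -/
theorem he_local {r : ℝ} (hr : 0 < r) (M : ℝ) : ∃ r' H : ℝ, 0 < r' ∧ r' ≤ r ∧ 0 ≤ H ∧
    ∀ (w : E × ℝ → ℝ) (X : E × ℝ), IsSol (ball X r) w → AP (ball X r) w →
      (∀ Y ∈ ball X r, |w Y| ≤ M) → HolOn (1 / 4) H (ball X r') w := by
  obtain ⟨H, hH, hh⟩ := he_unit (E := E)
  set a : ℝ := r / 2 with ha_def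
  have ha : 0 < a := by positivity
  set τ : ℝ := min a (a ^ 2 / (2 * |M| + 1)) with hτ_def
  have hτ : 0 < τ := lt_min ha (by positivity)
  have hτa : τ ≤ a := min_le_left _ _
  have hτM : τ * (2 * |M| + 1) ≤ a ^ 2 :=
    (le_div_iff₀ (by positivity)).1 (min_le_right _ _)
  refine ⟨τ / 2, a ^ 2 / τ * H * τ⁻¹ ^ (1 / 4 : ℝ), by positivity, by linarith, by positivity,
    fun w X hs hap hM => ?_⟩
  have hsub : closedBall (0 : E × ℝ) 1 ⊆ pt X 0 a τ ⁻¹' ball X r := by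
    intro Z hZ
    rw [mem_closedBall_zero_iff] at hZ
    rw [mem_preimage, mem_ball_iff_norm]
    have := he_pt_dist X hτ hτa Z
    nlinarith
  have hbox : Box (sym X 0 0 a τ w) := by
    refine ⟨(hs.sym ha hτ).mono (ball_subset_closedBall.trans hsub), fun Z hZ => ?_, ?_⟩
    · have h1 := hM _ (hsub (ball_subset_closedBall hZ))
      have h2 := hM X (mem_ball_self hr)
      have h3 : |w (pt X 0 a τ Z) - w X| ≤ 2 * |M| + 1 := by
        have := abs_sub (w (pt X 0 a τ Z)) (w X)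
        have := le_abs_self M
        linarith
      rw [he_sym_eq, abs_mul, abs_of_pos (by positivity : 0 < τ / a ^ 2), ← mul_div_assoc,
        div_le_one (by positivity)]
      nlinarith
    · obtain ⟨L, -, hL⟩ := (hap.sym (X₀ := X) (b := 0) (h := 0) ha hτ).holOn_compact
        (isCompact_closedBall 0 1) hsub
      exact ⟨L, hL.mono ball_subset_closedBall⟩
  have hmem : ∀ Y ∈ ball X (τ / 2), heInv X a τ Y ∈ ball (0 : E × ℝ) (1 / 2) := by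
    intro Y hY
    rw [mem_ball_iff_norm] at hY
    rw [mem_ball_iff_norm, ← he_inv_self X a τ]
    refine (he_inv_lip X hτ hτa Y X).trans_lt ?_
    rw [inv_mul_lt_iff₀ hτ]
    linarith
  intro Y hY Y' hY'
  have h1 := hh _ hbox _ (hmem Y hY) _ (hmem Y' hY')
  rw [he_sym_eq, he_sym_eq, he_pt_inv X ha hτ, he_pt_inv X ha hτ, ← sub_mul, sub_sub_sub_cancel_right,
    abs_mul, abs_of_pos (by positivity : 0 < τ / a ^ 2)] at h1
  have h2 : ‖heInv X a τ Y - heInv X a τ Y'‖ ^ (1 / 4 : ℝ) ≤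
      τ⁻¹ ^ (1 / 4 : ℝ) * ‖Y - Y'‖ ^ (1 / 4 : ℝ) := by
    rw [← Real.mul_rpow (inv_pos.2 hτ).le (norm_nonneg _)]
    exact Real.rpow_le_rpow (norm_nonneg _) (he_inv_lip X hτ hτa Y Y') (by norm_num)
  have h3 := h1.trans (mul_le_mul_of_nonneg_left h2 hH)
  calc |w Y - w Y'| = a ^ 2 / τ * (|w Y - w Y'| * (τ / a ^ 2)) := by field_simp
    _ ≤ a ^ 2 / τ * (H * (τ⁻¹ ^ (1 / 4 : ℝ) * ‖Y - Y'‖ ^ (1 / 4 : ℝ))) :=
        mul_le_mul_of_nonneg_left h3 (by positivity)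
    _ = _ := by ring

theorem he_ball_slab {X : E × ℝ} {r : ℝ} (hr : |X.2| + r ≤ 1) : ball X r ⊆ slab E 1 := by
  intro Y hY
  rw [mem_ball_iff_norm] at hY
  have h1 : |Y.2 - X.2| ≤ ‖Y - X‖ := norm_snd_le (Y - X)
  have h2 := abs_sub_abs_le_abs_sub Y.2 X.2
  rw [mem_slab]
  linarith

theorem he_ball_bound {K Λ : ℝ} {W : E × ℝ → ℝ} (hW : Slab K Λ W) {X : E × ℝ} {r R : ℝ}
    (hr : |X.2| + r ≤ 1) (hR : ‖X.1‖ ≤ R) :
    ∀ Y ∈ ball X r, |W Y| ≤ K + |Λ| * (R + 1) ^ 2 := by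
  intro Y hY
  have h0 := hW.2.2.2 Y (he_ball_slab hr hY)
  rw [mem_ball_iff_norm] at hY
  have h1 : ‖Y.1 - X.1‖ ≤ ‖Y - X‖ := norm_fst_le (Y - X)
  have h2 := norm_sub_norm_le Y.1 X.1
  have h3 : ‖Y.1‖ ≤ R + 1 := by linarith [abs_nonneg X.2]
  have h4 : ‖Y.1‖ ^ 2 ≤ (R + 1) ^ 2 := pow_le_pow_left₀ (norm_nonneg _) h3 2
  have h5 : Λ * ‖Y.1‖ ^ 2 ≤ |Λ| * (R + 1) ^ 2 :=
    mul_le_mul (le_abs_self _) h4 (sq_nonneg _) (abs_nonneg _)
  linarith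

/-- `he_local` with `r = 1/4`, `M = 1 + (R+1)²` for close points, boundedness for far points. -/
theorem he_slab (R : ℝ) : ∃ H : ℝ, 0 ≤ H ∧ ∀ W : E × ℝ → ℝ, Slab 1 1 W →
    HolOn (1 / 4) H {X | ‖X.1‖ ≤ R ∧ |X.2| ≤ 1 / 2} W := by
  set M : ℝ := 1 + |(1 : ℝ)| * (R + 1) ^ 2 with hM
  have hM0 : 0 ≤ M := by positivity
  obtain ⟨r', H, hr', hr'', hH, hh⟩ := he_local (E := E) (r := 1 / 4) (by norm_num) M
  have hp : 0 < r' ^ (1 / 4 : ℝ) := Real.rpow_pos_of_pos hr' _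
  refine ⟨H + 2 * M / r' ^ (1 / 4 : ℝ), by positivity, fun W hW X hX X' hX' => ?_⟩
  have hb : ∀ Y : E × ℝ, ‖Y.1‖ ≤ R ∧ |Y.2| ≤ 1 / 2 → ∀ Z ∈ ball Y (1 / 4), |W Z| ≤ M :=
    fun Y hY => he_ball_bound hW (by linarith [hY.2]) hY.1
  have hn : 0 ≤ ‖X - X'‖ ^ (1 / 4 : ℝ) := Real.rpow_nonneg (norm_nonneg _) _
  rw [add_mul]
  rcases lt_or_ge ‖X - X'‖ r' with h | h
  · have hs : ball X (1 / 4) ⊆ slab E 1 := he_ball_slab (by linarith [hX.2])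
    have := hh W X (hW.1.mono hs) (hW.2.1.mono hs) (hb X hX) X (mem_ball_self hr') X'
      (by rw [mem_ball_iff_norm, norm_sub_rev]; exact h)
    have h2 : 0 ≤ 2 * M / r' ^ (1 / 4 : ℝ) * ‖X - X'‖ ^ (1 / 4 : ℝ) := by positivity
    linarith
  · have h1 := hb X hX X (mem_ball_self (by norm_num))
    have h2 := hb X' hX' X' (mem_ball_self (by norm_num))
    have h3 := abs_sub (W X) (W X')
    have h4 : r' ^ (1 / 4 : ℝ) ≤ ‖X - X'‖ ^ (1 / 4 : ℝ) :=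
      Real.rpow_le_rpow hr'.le h (by norm_num)
    have h5 : 2 * M ≤ 2 * M / r' ^ (1 / 4 : ℝ) * ‖X - X'‖ ^ (1 / 4 : ℝ) := by
      calc 2 * M = 2 * M / r' ^ (1 / 4 : ℝ) * r' ^ (1 / 4 : ℝ) := by field_simp
        _ ≤ _ := mul_le_mul_of_nonneg_left h4 (by positivity)
    have h6 : 0 ≤ H * ‖X - X'‖ ^ (1 / 4 : ℝ) := by positivity
    linarith

/-- `he_local`, `comp0`, `HolOn.of_tendsto`. -/
theorem comp2 (U : Ultrafilter ℕ) (W : ℕ → E × ℝ → ℝ) (O : Set (E × ℝ))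
    (H : ∀ X ∈ O, ∃ r M : ℝ, 0 < r ∧ ball X r ⊆ O ∧ ∀ᶠ n in (U : Filter ℕ),
      IsSol (ball X r) (W n) ∧ AP (ball X r) (W n) ∧ ∀ Y ∈ ball X r, |W n Y| ≤ M) :
    ∃ v : E × ℝ → ℝ, IsSol O v ∧ AP O v ∧ TendstoLocallyUniformlyOn W v U O := by
  have key : ∀ X ∈ O, ∃ r L M : ℝ, 0 < r ∧ ball X r ⊆ O ∧ ∀ᶠ n in (U : Filter ℕ),
      IsSol (ball X r) (W n) ∧ HolOn (1 / 4) L (ball X r) (W n) ∧ |W n X| ≤ M := by
    intro X hX
    obtain ⟨r, M, hr, hO, hev⟩ := H X hX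
    obtain ⟨r', L, hr', hr'', -, hh⟩ := he_local (E := E) hr M
    refine ⟨r', L, M, hr', (ball_subset_ball hr'').trans hO, hev.mono fun n hn => ?_⟩
    exact ⟨hn.1.mono (ball_subset_ball hr''), hh _ X hn.1 hn.2.1 hn.2.2,
      hn.2.2 X (mem_ball_self hr)⟩
  obtain ⟨v, hv, ht⟩ := comp0 U W O fun X hX => by
    obtain ⟨r, L, M, hr, hO, hev⟩ := key X hX
    exact ⟨r, 1 / 4, L, M, hr, by norm_num, hO, hev⟩
  refine ⟨v, hv, fun X hX => ?_, ht⟩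
  obtain ⟨r, L, M, hr, hO, hev⟩ := key X hX
  exact ⟨r, L, hr, HolOn.of_tendsto (hev.mono fun n hn => hn.2.1) fun Y hY => ht.tendsto_at (hO hY)⟩

/-- `comp2` on the unit slab; the growth bound and `v 0 = 0` pass to the limit. -/
theorem compS (U : Ultrafilter ℕ) (W : ℕ → E × ℝ → ℝ) {K Λ : ℝ} (H : ∀ n, Slab K Λ (W n)) :
    ∃ v : E × ℝ → ℝ, Slab K Λ v ∧ TendstoLocallyUniformlyOn W v U (slab E 1) := by
  obtain ⟨v, hv, hap, ht⟩ := comp2 U W (slab E 1) fun X hX => by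
    have h1 : |X.2| + (1 - |X.2|) ≤ 1 := by linarith
    have hs : ball X (1 - |X.2|) ⊆ slab E 1 := he_ball_slab h1
    exact ⟨1 - |X.2|, K + |Λ| * (‖X.1‖ + 1) ^ 2, sub_pos.2 hX, hs, Eventually.of_forall fun n =>
      ⟨(H n).1.mono hs, (H n).2.1.mono hs, he_ball_bound (H n) h1 le_rfl⟩⟩
  refine ⟨v, ⟨hv, hap, ?_, fun X hX => ?_⟩, ht⟩
  · have h0 := ht.tendsto_at (a := 0) (by simp)
    simp only [fun n => (H n).2.2.1] at h0
    exact (tendsto_nhds_unique tendsto_const_nhds h0).symm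
  · exact le_of_tendsto' (ht.tendsto_at (a := X) hX).abs fun n => (H n).2.2.2 X hX

end R94
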