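import Crest.Agent.R94.B4a
import Crest.Agent.R94.HE

/-!
# R94/B4: the supporting chord along the fast direction
-/

set_option autoImplicit false
set_option linter.unusedSectionVars false
set_option linter.unusedVariables false

open Set Filter Topology Metric
open scoped InnerProductSpace

namespace R94

variable {E : Type} [NormedAddCommGroup E] [InnerProductSpace ℝ E] [FiniteDimensional ℝ E]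

theorem b4_perp {e y : E} (he : ‖e‖ = 1) :
    ‖y - ⟪e, y⟫_ℝ • e‖ ^ 2 = ‖y‖ ^ 2 - ⟪e, y⟫_ℝ ^ 2 := by
  rw [norm_sub_sq_real, inner_smul_right, norm_smul, he, mul_one, Real.norm_eq_abs, sq_abs,
    real_inner_comm e y]
  ring

theorem b4_omega {H ε : ℝ} (hH : 0 ≤ H) (hε : 0 < ε) :
    ∃ ω : ℝ, 0 < ω ∧ ω ≤ 1 / 2 ∧ ∀ s : ℝ, 0 ≤ s → s ≤ ω → H * s ^ (1 / 4 : ℝ) ≤ ε := by
  have hq : 0 < ε / (H + 1) := by positivity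
  refine ⟨min (1 / 2) ((ε / (H + 1)) ^ 4), lt_min (by norm_num) (by positivity), min_le_left _ _,
    fun s hs hsω => ?_⟩
  have h1 : s ^ (1 / 4 : ℝ) ≤ ((ε / (H + 1)) ^ 4) ^ (1 / 4 : ℝ) :=
    Real.rpow_le_rpow hs (hsω.trans (min_le_right _ _)) (by norm_num)
  have h2 : ((ε / (H + 1)) ^ 4) ^ (1 / 4 : ℝ) = ε / (H + 1) := by
    rw [← Real.rpow_natCast, ← Real.rpow_mul hq.le]
    norm_num
  rw [h2] at h1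
  calc H * s ^ (1 / 4 : ℝ) ≤ (H + 1) * (ε / (H + 1)) :=
        mul_le_mul (by linarith) h1 (Real.rpow_nonneg hs _) (by linarith)
    _ = ε := by field_simp

/-- the end faces: a point of the tube above `τ • e` is within `ω` of `(τ • e, 0)`. -/
theorem b4_end {W : E × ℝ → ℝ} {H R ω ε : ℝ} {e y : E} {σ : ℝ} (he : ‖e‖ = 1) (hω0 : 0 < ω)
    (hω : ω ≤ 1 / 2) (hH : 0 ≤ H)
    (hW : HolOn (1 / 4) H {X : E × ℝ | ‖X.1‖ ≤ R + 1 ∧ |X.2| ≤ 1 / 2} W)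
    (hε : ∀ s : ℝ, 0 ≤ s → s ≤ ω → H * s ^ (1 / 4 : ℝ) ≤ ε) (hτ : |⟪e, y⟫_ℝ| ≤ R)
    (hy : ‖y‖ ^ 2 - ⟪e, y⟫_ℝ ^ 2 ≤ ω ^ 2) (hσ : |σ| ≤ ω) :
    W (y, σ) ≤ W (⟪e, y⟫_ℝ • e, 0) + ε := by
  have h1 : ‖y - ⟪e, y⟫_ℝ • e‖ ≤ ω := by
    refine le_of_sq_le_sq ?_ hω0.le
    rw [b4_perp he]
    exact hy
  have h2 : ‖⟪e, y⟫_ℝ • e‖ ≤ R := by rw [norm_smul, he, mul_one]; exact hτ
  have h3 : ‖y‖ ≤ R + 1 := by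
    have := norm_add_le (y - ⟪e, y⟫_ℝ • e) (⟪e, y⟫_ℝ • e)
    rw [sub_add_cancel] at this
    linarith
  have h4 := hW (y, σ) ⟨h3, hσ.trans hω⟩ (⟪e, y⟫_ℝ • e, 0) ⟨by simp only; linarith, by simp⟩
  have h5 : ‖((y, σ) : E × ℝ) - (⟪e, y⟫_ℝ • e, 0)‖ ≤ ω := by
    rw [Prod.mk_sub_mk, Prod.norm_mk, sub_zero]
    exact max_le h1 hσ
  have h6 := hε _ (norm_nonneg _) h5
  linarith [le_abs_self (W (y, σ) - W (⟪e, y⟫_ℝ • e, 0))]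

/-- `W` is `Slab 1 1` (`BMO.slab_sym`); `H` from `he_slab (R+1)`; `ω ∈ (0,1/2]` with
`Hω^(1/4) ≤ ε₁/8`; `μ = ε₁/(4R²)`; `Λt ω² = 2 + R² + (R+1)² + ε₁/8`. If the claim fails, the chord
`ℓ τ` (affine, `ℓ(-τ₁) = W (-τ₁ • e,0)`, `ℓ τ₂ = W (τ₂ • e,0)`) has `ℓ 0 < -ε₁`, `|ℓ| ≤ 1 + R²` on
`[-τ₁,τ₂]`, slope `≤ R(1+R²)`. Write `ℓ τ + μ(τ+τ₁)(τ₂-τ) + ε₁/4 = k + mτ - μτ²` and apply
`b4_core` with `G = R(1+R²) + μR`, `M = 2 + R² + (R+1)²`. End faces: the point is within `ω` of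
`(τᵢ • e, 0)` (`‖y - τ • e‖² = ‖y‖² - τ²`). -/
theorem b4 {c κ Λ CE R ε₁ V : ℝ} (hc0 : 0 < c) (hc1 : c < 1) (hκ : 0 < κ) (hCE : 0 ≤ CE)
    (hR : 1 ≤ R) (hε₁ : 0 < ε₁) (hV : 0 < V) :
    ∃ η' : ℝ, 0 < η' ∧ ∀ (w : E × ℝ → ℝ) (δ : ℝ) (η₀ Z₀ : E) (n a : ℝ),
      Ext c κ Λ CE w δ η₀ Z₀ n a → ∀ (ρ v : ℝ) (b₀ : E) (h₂ : ℝ) (e : E),
      0 < ρ → 0 < v → v ≤ V → ‖b₀‖ ≤ ‖Z₀‖ / 4 → ρ * (1 + ‖Z₀‖) ^ 8 ≤ η' * v ^ 16 →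
      δ * (1 + ‖Z₀‖ ^ 2) ≤ η' * (v ^ 2 * ρ) → 1 ≤ η' * ‖Z₀‖ → ‖e‖ = 1 →
      -Z₀ - b₀ = ‖-Z₀ - b₀‖ • e →
      CFw univ w ((1 - c) • η₀, 0) ρ (v ^ 2) (b₀ + (κ / c) • η₀) h₂ →
      ∀ τ₁ τ₂ : ℝ, R⁻¹ ≤ τ₁ → τ₁ ≤ R → R⁻¹ ≤ τ₂ → τ₂ ≤ R →
        -(ε₁ * (τ₁ + τ₂)) ≤
          τ₂ * sym ((1 - c) • η₀, 0) (b₀ + (κ / c) • η₀) h₂ (v * ρ) ρ w (-(τ₁ • e), 0) +
          τ₁ * sym ((1 - c) • η₀, 0) (b₀ + (κ / c) • η₀) h₂ (v * ρ) ρ w (τ₂ • e, 0) := by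
  obtain ⟨H, hH, hhe⟩ := he_slab (E := E) (R + 1)
  obtain ⟨ω, hω0, hω, hωH⟩ := b4_omega hH (show 0 < ε₁ / 8 by positivity)
  have hR0 : 0 < R := by linarith
  obtain ⟨μ, hμ, hμR⟩ : ∃ μ : ℝ, 0 < μ ∧ μ * R ^ 2 = ε₁ / 4 :=
    ⟨ε₁ / (4 * R ^ 2), by positivity, by field_simp⟩
  obtain ⟨Λt, hΛt, hΛω⟩ : ∃ Λt : ℝ, 0 ≤ Λt ∧ Λt * ω ^ 2 = 2 + R ^ 2 + (R + 1) ^ 2 + ε₁ / 8 :=
    ⟨(2 + R ^ 2 + (R + 1) ^ 2 + ε₁ / 8) / ω ^ 2, by positivity, by field_simp⟩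
  obtain ⟨η', hη', hcore⟩ := b4_core (E := E) (c := c) (κ := κ) (Λ := Λ) (CE := CE) (R := R)
    (ε₁ := ε₁) (μ := μ) (Λt := Λt) (G := R * (1 + R ^ 2) + μ * R) (M := 2 + R ^ 2 + (R + 1) ^ 2)
    (V := V) hc0 hc1 hκ hCE hR hε₁ hμ hΛt hV
  refine ⟨η', hη', fun w δ η₀ Z₀ n a hE ρ v b₀ h₂ e hρ hv hvV hb₀ h1 h2 h3 he hdir hcf
    τ₁ τ₂ t1 t1' t2 t2' => ?_⟩
  have hS := hE.bmo.slab_sym hρ hv hcf
  have hcore' := hcore w δ η₀ Z₀ n a hE ρ v b₀ h₂ e τ₁ τ₂ ω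
  generalize sym ((1 - c) • η₀, 0) (b₀ + (κ / c) • η₀) h₂ (v * ρ) ρ w = W at hS hcore' ⊢
  have hHol := hhe W hS
  have hRi : 0 < R⁻¹ := inv_pos.2 hR0
  have hτ₁ : 0 < τ₁ := hRi.trans_le t1
  have hτ₂ : 0 < τ₂ := hRi.trans_le t2
  have hsum : 0 < τ₁ + τ₂ := by linarith
  by_contra hcon
  rw [not_le] at hcon
  have hA : |W (-(τ₁ • e), 0)| ≤ 1 + R ^ 2 := by
    have := hS.2.2.2 (-(τ₁ • e), 0) (by simp)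
    simp only [norm_neg, norm_smul, he, mul_one, Real.norm_eq_abs, sq_abs, one_mul] at this
    linarith [pow_le_pow_left₀ hτ₁.le t1' 2]
  have hB : |W (τ₂ • e, 0)| ≤ 1 + R ^ 2 := by
    have := hS.2.2.2 (τ₂ • e, 0) (by simp)
    simp only [norm_smul, he, mul_one, Real.norm_eq_abs, sq_abs, one_mul] at this
    linarith [pow_le_pow_left₀ hτ₂.le t2' 2]
  have eA : ∀ y : E, ⟪e, y⟫_ℝ = -τ₁ → W (⟪e, y⟫_ℝ • e, 0) = W (-(τ₁ • e), 0) := fun y hy => by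
    rw [hy, neg_smul]
  have eB : ∀ y : E, ⟪e, y⟫_ℝ = τ₂ → W (⟪e, y⟫_ℝ • e, 0) = W (τ₂ • e, 0) := fun y hy => by
    rw [hy]
  generalize W (-(τ₁ • e), 0) = A at *
  generalize W (τ₂ • e, 0) = B at *
  obtain ⟨hA1, hA2⟩ := abs_le.1 hA
  obtain ⟨hB1, hB2⟩ := abs_le.1 hB
  obtain ⟨l₀, hl₀⟩ : ∃ l₀ : ℝ, l₀ * (τ₁ + τ₂) = τ₂ * A + τ₁ * B :=
    ⟨(τ₂ * A + τ₁ * B) / (τ₁ + τ₂), by field_simp⟩
  obtain ⟨s, hs⟩ : ∃ s : ℝ, s * (τ₁ + τ₂) = B - A := ⟨(B - A) / (τ₁ + τ₂), by field_simp⟩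
  have hl₀' : l₀ < -ε₁ := lt_of_mul_lt_mul_right (by linarith) hsum.le
  have hlA : l₀ - s * τ₁ = A := mul_right_cancel₀ hsum.ne' (by linear_combination hl₀ - τ₁ * hs)
  have hlB : l₀ + s * τ₂ = B := mul_right_cancel₀ hsum.ne' (by linear_combination hl₀ + τ₂ * hs)
  have hsR : 2 ≤ R * (τ₁ + τ₂) := by
    have := mul_le_mul_of_nonneg_left (add_le_add t1 t2) hR0.le
    rw [mul_add R R⁻¹, mul_inv_cancel₀ hR0.ne'] at this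
    linarith
  have hsabs : |s| ≤ R * (1 + R ^ 2) := by
    have e1 : |s| * (τ₁ + τ₂) ≤ 2 * (1 + R ^ 2) := by
      rw [← abs_of_pos hsum, ← abs_mul, hs]
      exact abs_le.2 ⟨by linarith, by linarith⟩
    refine le_of_mul_le_mul_right (e1.trans ?_) hsum
    linarith [mul_le_mul_of_nonneg_right hsR (by positivity : (0 : ℝ) ≤ 1 + R ^ 2)]
  have hlow : ∀ τ : ℝ, -τ₁ ≤ τ → τ ≤ τ₂ → -(1 + R ^ 2) ≤ l₀ + s * τ := fun τ a1 a2 => by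
    refine le_of_mul_le_mul_right ?_ hsum
    have e1 : (l₀ + s * τ) * (τ₁ + τ₂) = (τ₂ - τ) * A + (τ + τ₁) * B := by
      linear_combination hl₀ + τ * hs
    rw [e1]
    linarith [mul_le_mul_of_nonneg_left hA1 (sub_nonneg.2 a2),
      mul_le_mul_of_nonneg_left hB1 (by linarith : 0 ≤ τ + τ₁)]
  have htube : ∀ (y : E) (σ : ℝ), tubeL e (l₀ + μ * τ₁ * τ₂ + ε₁ / 4) (s + μ * (τ₂ - τ₁)) μ Λt y σ =
      l₀ + s * ⟪e, y⟫_ℝ + μ * ((⟪e, y⟫_ℝ + τ₁) * (τ₂ - ⟪e, y⟫_ℝ)) + ε₁ / 4 +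
        Λt * (‖y‖ ^ 2 - ⟪e, y⟫_ℝ ^ 2 + σ ^ 2) := fun y σ => by
    unfold tubeL
    ring
  have hperp : ∀ y : E, 0 ≤ ‖y‖ ^ 2 - ⟪e, y⟫_ℝ ^ 2 := fun y => by
    rw [← b4_perp he]
    positivity
  have hin : ∀ (y : E) (σ : ℝ), InTube e τ₁ τ₂ ω y σ → |⟪e, y⟫_ℝ| ≤ R ∧
      W (y, σ) ≤ 1 + (R + 1) ^ 2 ∧ 0 ≤ μ * ((⟪e, y⟫_ℝ + τ₁) * (τ₂ - ⟪e, y⟫_ℝ)) ∧
      -(1 + R ^ 2) ≤ l₀ + s * ⟪e, y⟫_ℝ := fun y σ ⟨i1, i2, i3, i4⟩ => by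
    have j1 : |⟪e, y⟫_ℝ| ≤ R := abs_le.2 ⟨by linarith, by linarith⟩
    have j2 : ⟪e, y⟫_ℝ ^ 2 ≤ R ^ 2 := by
      rw [← sq_abs]
      exact pow_le_pow_left₀ (abs_nonneg _) j1 2
    have j3 := le_of_abs_le (hS.2.2.2 (y, σ) (by simp only; linarith))
    refine ⟨j1, ?_, mul_nonneg hμ.le (mul_nonneg (by linarith) (by linarith)), hlow _ i1 i2⟩
    simp only at j3
    linarith [pow_le_pow_left₀ hω0.le hω 2]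
  refine hcore' (l₀ + μ * τ₁ * τ₂ + ε₁ / 4) (s + μ * (τ₂ - τ₁)) hρ hv hvV hb₀ h1 h2 h3 he hdir hτ₁
    t1' hτ₂ t2' hω0 (by linarith) ?_ ?_ (fun y σ hy => ?_) (fun y σ hy hon => ?_)
  · refine (abs_add_le _ _).trans (add_le_add hsabs ?_)
    rw [abs_mul, abs_of_pos hμ]
    exact mul_le_mul_of_nonneg_left (abs_le.2 ⟨by linarith, by linarith⟩) hμ.le
  · have : τ₁ * τ₂ ≤ R ^ 2 := by rw [sq]; exact mul_le_mul t1' t2' hτ₂.le hR0.le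
    linarith [mul_le_mul_of_nonneg_left this hμ.le]
  · obtain ⟨j1, j2, j3, j4⟩ := hin y σ hy
    rw [htube]
    have := mul_nonneg hΛt (add_nonneg (hperp y) (sq_nonneg σ))
    linarith
  · obtain ⟨j1, j2, j3, j4⟩ := hin y σ hy
    rw [htube]
    have j5 := mul_nonneg hΛt (add_nonneg (hperp y) (sq_nonneg σ))
    have j6 := b4_end he hω0 hω hH hHol hωH j1 hy.2.2.1 hy.2.2.2
    rcases hon with h | h | h | h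
    · rw [eA y h] at j6
      rw [h] at j3 j5 ⊢
      linarith
    · rw [eB y h] at j6
      rw [h] at j3 j5 ⊢
      linarith
    · rw [h]
      have := mul_nonneg hΛt (sq_nonneg σ)
      linarith
    · have h' : σ ^ 2 = ω ^ 2 := by rw [← sq_abs, h]
      rw [h']
      have := mul_nonneg hΛt (hperp y)
      linarith

end R94
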