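import Crest.Agent.R94.B4aEng

/-!
# R94/B4a: the maximum principle on a thin tube along the fast direction
-/

set_option autoImplicit false
set_option linter.unusedSectionVars false
set_option linter.unusedVariables false

open Set Filter Topology Metric
open scoped InnerProductSpace

namespace R94

variable {E : Type} [NormedAddCommGroup E] [InnerProductSpace ℝ E] [FiniteDimensional ℝ E]

/-- the smallness conditions on `η'`. -/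
theorem b4_small {κc CE V θ B₀ Ce Cg ε₁ δe ε₂ C₂ C₅ μ : ℝ} (hθ : 0 < θ) (hε₁ : 0 < ε₁)
    (hδe : 0 < δe) (hμ : 0 < μ) : ∃ h : ℝ, 0 < h ∧
      CE ^ 4 * (V * √h + B₀ * V ^ 8 * h) < θ ^ 4 ∧ (V * √h + B₀ * V ^ 8 * h) * V ^ 8 < 1 / 4 ∧
      CE * (h * V ^ 16) < θ ∧ h * (h * V ^ 16) < θ ∧ Ce * h < ε₁ / 8 ∧ 2 * Cg * h < ε₁ / 8 ∧
      2 * Cg * h < 1 ∧ 2 * (h * V ^ 2) < δe ∧ 2 * (h * V ^ 2) < 1 / 2 ∧
      2 * ε₂ * (h * V ^ 2) < 1 ∧ h * V ^ 16 < 1 ∧ C₂ * h < 1 / 4 ∧ C₅ * h ^ 2 < μ / 4 := by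
  have e1 := b4_ev_lt (g := fun h => CE ^ 4 * (V * √h + B₀ * V ^ 8 * h)) (B := θ ^ 4)
    (by fun_prop) (by simp; positivity)
  have e2 := b4_ev_lt (g := fun h => (V * √h + B₀ * V ^ 8 * h) * V ^ 8) (B := 1 / 4)
    (by fun_prop) (by simp)
  have e3 := b4_ev_lt (g := fun h => CE * (h * V ^ 16)) (B := θ) (by fun_prop) (by simpa)
  have e4 := b4_ev_lt (g := fun h => h * (h * V ^ 16)) (B := θ) (by fun_prop) (by simpa)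
  have e5 := b4_ev_lt (g := fun h => Ce * h) (B := ε₁ / 8) (by fun_prop) (by simpa)
  have e6 := b4_ev_lt (g := fun h => 2 * Cg * h) (B := ε₁ / 8) (by fun_prop) (by simpa)
  have e7 := b4_ev_lt (g := fun h => 2 * Cg * h) (B := 1) (by fun_prop) (by simp)
  have e8 := b4_ev_lt (g := fun h => 2 * (h * V ^ 2)) (B := δe) (by fun_prop) (by simpa)
  have e9 := b4_ev_lt (g := fun h => 2 * (h * V ^ 2)) (B := 1 / 2) (by fun_prop) (by simp)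
  have e10 := b4_ev_lt (g := fun h => 2 * ε₂ * (h * V ^ 2)) (B := 1) (by fun_prop) (by simp)
  have e11 := b4_ev_lt (g := fun h => h * V ^ 16) (B := 1) (by fun_prop) (by simp)
  have e12 := b4_ev_lt (g := fun h => C₂ * h) (B := 1 / 4) (by fun_prop) (by simp)
  have e13 := b4_ev_lt (g := fun h => C₅ * h ^ 2) (B := μ / 4) (by fun_prop) (by simpa)
  have e0 : ∀ᶠ h in 𝓝[>] (0 : ℝ), 0 < h := self_mem_nhdsWithin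
  obtain ⟨h, hh⟩ := (e0.and (e1.and (e2.and (e3.and (e4.and (e5.and (e6.and (e7.and (e8.and
    (e9.and (e10.and (e11.and (e12.and e13))))))))))))).exists
  exact ⟨h, hh⟩

/-- the size of the region and of the defect. -/
theorem b4_radius {CE V θ B₀ h ρ v Q B : ℝ} (hCE : 0 ≤ CE) (hθ : 0 < θ) (hh : 0 < h) (hρ : 0 < ρ)
    (hv : 0 < v) (hvV : v ≤ V) (hQ : 0 ≤ Q) (hB₀ : 0 ≤ B₀) (hB0 : 0 ≤ B) (hB : B ≤ B₀ * (1 + Q))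
    (h1 : ρ * (1 + Q) ^ 8 ≤ h * v ^ 16) (h2 : CE ^ 4 * (V * √h + B₀ * V ^ 8 * h) < θ ^ 4)
    (h3 : (V * √h + B₀ * V ^ 8 * h) * V ^ 8 < 1 / 4) :
    v * √ρ + ρ * B ≤ 1 / 4 ∧ CE * √(√(v * √ρ + ρ * B)) * (1 + Q) ≤ θ * v ^ 2 := by
  have hQ1 : 1 ≤ 1 + Q := by linarith
  have k1 : √ρ * (1 + Q) ^ 4 ≤ √h * v ^ 8 := by
    refine le_of_pow_le_pow_left₀ (n := 2) two_ne_zero (by positivity) ?_
    rw [mul_pow, mul_pow, Real.sq_sqrt hρ.le, Real.sq_sqrt hh.le]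
    calc ρ * ((1 + Q) ^ 4) ^ 2 = ρ * (1 + Q) ^ 8 := by ring
      _ ≤ h * v ^ 16 := h1
      _ = h * (v ^ 8) ^ 2 := by ring
  have k2 : ρ * B * (1 + Q) ^ 4 ≤ B₀ * V ^ 8 * h * v ^ 8 := by
    calc ρ * B * (1 + Q) ^ 4 ≤ ρ * (B₀ * (1 + Q) ^ 4) * (1 + Q) ^ 4 := by
          gcongr
          refine hB.trans ?_
          gcongr
          exact le_self_pow₀ hQ1 (by norm_num)
      _ = B₀ * (ρ * (1 + Q) ^ 8) := by ring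
      _ ≤ B₀ * (h * v ^ 16) := by gcongr
      _ = B₀ * v ^ 8 * h * v ^ 8 := by ring
      _ ≤ B₀ * V ^ 8 * h * v ^ 8 := by gcongr
  have k3 : (v * √ρ + ρ * B) * (1 + Q) ^ 4 ≤ (V * √h + B₀ * V ^ 8 * h) * v ^ 8 := by
    have : v * (√ρ * (1 + Q) ^ 4) ≤ V * (√h * v ^ 8) := by gcongr; linarith
    linarith
  have hr0 : 0 ≤ v * √ρ + ρ * B := by positivity
  have hg0 : 0 ≤ V * √h + B₀ * V ^ 8 * h := by
    have : 0 < V := by linarith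
    positivity
  generalize v * √ρ + ρ * B = r at k3 hr0 ⊢
  generalize V * √h + B₀ * V ^ 8 * h = g at k3 h2 h3 hg0
  constructor
  · have a1 : r * 1 ≤ r * (1 + Q) ^ 4 := by gcongr; exact one_le_pow₀ hQ1
    have a2 : g * v ^ 8 ≤ g * V ^ 8 := by gcongr
    linarith
  · refine le_of_pow_le_pow_left₀ (n := 4) (by norm_num) (by positivity) ?_
    have a1 : √(√r) ^ 4 = r := by
      rw [show (4 : ℕ) = 2 * 2 from rfl, pow_mul, Real.sq_sqrt (Real.sqrt_nonneg _),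
        Real.sq_sqrt hr0]
    calc (CE * √(√r) * (1 + Q)) ^ 4 = CE ^ 4 * (r * (1 + Q) ^ 4) := by
          rw [mul_pow, mul_pow, a1]; ring
      _ ≤ CE ^ 4 * (g * v ^ 8) := by gcongr
      _ = CE ^ 4 * g * v ^ 8 := by ring
      _ ≤ θ ^ 4 * v ^ 8 := by gcongr
      _ = (θ * v ^ 2) ^ 4 := by ring

theorem b4_tube_norm {e y : E} {τ₁ τ₂ ω σ R : ℝ} (h : InTube e τ₁ τ₂ ω y σ) (h1 : τ₁ ≤ R)
    (h2 : τ₂ ≤ R) (hR : 0 ≤ R) (hω0 : 0 ≤ ω) (hω : ω ≤ 1) : |⟪e, y⟫_ℝ| ≤ R ∧ ‖y‖ ≤ R + 1 := by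
  obtain ⟨a1, a2, a3, -⟩ := h
  have b1 : |⟪e, y⟫_ℝ| ≤ R := abs_le.2 ⟨by linarith, by linarith⟩
  refine ⟨b1, ?_⟩
  have b2 : ⟪e, y⟫_ℝ ^ 2 ≤ R ^ 2 := by rw [← sq_abs]; gcongr
  have b3 : ω ^ 2 ≤ 1 := by nlinarith
  refine le_of_pow_le_pow_left₀ (n := 2) two_ne_zero (by positivity) ?_
  nlinarith

theorem b4_DL_le {e y : E} {τ₁ τ₂ ω σ R G m μ Λt : ℝ} (he : ‖e‖ = 1)
    (h : InTube e τ₁ τ₂ ω y σ) (h1 : τ₁ ≤ R) (h2 : τ₂ ≤ R) (hR : 0 ≤ R) (hω0 : 0 ≤ ω) (hω : ω ≤ 1)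
    (hm : |m| ≤ G) (hμ : 0 ≤ μ) (hΛ : 0 ≤ Λt) :
    ‖(m - 2 * μ * ⟪e, y⟫_ℝ) • e + (2 * Λt) • (y - ⟪e, y⟫_ℝ • e)‖ ≤ G + 2 * μ * R + 2 * Λt := by
  have b1 := (b4_tube_norm h h1 h2 hR hω0 hω).1
  refine (norm_add_le _ _).trans (add_le_add ?_ ?_)
  · rw [norm_smul, he, mul_one, Real.norm_eq_abs]
    refine (abs_sub _ _).trans (add_le_add hm ?_)
    rw [abs_mul, abs_of_nonneg (by positivity)]; gcongr
  · rw [norm_smul, Real.norm_eq_abs, abs_of_nonneg (by positivity)]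
    have b2 : ‖y - ⟪e, y⟫_ℝ • e‖ ≤ 1 := by
      refine le_of_pow_le_pow_left₀ (n := 2) two_ne_zero (by positivity) ?_
      rw [b4_perp_sq he]
      have := h.2.2.1
      nlinarith
    nlinarith

set_option maxHeartbeats 1600000 in
/-- Notation: `Q = ‖Z₀‖`, `P = -Z₀`, `z* = (1-c) • η₀`, `b₂ = b₀ + (κ/c) • η₀`, `f = Tp δ w`; wlog
`M, G ≥ 0`. For a configuration `(x,η,t)`: `z₂ = x + (1-c) • η`, `y = (vρ)⁻¹ • (z₂ - z* - t • b₂)`,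
`σ = t/ρ`, so `pt (y,σ) = (z₂,t)` and `w (z₂,t) - ℒ = v²ρ (W - tubeL)(y,σ)` for
`ℒ (z₂,t) = w (z*,0) + ⟪b₂, z₂ - z* - t • b₂⟫ + (h₂ + ‖b₂‖²/2) t + v²ρ tubeL y σ`.
`f - w ≤ Cδ` nearby (`grow_flow`), `f - w ≥ -Cδ(1+Q²)` at the centre (`ext_cons`), so with `η₀'`
small `f - ℒ ≥ (3/8)ε₁v²ρ` at the centre, `≤ 0` on `OnTube`, `≤ (M+1)v²ρ` on `InTube`.
`ε₂ = μ/16`, `β = ε₂/ρ`, `r₁ = v√ρ`, `Λ' = ε₂(M+1)/ρ`. Maximise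
`Φ = Phi c δ (1-c) 0 (c+δβ) 0 w x η t (δ • Z₀) - (κ+δa)‖η‖ - δβℒ - δΛ'‖η-η₀‖²` over the compact
`K = {InTube, ‖η-η₀‖ ≤ r₁}`. All of `K` lies within `r = r₁ + ρ(v(R+1) + ‖b₂‖ + 1) ≤ 1/4`, and the
defect `Df = δ + CE r₁² + CE√√r(1+Q) < (3/8)ε₁ε₂v²` for small `η'` (`ρ(1+Q)⁸ ≤ η'v¹⁶`, `δ ≤ η'v²ρ`,
`v ≤ V`). `e1`, `e2` ⇒ the maximiser is interior and `J0 ≥ n + a(‖η‖-1) - δ - ε₂(M+1)v²`; `pin` ⇒
`‖p - P‖ ≤ C₁`. `engineC` (`γ = 0`): `Dℒ = b₂ + v • DL`, `DL = (m - 2μτ) • e + 2Λt • (y - τ • e)`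
bounded, `gx = δβ • Dℒ`, `gη = (1-c)δβ • Dℒ + 2δΛ' • (η-η₀)`. `u = v₂ - b₂` satisfies
`‖u - (P - b₀)‖ ≤ C₂` (`δβ(1+Q) ≤ 1`, `δΛ'r₁ ≤ 1`), so `⟪e,u⟫ ≥ 3Q/4 - C₂ ≥ Q/2`, `‖u⊥‖ ≤ C₂`,
`‖d‖ ≤ C₃`, `v̄ - p = δβ • (Dℒ - v₂)`, `‖d⊥‖ ≤ Cδε₂(1+Q)/ρ`. The `z₂`-displacement is
`H₂ = ξ + (1-c) • u'`, `H₂ - σ' • v₂ = (ξ - σ' • v̄) + (1-c) • (u' - σ' • d)`, and the quadratic part
of `ℒ` is `ρ⁻¹(-μ⟪e,H⟫² + Λt(‖H‖² - ⟪e,H⟫²) + Λt v²σ'²)`, `H = H₂ - σ' • b₂ = σ' • u + (H₂ - σ' • v₂)`.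
So `D = (δε₂/ρ²)(-μ⟪e,u⟫²/2 + 2Λt C₂² + Λt v²) + 2δΛ'C₃²`. Divide the conclusion by `δε₂/ρ²`:
`2μ⟪e,u⟫² ≤ C₄ + Cδ(1+Q)² + 16ε₂⟪e,u⟫²`, i.e. `μQ²/4 ≤ C₅`: false for `Q ≥ 1/η'`. -/
theorem b4_core {c κ Λ CE R ε₁ μ Λt G M V : ℝ} (hc0 : 0 < c) (hc1 : c < 1) (hκ : 0 < κ)
    (hCE : 0 ≤ CE) (hR : 1 ≤ R) (hε₁ : 0 < ε₁) (hμ : 0 < μ) (hΛt : 0 ≤ Λt) (hV : 0 < V) :
    ∃ η' : ℝ, 0 < η' ∧ ∀ (w : E × ℝ → ℝ) (δ : ℝ) (η₀ Z₀ : E) (n a : ℝ),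
      Ext c κ Λ CE w δ η₀ Z₀ n a → ∀ (ρ v : ℝ) (b₀ : E) (h₂ : ℝ) (e : E) (τ₁ τ₂ ω k m : ℝ),
      0 < ρ → 0 < v → v ≤ V → ‖b₀‖ ≤ ‖Z₀‖ / 4 → ρ * (1 + ‖Z₀‖) ^ 8 ≤ η' * v ^ 16 →
      δ * (1 + ‖Z₀‖ ^ 2) ≤ η' * (v ^ 2 * ρ) → 1 ≤ η' * ‖Z₀‖ → ‖e‖ = 1 →
      -Z₀ - b₀ = ‖-Z₀ - b₀‖ • e → 0 < τ₁ → τ₁ ≤ R → 0 < τ₂ → τ₂ ≤ R → 0 < ω → ω ≤ 1 →
      |m| ≤ G → k ≤ -(ε₁ / 2) →
      (∀ (y : E) (σ : ℝ), InTube e τ₁ τ₂ ω y σ →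
        sym ((1 - c) • η₀, 0) (b₀ + (κ / c) • η₀) h₂ (v * ρ) ρ w (y, σ) ≤
          tubeL e k m μ Λt y σ + M) →
      (∀ (y : E) (σ : ℝ), InTube e τ₁ τ₂ ω y σ → OnTube e τ₁ τ₂ ω y σ →
        sym ((1 - c) • η₀, 0) (b₀ + (κ / c) • η₀) h₂ (v * ρ) ρ w (y, σ) ≤
          tubeL e k m μ Λt y σ - ε₁ / 8) → False := by
  have hc1' : 0 < 1 - c := by linarith
  have hR0 : 0 ≤ R := by linarith
  obtain ⟨Cg, hCg, Hg⟩ := grow_flow (E := E) Λ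
  obtain ⟨Ce, δe, hCe, hδe, He⟩ := ext_cons (E := E) (Λ := Λ) hc0 hc1 hκ hCE
  obtain ⟨ε₂, hε₂⟩ : ∃ ε₂, ε₂ = μ / 16 := ⟨_, rfl⟩
  have hε₂0 : 0 < ε₂ := by rw [hε₂]; positivity
  obtain ⟨M₁, hM₁⟩ : ∃ M₁, M₁ = |M| + 1 := ⟨_, rfl⟩
  have hM₁0 : 0 < M₁ := by rw [hM₁]; positivity
  obtain ⟨θ, hθ⟩ : ∃ θ, θ = ε₁ * ε₂ / 8 := ⟨_, rfl⟩
  have hθ0 : 0 < θ := by rw [hθ]; positivity
  obtain ⟨C₁, hC₁⟩ : ∃ C₁, C₁ = √(12 * ((3 * θ + ε₂ * M₁) * V ^ 2) + 4 * CE ^ 2) := ⟨_, rfl⟩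
  have hC₁0 : 0 ≤ C₁ := by rw [hC₁]; positivity
  obtain ⟨C₂, C₅, hC₂, hC₅, HE⟩ := b4_eng (E := E) (G₁ := |G| + 2 * μ * R + 2 * Λt) (C₁ := C₁)
    hc0 hc1 hκ hμ hΛt (by positivity) hC₁0 hM₁0.le hV
  obtain ⟨B₀, hB₀⟩ : ∃ B₀, B₀ = V * (R + 1) + κ / c + 1 := ⟨_, rfl⟩
  have hB₀0 : 0 ≤ B₀ := by rw [hB₀]; positivity
  obtain ⟨h, hh, s1, s2, s3, s4, s5, s6, s7, s8, s9, s10, s11, s12, s13⟩ :=
    b4_small (κc := 0) (CE := CE) (V := V) (B₀ := B₀) (Ce := Ce) (Cg := Cg) (ε₂ := ε₂) (C₂ := C₂)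
      (C₅ := C₅) hθ0 hε₁ hδe hμ
  refine ⟨h, hh, ?_⟩
  intro w δ η₀ Z₀ n a hX ρ v b₀ h₂ e τ₁ τ₂ ω k m hρ hv hvV hb₀ hρs hδs hQs he hdir hτ₁ hτ₁R hτ₂ hτ₂R
    hω hω1 hm hk hin hon
  have hδ := hX.δpos
  have hη₀ := hX.unit
  have hw := hX.bmo.ent
  have hcs := hw.csq
  obtain ⟨b₂, hb₂⟩ : ∃ b₂, b₂ = b₀ + (κ / c) • η₀ := ⟨_, rfl⟩
  obtain ⟨zs, hzs⟩ : ∃ zs, zs = (1 - c) • η₀ := ⟨_, rfl⟩
  rw [← hb₂, ← hzs] at hin hon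
  obtain ⟨Q, hQ⟩ : ∃ Q, Q = ‖Z₀‖ := ⟨_, rfl⟩
  have hQ0 : 0 ≤ Q := hQ ▸ norm_nonneg _
  have hv2 : v ^ 2 ≤ V ^ 2 := by gcongr
  have hv20 : 0 < v ^ 2 := by positivity
  have hρ1 : ρ ≤ h * V ^ 16 := by
    have a1 : ρ * 1 ≤ ρ * (1 + ‖Z₀‖) ^ 8 := by
      gcongr; exact one_le_pow₀ (by linarith only [norm_nonneg Z₀])
    have a2 : h * v ^ 16 ≤ h * V ^ 16 := by gcongr
    linarith only [a1, a2, hρs]
  have hρ2 : ρ ≤ 1 := by linarith only [hρ1, s11]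
  have hδ1 : δ ≤ h * (v ^ 2 * ρ) := by
    have : δ * 1 ≤ δ * (1 + ‖Z₀‖ ^ 2) := by gcongr; linarith only [sq_nonneg ‖Z₀‖]
    linarith only [this, hδs]
  have hδ2 : δ * (1 + Q) ^ 2 ≤ 2 * (h * (v ^ 2 * ρ)) := by
    have : δ * (1 + Q) ^ 2 ≤ δ * (2 * (1 + Q ^ 2)) := by gcongr; nlinarith only [sq_nonneg (1 - Q)]
    rw [← hQ] at hδs; linarith only [this, hδs]
  have hδ3 : δ * (1 + Q) ≤ δ * (1 + Q) ^ 2 := by gcongr; nlinarith only [hQ0]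
  have hδ4 : h * (v ^ 2 * ρ) ≤ h * V ^ 2 * ρ := by rw [mul_assoc]; gcongr
  have hδ5 : h * V ^ 2 * ρ ≤ h * V ^ 2 := by
    exact mul_le_of_le_one_right (by positivity) hρ2
  have hδ6 : δ ≤ δ * (1 + Q) := le_mul_of_one_le_right hδ.le (by linarith only [hQ0])
  obtain ⟨-, -, hSp⟩ := He w δ η₀ Z₀ n a hX (by rw [← hQ]; linarith only [hδ2, hδ3, hδ4, hδ5, s8])
  obtain ⟨β, hβ⟩ : ∃ β, β = μ / 16 / ρ := ⟨_, rfl⟩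
  obtain ⟨Λ', hΛ'⟩ : ∃ Λ', Λ' = μ / 16 * M₁ / ρ := ⟨_, rfl⟩
  have hβρ : β * ρ = ε₂ := by rw [hβ, hε₂]; field_simp
  have hβ0 : 0 < β := by rw [hβ]; positivity
  have hΛρ : Λ' * ρ = ε₂ * M₁ := by rw [hΛ', hε₂]; field_simp
  have hΛ'0 : 0 < Λ' := by rw [hΛ']; positivity
  have hb₂n : ‖b₂‖ ≤ Q / 4 + κ / c := by
    rw [hb₂]
    refine (norm_add_le _ _).trans ?_
    rw [norm_smul, hη₀, Real.norm_eq_abs, abs_of_nonneg (by positivity), hQ]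
    linarith only [hb₀]
  obtain ⟨B, hB⟩ : ∃ B, B = v * (R + 1) + ‖b₂‖ + 1 := ⟨_, rfl⟩
  have hB0 : 0 ≤ B := by rw [hB]; positivity
  have hBB : B ≤ B₀ * (1 + Q) := by
    have a1 : v * (R + 1) ≤ V * (R + 1) := by gcongr
    have a2 : 0 ≤ (V * (R + 1) + κ / c) * Q := by positivity
    rw [hB, hB₀]; linarith only [a1, a2, hb₂n, hQ0]
  obtain ⟨hr4, hrθ⟩ := b4_radius hCE hθ0 hh hρ hv hvV hQ0 hB₀0 hB0 hBB (hQ ▸ hρs) s1 s2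
  obtain ⟨r₁, hr₁⟩ : ∃ r₁, r₁ = v * √ρ := ⟨_, rfl⟩
  have hr₁0 : 0 < r₁ := by rw [hr₁]; positivity
  have hr₁2 : r₁ ^ 2 = v ^ 2 * ρ := by rw [hr₁, mul_pow, Real.sq_sqrt hρ.le]
  rw [← hr₁] at hr4 hrθ
  obtain ⟨r, hr⟩ : ∃ r, r = r₁ + ρ * B := ⟨_, rfl⟩
  rw [← hr] at hr4 hrθ
  have hr₁r : r₁ ≤ r := by rw [hr]; linarith only [mul_nonneg hρ.le hB0]
  have hsq1 : √(√r) ≤ 1 := by
    exact Real.sqrt_le_one.2 (Real.sqrt_le_one.2 (by linarith only [hr4]))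
  have hκa : |δ * a| ≤ κ / 2 := by rw [abs_mul, abs_of_pos hδ]; exact hX.aup
  have hκa' := abs_le.1 hκa
  obtain ⟨ℓ, hℓ⟩ : ∃ ℓ, ℓ = ellB e zs b₂ (w (zs, 0)) h₂ v ρ k m μ Λt := ⟨_, rfl⟩
  obtain ⟨Φ, hΦ⟩ : ∃ Φ : E × E × ℝ → ℝ, Φ = fun Y =>
    phiB c δ (κ + δ * a) β Λ' w (δ • Z₀) η₀ ℓ Y.1 Y.2.1 Y.2.2 := ⟨_, rfl⟩
  obtain ⟨yy, hyy⟩ : ∃ yy : E × E × ℝ → E, yy = fun Y =>
    (v * ρ)⁻¹ • (Y.1 + (1 - c) • Y.2.1 - zs - Y.2.2 • b₂) := ⟨_, rfl⟩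
  have hyyc : Continuous yy := by rw [hyy]; fun_prop
  have hΦc : Continuous Φ := by
    have a1 := hcs.continuous_Reg hδ c (δ • Z₀)
    have a2 : Continuous fun Y : E × E × ℝ => Tp δ w (Y.1 + (1 - c) • Y.2.1, Y.2.2) :=
      (hcs.flowp hδ).1.comp (by fun_prop)
    have a3 : Continuous fun Y : E × E × ℝ => ℓ (Y.1 + (1 - c) • Y.2.1) Y.2.2 := by
      rw [hℓ]
      exact (ellB_continuous e zs b₂ (w (zs, 0)) h₂ v ρ k m μ Λt).comp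
        (f := fun Y : E × E × ℝ => (Y.1 + (1 - c) • Y.2.1, Y.2.2)) (by fun_prop)
    rw [hΦ]; unfold phiB
    exact ((a1.sub (by fun_prop)).add (continuous_const.mul (a2.sub a3))).sub (by fun_prop)
  obtain ⟨K, hK⟩ : ∃ K : Set (E × E × ℝ), K = {Y | InTube e τ₁ τ₂ ω (yy Y) (Y.2.2 / ρ) ∧
    ‖Y.2.1 - η₀‖ ≤ r₁} := ⟨_, rfl⟩
  have hKb : ∀ Y ∈ K, ‖Y.1‖ ≤ r ∧ |Y.2.2| ≤ r ∧ ‖Y.2.1 - η₀‖ ≤ r₁ := by
    intro Y hY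
    rw [hK] at hY
    obtain ⟨hT, hη⟩ := hY
    have a1 := (b4_tube_norm hT hτ₁R hτ₂R hR0 hω.le hω1).2
    have a2 : |Y.2.2| ≤ ρ := by
      have := hT.2.2.2
      rw [abs_div, abs_of_pos hρ, div_le_iff₀ hρ] at this
      exact this.trans (mul_le_of_le_one_left hρ.le hω1)
    have a3 : Y.1 = (v * ρ) • yy Y + Y.2.2 • b₂ - (1 - c) • (Y.2.1 - η₀) := by
      rw [hyy, hzs]
      simp only [smul_smul, mul_inv_cancel₀ (mul_pos hv hρ).ne', one_smul]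
      module
    refine ⟨?_, ?_, hη⟩
    · have b1 : ‖(v * ρ) • yy Y‖ ≤ v * ρ * (R + 1) := by
        rw [norm_smul, Real.norm_eq_abs, abs_of_pos (mul_pos hv hρ)]; gcongr
      have b2 : ‖Y.2.2 • b₂‖ ≤ ρ * ‖b₂‖ := by rw [norm_smul, Real.norm_eq_abs]; gcongr
      have b3 : ‖(1 - c) • (Y.2.1 - η₀)‖ ≤ r₁ := by
        rw [norm_smul, Real.norm_eq_abs, abs_of_pos hc1']
        exact (mul_le_of_le_one_left (norm_nonneg _) (by linarith only [hc0])).trans hη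
      rw [a3]
      refine (norm_sub_le _ _).trans ((add_le_add (norm_add_le _ _) b3).trans ?_)
      rw [hr, hB]; linarith only [b1, b2, hρ]
    · refine a2.trans ?_
      rw [hr, hB]
      have : 0 ≤ ρ * (v * (R + 1) + ‖b₂‖) := by positivity
      linarith only [this, hr₁0]
  have hKc : IsCompact K := by
    refine (isCompact_closedBall (0 : E × E × ℝ) 2).of_isClosed_subset ?_ ?_
    · rw [hK]
      unfold InTube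
      simp only [ofPred_and]
      refine ((isClosed_le (by fun_prop) (by fun_prop)).inter
        ((isClosed_le (by fun_prop) (by fun_prop)).inter
        ((isClosed_le (by fun_prop) (by fun_prop)).inter
        (isClosed_le (by fun_prop) (by fun_prop))))).inter (isClosed_le (by fun_prop) (by fun_prop))
    · intro Y hY
      obtain ⟨a1, a2, a3⟩ := hKb Y hY
      have a4 : ‖Y.2.1‖ ≤ 2 := by
        have := norm_sub_norm_le Y.2.1 η₀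
        linarith only [this, hη₀, a3, hr₁r, hr4]
      rw [mem_closedBall_zero_iff, Prod.norm_def, Prod.norm_def, Real.norm_eq_abs]
      exact max_le (by linarith only [a1, hr4]) (max_le a4 (by linarith only [a2, hr4]))
  have hy0 : yy (0, η₀, 0) = 0 := by rw [hyy, hzs]; simp
  have h0K : ((0, η₀, 0) : E × E × ℝ) ∈ K := by
    rw [hK]
    refine ⟨?_, by simpa using hr₁0.le⟩
    rw [hy0]
    refine ⟨by simpa using hτ₁.le, by simpa using hτ₂.le, by simpa using sq_nonneg ω,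
      by simpa using hω.le⟩
  -- value in terms of `J0`
  have hΦJ : ∀ Y : E × E × ℝ, Φ Y = δ * (J0 c κ δ w Y.1 Y.2.1 Y.2.2 Z₀ + Q ^ 2 / 2 - a * ‖Y.2.1‖) +
      δ * β * (Tp δ w (Y.1 + (1 - c) • Y.2.1, Y.2.2) - ℓ (Y.1 + (1 - c) • Y.2.1) Y.2.2) -
      δ * Λ' * ‖Y.2.1 - η₀‖ ^ 2 := by
    intro Y
    rw [hΦ, hQ]; unfold phiB J0
    field_simp
    ring
  have hfℓ : ∀ Y : E × E × ℝ, Tp δ w (Y.1 + (1 - c) • Y.2.1, Y.2.2) - ℓ (Y.1 + (1 - c) • Y.2.1) Y.2.2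
      = δ * Sp δ w (Y.1 + (1 - c) • Y.2.1, Y.2.2) + v ^ 2 * ρ *
        (sym (zs, 0) b₂ h₂ (v * ρ) ρ w (yy Y, Y.2.2 / ρ) - tubeL e k m μ Λt (yy Y) (Y.2.2 / ρ)) := by
    intro Y
    have := ellB_sub e zs b₂ h₂ k m μ Λt hv hρ w (Y.1 + (1 - c) • Y.2.1) Y.2.2
    rw [hyy, hℓ]
    simp only
    rw [← this]
    unfold Sp
    field_simp
    ring
  have hSK : ∀ Y ∈ K, δ * Sp δ w (Y.1 + (1 - c) • Y.2.1, Y.2.2) ≤ 2 * Cg * h * (v ^ 2 * ρ) := by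
    intro Y hY
    obtain ⟨a1, a2, a3⟩ := hKb Y hY
    have a4 : ‖Y.2.1‖ ≤ 5 / 4 := by
      have := norm_sub_norm_le Y.2.1 η₀
      linarith only [this, hη₀, a3, hr₁r, hr4]
    have a5 : ‖((Y.1 + (1 - c) • Y.2.1, Y.2.2) : E × ℝ)‖ ≤ 2 := by
      rw [Prod.norm_def, Real.norm_eq_abs]
      refine max_le ((norm_add_le _ _).trans ?_) (by simp only; linarith only [a2, hr4])
      rw [norm_smul, Real.norm_eq_abs, abs_of_pos hc1']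
      have := mul_le_of_le_one_left (norm_nonneg Y.2.1) (show 1 - c ≤ 1 by linarith only [hc0])
      linarith only [this, a1, a4, hr4]
    have a6 := (Hg w hX.bmo.cls hX.nrm _ 2 (by norm_num) a5 δ hδ
      (by linarith only [hδ2, hδ3, hδ4, hδ5, hδ6, s9])).1
    have a7 : √2 ≤ 2 := by rw [Real.sqrt_le_left (by norm_num)]; norm_num
    have a8 : Sp δ w (Y.1 + (1 - c) • Y.2.1, Y.2.2) ≤ 2 * Cg := by
      have := mul_le_mul_of_nonneg_left a7 hCg.le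
      linarith only [this, a6]
    calc _ ≤ δ * (2 * Cg) := by gcongr
      _ ≤ h * (v ^ 2 * ρ) * (2 * Cg) := by gcongr
      _ = _ := by ring
  have hJK : ∀ Y ∈ K, ∀ Z : E, J0 c κ δ w Y.1 Y.2.1 Y.2.2 Z ≤
      n + a * (‖Y.2.1‖ - 1) + 2 * (θ * v ^ 2) + CE * ‖Z - Z₀‖ := by
    intro Y hY Z
    obtain ⟨a1, a2, a3⟩ := hKb Y hY
    have a4 := hX.e2 δ (Or.inl rfl) r Y.1 Y.2.1 Y.2.2 Z hr4 a1 a2 (a3.trans hr₁r)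
    rw [mul_div_assoc, div_self hδ.ne', mul_one] at a4
    have a5 : (‖Y.2.1‖ - 1) ^ 2 ≤ r₁ ^ 2 := by
      rw [← sq_abs]
      have := abs_norm_sub_norm_le Y.2.1 η₀
      rw [hη₀] at this
      exact pow_le_pow_left₀ (abs_nonneg _) (this.trans a3) 2
    have a6 : CE * (‖Y.2.1‖ - 1) ^ 2 ≤ θ * v ^ 2 := by
      calc _ ≤ CE * (v ^ 2 * (h * V ^ 16)) := by
            refine mul_le_mul_of_nonneg_left (a5.trans ?_) hCE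
            rw [hr₁2]; gcongr
        _ = CE * (h * V ^ 16) * v ^ 2 := by ring
        _ ≤ _ := by gcongr
    have a7 : ‖Z‖ ≤ Q + ‖Z - Z₀‖ := by
      have := norm_sub_norm_le Z Z₀
      rw [← hQ] at this; linarith only [this]
    have a8 : CE * √(√r) * (1 + ‖Z‖) ≤ CE * √(√r) * (1 + Q) + CE * √(√r) * ‖Z - Z₀‖ := by
      rw [← mul_add]
      exact mul_le_mul_of_nonneg_left (by linarith only [a7]) (by positivity)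
    have a9 : CE * √(√r) * ‖Z - Z₀‖ ≤ CE * 1 * ‖Z - Z₀‖ := by gcongr
    linarith only [a4, a6, a8, a9, hrθ]
  have hδθ : δ < θ * v ^ 2 := by
    calc δ ≤ h * (v ^ 2 * ρ) := hδ1
      _ ≤ h * (v ^ 2 * (h * V ^ 16)) := by gcongr
      _ = h * (h * V ^ 16) * v ^ 2 := by ring
      _ < _ := by gcongr
  have hvρ : 0 < v ^ 2 * ρ := by positivity
  have hβv : β * (v ^ 2 * ρ) = ε₂ * v ^ 2 := by rw [← hβρ]; ring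
  -- the centre
  have hcen : δ * (n + Q ^ 2 / 2 - a + 2 * (θ * v ^ 2)) < Φ (0, η₀, 0) := by
    have a1 := hX.e1
    have a2 : -(ε₁ / 8) * (v ^ 2 * ρ) ≤ δ * Sp δ w ((1 - c) • η₀, 0) := by
      have b1 := mul_le_mul_of_nonneg_left hSp hδ.le
      have b2 : Ce * (δ * (1 + ‖Z₀‖ ^ 2)) ≤ Ce * (h * (v ^ 2 * ρ)) := by gcongr
      have b3 : Ce * h * (v ^ 2 * ρ) ≤ ε₁ / 8 * (v ^ 2 * ρ) := by gcongr
      linarith only [b1, b2, b3]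
    have a3 : 3 / 8 * ε₁ * (v ^ 2 * ρ) ≤ Tp δ w ((0 : E) + (1 - c) • η₀, 0) -
        ℓ ((0 : E) + (1 - c) • η₀) 0 := by
      have b1 := hfℓ (0, η₀, 0)
      simp only [hy0] at b1
      rw [b1]
      have b2 : sym (zs, 0) b₂ h₂ (v * ρ) ρ w (0, 0 / ρ) = 0 := by
        rw [zero_div]; exact sym_zero _ _ _ _ _ _
      have b3 : tubeL e k m μ Λt (0 : E) (0 / ρ) = k := by simp [tubeL]
      rw [b2, b3, zero_add]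
      have b4 : v ^ 2 * ρ * (ε₁ / 2) ≤ v ^ 2 * ρ * (0 - k) := by gcongr; linarith only [hk]
      linarith only [a2, b4]
    have a4 := mul_le_mul_of_nonneg_left a3 (mul_pos hδ hβ0).le
    have a5 : δ * β * (3 / 8 * ε₁ * (v ^ 2 * ρ)) = δ * (3 * (θ * v ^ 2)) := by
      rw [hθ]
      calc _ = δ * (3 / 8 * ε₁ * (β * (v ^ 2 * ρ))) := by ring
        _ = _ := by rw [hβv]; ring
    have a6 : δ * (n + Q ^ 2 / 2 - a + 2 * (θ * v ^ 2)) <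
        δ * (J0 c κ δ w 0 η₀ 0 Z₀ + Q ^ 2 / 2 - a + 3 * (θ * v ^ 2)) := by
      exact mul_lt_mul_of_pos_left (by linarith only [a1, hδθ]) hδ
    rw [hΦJ]
    simp only [hη₀, sub_self, norm_zero]
    linarith only [a4, a5, a6]
  obtain ⟨Y, hYK, hYm⟩ := hKc.exists_isMaxOn ⟨_, h0K⟩ hΦc.continuousOn
  have hY0 : Φ (0, η₀, 0) ≤ Φ Y := hYm h0K
  have hYT : InTube e τ₁ τ₂ ω (yy Y) (Y.2.2 / ρ) := by rw [hK] at hYK; exact hYK.1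
  have hYη := (hKb Y hYK).2.2
  have hJ := hJK Y hYK Z₀
  rw [sub_self, norm_zero, mul_zero, add_zero] at hJ
  have hJ' : δ * (J0 c κ δ w Y.1 Y.2.1 Y.2.2 Z₀ + Q ^ 2 / 2 - a * ‖Y.2.1‖) ≤
      δ * (n + Q ^ 2 / 2 - a + 2 * (θ * v ^ 2)) :=
    mul_le_mul_of_nonneg_left (by linarith only [hJ]) hδ.le
  have hpen : 0 ≤ δ * Λ' * ‖Y.2.1 - η₀‖ ^ 2 := by positivity
  have hup : δ * β * (Tp δ w (Y.1 + (1 - c) • Y.2.1, Y.2.2) - ℓ (Y.1 + (1 - c) • Y.2.1) Y.2.2) ≤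
      δ * (ε₂ * M₁ * v ^ 2) := by
    have a1 := hin _ _ hYT
    have a2 := hSK Y hYK
    have a3 : 2 * Cg * h * (v ^ 2 * ρ) ≤ 1 * (v ^ 2 * ρ) := by gcongr
    have a4 : v ^ 2 * ρ * (sym (zs, 0) b₂ h₂ (v * ρ) ρ w (yy Y, Y.2.2 / ρ) -
        tubeL e k m μ Λt (yy Y) (Y.2.2 / ρ)) ≤ v ^ 2 * ρ * |M| := by
      exact mul_le_mul_of_nonneg_left (by linarith only [le_abs_self M, a1]) hvρ.le
    calc _ ≤ δ * β * (M₁ * (v ^ 2 * ρ)) := by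
          refine mul_le_mul_of_nonneg_left ?_ (mul_pos hδ hβ0).le
          rw [hfℓ, hM₁]; linarith only [a2, a3, a4]
      _ = δ * (M₁ * (β * (v ^ 2 * ρ))) := by ring
      _ = _ := by rw [hβv]; ring
  have hnot : ¬ OnTube e τ₁ τ₂ ω (yy Y) (Y.2.2 / ρ) := by
    intro hO
    have a1 := hon _ _ hYT hO
    have a2 := hSK Y hYK
    have a3 : 2 * Cg * h * (v ^ 2 * ρ) ≤ ε₁ / 8 * (v ^ 2 * ρ) := by gcongr
    have a4 : v ^ 2 * ρ * (sym (zs, 0) b₂ h₂ (v * ρ) ρ w (yy Y, Y.2.2 / ρ) -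
        tubeL e k m μ Λt (yy Y) (Y.2.2 / ρ)) ≤ v ^ 2 * ρ * (-(ε₁ / 8)) :=
      mul_le_mul_of_nonneg_left (by linarith only [a1]) hvρ.le
    have a5 : δ * β * (Tp δ w (Y.1 + (1 - c) • Y.2.1, Y.2.2) - ℓ (Y.1 + (1 - c) • Y.2.1) Y.2.2) ≤
        δ * β * 0 := by
      refine mul_le_mul_of_nonneg_left ?_ (mul_pos hδ hβ0).le
      rw [hfℓ]; linarith only [a2, a3, a4]
    rw [hΦJ Y] at hY0
    linarith only [hY0, hcen, hJ', hpen, a5]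
  have hηlt : ‖Y.2.1 - η₀‖ < r₁ := by
    refine lt_of_le_of_ne hYη fun hE => ?_
    rw [hΦJ Y, hE, hr₁2] at hY0
    have a1 : δ * Λ' * (v ^ 2 * ρ) = δ * (ε₂ * M₁ * v ^ 2) := by rw [← hΛρ]; ring
    linarith only [hY0, hcen, hJ', hup, a1]
  have hJlo : n + a * (‖Y.2.1‖ - 1) - ε₂ * M₁ * v ^ 2 ≤ J0 c κ δ w Y.1 Y.2.1 Y.2.2 Z₀ := by
    rw [hΦJ Y] at hY0
    have a1 : δ * (n + Q ^ 2 / 2 - a + 2 * (θ * v ^ 2)) ≤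
        δ * (J0 c κ δ w Y.1 Y.2.1 Y.2.2 Z₀ + Q ^ 2 / 2 - a * ‖Y.2.1‖ + ε₂ * M₁ * v ^ 2) := by
      linarith only [hY0, hcen, hup, hpen]
    have a2 := le_of_mul_le_mul_left a1 hδ
    have a3 : 0 ≤ θ * v ^ 2 := by positivity
    linarith only [a2, a3]
  obtain ⟨p, hp⟩ := hcs.exists_isVel hδ (Y.1 + δ • Z₀, Y.2.2)
  have hpin := pin (c := c) (κ := κ) (η := Y.2.1) (d := (3 * θ + ε₂ * M₁) * V ^ 2) (e := CE) hcs hδ hp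
    hCE (fun Z => by
      have a1 := hJK Y hYK Z
      have a2 : (3 * θ + ε₂ * M₁) * v ^ 2 ≤ (3 * θ + ε₂ * M₁) * V ^ 2 := by gcongr
      have a3 : 0 ≤ θ * v ^ 2 := by positivity
      linarith only [a1, a2, a3, hJlo])
  have hpZ : ‖p + Z₀‖ ≤ C₁ := by rw [hC₁]; exact Real.le_sqrt_of_sq_le hpin
  have hloc : ∀ᶠ Z : E × E × ℝ in 𝓝 0, Y + Z ∈ K := by
    unfold OnTube at hnot
    push Not at hnot
    obtain ⟨n1, n2, n3, n4⟩ := hnot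
    obtain ⟨t1, t2, t3, t4⟩ := hYT
    have hU : IsOpen {Y' : E × E × ℝ | -τ₁ < ⟪e, yy Y'⟫_ℝ ∧ ⟪e, yy Y'⟫_ℝ < τ₂ ∧
        ‖yy Y'‖ ^ 2 - ⟪e, yy Y'⟫_ℝ ^ 2 < ω ^ 2 ∧ |Y'.2.2 / ρ| < ω ∧ ‖Y'.2.1 - η₀‖ < r₁} := by
      simp only [ofPred_and]
      exact (isOpen_lt (by fun_prop) (by fun_prop)).inter
        ((isOpen_lt (by fun_prop) (by fun_prop)).inter
        ((isOpen_lt (by fun_prop) (by fun_prop)).inter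
        ((isOpen_lt (by fun_prop) (by fun_prop)).inter (isOpen_lt (by fun_prop) (by fun_prop)))))
    have hmem := hU.mem_nhds (x := Y) ⟨lt_of_le_of_ne t1 (Ne.symm n1), lt_of_le_of_ne t2 n2,
      lt_of_le_of_ne t3 n3, lt_of_le_of_ne t4 n4, hηlt⟩
    have hT : Tendsto (fun Z : E × E × ℝ => Y + Z) (𝓝 0) (𝓝 Y) := by
      exact (continuous_const_add Y).tendsto' 0 Y (add_zero Y)
    filter_upwards [hT hmem] with Z hZ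
    obtain ⟨u1, u2, u3, u4, u5⟩ := hZ
    rw [hK]
    exact ⟨⟨u1.le, u2.le, u3.le, u4.le⟩, u5.le⟩
  obtain ⟨a', ha1, ha2⟩ := HE w δ (κ + δ * a) β Λ' v ρ (w (zs, 0)) h₂ k m Y.2.2 e zs b₀ Z₀ η₀ Y.1
    Y.2.1 (yy Y) p hw hδ hv hvV hρ hρ2 (by linarith only [hκa'.1, hκ]) (by linarith only [hκa'.2]) hβ hΛ'
    he hη₀ (by linarith only [hYη, hr₁r, hr4]) hb₀
    hdir (by
      rw [← hQ]
      have a1 : δ * (1 + Q) * β ≤ 2 * (h * V ^ 2 * ρ) * β :=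
        mul_le_mul_of_nonneg_right (by linarith only [hδ2, hδ3, hδ4]) hβ0.le
      have a2 : 2 * (h * V ^ 2 * ρ) * β = 2 * ε₂ * (h * V ^ 2) := by rw [← hβρ]; ring
      linarith only [a1, a2, s10]) (by rw [← hQ]; linarith only [hδ2, hδ4, hδ5, s9]) (by rw [hyy, hb₂])
    (b4_DL_le he hYT hτ₁R hτ₂R hR0 hω.le hω1 (hm.trans (le_abs_self G)) hμ.le hΛt) hp hpZ
    (hloc.mono fun Z hZ => by
      have a1 : Φ (Y + Z) ≤ Φ Y := hYm hZ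
      rw [hΦ, hℓ, hb₂] at a1
      exact a1)
  rw [← hQ] at ha1 hQs
  have f1 : C₂ * 1 ≤ C₂ * (h * Q) := by gcongr
  have f2 : C₂ * h * Q ≤ 1 / 4 * Q := by gcongr
  have f3 : Q / 2 ≤ a' := by linarith only [f1, f2, ha1]
  have f4 : (Q / 2) ^ 2 ≤ a' ^ 2 := by gcongr
  have f5 : μ * (Q / 2) ^ 2 ≤ C₅ := le_trans (by gcongr) ha2
  have f6 : 1 ≤ (h * Q) ^ 2 := one_le_pow₀ hQs
  have f7 : μ * (Q / 2) ^ 2 * h ^ 2 ≤ C₅ * h ^ 2 := by gcongr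
  have f8 : μ / 4 * 1 ≤ μ / 4 * (h * Q) ^ 2 := by gcongr
  linarith only [f7, f8, s13]

end R94
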