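import Crest.Agent.R94.B3

/-!
# R94/B4aAux: algebra for `b4_core`
-/

set_option autoImplicit false
set_option linter.unusedSectionVars false
set_option linter.unusedVariables false

open Set Filter Topology Metric
open scoped InnerProductSpace

namespace R94

variable {E : Type} [NormedAddCommGroup E] [InnerProductSpace ℝ E] [FiniteDimensional ℝ E]

theorem b4_perp_sq {e : E} (he : ‖e‖ = 1) (H : E) :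
    ‖H - ⟪e, H⟫_ℝ • e‖ ^ 2 = ‖H‖ ^ 2 - ⟪e, H⟫_ℝ ^ 2 := by
  rw [norm_sub_sq_real, inner_smul_right, norm_smul, he, real_inner_comm e H, Real.norm_eq_abs,
    mul_one, sq_abs]
  ring

theorem b4_sq_add_le (a b : E) : ‖a + b‖ ^ 2 ≤ 2 * ‖a‖ ^ 2 + 2 * ‖b‖ ^ 2 := by
  have h := norm_add_le a b
  have h0 := norm_nonneg (a + b)
  nlinarith [sq_nonneg (‖a‖ - ‖b‖), norm_nonneg a, norm_nonneg b]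

theorem b4_inner_sq_le {e : E} (he : ‖e‖ = 1) (H : E) : ⟪e, H⟫_ℝ ^ 2 ≤ ‖H‖ ^ 2 := by
  have := b4_perp_sq he H
  nlinarith [sq_nonneg ‖H - ⟪e, H⟫_ℝ • e‖]

theorem b4_perp_add {e : E} (he : ‖e‖ = 1) (a b : E) :
    ‖a + b‖ ^ 2 - ⟪e, a + b⟫_ℝ ^ 2 ≤ 2 * (‖a‖ ^ 2 - ⟪e, a⟫_ℝ ^ 2) + 2 * ‖b‖ ^ 2 := by
  rw [← b4_perp_sq he, ← b4_perp_sq he a]
  have h : a + b - ⟪e, a + b⟫_ℝ • e = (a - ⟪e, a⟫_ℝ • e) + (b - ⟪e, b⟫_ℝ • e) := by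
    rw [inner_add_right, add_smul]; abel
  rw [h]
  have h1 := b4_sq_add_le (a - ⟪e, a⟫_ℝ • e) (b - ⟪e, b⟫_ℝ • e)
  have h2 := b4_perp_sq he b
  nlinarith [sq_nonneg ⟪e, b⟫_ℝ]

theorem b4_perp_shift {e : E} (he : ‖e‖ = 1) (s : ℝ) (b : E) :
    ‖s • e + b‖ ^ 2 - ⟪e, s • e + b⟫_ℝ ^ 2 ≤ ‖b‖ ^ 2 := by
  rw [← b4_perp_sq he]
  have h : s • e + b - ⟪e, s • e + b⟫_ℝ • e = b - ⟪e, b⟫_ℝ • e := by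
    rw [inner_add_right, inner_smul_right, real_inner_self_eq_norm_sq, he, add_smul]; simp
  rw [h, b4_perp_sq he]
  nlinarith [sq_nonneg ⟪e, b⟫_ℝ]

theorem b4_perp_eta {η : E} (hη : η ≠ 0) (s : ℝ) (b : E) :
    ‖(s • η + b) - (⟪η, s • η + b⟫_ℝ / ‖η‖ ^ 2) • η‖ ^ 2 ≤ ‖b‖ ^ 2 := by
  have h0 : ‖η‖ ≠ 0 := norm_ne_zero_iff.2 hη
  have h : (s • η + b) - (⟪η, s • η + b⟫_ℝ / ‖η‖ ^ 2) • η = b - (⟪η, b⟫_ℝ / ‖η‖ ^ 2) • η := by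
    rw [inner_add_right, inner_smul_right, real_inner_self_eq_norm_sq, add_div,
      mul_div_assoc, div_self (pow_ne_zero 2 h0), mul_one, add_smul]; abel
  rw [h, norm_sub_sq_real, inner_smul_right, norm_smul, real_inner_comm η b, Real.norm_eq_abs,
    mul_pow, sq_abs]
  have h2 : 0 < ‖η‖ ^ 2 := by positivity
  have h3 : (⟪η, b⟫_ℝ / ‖η‖ ^ 2) ^ 2 * ‖η‖ ^ 2 = ⟪η, b⟫_ℝ / ‖η‖ ^ 2 * ⟪η, b⟫_ℝ := by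
    field_simp
  have h4 : 0 ≤ ⟪η, b⟫_ℝ / ‖η‖ ^ 2 * ⟪η, b⟫_ℝ := by
    rw [← h3]; positivity
  linarith

/-- the barrier in unscaled variables. -/
noncomputable def ellB (e zs b₂ : E) (w₀ h₂ v ρ k m μ Λt : ℝ) (z : E) (t : ℝ) : ℝ :=
  w₀ + ⟪b₂, z - zs - t • b₂⟫_ℝ + (h₂ + ‖b₂‖ ^ 2 / 2) * t +
    v ^ 2 * ρ * tubeL e k m μ Λt ((v * ρ)⁻¹ • (z - zs - t • b₂)) (t / ρ)

theorem ellB_continuous (e zs b₂ : E) (w₀ h₂ v ρ k m μ Λt : ℝ) :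
    Continuous fun X : E × ℝ => ellB e zs b₂ w₀ h₂ v ρ k m μ Λt X.1 X.2 := by
  unfold ellB tubeL; fun_prop

theorem ellB_sub (e zs b₂ : E) (h₂ k m μ Λt : ℝ) {v ρ : ℝ} (hv : 0 < v) (hρ : 0 < ρ)
    (w : E × ℝ → ℝ) (z : E) (t : ℝ) :
    w (z, t) - ellB e zs b₂ (w (zs, 0)) h₂ v ρ k m μ Λt z t = v ^ 2 * ρ *
      (sym (zs, 0) b₂ h₂ (v * ρ) ρ w ((v * ρ)⁻¹ • (z - zs - t • b₂), t / ρ) -
        tubeL e k m μ Λt ((v * ρ)⁻¹ • (z - zs - t • b₂)) (t / ρ)) := by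
  have h1 : v * ρ ≠ 0 := by positivity
  have h2 : ρ * (t / ρ) = t := by field_simp
  have h3 : pt (zs, 0) b₂ (v * ρ) ρ ((v * ρ)⁻¹ • (z - zs - t • b₂), t / ρ) = (z, t) := by
    simp only [pt, h2, smul_smul, mul_inv_cancel₀ h1, one_smul, zero_add]
    congr 1; abel
  unfold ellB sym
  rw [h3]
  simp only [h2, inner_smul_right]
  field_simp
  ring

theorem tubeL_add (e : E) (k m μ Λt : ℝ) (y u : E) (σ s : ℝ) :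
    tubeL e k m μ Λt (y + u) (σ + s) = tubeL e k m μ Λt y σ +
      ⟪(m - 2 * μ * ⟪e, y⟫_ℝ) • e + (2 * Λt) • (y - ⟪e, y⟫_ℝ • e), u⟫_ℝ + 2 * Λt * σ * s +
      (-(μ * ⟪e, u⟫_ℝ ^ 2) + Λt * (‖u‖ ^ 2 - ⟪e, u⟫_ℝ ^ 2) + Λt * s ^ 2) := by
  unfold tubeL
  rw [norm_add_sq_real]
  simp only [inner_add_right, inner_add_left, inner_smul_left, inner_sub_left, RCLike.conj_to_real]
  ring

theorem ellB_add (e zs b₂ : E) (w₀ h₂ k m μ Λt : ℝ) {v ρ : ℝ} (hv : 0 < v) (hρ : 0 < ρ)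
    (z H : E) (t s : ℝ) {y DL : E} (hy : y = (v * ρ)⁻¹ • (z - zs - t • b₂))
    (hDL : DL = (m - 2 * μ * ⟪e, y⟫_ℝ) • e + (2 * Λt) • (y - ⟪e, y⟫_ℝ • e)) :
    ellB e zs b₂ w₀ h₂ v ρ k m μ Λt (z + H) (t + s) = ellB e zs b₂ w₀ h₂ v ρ k m μ Λt z t +
      ⟪b₂ + v • DL, H⟫_ℝ +
      (h₂ + ‖b₂‖ ^ 2 / 2 - ⟪b₂ + v • DL, b₂⟫_ℝ + 2 * Λt * v ^ 2 * (t / ρ)) * s +
      ρ⁻¹ * (-(μ * ⟪e, H - s • b₂⟫_ℝ ^ 2) +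
        Λt * (‖H - s • b₂‖ ^ 2 - ⟪e, H - s • b₂⟫_ℝ ^ 2) + Λt * v ^ 2 * s ^ 2) := by
  have h1 : z + H - zs - (t + s) • b₂ = (z - zs - t • b₂) + (H - s • b₂) := by
    rw [add_smul]; abel
  unfold ellB
  rw [h1, smul_add, ← hy, add_div, tubeL_add, ← hDL]
  have hn : ‖(v * ρ)⁻¹ • (H - s • b₂)‖ ^ 2 = (v * ρ)⁻¹ ^ 2 * ‖H - s • b₂‖ ^ 2 := by
    rw [norm_smul, mul_pow, Real.norm_eq_abs, sq_abs]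
  rw [hn]
  have e1 : ⟪b₂ + v • DL, H⟫_ℝ = ⟪b₂, H - s • b₂⟫_ℝ + v * ⟪DL, H - s • b₂⟫_ℝ +
      ⟪b₂ + v • DL, b₂⟫_ℝ * s := by
    simp only [inner_add_left, inner_smul_left, inner_sub_right, inner_smul_right,
      RCLike.conj_to_real]
    ring
  rw [e1]
  simp only [inner_add_right, inner_smul_right]
  field_simp
  ring

/-- the second-order remainder of the tube barrier. -/
theorem b4_rem {e : E} (he : ‖e‖ = 1) {μ Λt C₂ : ℝ} (hμ : 0 ≤ μ) (hΛ : 0 ≤ Λt) (u ε : E) (s : ℝ)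
    (hu : ‖u‖ ^ 2 - ⟪e, u⟫_ℝ ^ 2 ≤ C₂ ^ 2) :
    -(μ * ⟪e, s • u + ε⟫_ℝ ^ 2) + Λt * (‖s • u + ε‖ ^ 2 - ⟪e, s • u + ε⟫_ℝ ^ 2) ≤
      (-(μ * ⟪e, u⟫_ℝ ^ 2 / 2) + 2 * Λt * C₂ ^ 2) * s ^ 2 + (μ + 2 * Λt) * ‖ε‖ ^ 2 := by
  have h1 := b4_perp_add he (s • u) ε
  have h2 : ‖s • u‖ ^ 2 - ⟪e, s • u⟫_ℝ ^ 2 = s ^ 2 * (‖u‖ ^ 2 - ⟪e, u⟫_ℝ ^ 2) := by
    rw [norm_smul, inner_smul_right, mul_pow, mul_pow, Real.norm_eq_abs, sq_abs]; ring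
  have h3 := b4_inner_sq_le he ε
  have h4 : ⟪e, u⟫_ℝ ^ 2 * s ^ 2 / 2 - ‖ε‖ ^ 2 ≤ ⟪e, s • u + ε⟫_ℝ ^ 2 := by
    rw [inner_add_right, inner_smul_right]
    nlinarith [sq_nonneg (s * ⟪e, u⟫_ℝ + 2 * ⟪e, ε⟫_ℝ)]
  have h5 : s ^ 2 * (‖u‖ ^ 2 - ⟪e, u⟫_ℝ ^ 2) ≤ s ^ 2 * C₂ ^ 2 :=
    mul_le_mul_of_nonneg_left hu (sq_nonneg s)
  have h6 := mul_le_mul_of_nonneg_left h4 hμ
  have h7 : ‖s • u + ε‖ ^ 2 - ⟪e, s • u + ε⟫_ℝ ^ 2 ≤ 2 * (s ^ 2 * C₂ ^ 2) + 2 * ‖ε‖ ^ 2 := by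
    linarith
  have h8 := mul_le_mul_of_nonneg_left h7 hΛ
  nlinarith

theorem b4_ev_lt {g : ℝ → ℝ} {B : ℝ} (hg : Continuous g) (h0 : g 0 < B) :
    ∀ᶠ h in 𝓝[>] (0 : ℝ), g h < B :=
  nhdsWithin_le_nhds ((hg.tendsto 0).eventually (gt_mem_nhds h0))

end R94
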