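import Crest.Agent.R94.B4aAux

/-!
# R94/B4aEng: the engine applied at an interior maximum of the tube functional
-/

set_option autoImplicit false
set_option linter.unusedSectionVars false
set_option linter.unusedVariables false

open Set Filter Topology Metric
open scoped InnerProductSpace

namespace R94

variable {E : Type} [NormedAddCommGroup E] [InnerProductSpace ℝ E] [FiniteDimensional ℝ E]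

/-- the functional maximised in `b4_core`. -/
noncomputable def phiB (c δ κ' β Λ' : ℝ) (w : E × ℝ → ℝ) (y₀ η₀ : E) (ℓ : E → ℝ → ℝ)
    (x η : E) (t : ℝ) : ℝ :=
  Reg c δ w x η t y₀ - κ' * ‖η‖ +
    δ * β * (Tp δ w (x + (1 - c) • η, t) - ℓ (x + (1 - c) • η) t) - δ * Λ' * ‖η - η₀‖ ^ 2

set_option maxHeartbeats 1600000 in
theorem b4_local {w : E × ℝ → ℝ} {c δ κ' β Λ' μ Λt C₂ C₃ V v ρ w₀ h₂ k m t : ℝ}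
    {e zs b₂ y₀ η₀ x η y DL v₁ v₂ : E} (hc0 : 0 < c) (hc1 : c < 1) (hδ : 0 < δ) (hβ : 0 ≤ β)
    (hΛ' : 0 ≤ Λ') (hμ : 0 ≤ μ) (hΛt : 0 ≤ Λt) (hv : 0 < v) (hvV : v ≤ V) (hρ : 0 < ρ)
    (he : ‖e‖ = 1) (hy : y = (v * ρ)⁻¹ • (x + (1 - c) • η - zs - t • b₂))
    (hDL : DL = (m - 2 * μ * ⟪e, y⟫_ℝ) • e + (2 * Λt) • (y - ⟪e, y⟫_ℝ • e))
    (hu : ‖v₂ - b₂‖ ^ 2 - ⟪e, v₂ - b₂⟫_ℝ ^ 2 ≤ C₂ ^ 2) (hd : ‖v₂ - v₁‖ ^ 2 ≤ C₃ ^ 2)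
    (ξ u : E) (s : ℝ)
    (hmax : phiB c δ κ' β Λ' w y₀ η₀ (ellB e zs b₂ w₀ h₂ v ρ k m μ Λt) (x + ξ) (η + u) (t + s) ≤
      phiB c δ κ' β Λ' w y₀ η₀ (ellB e zs b₂ w₀ h₂ v ρ k m μ Λt) x η t) :
    Phi c δ (1 - c) 0 (c + δ * β) 0 w (x + ξ) (η + u) (t + s) y₀ - κ' * ‖η + u‖ ≤
      Phi c δ (1 - c) 0 (c + δ * β) 0 w x η t y₀ - κ' * ‖η‖ +
        ⟪(δ * β) • (b₂ + v • DL), ξ⟫_ℝ +
        ⟪(1 - c) • ((δ * β) • (b₂ + v • DL)) + (2 * (δ * Λ')) • (η - η₀), u⟫_ℝ +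
        δ * β * (h₂ + ‖b₂‖ ^ 2 / 2 - ⟪b₂ + v • DL, b₂⟫_ℝ + 2 * Λt * v ^ 2 * (t / ρ)) * s +
        (δ * β * ρ⁻¹ * (μ + 2 * Λt) * 2 + 2 * (δ * Λ')) *
          (‖ξ - s • ((1 - c) • v₁ + c • v₂)‖ ^ 2 + ‖u - s • (v₂ - v₁)‖ ^ 2) +
        (δ * β * ρ⁻¹ * (-(μ * ⟪e, v₂ - b₂⟫_ℝ ^ 2 / 2) + 2 * Λt * C₂ ^ 2 + Λt * V ^ 2) +
          2 * (δ * Λ') * C₃ ^ 2) * s ^ 2 := by
  have hz : x + ξ + (1 - c) • (η + u) = (x + (1 - c) • η) + (ξ + (1 - c) • u) := by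
    rw [smul_add]; abel
  have hE := ellB_add e zs b₂ w₀ h₂ k m μ Λt hv hρ (x + (1 - c) • η) (ξ + (1 - c) • u) t s hy hDL
  obtain ⟨a1, ha1⟩ : ∃ a1, a1 = ξ - s • ((1 - c) • v₁ + c • v₂) := ⟨_, rfl⟩
  obtain ⟨a2, ha2⟩ : ∃ a2, a2 = u - s • (v₂ - v₁) := ⟨_, rfl⟩
  rw [← ha1, ← ha2]
  have hH : ξ + (1 - c) • u - s • b₂ = s • (v₂ - b₂) + (a1 + (1 - c) • a2) := by
    rw [ha1, ha2]; module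
  have hR := b4_rem he hμ hΛt (v₂ - b₂) (a1 + (1 - c) • a2) s hu
  rw [← hH] at hR
  have hε : ‖a1 + (1 - c) • a2‖ ^ 2 ≤ 2 * (‖a1‖ ^ 2 + ‖a2‖ ^ 2) := by
    have h1 := b4_sq_add_le a1 ((1 - c) • a2)
    have h2 : ‖(1 - c) • a2‖ ^ 2 ≤ ‖a2‖ ^ 2 := by
      rw [norm_smul, mul_pow, Real.norm_eq_abs, sq_abs]
      have : (1 - c) ^ 2 ≤ 1 := by nlinarith
      nlinarith [sq_nonneg ‖a2‖]
    linarith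
  have hu2 : ‖u‖ ^ 2 ≤ 2 * (C₃ ^ 2 * s ^ 2) + 2 * ‖a2‖ ^ 2 := by
    have h0 : u = s • (v₂ - v₁) + a2 := by rw [ha2]; abel
    have h1 := b4_sq_add_le (s • (v₂ - v₁)) a2
    rw [← h0, norm_smul, mul_pow, Real.norm_eq_abs, sq_abs] at h1
    have h2 := mul_le_mul_of_nonneg_left hd (sq_nonneg s)
    linarith
  have hη : ‖η + u - η₀‖ ^ 2 = ‖η - η₀‖ ^ 2 + 2 * ⟪η - η₀, u⟫_ℝ + ‖u‖ ^ 2 := by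
    rw [show η + u - η₀ = (η - η₀) + u by abel, norm_add_sq_real]
  have hv2 : v ^ 2 ≤ V ^ 2 := by nlinarith
  have hX : 0 ≤ δ * β * ρ⁻¹ := by positivity
  have hY : 0 ≤ δ * Λ' := by positivity
  have hin : ⟪(1 - c) • ((δ * β) • (b₂ + v • DL)) + (2 * (δ * Λ')) • (η - η₀), u⟫_ℝ =
      (1 - c) * (δ * β * ⟪b₂ + v • DL, u⟫_ℝ) + 2 * (δ * Λ') * ⟪η - η₀, u⟫_ℝ := by
    simp only [inner_add_left (𝕜 := ℝ) ((1 - c) • ((δ * β) • (b₂ + v • DL))), inner_smul_left,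
      RCLike.conj_to_real]
  have hin2 : ⟪b₂ + v • DL, ξ + (1 - c) • u⟫_ℝ =
      ⟪b₂ + v • DL, ξ⟫_ℝ + (1 - c) * ⟪b₂ + v • DL, u⟫_ℝ := by
    rw [inner_add_right, inner_smul_right]
  have hin3 : ⟪(δ * β) • (b₂ + v • DL), ξ⟫_ℝ = δ * β * ⟪b₂ + v • DL, ξ⟫_ℝ := by
    rw [inner_smul_left]; simp
  unfold phiB Reg at hmax
  unfold Phi Gam
  rw [hz] at hmax ⊢
  rw [hE, hη, hin2] at hmax
  rw [hin, hin3]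
  generalize ⟪e, ξ + (1 - c) • u - s • b₂⟫_ℝ = A1 at hR hmax
  generalize ‖ξ + (1 - c) • u - s • b₂‖ ^ 2 = A2 at hR hmax
  generalize ‖a1 + (1 - c) • a2‖ ^ 2 = A3 at hR hε
  generalize ⟪e, v₂ - b₂⟫_ℝ = A4 at hR ⊢
  have ha1p : 0 ≤ ‖a1‖ ^ 2 := by positivity
  generalize ‖a1‖ ^ 2 = A5 at hε ha1p ⊢
  generalize ‖a2‖ ^ 2 = A6 at hε hu2 ⊢
  generalize ‖u‖ ^ 2 = A7 at hu2 hmax
  generalize ⟪b₂ + v • DL, ξ⟫_ℝ = A8 at hmax ⊢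
  generalize ⟪b₂ + v • DL, u⟫_ℝ = A9 at hmax ⊢
  generalize ⟪η - η₀, u⟫_ℝ = A10 at hmax ⊢
  generalize h₂ + ‖b₂‖ ^ 2 / 2 - ⟪b₂ + v • DL, b₂⟫_ℝ + 2 * Λt * v ^ 2 * (t / ρ) = A11 at hmax ⊢
  generalize ellB e zs b₂ w₀ h₂ v ρ k m μ Λt (x + (1 - c) • η) t = A12 at hmax
  generalize Tp δ w (x + (1 - c) • η + (ξ + (1 - c) • u), t + s) = A13 at hmax ⊢
  generalize Tp δ w (x + ξ - c • (η + u), t + s) = A14 at hmax ⊢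
  generalize Tm δ w (x + ξ + y₀, t + s) = A15 at hmax ⊢
  generalize Tp δ w (x + (1 - c) • η, t) = A16 at hmax ⊢
  generalize Tp δ w (x - c • η, t) = A17 at hmax ⊢
  generalize Tm δ w (x + y₀, t) = A18 at hmax ⊢
  generalize ‖η - η₀‖ ^ 2 = A19 at hmax
  generalize ‖η + u‖ = A20 at hmax ⊢
  generalize ‖η‖ = A21 at hmax ⊢
  have k1 : δ * β * ρ⁻¹ * (-(μ * A1 ^ 2) + Λt * (A2 - A1 ^ 2) + Λt * v ^ 2 * s ^ 2) ≤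
      δ * β * ρ⁻¹ * ((-(μ * A4 ^ 2 / 2) + 2 * Λt * C₂ ^ 2 +
        Λt * V ^ 2) * s ^ 2 + (μ + 2 * Λt) * 2 * (A5 + A6)) := by
    refine mul_le_mul_of_nonneg_left ?_ hX
    have h1 : (μ + 2 * Λt) * A3 ≤ (μ + 2 * Λt) * (2 * (A5 + A6)) :=
      mul_le_mul_of_nonneg_left hε (by positivity)
    have h2 : Λt * v ^ 2 * s ^ 2 ≤ Λt * V ^ 2 * s ^ 2 := by gcongr
    linarith only [h1, h2, hR]
  have k2 : δ * Λ' * A7 ≤ δ * Λ' * (2 * (C₃ ^ 2 * s ^ 2) + 2 * (A5 + A6)) := by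
    refine mul_le_mul_of_nonneg_left ?_ hY
    linarith only [ha1p, hu2]
  linarith only [k1, k2, hmax]

/-- the final real inequality. -/
theorem b4_real {X μ Λt C₂ C₃ C₇ V G₁ M₁ κ ρ δ β Λ' a P T₁ T₂ : ℝ} (hμ : 0 < μ) (hρ : 0 < ρ)
    (hρ1 : ρ ≤ 1) (hδ : 0 < δ) (hM : 0 ≤ M₁) (hκ : 0 ≤ κ) (hβ : β = μ / 16 / ρ)
    (hΛ' : Λ' = μ / 16 * M₁ / ρ) (hP : δ * P ≤ 1)
    (hT₁ : T₁ ≤ 16 * κ * C₇ ^ 2 * (δ * β) ^ 2 * P)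
    (hT₂ : T₂ ≤ 16 * (δ * β ^ 2) * (V ^ 2 * G₁ ^ 2 + C₂ ^ 2 + a ^ 2))
    (H : 0 ≤ 4 * (δ * β * ρ⁻¹ * (-(μ * a ^ 2 / 2) + 2 * Λt * C₂ ^ 2 + Λt * V ^ 2) +
      2 * (δ * Λ') * C₃ ^ 2) + T₁ + T₂) :
    μ * a ^ 2 ≤ 8 * Λt * C₂ ^ 2 + 4 * Λt * V ^ 2 + 8 * M₁ * C₃ ^ 2 + κ * C₇ ^ 2 * μ +
      μ * (V ^ 2 * G₁ ^ 2 + C₂ ^ 2) := by
  have hX : 0 < δ * β * ρ⁻¹ := by rw [hβ]; positivity
  have e1 : δ * Λ' = δ * β * ρ⁻¹ * (M₁ * ρ) := by rw [hβ, hΛ']; field_simp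
  have e2 : (δ * β) ^ 2 * P = δ * β * ρ⁻¹ * (μ / 16 * (δ * P)) := by rw [hβ]; field_simp
  have e3 : δ * β ^ 2 = δ * β * ρ⁻¹ * (μ / 16) := by rw [hβ]; field_simp
  rw [mul_assoc (16 * κ * C₇ ^ 2), e2] at hT₁
  rw [e3] at hT₂
  rw [e1] at H
  generalize δ * β * ρ⁻¹ = Y at hX hT₁ hT₂ H
  have h1 : M₁ * ρ * C₃ ^ 2 ≤ M₁ * C₃ ^ 2 := by
    have : M₁ * ρ ≤ M₁ := by nlinarith
    gcongr
  have h2 : κ * C₇ ^ 2 * μ * (δ * P) ≤ κ * C₇ ^ 2 * μ := by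
    have : 0 ≤ κ * C₇ ^ 2 * μ := by positivity
    nlinarith
  have h3 : 0 ≤ Y * (-(μ * a ^ 2) + 8 * Λt * C₂ ^ 2 + 4 * Λt * V ^ 2 + 8 * (M₁ * ρ * C₃ ^ 2) +
      κ * C₇ ^ 2 * μ * (δ * P) + μ * (V ^ 2 * G₁ ^ 2 + C₂ ^ 2)) := by
    linarith
  have h4 := (mul_nonneg_iff_of_pos_left hX).1 h3
  linarith

set_option maxHeartbeats 1600000 in
theorem b4_eng {c κ μ Λt G₁ C₁ M₁ V : ℝ} (hc0 : 0 < c) (hc1 : c < 1) (hκ : 0 < κ) (hμ : 0 < μ)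
    (hΛt : 0 ≤ Λt) (hG₁ : 0 ≤ G₁) (hC₁ : 0 ≤ C₁) (hM₁ : 0 ≤ M₁) (hV : 0 < V) :
    ∃ C₂ C₅ : ℝ, 0 ≤ C₂ ∧ 0 ≤ C₅ ∧ ∀ (w : E × ℝ → ℝ) (δ κ' β Λ' v ρ w₀ h₂ k m t : ℝ)
      (e zs b₀ Z₀ η₀ x η y p : E), Ent w → 0 < δ → 0 < v → v ≤ V → 0 < ρ → ρ ≤ 1 → 0 ≤ κ' →
      κ' ≤ 3 * κ / 2 → β = μ / 16 / ρ → Λ' = μ / 16 * M₁ / ρ → ‖e‖ = 1 → ‖η₀‖ = 1 →
      ‖η - η₀‖ ≤ 1 / 4 → ‖b₀‖ ≤ ‖Z₀‖ / 4 → -Z₀ - b₀ = ‖-Z₀ - b₀‖ • e →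
      δ * β * (1 + ‖Z₀‖) ≤ 1 → δ * (1 + ‖Z₀‖) ^ 2 ≤ 1 →
      y = (v * ρ)⁻¹ • (x + (1 - c) • η - zs - t • (b₀ + (κ / c) • η₀)) →
      ‖(m - 2 * μ * ⟪e, y⟫_ℝ) • e + (2 * Λt) • (y - ⟪e, y⟫_ℝ • e)‖ ≤ G₁ →
      IsVel δ w (x + δ • Z₀, t) p → ‖p + Z₀‖ ≤ C₁ →
      (∀ᶠ Z : E × E × ℝ in 𝓝 0,
        phiB c δ κ' β Λ' w (δ • Z₀) η₀ (ellB e zs (b₀ + (κ / c) • η₀) w₀ h₂ v ρ k m μ Λt)
          (x + Z.1) (η + Z.2.1) (t + Z.2.2) ≤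
        phiB c δ κ' β Λ' w (δ • Z₀) η₀ (ellB e zs (b₀ + (κ / c) • η₀) w₀ h₂ v ρ k m μ Λt) x η t) →
      ∃ a : ℝ, 3 * ‖Z₀‖ / 4 - C₂ ≤ a ∧ μ * a ^ 2 ≤ C₅ := by
  have hc1' : 0 < 1 - c := by linarith
  obtain ⟨C₆, hC₆⟩ : ∃ C₆, C₆ = κ / c + V * G₁ + C₁ + M₁ + 2 := ⟨_, rfl⟩
  obtain ⟨cc, hcc⟩ : ∃ cc, cc = c⁻¹ + (1 - c)⁻¹ := ⟨_, rfl⟩
  have hC₆0 : 0 ≤ C₆ := by rw [hC₆]; positivity
  have hcc0 : 0 ≤ cc := by rw [hcc]; positivity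
  obtain ⟨C₂, hC₂⟩ : ∃ C₂, C₂ = c⁻¹ * (C₆ + 3 * κ / 2) + C₁ + κ / c := ⟨_, rfl⟩
  obtain ⟨C₃, hC₃⟩ : ∃ C₃, C₃ = cc * (3 * κ / 2) + cc * C₆ := ⟨_, rfl⟩
  have hC₂0 : 0 ≤ C₂ := by rw [hC₂]; positivity
  have hC₃0 : 0 ≤ C₃ := by rw [hC₃]; positivity
  refine ⟨C₂, 8 * Λt * C₂ ^ 2 + 4 * Λt * V ^ 2 + 8 * M₁ * C₃ ^ 2 + κ * (cc * C₆) ^ 2 * μ +
      μ * (V ^ 2 * G₁ ^ 2 + C₂ ^ 2), hC₂0, by positivity, ?_⟩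
  intro w δ κ' β Λ' v ρ w₀ h₂ k m t e zs b₀ Z₀ η₀ x η y p hw hδ hv hvV hρ hρ1 hκ0 hκ1 hβ hΛ' he
    hη₀ hηη hb₀ hdir hs1 hs2 hy hDLn hp hpZ hmax
  obtain ⟨b₂, hb₂⟩ : ∃ b₂, b₂ = b₀ + (κ / c) • η₀ := ⟨_, rfl⟩
  rw [← hb₂] at hy hmax
  obtain ⟨DL, hDL⟩ : ∃ DL, DL = (m - 2 * μ * ⟪e, y⟫_ℝ) • e + (2 * Λt) • (y - ⟪e, y⟫_ℝ • e) :=
    ⟨_, rfl⟩
  rw [← hDL] at hDLn
  obtain ⟨Q, hQ⟩ : ∃ Q, Q = ‖Z₀‖ := ⟨_, rfl⟩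
  have hQ0 : 0 ≤ Q := hQ ▸ norm_nonneg _
  rw [← hQ] at hb₀ hs1 hs2 ⊢
  have hβ0 : 0 < β := by rw [hβ]; positivity
  have hΛ'0 : 0 ≤ Λ' := by rw [hΛ']; positivity
  have hΛβ : Λ' = β * M₁ := by rw [hβ, hΛ']; ring
  have hηn : 3 / 4 ≤ ‖η‖ := by
    have := norm_sub_norm_le η₀ η
    rw [norm_sub_rev] at this; linarith
  have hη0 : η ≠ 0 := by
    intro h; rw [h, norm_zero] at hηn; linarith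
  obtain ⟨a₂, ha₂⟩ : ∃ a₂, a₂ = c + δ * β := ⟨_, rfl⟩
  have ha₂c : c ≤ a₂ := by rw [ha₂]; nlinarith [mul_pos hδ hβ0]
  have ha₂0 : 0 < a₂ := by linarith
  have ha₂i : a₂⁻¹ ≤ c⁻¹ := inv_anti₀ hc0 ha₂c
  obtain ⟨N, hN⟩ : ∃ N, N = (κ' / ‖η‖) • η := ⟨_, rfl⟩
  have hNn : ‖N‖ = κ' := by
    rw [hN, norm_smul, Real.norm_eq_abs, abs_of_nonneg (by positivity)]
    field_simp
  obtain ⟨j, hj⟩ : ∃ j, j = (2 * (δ * Λ')) • (η - η₀) := ⟨_, rfl⟩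
  have hjn : ‖j‖ ≤ δ * β * M₁ := by
    rw [hj, norm_smul, Real.norm_eq_abs, abs_of_nonneg (by positivity), hΛβ]
    have : 0 ≤ δ * (β * M₁) := by positivity
    nlinarith
  obtain ⟨gx, hgx⟩ : ∃ gx, gx = (δ * β) • (b₂ + v • DL) := ⟨_, rfl⟩
  obtain ⟨g, hg⟩ : ∃ g, g = (δ * β) • (b₂ + v • DL - p) + j := ⟨_, rfl⟩
  have hb₂n : ‖b₂‖ ≤ Q / 4 + κ / c := by
    rw [hb₂]
    refine (norm_add_le _ _).trans ?_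
    rw [norm_smul, hη₀, Real.norm_eq_abs, abs_of_nonneg (by positivity)]
    linarith
  have hvDL : ‖v • DL‖ ≤ V * G₁ := by
    rw [norm_smul, Real.norm_eq_abs, abs_of_pos hv]; gcongr
  have hpn : ‖p‖ ≤ Q + C₁ := by
    have := norm_sub_le (p + Z₀) Z₀
    rw [add_sub_cancel_right, ← hQ] at this; linarith
  have hδβ : 0 < δ * β := by positivity
  have hgn : ‖g‖ ≤ δ * β * (1 + Q) * C₆ := by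
    rw [hg]
    refine (norm_add_le _ _).trans ?_
    rw [norm_smul, Real.norm_eq_abs, abs_of_pos hδβ]
    have h1 : ‖b₂ + v • DL - p‖ ≤ Q / 4 + κ / c + V * G₁ + (Q + C₁) :=
      (norm_sub_le _ _).trans (add_le_add ((norm_add_le _ _).trans (add_le_add hb₂n hvDL)) hpn)
    have h2 : Q / 4 + κ / c + V * G₁ + (Q + C₁) + M₁ ≤ (1 + Q) * C₆ := by
      rw [hC₆]
      have : 0 ≤ Q * (κ / c + V * G₁ + C₁ + M₁) := by positivity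
      nlinarith
    have h3 := mul_le_mul_of_nonneg_left h1 hδβ.le
    have h4 := mul_le_mul_of_nonneg_left h2 hδβ.le
    nlinarith
  have hjn' : ‖j‖ ≤ δ * β * (1 + Q) * C₆ := by
    refine hjn.trans ?_
    rw [mul_assoc (δ * β)]
    refine mul_le_mul_of_nonneg_left ?_ hδβ.le
    rw [hC₆]
    have : 0 ≤ Q * (κ / c + V * G₁ + C₁ + M₁ + 2) := by positivity
    have : 0 ≤ κ / c + V * G₁ + C₁ := by positivity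
    nlinarith
  have hgn1 : δ * β * (1 + Q) * C₆ ≤ C₆ := by nlinarith
  obtain ⟨v₁, hv₁⟩ : ∃ v₁, v₁ = p - (1 - c)⁻¹ • (N + j) := ⟨_, rfl⟩
  obtain ⟨v₂, hv₂⟩ : ∃ v₂, v₂ = p + a₂⁻¹ • (g + N) := ⟨_, rfl⟩
  have hE₁ : (1 - c) • v₁ = (1 - c) • (p + gx) - (κ' / ‖η‖) • η - ((1 - c) • gx + j) := by
    rw [← hN, hv₁, smul_sub, smul_smul, mul_inv_cancel₀ hc1'.ne', one_smul]; module
  have hE₂ : a₂ • v₂ = c • (p + gx) + (κ' / ‖η‖) • η + ((1 - c) • gx + j) := by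
    rw [← hN, hv₂, smul_add, smul_smul, mul_inv_cancel₀ ha₂0.ne', one_smul, hg, hgx, ha₂]; module
  -- the relative velocity
  obtain ⟨r₂, hr₂⟩ : ∃ r₂, r₂ = a₂⁻¹ • (g + N) + (p + Z₀) - (κ / c) • η₀ := ⟨_, rfl⟩
  have hr₂n : ‖r₂‖ ≤ C₂ := by
    rw [hr₂, hC₂]
    refine (norm_sub_le _ _).trans (add_le_add ((norm_add_le _ _).trans (add_le_add ?_ hpZ)) ?_)
    · rw [norm_smul, Real.norm_eq_abs, abs_of_pos (inv_pos.2 ha₂0)]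
      have h1 : ‖g + N‖ ≤ C₆ + 3 * κ / 2 := (norm_add_le _ _).trans (by linarith)
      gcongr
    · rw [norm_smul, hη₀, Real.norm_eq_abs, abs_of_nonneg (by positivity), mul_one]
  have hu : v₂ - b₂ = ‖-Z₀ - b₀‖ • e + r₂ := by
    rw [← hdir, hv₂, hr₂, hb₂]; abel
  have hup : ‖v₂ - b₂‖ ^ 2 - ⟪e, v₂ - b₂⟫_ℝ ^ 2 ≤ C₂ ^ 2 := by
    rw [hu]
    refine (b4_perp_shift he _ _).trans ?_
    gcongr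
  have hua : 3 * Q / 4 - C₂ ≤ ⟪e, v₂ - b₂⟫_ℝ := by
    rw [hu, inner_add_right, inner_smul_right, real_inner_self_eq_norm_sq, he]
    have h1 := abs_real_inner_le_norm e r₂
    rw [he, one_mul] at h1
    have h2 := neg_abs_le ⟪e, r₂⟫_ℝ
    have h3 := norm_sub_norm_le (-Z₀) b₀
    rw [norm_neg, ← hQ] at h3
    linarith
  obtain ⟨r₃, hr₃⟩ : ∃ r₃, r₃ = a₂⁻¹ • g + (1 - c)⁻¹ • j := ⟨_, rfl⟩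
  have hr₃n : ‖r₃‖ ≤ cc * (δ * β * (1 + Q) * C₆) := by
    rw [hr₃, hcc, add_mul]
    refine (norm_add_le _ _).trans (add_le_add ?_ ?_)
    · rw [norm_smul, Real.norm_eq_abs, abs_of_pos (inv_pos.2 ha₂0)]; gcongr
    · rw [norm_smul, Real.norm_eq_abs, abs_of_pos (inv_pos.2 hc1')]; gcongr
  have hd : v₂ - v₁ = (a₂⁻¹ + (1 - c)⁻¹) • N + r₃ := by
    rw [hv₂, hv₁, hr₃]; module
  have hdn : ‖v₂ - v₁‖ ^ 2 ≤ C₃ ^ 2 := by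
    have : ‖v₂ - v₁‖ ≤ C₃ := by
      rw [hd, hC₃]
      refine (norm_add_le _ _).trans (add_le_add ?_ (hr₃n.trans (by gcongr)))
      rw [norm_smul, Real.norm_eq_abs, abs_of_pos (by positivity), hNn, hcc]
      gcongr
    gcongr
  have hdp : ‖(v₂ - v₁) - (⟪η, v₂ - v₁⟫_ℝ / ‖η‖ ^ 2) • η‖ ^ 2 ≤
      (cc * (δ * β * (1 + Q) * C₆)) ^ 2 := by
    rw [hd, hN, smul_smul]
    refine (b4_perp_eta hη0 _ _).trans ?_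
    gcongr
  have hdev : (1 - c) • v₁ + c • v₂ - p = (δ * β) • (v • DL - (v₂ - b₂)) := by
    have h1 : c • v₂ = a₂ • v₂ - (δ * β) • v₂ := by rw [ha₂]; module
    rw [h1, hE₁, hE₂, hgx]; module
  have hdevn : ‖(1 - c) • v₁ + c • v₂ - p‖ ^ 2 ≤
      (δ * β) ^ 2 * (2 * (V ^ 2 * G₁ ^ 2 + C₂ ^ 2 + ⟪e, v₂ - b₂⟫_ℝ ^ 2)) := by
    rw [hdev, norm_smul, mul_pow, Real.norm_eq_abs, sq_abs]
    refine mul_le_mul_of_nonneg_left ?_ (by positivity)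
    have h1 := b4_sq_add_le (v • DL) (-(v₂ - b₂))
    rw [norm_neg, ← sub_eq_add_neg] at h1
    have h2 : ‖v • DL‖ ^ 2 ≤ (V * G₁) ^ 2 := by gcongr
    rw [mul_pow] at h2
    linarith
  obtain ⟨k₁, k₂, -, -, -, -, hk⟩ := engineC hw hδ c x η (δ • Z₀) t hη0 (α₁ := 1 - c) (γ₁ := 0)
    (α₂ := c + δ * β) (γ₂ := 0) (a₁ := 1 - c) (a₂ := a₂) le_rfl le_rfl (by ring) (by rw [ha₂]; ring)
    hc1' ha₂0 hκ0 hp gx ((1 - c) • gx + j) v₁ v₂ hE₁ hE₂ _ _ _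
    (hmax.mono fun Z hZ => by
      rw [hgx, hj]
      exact b4_local hc0 hc1 hδ hβ0.le hΛ'0 hμ.le hΛt hv hvV hρ he hy hDL hup hdn _ _ _ hZ)
  refine ⟨_, hua, ?_⟩
  refine b4_real (X := 0) (P := (1 + Q) ^ 2) hμ hρ hρ1 hδ hM₁ hκ.le hβ hΛ' hs2 ?_ ?_
    (by simpa only [zero_mul, add_zero] using hk)
  · rw [div_le_iff₀ (by linarith)]
    have h1 : 8 * κ' * ‖(v₂ - v₁) - (⟪η, v₂ - v₁⟫_ℝ / ‖η‖ ^ 2) • η‖ ^ 2 ≤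
        8 * (3 * κ / 2) * (cc * (δ * β * (1 + Q) * C₆)) ^ 2 := by gcongr
    have h2 : 16 * κ * (cc * C₆) ^ 2 * (δ * β) ^ 2 * (1 + Q) ^ 2 * (3 / 4) ≤
        16 * κ * (cc * C₆) ^ 2 * (δ * β) ^ 2 * (1 + Q) ^ 2 * ‖η‖ := by gcongr
    linarith
  · rw [div_le_iff₀ hδ]
    linarith

end R94
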