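import Crest.Agent.R94.CompG

/-!
# R94/BU: the blow-up argument (Liouville ⇒ interior gauge estimate)
-/

set_option autoImplicit false
set_option linter.unusedSectionVars false
set_option linter.unusedVariables false

open Set Filter Topology Metric
open scoped InnerProductSpace

namespace R94

variable {E : Type} [NormedAddCommGroup E] [InnerProductSpace ℝ E] [FiniteDimensional ℝ E]

theorem bu_doubling {P : ℝ → Prop} (hP : ∀ M M', M ≤ M' → P M → P M') {M₀ M₁ : ℝ} (h0 : 0 < M₀)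
    (hn : ¬ P M₀) (h1 : P M₁) : ∃ M, M₀ ≤ M ∧ P M ∧ ¬ P (M / 2) := by
  classical
  have hex : ∃ k : ℕ, P (M₀ * 2 ^ k) := by
    obtain ⟨k, hk⟩ := pow_unbounded_of_one_lt (M₁ / M₀) (one_lt_two (α := ℝ))
    exact ⟨k, hP _ _ (by rw [div_lt_iff₀ h0] at hk; linarith) h1⟩
  have hk := Nat.find_spec hex
  rcases hk' : Nat.find hex with _ | k
  · rw [hk'] at hk
    exact absurd (by simpa using hk) hn
  · rw [hk'] at hk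
    refine ⟨_, le_mul_of_one_le_right h0.le (one_le_pow₀ one_le_two), hk, ?_⟩
    have := Nat.find_min hex (m := k) (by omega)
    rwa [show M₀ * 2 ^ (k + 1) / 2 = M₀ * 2 ^ k by ring]

/-- the gauge used in the point selection -/
noncomputable def buG (γ c ρ : ℝ) : ℝ := max (ρ ^ γ) (c * ρ ^ (-(7 / 8) : ℝ))

theorem buG_pos (γ c : ℝ) {ρ : ℝ} (hρ : 0 < ρ) : 0 < buG γ c ρ :=
  lt_max_of_lt_left (Real.rpow_pos_of_pos hρ _)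

theorem buG_ge {γ : ℝ} (c : ℝ) (hγ : γ ≤ 1) {ρ : ℝ} (hρ : 0 < ρ) (h1 : ρ ≤ 1) : ρ ≤ buG γ c ρ := by
  refine le_max_of_le_left ?_
  simpa using Real.rpow_le_rpow_of_exponent_ge hρ h1 hγ

theorem buG_mul (γ c : ℝ) {ρ r : ℝ} (hρ : 0 < ρ) (hr : 0 < r) :
    buG γ c (ρ * r) ≤ buG γ c ρ * max (r ^ γ) (r ^ (-(7 / 8) : ℝ)) := by
  have h0 := (buG_pos γ c hρ).le
  refine max_le ?_ ?_
  · rw [Real.mul_rpow hρ.le hr.le]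
    exact mul_le_mul (le_max_left _ _) (le_max_left _ _) (by positivity) h0
  · rw [Real.mul_rpow hρ.le hr.le, ← mul_assoc]
    exact mul_le_mul (le_max_right _ _) (le_max_right _ _) (by positivity) h0

/-- point selection -/
theorem bu_select {γ C : ℝ} (hC : 0 < C) {w : E × ℝ → ℝ} (hw : Box w) {X' : E × ℝ}
    (hX' : X' ∈ ball (0 : E × ℝ) (1 / 2)) {ρ' : ℝ} (hρ' : 0 < ρ') (hρ'1 : ρ' ≤ 1)
    (hn : ¬ Fl (ball 0 1) w X' ρ' (C * ρ' ^ γ)) :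
    ∃ (c M : ℝ) (X : E × ℝ) (ρ : ℝ), C / 16 ≤ M ∧ X ∈ ball (0 : E × ℝ) 1 ∧ 0 < ρ ∧ ρ ≤ 1 ∧
      ¬ Fl (ball 0 1) w X ρ (M / 2 * buG γ c ρ / (1 - ‖X‖) ^ 4) ∧
      ∀ Y ∈ ball (0 : E × ℝ) 1, ∀ r : ℝ, 0 < r → r ≤ 1 →
        Fl (ball 0 1) w Y r (M * buG γ c r / (1 - ‖Y‖) ^ 4) := by
  set c : ℝ := ρ' ^ (γ + 7 / 8) with hc
  have hc0 : 0 < c := Real.rpow_pos_of_pos hρ' _
  obtain ⟨L, hL⟩ := hw.2.2
  obtain ⟨L', hL0, hL'⟩ := gauge_of_hol (E := E) L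
  have hA : ¬ ∀ Y ∈ ball (0 : E × ℝ) 1, ∀ r : ℝ, 0 < r →
      r ≤ 1 → Fl (ball 0 1) w Y r (C / 16 * buG γ c r / (1 - ‖Y‖) ^ 4) := by
    refine fun h => hn ?_
    refine (h X' (ball_subset_ball (by norm_num) hX') ρ' hρ' hρ'1).mono_lam hρ' ?_
    have e : buG γ c ρ' = ρ' ^ γ := by
      rw [buG, hc, ← Real.rpow_add hρ']
      simp
    have h3 : ‖X'‖ < 1 / 2 := by simpa using hX'
    have h4 : (1 / 2 : ℝ) ^ 4 ≤ (1 - ‖X'‖) ^ 4 := by gcongr; linarith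
    have h5 := Real.rpow_pos_of_pos hρ' γ
    rw [e, div_le_iff₀ (by linarith)]
    nlinarith [mul_pos hC h5]
  have hB : ∀ Y ∈ ball (0 : E × ℝ) 1, ∀ r : ℝ, 0 < r →
      r ≤ 1 → Fl (ball 0 1) w Y r (L' / c * buG γ c r / (1 - ‖Y‖) ^ 4) := by
    intro Y hY r hr hr1
    refine Fl.mono_lam ⟨0, 0, hL' _ w hL Y hY r hr hr1⟩ hr ?_
    have h3 : ‖Y‖ < 1 := by simpa using hY
    have h4 : (1 - ‖Y‖) ^ 4 ≤ 1 := pow_le_one₀ (by linarith) (by linarith [norm_nonneg Y])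
    have h5 : L' * r ^ (-(7 / 8) : ℝ) ≤ L' / c * buG γ c r := by
      calc L' * r ^ (-(7 / 8) : ℝ) = L' / c * (c * r ^ (-(7 / 8) : ℝ)) := by field_simp
        _ ≤ _ := mul_le_mul_of_nonneg_left (le_max_right _ _) (by positivity)
    refine h5.trans (le_div_self ?_ (pow_pos (by linarith) 4) h4)
    have := buG_pos γ c hr
    positivity
  obtain ⟨M, hM, h1, h2⟩ := bu_doubling (P := fun M => ∀ Y ∈ ball (0 : E × ℝ) 1, ∀ r : ℝ, 0 < r →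
      r ≤ 1 → Fl (ball 0 1) w Y r (M * buG γ c r / (1 - ‖Y‖) ^ 4))
    (fun M M' hM h Y hY r hr hr1 => (h Y hY r hr hr1).mono_lam hr (by
      have := buG_pos γ c hr
      gcongr))
    (by positivity) hA hB
  simp only [not_forall] at h2
  obtain ⟨X, hX, ρ, hρ, hρ1, h2⟩ := h2
  exact ⟨c, M, X, ρ, hM, hX, hρ, hρ1, h2, h1⟩

theorem bu_pt {X Y : E × ℝ} {b : E} {a ρ R : ℝ} (hρ : 0 < ρ) (hρ1 : ρ ≤ 1) (ha0 : 0 ≤ a)
    (ha : a ≤ 2 * √ρ) (hb : ‖b‖ * √ρ ≤ 7) (hY : Y ∈ ball (0 : E × ℝ) R) :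
    ‖pt X b a ρ Y‖ ≤ ‖X‖ + 9 * R * √ρ := by
  have h1 : ‖Y‖ < R := by simpa using hY
  have h2 : ‖Y.1‖ ≤ R := (norm_fst_le Y).trans h1.le
  have h3 : |Y.2| ≤ R := (norm_snd_le Y).trans h1.le
  have hR : 0 ≤ R := (norm_nonneg _).trans h2
  have hs := Real.sqrt_nonneg ρ
  have hs2 := Real.mul_self_sqrt hρ.le
  have hs1 : √ρ ≤ 1 := Real.sqrt_le_one.2 hρ1
  refine max_le ?_ ?_
  · have e1 : ‖a • Y.1‖ ≤ 2 * √ρ * R := by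
      rw [norm_smul, Real.norm_of_nonneg ha0]
      gcongr
    have e2 : ‖(ρ * Y.2) • b‖ ≤ 7 * √ρ * R := by
      rw [norm_smul, Real.norm_eq_abs, abs_mul, abs_of_pos hρ]
      calc ρ * |Y.2| * ‖b‖ = (‖b‖ * √ρ) * √ρ * |Y.2| := by
            rw [mul_assoc ‖b‖, hs2]; ring
        _ ≤ 7 * √ρ * R := by gcongr
    have e3 := norm_add₃_le (a := X.1) (b := a • Y.1) (c := (ρ * Y.2) • b)
    have e4 := norm_fst_le X
    show ‖X.1 + a • Y.1 + (ρ * Y.2) • b‖ ≤ _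
    linarith
  · have e1 : ‖ρ * Y.2‖ ≤ √ρ * R := by
      rw [Real.norm_eq_abs, abs_mul, abs_of_pos hρ]
      have : ρ ≤ √ρ := by nlinarith
      gcongr
    have e3 := norm_add_le X.2 (ρ * Y.2)
    have e4 := norm_snd_le X
    show ‖X.2 + ρ * Y.2‖ ≤ _
    nlinarith [mul_nonneg hs hR]

/-- the rescaled counterexample -/
theorem bu_data {γ C : ℝ} (hγ : γ ≤ 1) (hC : 64 < C) {w : E × ℝ → ℝ} (hw : Box w) {X' : E × ℝ}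
    (hX' : X' ∈ ball (0 : E × ℝ) (1 / 2)) {ρ' : ℝ} (hρ' : 0 < ρ') (hρ'1 : ρ' ≤ 1)
    (hn : ¬ Fl (ball 0 1) w X' ρ' (C * ρ' ^ γ)) :
    ∃ (W : E × ℝ → ℝ) (O : Set (E × ℝ)) (s : ℝ), 0 ≤ s ∧ s ≤ √(√(64 / C)) ∧ W 0 = 0 ∧
      IsSol O W ∧ CFw O W 0 1 1 0 0 ∧ ¬ Fl O W 0 1 (1 / 4) ∧
      ∀ R : ℝ, 9 * R * s < 1 → ball 0 R ⊆ O ∧ ∀ Y ∈ ball (0 : E × ℝ) R, ∀ r : ℝ, 0 < r →
        s ^ 2 * r ≤ 1 → Fl O W Y r (max (r ^ γ) (r ^ (-(7 / 8) : ℝ)) / (1 - 9 * R * s) ^ 4) := by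
  obtain ⟨c, M, X, ρ, hM, hX, hρ, hρ1, hn, hP⟩ := bu_select (by linarith) hw hX' hρ' hρ'1 hn
  have hM0 : 0 < M := by linarith
  have hX1 : ‖X‖ < 1 := by simpa using hX
  set d : ℝ := 1 - ‖X‖ with hd
  have hd0 : 0 < d := by linarith
  have hd1 : d ≤ 1 := by linarith [norm_nonneg X]
  have hg := buG_pos γ c hρ
  set Λ : ℝ := M * buG γ c ρ / d ^ 4 with hΛ
  have hΛ0 : 0 < Λ := by positivity
  have hn' : ¬ Fl (ball 0 1) w X ρ (Λ / 2) := by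
    rwa [show Λ / 2 = M / 2 * buG γ c ρ / d ^ 4 by rw [hΛ]; ring]
  have hΛρ : Λ * ρ ≤ 4 := by
    by_contra h
    refine hn' (Fl.mono_lam ⟨0, 0, cfw_of_bdd hρ hX hw.2.1⟩ hρ ?_)
    rw [div_le_iff₀ hρ]
    linarith
  have hs0 := Real.sqrt_pos.2 hρ
  have hs2 := Real.mul_self_sqrt hρ.le
  set s : ℝ := √ρ / d with hs
  have hsd : √ρ = s * d := by rw [hs]; field_simp
  have hspos : 0 < s := by positivity
  have hs4 : (s ^ 2) ^ 2 ≤ 64 / C := by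
    have e1 : (s ^ 2) ^ 2 = ρ * ρ / d ^ 4 := by
      rw [hs, ← hs2, Real.sqrt_mul_self hs0.le]; field_simp
    have e2 : M * ρ / d ^ 4 ≤ Λ := by
      have := buG_ge c hγ hρ hρ1
      rw [hΛ]; gcongr
    have e3 : M * (ρ * ρ / d ^ 4) ≤ 4 := by
      calc M * (ρ * ρ / d ^ 4) = M * ρ / d ^ 4 * ρ := by ring
        _ ≤ Λ * ρ := by gcongr
        _ ≤ 4 := hΛρ
    rw [e1, le_div_iff₀ (by linarith)]
    have : 0 ≤ ρ * ρ / d ^ 4 := by positivity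
    nlinarith
  have hs1 : s < 1 := by
    have : 64 / C < 1 := by rw [div_lt_one (by linarith)]; exact hC
    by_contra h
    have h' : 1 ≤ s := not_lt.1 h
    have := one_le_pow₀ (one_le_pow₀ h' (n := 2)) (n := 2)
    linarith
  obtain ⟨b, h, hb⟩ := hP X hX ρ hρ hρ1
  have hb7 : ‖b‖ * √ρ ≤ 7 := by
    have := hb.norm_b_le (M := 2) hρ fun η hη => by
      have h1 : ((X.1 + η, X.2) : E × ℝ) ∈ ball (0 : E × ℝ) 1 := by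
        rw [mem_ball_zero_iff]
        refine max_lt ?_ ((norm_snd_le X).trans_lt hX1)
        have := norm_add_le X.1 η
        have := norm_fst_le X
        show ‖X.1 + η‖ < 1
        nlinarith
      have h2 := hw.2.1 _ h1
      have h3 := hw.2.1 _ hX
      exact ⟨h1, (abs_sub _ _).trans (by linarith)⟩
    linarith
  have hv0 := Real.sqrt_pos.2 hΛ0
  have ha0 : 0 < √Λ * ρ := by positivity
  have hv : (√Λ * ρ / ρ) ^ 2 = Λ := by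
    rw [mul_div_cancel_right₀ _ hρ.ne', Real.sq_sqrt hΛ0.le]
  have ha : √Λ * ρ ≤ 2 * √ρ := by
    refine (pow_le_pow_iff_left₀ ha0.le (by positivity) two_ne_zero).1 ?_
    rw [mul_pow, mul_pow, Real.sq_sqrt hΛ0.le, Real.sq_sqrt hρ.le]
    nlinarith
  refine ⟨sym X b h (√Λ * ρ) ρ w, pt X b (√Λ * ρ) ρ ⁻¹' ball 0 1, s, hspos.le,
    Real.le_sqrt_of_sq_le (Real.le_sqrt_of_sq_le hs4), sym_zero _ _ _ _ _ _,
    hw.1.sym ha0 hρ, ?_, fun hF => hn' ?_, fun R hR => ?_⟩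
  · rw [cfw_sym_iff ha0 hρ one_pos, hv]
    simpa using hb
  · rw [fl_sym_iff ha0 hρ one_pos, hv, pt_zero, mul_one] at hF
    exact hF.mono_lam hρ (by linarith)
  have key : ∀ Y ∈ ball (0 : E × ℝ) R, d * (1 - 9 * R * s) ≤ 1 - ‖pt X b (√Λ * ρ) ρ Y‖ := by
    intro Y hY
    have := bu_pt (X := X) hρ hρ1 ha0.le ha hb7 hY
    rw [hsd] at this
    linarith
  have hq : 0 < 1 - 9 * R * s := by linarith
  have key2 : ∀ Y ∈ ball (0 : E × ℝ) R, pt X b (√Λ * ρ) ρ Y ∈ ball (0 : E × ℝ) 1 := by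
    intro Y hY
    have := key Y hY
    rw [mem_ball_zero_iff]
    nlinarith [mul_pos hd0 hq]
  refine ⟨key2, fun Y hY r hr hr1 => ?_⟩
  have hρs : ρ ≤ s ^ 2 := by
    rw [← hs2, hsd]
    have : d * d ≤ 1 := mul_le_one₀ hd1 hd0.le hd1
    nlinarith [sq_nonneg s]
  rw [fl_sym_iff ha0 hρ hr, hv]
  refine (hP _ (key2 Y hY) (ρ * r) (by positivity)
    ((mul_le_mul_of_nonneg_right hρs hr.le).trans hr1)).mono_lam (by positivity) ?_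
  have e1 := buG_mul γ c hρ hr
  have e2 := key Y hY
  have e3 : 0 ≤ max (r ^ γ) (r ^ (-(7 / 8) : ℝ)) := le_max_of_le_left (by positivity)
  calc M * buG γ c (ρ * r) / (1 - ‖pt X b (√Λ * ρ) ρ Y‖) ^ 4
      ≤ M * (buG γ c ρ * max (r ^ γ) (r ^ (-(7 / 8) : ℝ))) / (d * (1 - 9 * R * s)) ^ 4 := by
        gcongr
    _ = _ := by rw [hΛ]; field_simp

/-- Suppose not. For each `j` take `γⱼ = γ₀ + 1/(j+1)` (`≤ 1`), `C = j + 1` and a counterexample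
`wⱼ, X'ⱼ, ρ'ⱼ`. Let `gⱼ ρ = max ρ^γⱼ (ρ'ⱼ^(γⱼ+7/8) ρ^(-7/8))`, so `gⱼ ρ'ⱼ = ρ'ⱼ^γⱼ`, `gⱼ ρ ≥ ρ` on
`(0,1]`, `gⱼ (ρρ') ≤ max ρ'^γⱼ ρ'^(-7/8) · gⱼ ρ`. With `d X = 1 - ‖X‖` let `Mⱼ` be the infimum of the
`M ≥ 0` such that `Fl (ball 0 1) wⱼ X ρ (M gⱼ ρ / (d X)⁴)` for all `X ∈ ball 0 1`, `ρ ∈ (0,1]`
(nonempty by `gauge_of_hol`; upward closed). `Mⱼ ≥ (j+1)/16`. Pick `(Xⱼ,ρⱼ)` where `Mⱼ/2` fails; put
`Λⱼ = Mⱼ gⱼ ρⱼ / dⱼ⁴ = vⱼ²`. `cfw_of_bdd` gives `Λⱼ/2 < 2/ρⱼ`, so `Mⱼ ρⱼ² ≤ 4 dⱼ⁴`: `√ρⱼ / dⱼ → 0`.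
Take a frame `(bⱼ,hⱼ)` at `(Xⱼ,ρⱼ)` with constant `2Λⱼ`; `norm_b_le`: `‖bⱼ‖√ρⱼ ≤ 11`.
`Wⱼ = sym Xⱼ bⱼ hⱼ (vⱼρⱼ) ρⱼ wⱼ` on `Oⱼ = pt ⁻¹' ball 0 1`: `vⱼρⱼ ≤ 2√ρⱼ`, so for `‖X‖ < R`,
`‖pt X - Xⱼ‖ ≤ 13 R √ρⱼ = o(dⱼ)`: the `Oⱼ` exhaust and `dⱼ / d (pt X) → 1` uniformly.
`fl_sym_iff`: `Fl Oⱼ Wⱼ X ρ ((1+η)(dⱼ/d(pt X))⁴ max ρ^γⱼ ρ^(-7/8))` when `ρρⱼ ≤ 1`, any `η > 0`.
`compG` with `G ρ = max ρ^γ₀ ρ^(-7/8)`, `Λ = 2`; the limit is affine by `Liou`; `Affine.cfw` and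
`persist` (growth with `T = 1`, `ε = 1/2`) give `Fl Oⱼ Wⱼ 0 1 (1/4)`, i.e. `Λⱼ/4` works at
`(Xⱼ,ρⱼ)`: contradiction. -/
theorem blow_up {γ₀ : ℝ} (h1 : -(1 / 2) ≤ γ₀) (h2 : γ₀ ≤ 0) (hL : Liou E γ₀) :
    ∃ γ C : ℝ, γ₀ < γ ∧ γ ≤ 1 ∧ 0 < C ∧ ∀ w : E × ℝ → ℝ, Box w →
      ∀ X ∈ ball (0 : E × ℝ) (1 / 2), ∀ ρ : ℝ, 0 < ρ → ρ ≤ 1 →
        Fl (ball 0 1) w X ρ (C * ρ ^ γ) := by
  by_contra hcon
  have hγ1 : ∀ j : ℕ, γ₀ + 1 / ((j : ℝ) + 1) ≤ 1 := fun j => by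
    have : 1 / ((j : ℝ) + 1) ≤ 1 := by
      rw [div_le_one (by positivity)]
      linarith [Nat.cast_nonneg (α := ℝ) j]
    linarith
  have hγ0 : ∀ j : ℕ, γ₀ < γ₀ + 1 / ((j : ℝ) + 1) := fun j => lt_add_of_pos_right _ (by positivity)
  have hdata : ∀ j : ℕ, ∃ (W : E × ℝ → ℝ) (O : Set (E × ℝ)) (s : ℝ), 0 ≤ s ∧
      s ≤ √(√(64 / ((j : ℝ) + 65))) ∧ W 0 = 0 ∧
      IsSol O W ∧ CFw O W 0 1 1 0 0 ∧ ¬ Fl O W 0 1 (1 / 4) ∧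
      ∀ R : ℝ, 9 * R * s < 1 → ball 0 R ⊆ O ∧ ∀ Y ∈ ball (0 : E × ℝ) R, ∀ r : ℝ, 0 < r →
        s ^ 2 * r ≤ 1 → Fl O W Y r (max (r ^ (γ₀ + 1 / ((j : ℝ) + 1))) (r ^ (-(7 / 8) : ℝ)) /
          (1 - 9 * R * s) ^ 4) := by
    intro j
    by_contra hj
    refine hcon ⟨_, (j : ℝ) + 65, hγ0 j, hγ1 j, by positivity, fun w hw X hX ρ hρ hρ1 => ?_⟩
    by_contra hn
    exact hj (bu_data (hγ1 j) (by linarith [Nat.cast_nonneg (α := ℝ) j]) hw hX hρ hρ1 hn)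
  choose W O s hs0 hs1 hW0 hsol hN hnF hR using hdata
  have hs : Tendsto s atTop (𝓝 0) := by
    refine squeeze_zero hs0 hs1 ?_
    have : Tendsto (fun j : ℕ => 64 / ((j : ℝ) + 65)) atTop (𝓝 0) :=
      tendsto_const_nhds.div_atTop (tendsto_atTop_add_const_right _ _ tendsto_natCast_atTop_atTop)
    simpa using this.sqrt.sqrt
  have hsR : ∀ R : ℝ, ∀ᶠ j in atTop, 9 * R * s j < 1 / 2 := fun R =>
    (hs.const_mul (9 * R)).eventually (gt_mem_nhds (by norm_num))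
  have hsr : ∀ r : ℝ, ∀ᶠ j in atTop, s j ^ 2 * r < 1 := fun r =>
    ((hs.pow 2).mul_const r).eventually (gt_mem_nhds (by norm_num))
  set U : Ultrafilter ℕ := Ultrafilter.of atTop
  have hU : (U : Filter ℕ) ≤ atTop := Ultrafilter.of_le _
  have hG : ∀ R r ε : ℝ, 0 < r → 0 < ε → ∀ᶠ j in atTop, ∀ X ∈ ball (0 : E × ℝ) R,
      Fl (O j) (W j) X r (max (r ^ γ₀) (r ^ (-(7 / 8) : ℝ)) + ε) := by
    intro R r ε hr hε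
    have h3 : Tendsto (fun j : ℕ => γ₀ + 1 / ((j : ℝ) + 1)) atTop (𝓝 γ₀) := by
      simpa using tendsto_one_div_add_atTop_nhds_zero_nat.const_add γ₀
    have h4 : Tendsto (fun j : ℕ => max (r ^ (γ₀ + 1 / ((j : ℝ) + 1))) (r ^ (-(7 / 8) : ℝ)) /
        (1 - 9 * R * s j) ^ 4) atTop (𝓝 (max (r ^ γ₀) (r ^ (-(7 / 8) : ℝ)))) := by
      have := ((tendsto_const_nhds.rpow h3 (Or.inl hr.ne')).max
        (tendsto_const_nhds (x := r ^ (-(7 / 8) : ℝ)))).div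
        (((hs.const_mul (9 * R)).const_sub 1).pow 4) (by norm_num)
      simpa [Pi.div_def] using this
    filter_upwards [hsR R, hsr r, h4.eventually (gt_mem_nhds (lt_add_of_pos_right _ hε))]
      with j a1 a2 a3 X hX
    exact ((hR j R (by linarith)).2 X hX r hr a2.le).mono_lam hr a3.le
  have hH : ∀ R : ℝ, ∀ᶠ j in atTop, ∀ X ∈ ball (0 : E × ℝ) R, ∀ r : ℝ,
      0 < r → r ≤ 1 → Fl (O j) (W j) X r (16 * r ^ (-(7 / 8) : ℝ)) := by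
    intro R
    filter_upwards [hsR R, hsr 1] with j a1 a2 X hX r hr hr1
    refine ((hR j R (by linarith)).2 X hX r hr (by nlinarith [sq_nonneg (s j)])).mono_lam hr ?_
    have e1 : r ^ (γ₀ + 1 / ((j : ℝ) + 1)) ≤ r ^ (-(7 / 8) : ℝ) :=
      Real.rpow_le_rpow_of_exponent_ge hr hr1 (by linarith [hγ0 j])
    have e2 : (1 / 2 : ℝ) ^ 4 ≤ (1 - 9 * R * s j) ^ 4 := by gcongr; linarith
    have e3 := Real.rpow_pos_of_pos hr (-(7 / 8) : ℝ)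
    rw [max_eq_right e1, div_le_iff₀ (by linarith)]
    nlinarith
  obtain ⟨v, hv1, hv2, hv3, hv4, hv5⟩ := compG U W O
    (fun r => max (r ^ γ₀) (r ^ (-(7 / 8) : ℝ))) 1
    (fun R => hU ((hsR R).mono fun j hj => (hR j R (by linarith)).1))
    (Eventually.of_forall hsol) hW0 (Eventually.of_forall hN)
    (fun R r ε hr hε => hU (hG R r ε hr hε)) (fun R => ⟨16, by norm_num, hU (hH R)⟩)
  obtain ⟨q, k, hq⟩ := (hL v hv1 hv4).cfw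
  obtain ⟨K, hK⟩ := hv5 1 (1 / 2) (by norm_num)
  obtain ⟨j, hj⟩ := (persist (ε := 1 / 4) one_pos (by norm_num) (by norm_num) isOpen_univ
    (fun _ _ => mem_univ _) (tendstoLocallyUniformlyOn_univ.2 hv2) hK hW0 hv3.1
    (hq 0 1 one_pos)).exists
  exact hnF j ⟨q, k, by simpa using hj⟩

end R94
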