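import Crest.Agent.R94.Defs
import Crest.Prelude.Def_InfHarmonic

/-!
# R94/Bridge: an ∞-harmonic function is a steady solution of the parabolic equation
-/

set_option autoImplicit false
set_option linter.unusedSectionVars false
set_option linter.unusedVariables false

open Set Filter Topology Metric
open scoped InnerProductSpace

namespace R94

variable {E : Type} [NormedAddCommGroup E] [InnerProductSpace ℝ E] [FiniteDimensional ℝ E]

theorem bridge_time {r K : ℝ} (h : ∀ᶠ σ : ℝ in 𝓝 0, 0 ≤ r * σ + K * σ ^ 2) : r = 0 ∧ 0 ≤ K := by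
  have h' : ∀ᶠ σ : ℝ in 𝓝 0, 0 ≤ r * (-σ) + K * (-σ) ^ 2 := by
    have : Tendsto (fun σ : ℝ => -σ) (𝓝 0) (𝓝 0) := by simpa using (continuous_neg.tendsto (0 : ℝ))
    exact this.eventually h
  have h1 : ∀ᶠ σ : ℝ in 𝓝[>] 0, |r| ≤ K * σ ∧ 0 ≤ K := by
    filter_upwards [nhdsWithin_le_nhds h, nhdsWithin_le_nhds h', self_mem_nhdsWithin] with σ a1 a2 a3
    have hσ : 0 < σ := a3
    have b1 : 0 ≤ r + K * σ := nonneg_of_mul_nonneg_left (b := σ) (by linarith) hσ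
    have b2 : 0 ≤ -r + K * σ := nonneg_of_mul_nonneg_left (b := σ) (by linarith) hσ
    exact ⟨abs_le.2 ⟨by linarith, by linarith⟩,
      nonneg_of_mul_nonneg_left (b := σ) (by linarith) hσ⟩
  refine ⟨abs_nonpos_iff.1 ?_, h1.exists.choose_spec.2⟩
  have h2 : Tendsto (fun σ : ℝ => K * σ) (𝓝[>] 0) (𝓝 0) := by
    have : Continuous fun σ : ℝ => K * σ := by fun_prop
    simpa using (this.tendsto 0).mono_left nhdsWithin_le_nhds
  exact ge_of_tendsto h2 (h1.mono fun σ h => h.1)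

/-- the quadratic test function. -/
noncomputable def bridgeQ (y q : E) (A B : ℝ) (z : E) : ℝ :=
  ⟪q, z - y⟫_ℝ + A * ‖z - y‖ ^ 2 + B * ⟪q, z - y⟫_ℝ ^ 2

/-- the inner product as a bilinear map. -/
noncomputable def bridgeI (E : Type) [NormedAddCommGroup E] [InnerProductSpace ℝ E] :
    E →L[ℝ] E →L[ℝ] ℝ := innerSL ℝ

/-- its Hessian. -/
noncomputable def bridgeL (q : E) (A B : ℝ) : E →L[ℝ] E →L[ℝ] ℝ :=
  (2 * A) • bridgeI E + (2 * B) • (innerSL ℝ q).smulRight (innerSL ℝ q)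

theorem bridgeL_apply (q : E) (A B : ℝ) (a b : E) :
    bridgeL q A B a b = 2 * A * ⟪a, b⟫_ℝ + 2 * B * (⟪q, a⟫_ℝ * ⟪q, b⟫_ℝ) := rfl

theorem bridgeQ_contDiff (y q : E) (A B : ℝ) : ContDiff ℝ 2 (bridgeQ y q A B) := by
  have h1 : ContDiff ℝ 2 fun z : E => ⟪q, z - y⟫_ℝ :=
    contDiff_const.inner ℝ (contDiff_id.sub contDiff_const)
  have h2 : ContDiff ℝ 2 fun z : E => ‖z - y‖ ^ 2 := (contDiff_id.sub contDiff_const).norm_sq ℝ
  exact (h1.add (contDiff_const.mul h2)).add (contDiff_const.mul (h1.pow 2))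

theorem bridgeQ_hasFDerivAt (y q : E) (A B : ℝ) (z : E) :
    HasFDerivAt (bridgeQ y q A B) (innerSL ℝ q + bridgeL q A B (z - y)) z := by
  have h0 : HasFDerivAt (fun z : E => z - y) (ContinuousLinearMap.id ℝ E) z :=
    (hasFDerivAt_id z).sub_const y
  have h1 : HasFDerivAt (fun z : E => ⟪q, z - y⟫_ℝ) (innerSL ℝ q) z :=
    (innerSL ℝ q).hasFDerivAt.comp z h0
  have h2 := h0.norm_sq
  refine (((h1.add (h2.const_mul A)).add ((h1.pow 2).const_mul B))).congr_fderiv ?_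
  ext v
  simp [bridgeL_apply, inner_sub_right]
  ring

theorem bridgeQ_lap {d : ℕ} (y q : EuclideanSpace ℝ (Fin d)) (A B : ℝ) :
    Crest.AnalysisR.PDE.infLaplacian (bridgeQ y q A B) y = 2 * A * ‖q‖ ^ 2 + 2 * B * ‖q‖ ^ 4 := by
  have h1 : HasGradientAt (bridgeQ y q A B) q y := by
    have h := bridgeQ_hasFDerivAt y q A B y
    rw [sub_self, map_zero, add_zero] at h
    exact h
  have h2 : fderiv ℝ (bridgeQ y q A B) = fun z => innerSL ℝ q + bridgeL q A B (z - y) :=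
    funext fun z => (bridgeQ_hasFDerivAt y q A B z).fderiv
  have h3 : HasFDerivAt (fun z => innerSL ℝ q + bridgeL q A B (z - y)) (bridgeL q A B) y :=
    ((bridgeL q A B).hasFDerivAt.comp y ((hasFDerivAt_id y).sub_const y)).const_add _
  rw [Crest.AnalysisR.PDE.infLaplacian, h1.gradient, iteratedFDeriv_two_apply, h2, h3.fderiv]
  change bridgeL q A B q q = _
  rw [bridgeL_apply, real_inner_self_eq_norm_sq]
  ring

theorem bridge_tendsto (y q : E) :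
    Tendsto (fun z : E => ((z - y, ⟪q, z - y⟫_ℝ / ‖q‖ ^ 2) : E × ℝ)) (𝓝 y) (𝓝 0) := by
  have : Continuous fun z : E => ((z - y, ⟪q, z - y⟫_ℝ / ‖q‖ ^ 2) : E × ℝ) := by fun_prop
  exact this.tendsto' y 0 (by simp)

theorem bridge_tendsto' : Tendsto (fun σ : ℝ => ((0, σ) : E × ℝ)) (𝓝 0) (𝓝 0) :=
  (continuous_const.prodMk continuous_id).tendsto 0

theorem bridge_proj {q : E} (hq : q ≠ 0) (η : E) :
    ‖η - (⟪q, η⟫_ℝ / ‖q‖ ^ 2) • q‖ ^ 2 = ‖η‖ ^ 2 - ⟪q, η⟫_ℝ ^ 2 / ‖q‖ ^ 2 := by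
  have hn : ‖q‖ ≠ 0 := norm_ne_zero_iff.2 hq
  rw [norm_sub_sq_real, real_inner_smul_right, norm_smul, mul_pow, Real.norm_eq_abs, sq_abs,
    real_inner_comm q η]
  field_simp
  ring

/-- Suppose `u (y + η) ≤ u y + ⟪q, η⟫ + r σ + A ‖η - σ • q‖² - ε σ²` for `(η, σ)` near `0`.
Taking `η = 0` and both signs of small `σ` gives `r = 0` and `ε ≤ A ‖q‖²`, so `q ≠ 0`.
Put `σ = ⟪q, η⟫ / ‖q‖²`: `u - φ` has a local maximum at `y` for the quadratic polynomial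
`φ y' = ⟪q, y' - y⟫ + A (‖y' - y‖² - ⟪q, y' - y⟫² / ‖q‖²) - ε ⟪q, y' - y⟫² / ‖q‖⁴`.
`∇φ y = q` and `iteratedFDeriv ℝ 2 φ y ![q, q] = -2 ε < 0` (`iteratedFDeriv_two_apply`, or
differentiate `fderiv ℝ φ`, which is an affine map), contradiction. Supersolution: mirror image. -/
theorem isSol_of_infHarmonic {d : ℕ} (u : EuclideanSpace ℝ (Fin d) → ℝ)
    (hu : Crest.AnalysisR.PDE.IsInfinityHarmonicOn u (ball 0 1)) :
    IsSol (ball (0 : EuclideanSpace ℝ (Fin d)) 1 ×ˢ (univ : Set ℝ)) (fun X => u X.1) := by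
  have hc : ContinuousOn (fun X : EuclideanSpace ℝ (Fin d) × ℝ => u X.1)
      (ball (0 : EuclideanSpace ℝ (Fin d)) 1 ×ˢ (univ : Set ℝ)) :=
    hu.1.comp continuous_fst.continuousOn fun X hX => hX.1
  refine ⟨⟨hc, fun X hX q r A ε hε h => ?_⟩, hc, fun X hX q r A ε hε h => ?_⟩
  · obtain ⟨hr, hK⟩ := bridge_time (r := r) (K := A * ‖q‖ ^ 2 - ε)
      ((bridge_tendsto'.eventually h).mono fun σ hσ => by
        simp only [Prod.fst_add, add_zero, inner_zero_right, zero_sub, norm_neg, norm_smul, mul_pow,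
          Real.norm_eq_abs, sq_abs] at hσ
        linarith)
    have hq : q ≠ 0 := by
      rintro rfl
      rw [norm_zero] at hK
      linarith
    have hn : ‖q‖ ≠ 0 := norm_ne_zero_iff.2 hq
    have h1 := (hu.2 X.1 hX.1 (bridgeQ X.1 q A (-A / ‖q‖ ^ 2 - ε / ‖q‖ ^ 4))
      (bridgeQ_contDiff _ _ _ _).contDiffAt).1
      (((bridge_tendsto X.1 q).eventually h).mono fun z hz => by
        simp only [Prod.fst_add, add_sub_cancel, bridge_proj hq, hr] at hz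
        simp only [bridgeQ, sub_self, inner_zero_right, norm_zero]
        have e : (-A / ‖q‖ ^ 2 - ε / ‖q‖ ^ 4) * ⟪q, z - X.1⟫_ℝ ^ 2 =
            -(A * (⟪q, z - X.1⟫_ℝ ^ 2 / ‖q‖ ^ 2)) - ε * (⟪q, z - X.1⟫_ℝ / ‖q‖ ^ 2) ^ 2 := by
          field_simp
        linarith)
    rw [bridgeQ_lap] at h1
    have e : 2 * A * ‖q‖ ^ 2 + 2 * (-A / ‖q‖ ^ 2 - ε / ‖q‖ ^ 4) * ‖q‖ ^ 4 = -(2 * ε) := by
      field_simp
      ring
    linarith
  · obtain ⟨hr, hK⟩ := bridge_time (r := -r) (K := A * ‖q‖ ^ 2 - ε)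
      ((bridge_tendsto'.eventually h).mono fun σ hσ => by
        simp only [Prod.fst_add, add_zero, inner_zero_right, zero_sub, norm_neg, norm_smul, mul_pow,
          Real.norm_eq_abs, sq_abs] at hσ
        linarith)
    rw [neg_eq_zero] at hr
    have hq : q ≠ 0 := by
      rintro rfl
      rw [norm_zero] at hK
      linarith
    have hn : ‖q‖ ≠ 0 := norm_ne_zero_iff.2 hq
    have h1 := (hu.2 X.1 hX.1 (bridgeQ X.1 q (-A) (A / ‖q‖ ^ 2 + ε / ‖q‖ ^ 4))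
      (bridgeQ_contDiff _ _ _ _).contDiffAt).2
      (((bridge_tendsto X.1 q).eventually h).mono fun z hz => by
        simp only [Prod.fst_add, add_sub_cancel, bridge_proj hq, hr] at hz
        simp only [bridgeQ, sub_self, inner_zero_right, norm_zero]
        have e : (A / ‖q‖ ^ 2 + ε / ‖q‖ ^ 4) * ⟪q, z - X.1⟫_ℝ ^ 2 =
            A * (⟪q, z - X.1⟫_ℝ ^ 2 / ‖q‖ ^ 2) + ε * (⟪q, z - X.1⟫_ℝ / ‖q‖ ^ 2) ^ 2 := by
          field_simp
        linarith)
    rw [bridgeQ_lap] at h1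
    have e : 2 * -A * ‖q‖ ^ 2 + 2 * (A / ‖q‖ ^ 2 + ε / ‖q‖ ^ 4) * ‖q‖ ^ 4 = 2 * ε := by
      field_simp
      ring
    linarith

end R94
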