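import Crest.Agent.R94.Cfg

/-!
# R94/Rigid: the Crandall–Evans rigidity
-/

set_option autoImplicit false
set_option linter.unusedSectionVars false
set_option linter.unusedVariables false

open Set Filter Topology Metric
open scoped InnerProductSpace

namespace R94

variable {E : Type} [NormedAddCommGroup E] [InnerProductSpace ℝ E] [FiniteDimensional ℝ E]

theorem rigid_split {t S : ℝ} (ht : 0 < t) (hS : 0 < S) (x η : E) :
    ‖x + η‖ ^ 2 / (2 * (t + S)) ≤ ‖η‖ ^ 2 / (2 * S) + ‖x‖ ^ 2 / (2 * t) := by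
  have h1 : ‖x + η‖ ^ 2 ≤ (‖x‖ + ‖η‖) ^ 2 := pow_le_pow_left₀ (norm_nonneg _) (norm_add_le _ _) 2
  have h2 : (‖x‖ + ‖η‖) ^ 2 / (2 * (t + S)) ≤ ‖η‖ ^ 2 / (2 * S) + ‖x‖ ^ 2 / (2 * t) := by
    rw [div_add_div _ _ (by positivity) (by positivity), div_le_div_iff₀ (by positivity) (by positivity)]
    nlinarith [sq_nonneg (t * ‖η‖ - S * ‖x‖)]
  exact (div_le_div_of_nonneg_right h1 (by positivity)).trans h2

/-- step (1), positive initial times. -/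
theorem rigid_up_pos {v : E × ℝ → ℝ} (hv : Ent v) {L : ℝ} (h : ∀ s : ℝ, 0 < s → Tp s v 0 = L * s)
    (x η : E) {t σ : ℝ} (ht : 0 < t) (hσ : 0 < σ) :
    v (x + η, t + σ) ≤ v (x, t) + L * σ + ‖η‖ ^ 2 / (2 * σ) := by
  have h1 : ∀ S : ℝ, 0 < S → Tp S v (x, t) ≤ L * (t + S) + ‖x‖ ^ 2 / (2 * t) := fun S hS => by
    refine Tp_le fun ζ => ?_
    have h2 := hv.2.le_Tp (s := t + S) (by positivity) 0 (x + ζ)
    rw [h _ (by positivity)] at h2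
    simp only [Prod.fst_zero, Prod.snd_zero, zero_add] at h2
    linarith [rigid_split ht hS x ζ]
  have h2 : Sp σ v (x, t) ≤ L := by
    have h3 : Tendsto (fun S : ℝ => L + (L * t + ‖x‖ ^ 2 / (2 * t) - v (x, t)) / S) atTop
        (𝓝 (L + 0)) := tendsto_const_nhds.add (tendsto_const_nhds.div_atTop tendsto_id)
    rw [add_zero] at h3
    refine ge_of_tendsto h3 ?_
    filter_upwards [eventually_ge_atTop σ] with S hS
    have hS0 : 0 < S := hσ.trans_le hS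
    refine (hv.Sp_mono hσ hS _).trans ?_
    rw [Sp, div_le_iff₀ hS0, add_mul, div_mul_cancel₀ _ hS0.ne']
    linarith [h1 S hS0]
  rw [Sp, div_le_iff₀ hσ] at h2
  have h3 := hv.2.le_Tp hσ (x, t) η
  simp only at h3
  linarith

/-- step (1). -/
theorem rigid_up {v : E × ℝ → ℝ} (hv : Ent v) {L : ℝ} (h : ∀ s : ℝ, 0 < s → Tp s v 0 = L * s)
    (y y' : E) {t t' : ℝ} (ht : 0 ≤ t) (htt : t < t') :
    v (y', t') ≤ v (y, t) + L * (t' - t) + ‖y' - y‖ ^ 2 / (2 * (t' - t)) := by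
  have h1 : ∀ τ : ℝ, 0 < τ → τ < t' →
      v (y', t') ≤ v (y, τ) + L * (t' - τ) + ‖y' - y‖ ^ 2 / (2 * (t' - τ)) := fun τ h0 h1 => by
    have := rigid_up_pos hv h y (y' - y) h0 (sub_pos.2 h1)
    rwa [add_sub_cancel, add_sub_cancel] at this
  have hc : ContinuousAt (fun τ : ℝ => v (y, τ) + L * (t' - τ) + ‖y' - y‖ ^ 2 / (2 * (t' - τ))) t := by
    have := hv.csq.1
    refine ContinuousAt.add (by fun_prop) (ContinuousAt.div (by fun_prop) (by fun_prop) ?_)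
    have := sub_pos.2 htt
    positivity
  refine ge_of_tendsto (hc.tendsto.mono_left (nhdsWithin_le_nhds (s := Ioi t))) ?_
  filter_upwards [Ioo_mem_nhdsGT htt] with τ hτ
  exact h1 τ (ht.trans_lt hτ.1) hτ.2

/-- step (2): a supporting plane on `t ≥ 0`. -/
theorem rigid_low {v : E × ℝ → ℝ} (hv : Ent v) {L : ℝ} (h : ∀ s : ℝ, 0 < s → Tp s v 0 = L * s) :
    ∃ q : E, ∀ (y : E) (t : ℝ), 0 ≤ t → ⟪q, y⟫_ℝ + (L - ‖q‖ ^ 2 / 2) * t ≤ v (y, t) := by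
  have h1 : ∀ s : ℝ, 0 < s → ∃ q : E, ∀ (y : E) (t : ℝ), 0 ≤ t → t < s →
      ⟪q, y⟫_ℝ + (L - ‖q‖ ^ 2 / 2) * t - ‖y - t • q‖ ^ 2 / (2 * (s - t)) ≤ v (y, t) := by
    intro s hs
    obtain ⟨η, hη⟩ := hv.csq.exists_Tp hs 0
    obtain ⟨q, rfl⟩ : ∃ q : E, η = s • q := ⟨s⁻¹ • η, by rw [smul_inv_smul₀ hs.ne']⟩
    refine ⟨q, fun y t ht hts => ?_⟩
    rw [h s hs] at hη
    simp only [Prod.fst_zero, Prod.snd_zero, zero_add] at hη
    have h2 := rigid_up hv h y (s • q) ht hts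
    have hd : 0 < s - t := sub_pos.2 hts
    have e1 : ‖s • q‖ ^ 2 / (2 * s) = s * ‖q‖ ^ 2 / 2 := by
      rw [norm_smul, Real.norm_eq_abs, mul_pow, sq_abs]; field_simp
    have e2 : ‖s • q - y‖ ^ 2 / (2 * (s - t)) = (s - t) * ‖q‖ ^ 2 / 2 - (⟪q, y⟫_ℝ - t * ‖q‖ ^ 2) +
        ‖y - t • q‖ ^ 2 / (2 * (s - t)) := by
      have e3 : s • q - y = (s - t) • q - (y - t • q) := by rw [sub_smul]; abel
      rw [e3, norm_sub_sq_real, norm_smul, Real.norm_eq_abs, mul_pow, sq_abs, inner_smul_left,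
        inner_sub_right, inner_smul_right, real_inner_self_eq_norm_sq]
      simp only [conj_trivial]
      field_simp
    linarith
  choose! q hq using h1
  obtain ⟨K, hK⟩ := hv.2 0 (1 / 2) (by norm_num)
  have hb : ∀ n : ℕ, q ((n : ℝ) + 1) ∈ closedBall (0 : E) (√(4 * 1 * K)) := fun n => by
    rw [mem_closedBall_zero_iff]
    refine Real.le_sqrt_of_sq_le (norm_sq_le_of_inner_le one_pos fun y => ?_)
    have hn : (0 : ℝ) < n + 1 := by positivity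
    have h2 := hq _ hn y 0 le_rfl hn
    have h3 := (le_abs_self _).trans (hK (y, 0) (by simp))
    simp only [mul_zero, add_zero, zero_smul, sub_zero] at h2 h3
    have h4 : ‖y‖ ^ 2 / (2 * ((n : ℝ) + 1)) ≤ ‖y‖ ^ 2 / 2 :=
      div_le_div_of_nonneg_left (by positivity) (by norm_num) (by linarith [n.cast_nonneg (α := ℝ)])
    linarith
  obtain ⟨q₀, -, φ, hφ, hlim⟩ := (isCompact_closedBall (0 : E) _).tendsto_subseq hb
  refine ⟨q₀, fun y t ht => ?_⟩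
  have hs : Tendsto (fun n => (φ n : ℝ) + 1) atTop atTop :=
    tendsto_atTop_add_const_right _ _ (tendsto_natCast_atTop_atTop.comp hφ.tendsto_atTop)
  have hc1 : Continuous fun p : E => ⟪p, y⟫_ℝ + (L - ‖p‖ ^ 2 / 2) * t := by fun_prop
  have hc2 : Continuous fun p : E => ‖y - t • p‖ ^ 2 := by fun_prop
  have h2 := ((hc1.tendsto q₀).comp hlim).sub (((hc2.tendsto q₀).comp hlim).div_atTop
    ((tendsto_atTop_add_const_right _ (-t) hs).const_mul_atTop (by norm_num : (0 : ℝ) < 2)))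
  rw [sub_zero] at h2
  refine le_of_tendsto h2 ?_
  filter_upwards [hs.eventually_gt_atTop t] with n hn
  exact hq _ (by positivity) y t ht hn

theorem rigid_eq {v : E × ℝ → ℝ} (hv : Ent v) {L : ℝ} (h : ∀ s : ℝ, 0 < s → Tp s v 0 = L * s)
    {q : E} (h0 : ∀ y, v (y, 0) ≤ ⟪q, y⟫_ℝ)
    (hq : ∀ (y : E) (t : ℝ), 0 ≤ t → ⟪q, y⟫_ℝ + (L - ‖q‖ ^ 2 / 2) * t ≤ v (y, t)) (y : E) (t : ℝ)
    (ht : 0 ≤ t) : v (y, t) = ⟪q, y⟫_ℝ + (L - ‖q‖ ^ 2 / 2) * t := by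
  refine le_antisymm ?_ (hq y t ht)
  rcases ht.eq_or_lt with rfl | ht
  · simpa using h0 y
  have h1 := rigid_up hv h (y - t • q) y le_rfl ht
  have h2 := h0 (y - t • q)
  rw [inner_sub_right, inner_smul_right, real_inner_self_eq_norm_sq] at h2
  rw [sub_sub_cancel, sub_zero, norm_smul, Real.norm_eq_abs, mul_pow, sq_abs] at h1
  have e : t ^ 2 * ‖q‖ ^ 2 / (2 * t) = t * ‖q‖ ^ 2 / 2 := by field_simp
  linarith

/-- step (3). -/
theorem rigid_kink {v : E × ℝ → ℝ} (hv : Ent v) {q : E} {r₁ r₂ : ℝ}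
    (h1 : ∀ (y : E) (t : ℝ), 0 ≤ t → v (y, t) = ⟪q, y⟫_ℝ + r₁ * t)
    (h2 : ∀ (y : E) (t : ℝ), t ≤ 0 → v (y, t) = ⟪q, y⟫_ℝ + r₂ * t) : r₂ ≤ r₁ := by
  have h3 := hv.second_Tp (δ := 1) (τ := 1 / 2) (by norm_num) (by norm_num) (0, -1)
  have h4 := hv.2.le_Tp one_pos (0, -1) q
  simp only [zero_add, neg_add_cancel] at h4
  rw [h1 q 0 le_rfl, real_inner_self_eq_norm_sq] at h4
  have h5 : Tp (1 + 1 / 2) v (0, -1) ≤ 3 / 4 * ‖q‖ ^ 2 + r₁ / 2 := by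
    refine Tp_le fun η => ?_
    simp only [zero_add]
    rw [h1 η _ (by norm_num)]
    nlinarith [real_inner_le_norm q η, sq_nonneg (3 / 2 * ‖q‖ - ‖η‖)]
  have h6 : Tp (1 - 1 / 2) v (0, -1) ≤ 1 / 4 * ‖q‖ ^ 2 - r₂ / 2 := by
    refine Tp_le fun η => ?_
    simp only [zero_add]
    rw [h2 η _ (by norm_num)]
    nlinarith [real_inner_le_norm q η, sq_nonneg (1 / 2 * ‖q‖ - ‖η‖)]
  linarith

theorem rigid_zero {v : E × ℝ → ℝ} (hv : Ent v) (h0 : v 0 = 0) {L₁ L₂ : ℝ}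
    (h1 : ∀ s : ℝ, 0 < s → Sp s v 0 = L₁) (h2 : ∀ s : ℝ, 0 < s → Sm s v 0 = L₂) : Affine v := by
  have h1' : ∀ s : ℝ, 0 < s → Tp s v 0 = L₁ * s := fun s hs => by
    have := h1 s hs
    rwa [Sp, h0, sub_zero, div_eq_iff hs.ne'] at this
  have h2' : ∀ s : ℝ, 0 < s → Tp s (rev v) 0 = L₂ * s := fun s hs => by
    have := h2 s hs
    rwa [Sm_eq_rev, neg_zero, Sp, rev_apply, neg_zero, h0, neg_zero, sub_zero,
      div_eq_iff hs.ne'] at this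
  obtain ⟨q, hq⟩ := rigid_low hv h1'
  obtain ⟨q', hq'⟩ := rigid_low hv.rev h2'
  have a1 : ∀ y, v (y, 0) ≤ ⟪q', y⟫_ℝ := fun y => by
    have := hq' (-y) 0 le_rfl
    simp only [rev_apply, Prod.neg_mk, neg_neg, neg_zero, inner_neg_right, mul_zero, add_zero] at this
    linarith
  have a2 : ∀ y, rev v (y, 0) ≤ ⟪q, y⟫_ℝ := fun y => by
    have := hq (-y) 0 le_rfl
    simp only [rev_apply, Prod.neg_mk, neg_zero, inner_neg_right, mul_zero, add_zero] at this ⊢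
    linarith
  obtain rfl : q = q' := by
    have h3 := hq (q - q') 0 le_rfl
    have h4 := a1 (q - q')
    have h5 : ⟪q - q', q - q'⟫_ℝ ≤ 0 := by rw [inner_sub_left]; linarith
    exact sub_eq_zero.1 (real_inner_self_nonpos.1 h5)
  have b1 := rigid_eq hv h1' a1 hq
  have b2 := rigid_eq hv.rev h2' a2 hq'
  have c1 : ∀ (y : E) (t : ℝ), t ≤ 0 → v (y, t) = ⟪q, y⟫_ℝ + (L₂ - ‖q‖ ^ 2 / 2) * t :=
    fun y t ht => by
      have := b2 (-y) (-t) (by linarith)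
      simp only [rev_apply, Prod.neg_mk, neg_neg, inner_neg_right] at this
      linarith
  have c2 : ∀ (y : E) (t : ℝ), t ≤ 0 → rev v (y, t) = ⟪q, y⟫_ℝ + (L₁ - ‖q‖ ^ 2 / 2) * t :=
    fun y t ht => by
      have := b1 (-y) (-t) (by linarith)
      simp only [rev_apply, Prod.neg_mk, inner_neg_right] at this ⊢
      linarith
  have e := le_antisymm (rigid_kink hv b1 c1) (rigid_kink hv.rev b2 c2)
  refine ⟨q, L₁ - ‖q‖ ^ 2 / 2, 0, fun X => ?_⟩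
  rw [zero_add]
  rcases le_total 0 X.2 with h | h
  · exact b1 X.1 X.2 h
  · rw [← e]; exact c1 X.1 X.2 h

/-- Wlog (translate with `sym X₀ 0 0 1 1`, `Sp_sym`) `X₀ = 0`, `v 0 = 0`.
(1) For `X = (x,t)`, `t > 0`, `S > 0`: `v (y, t+S) ≤ L₁ (t+S) + ‖y‖²/(2(t+S))` and
`‖y‖²/(2(t+S)) ≤ ‖y - x‖²/(2S) + ‖x‖²/(2t)`, so `Sp S v X ≤ L₁ + (L₁ t + ‖x‖²/(2t) - v X)/S`; by
`Sp_mono` and `S → ∞`, `Sp σ v X ≤ L₁` for all `σ`. Thus
`v (y',t') ≤ v (y,t) + L₁ (t'-t) + ‖y'-y‖²/(2(t'-t))` for `0 < t < t'`, and by continuity for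
`0 ≤ t < t'`. Mirror image (`rev`): same inequality with `L₂` for `t < t' ≤ 0`.
(2) Let `s • q_s` be the maximiser of `Tp s v 0`. By (1), for `0 ≤ t < s`:
`v (t • q_s + η, t) ≥ L₁ t + t‖q_s‖²/2 + ⟪q_s, η⟫ - ‖η‖²/(2(s-t))`. At `t = 0` this bounds `q_s`
(`s ≥ 1`; test `η = unit q_s`, `v` bounded on the unit ball); a limit point `q` as `s → ∞` gives
`v (y,0) ≥ ⟪q,y⟫` and `v (y,t) ≥ ⟪q,y⟫ + (L₁ - ‖q‖²/2) t` for `t ≥ 0`. Mirror: `v (y,t) ≤ ⟪q',y⟫ +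
(L₂ - ‖q'‖²/2) t` for `t ≤ 0`. So `q = q'`, `v (y,0) = ⟪q,y⟫`. (1) from `(y - t • q, 0)` to `(y,t)`
gives equality for `t ≥ 0`; similarly for `t ≤ 0`. (3) `second_Tp` at `(0,-1)` with `δ = 1` gives
`L₂ ≤ L₁`, `second_Tm` at `(0,1)` gives `L₁ ≤ L₂` (compute `Tp s v (0,-1)` explicitly). -/
theorem rigid {v : E × ℝ → ℝ} (hv : Ent v) (X₀ : E × ℝ) {L₁ L₂ : ℝ}
    (h1 : ∀ s : ℝ, 0 < s → Sp s v X₀ = L₁) (h2 : ∀ s : ℝ, 0 < s → Sm s v X₀ = L₂) : Affine v := by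
  obtain ⟨q, r, k, hk⟩ := rigid_zero (hv.sym (X₀ := X₀) (b := 0) (h := 0) one_pos one_pos)
    (sym_zero _ _ _ _ _ _) (L₁ := L₁) (L₂ := L₂)
    (fun s hs => by rw [hv.2.Sp_sym one_pos one_pos hs, pt_zero, one_mul, h1 s hs]; simp)
    (fun s hs => by rw [hv.2.Sm_sym one_pos one_pos hs, pt_zero, one_mul, h2 s hs]; simp)
  refine ⟨q, r, k + v X₀ - ⟪q, X₀.1⟫_ℝ - r * X₀.2, fun X => ?_⟩
  have := hk (X - X₀)
  simp [sym, pt, inner_sub_right] at this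
  linarith

end R94
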