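import Crest.Agent.R94.NS1
import Crest.Agent.R94.HE
import Crest.Agent.R94.Rigid

/-!
# R94/CE0: a non-singular point is asymptotically flat
-/

set_option autoImplicit false
set_option linter.unusedSectionVars false
set_option linter.unusedVariables false

open Set Filter Topology Metric
open scoped InnerProductSpace

namespace R94

variable {E : Type} [NormedAddCommGroup E] [InnerProductSpace ℝ E] [FiniteDimensional ℝ E]

variable {w : E × ℝ → ℝ} {K Λ : ℝ}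

theorem ce0_small (Λ : ℝ) : ∃ s₀ : ℝ, 0 < s₀ ∧ ∀ s : ℝ, 0 < s → s ≤ s₀ → s < 1 ∧ 2 * Λ * s < 1 := by
  have h0 := abs_nonneg Λ
  refine ⟨1 / (2 * |Λ| + 2), by positivity, fun s hs h => ?_⟩
  rw [le_div_iff₀ (by positivity)] at h
  have := le_abs_self Λ
  constructor <;> nlinarith

theorem ce0_bddAbove (hw : Slab K Λ w) {s : ℝ} (hs : 0 < s) (h1 : s < 1) (h2 : 2 * Λ * s < 1) :
    BddAbove (range fun η : E =>
      w ((0 : E × ℝ).1 + η, (0 : E × ℝ).2 + s) - ‖η‖ ^ 2 / (2 * s)) :=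
  bddAbove_Tp hs h2 fun y => (le_abs_self _).trans
    (hw.2.2.2 _ (by simpa [abs_of_pos hs] using h1))

theorem ce0_bddBelow (hw : Slab K Λ w) {s : ℝ} (hs : 0 < s) (h1 : s < 1) (h2 : 2 * Λ * s < 1) :
    BddBelow (range fun η : E =>
      w ((0 : E × ℝ).1 + η, (0 : E × ℝ).2 - s) + ‖η‖ ^ 2 / (2 * s)) :=
  bddBelow_Tm hs h2 fun y =>
    (abs_le.1 (hw.2.2.2 (y, (0 : E × ℝ).2 - s) (by simpa [abs_of_pos hs] using h1))).1

theorem ce0_mono (hw : Slab K Λ w) {σ s : ℝ} (hσ : 0 < σ) (hσs : σ ≤ s) (h1 : s < 1)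
    (h2 : 2 * Λ * s < 1) : Sp σ w 0 ≤ Sp s w 0 := by
  have hs : 0 < s := hσ.trans_le hσs
  have h0 : w (0, 0) = 0 := hw.2.2.1
  have hI : ∀ X : E × ℝ, X.2 ∈ Icc 0 (0 + s) → |X.2| < 1 := fun X hX =>
    abs_lt.2 ⟨by linarith [hX.1], by linarith [hX.2]⟩
  have key := cc_vertex hw.1.1 (y₀ := 0) (t₀ := 0) (k := Sp s w 0) hs hI
    (fun X hX => (le_abs_self _).trans (hw.2.2.2 X (hI X hX))) h2 (fun y => by
      have := le_ciSup (ce0_bddAbove hw hs h1 h2) y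
      rw [h0, Sp, div_mul_cancel₀ _ hs.ne', hw.2.2.1, Tp, sub_zero y]
      simp only [Prod.fst_zero, Prod.snd_zero, zero_add] at this ⊢
      linarith) σ hσ hσs
  conv_lhs => rw [Sp]
  rw [div_le_iff₀ hσ, hw.2.2.1, sub_zero]
  refine Tp_le fun η => ?_
  have := key η
  simp only [Prod.fst_zero, Prod.snd_zero, zero_add, h0, sub_zero] at this ⊢
  linarith

/-- For small `s' ≤ s₀` (`s₀ < 1`, `2Λs₀ < 1`) the family defining `Tp s' w 0` is bounded above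
(`bddAbove_Tp`); `cc_vertex` with `k = Sp s' w 0` gives monotonicity; `NSp` bounds it below; so it
converges as `s → 0⁺` to its infimum. -/
theorem exists_lim_Sp (hw : Slab K Λ w) (hp : NSp w) :
    ∃ L : ℝ, Tendsto (fun s => Sp s w 0) (𝓝[>] 0) (𝓝 L) := by
  obtain ⟨s₀, h0, hs₀⟩ := ce0_small Λ
  obtain ⟨C, s₁, h1, hs₁⟩ := hp
  have hm : 0 < min s₀ s₁ := lt_min h0 h1
  refine ⟨_, MonotoneOn.tendsto_nhdsWithin_Ioo_right (y := min s₀ s₁) (nonempty_Ioo.2 hm)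
    (fun σ hσ s hs h => ?_) ⟨-C, ?_⟩⟩
  · have := hs₀ s hs.1 (hs.2.le.trans (min_le_left _ _))
    exact ce0_mono hw hσ.1 h this.1 this.2
  · rintro _ ⟨s, hs, rfl⟩
    have h2 := hs₀ s hs.1 (hs.2.le.trans (min_le_left _ _))
    obtain ⟨y, hy⟩ := hs₁ s hs.1 (hs.2.le.trans (min_le_right _ _))
    have := le_ciSup (ce0_bddAbove hw hs.1 h2.1 h2.2) y
    simp only [Sp, Tp, hw.2.2.1]
    rw [le_div_iff₀ hs.1]
    simp only [Prod.fst_zero, Prod.snd_zero, zero_add] at this ⊢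
    linarith

theorem exists_lim_Sm (hw : Slab K Λ w) (hp : NSm w) :
    ∃ L : ℝ, Tendsto (fun s => Sm s w 0) (𝓝[>] 0) (𝓝 L) := by
  simpa only [Sm_eq_rev, neg_zero] using exists_lim_Sp hw.rev (nsm_iff_rev.1 hp)

theorem ce0_fl_iff {b : E} {θ ρ lam : ℝ} (hθ : 0 < θ) (hρ : 0 < ρ) :
    Fl univ (sym 0 b 0 θ θ w) 0 ρ lam ↔ Fl univ w 0 (θ * ρ) lam := by
  have := fl_sym_iff (w := w) (X₀ := 0) (b := b) (h := 0) (O := univ) (X := 0) (lam := lam) hθ hθ hρ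
  rwa [preimage_univ, pt_zero, div_self hθ.ne', one_pow, one_mul] at this

theorem ce0_cfw {b : E} {θ lam : ℝ} (hθ : 0 < θ) (H : CFw univ w 0 θ lam b 0) :
    CFw univ (sym 0 b 0 θ θ w) 0 1 lam 0 0 := by
  have := cfw_sym_iff (w := w) (X₀ := 0) (b := b) (h := 0) (O := univ) (X := 0) (lam := lam)
    (b' := 0) (h' := 0) hθ hθ one_pos
  rw [preimage_univ, pt_zero, div_self hθ.ne', one_pow, one_mul, mul_one, smul_zero, add_zero,
    mul_zero, add_zero] at this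
  exact this.2 H

theorem ce0_growth {C T : ℝ} (hC : 0 < C) (hT : 1 ≤ T) (h0 : w 0 = 0)
    (H1 : CFw univ w 0 1 C 0 0) (H2 : Fl univ w 0 T C) (X : E × ℝ) (hX : |X.2| ≤ T) :
    |w X| ≤ (C + 51 * (C * T + C)) * T + 3 / T * ‖X.1‖ ^ 2 := by
  obtain ⟨b, h, H2⟩ := H2
  obtain ⟨a1, a2⟩ := CFw.compare_univ (D := C * T + C) H2 H1 one_pos hT le_rfl (by positivity)
    (by linarith)
  have := H2.growth (by linarith) (mem_univ X) (by simpa using hX)
  rw [h0, sub_zero, Prod.fst_zero, sub_zero, mul_div_right_comm] at this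
  rw [sub_zero, div_one] at a1 a2
  refine this.trans (add_le_add (mul_le_mul_of_nonneg_right (by linarith) (by linarith)) le_rfl)

/-- Otherwise there are `θₖ ≤ 1/(k+1)` with `¬ Fl univ w 0 θₖ ε`. `cf_of_ns` gives frames `bₖ`;
`Wₖ = sym 0 bₖ 0 θₖ θₖ w` solves on `|σ| < 1/θₖ`, is `AP` there, `CFw univ Wₖ 0 1 C 0 0`, and
`Fl univ Wₖ 0 T C` once `Tθₖ ≤ ρ₀`. For `T ≥ 1` the frame at scale `T` is bounded
(`compare_univ`), so `CFw.growth` gives `|Wₖ| ≤ K_T + 3‖y‖²/T` on `|σ| ≤ T` eventually. `comp2`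
(`O = univ`) gives `v`, `Ent v`. `Tp_sym`: `Tp s Wₖ 0 = s · Sp (θₖ s) w 0 → s L₁`; `tendsto_Tp` gives
`Sp s v 0 = L₁`, same for `Sm`; `rigid`, `Affine.cfw`, `persist` (`T = 4`), `fl_sym_iff`. -/
theorem ce0 (hw : Slab K Λ w) (hp : NSp w) (hm : NSm w) {ε : ℝ} (hε : 0 < ε) :
    ∃ θ₀ : ℝ, 0 < θ₀ ∧ ∀ θ : ℝ, 0 < θ → θ ≤ θ₀ → Fl univ w 0 θ ε := by
  by_contra hcon
  push Not at hcon
  obtain ⟨C, ρ₀, hC, hρ₀, hcf⟩ := cf_of_ns hw hp hm
  obtain ⟨L₁, hL₁⟩ := exists_lim_Sp hw hp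
  obtain ⟨L₂, hL₂⟩ := exists_lim_Sm hw hm
  obtain ⟨s₀, hs₀, hsm⟩ := ce0_small Λ
  choose θ θ0 θ1 θ2 using fun k : ℕ => hcon (min ρ₀ (1 / ((k : ℝ) + 1))) (by positivity)
  choose b hb using fun k => hcf (θ k) (θ0 k) ((θ1 k).trans (min_le_left _ _))
  let U : Ultrafilter ℕ := hyperfilter ℕ
  have hU : (U : Filter ℕ) ≤ atTop := Nat.hyperfilter_le_atTop
  have θt : Tendsto θ U (𝓝 0) := (squeeze_zero (fun k => (θ0 k).le)
    (fun k => (θ1 k).trans (min_le_right _ _)) tendsto_one_div_add_atTop_nhds_zero_nat).mono_left hU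
  have θs : ∀ s : ℝ, Tendsto (fun k => θ k * s) U (𝓝 0) := fun s => by
    simpa using θt.mul_const s
  have θs' : ∀ s : ℝ, 0 < s → Tendsto (fun k => θ k * s) U (𝓝[>] 0) := fun s hs =>
    tendsto_nhdsWithin_iff.2 ⟨θs s, Eventually.of_forall fun k => mul_pos (θ0 k) hs⟩
  set W : ℕ → E × ℝ → ℝ := fun k => sym 0 (b k) 0 (θ k) (θ k) w with hW
  have W0 : ∀ k, W k 0 = 0 := fun k => sym_zero _ _ _ _ _ _
  have hg : ∀ T : ℝ, 1 ≤ T → ∃ K' : ℝ, ∀ᶠ k in (U : Filter ℕ), ∀ X : E × ℝ, |X.2| ≤ T →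
      |W k X| ≤ K' + 3 / T * ‖X.1‖ ^ 2 := fun T hT => by
    refine ⟨_, ((θs T).eventually (eventually_le_nhds hρ₀)).mono fun k hk X hX =>
      ce0_growth hC hT (W0 k) (ce0_cfw (θ0 k) (hb k)) ?_ X hX⟩
    obtain ⟨b', hb'⟩ := hcf _ (mul_pos (θ0 k) (by linarith)) hk
    exact (ce0_fl_iff (θ0 k) (by linarith)).2 ⟨b', 0, hb'⟩
  obtain ⟨v, v1, -, v2⟩ := comp2 U W univ fun X _ => by
    have hT : 1 ≤ |X.2| + 1 := by linarith [abs_nonneg X.2]
    obtain ⟨K', hK'⟩ := hg _ hT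
    refine ⟨1, K' + 3 / (|X.2| + 1) * (‖X.1‖ + 1) ^ 2, one_pos, subset_univ _, ?_⟩
    filter_upwards [hK', (θs (|X.2| + 1)).eventually (eventually_lt_nhds one_pos)] with k h1 h2
    have hY : ∀ Y ∈ ball X 1, ‖Y.1‖ ≤ ‖X.1‖ + 1 ∧ |Y.2| ≤ |X.2| + 1 := fun Y hY => by
      rw [mem_ball_iff_norm] at hY
      have a1 := (norm_fst_le (Y - X)).trans hY.le
      have a2 := (norm_snd_le (Y - X)).trans hY.le
      exact ⟨(norm_le_insert' Y.1 X.1).trans (add_le_add le_rfl a1),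
        (norm_le_insert' Y.2 X.2).trans (add_le_add le_rfl a2)⟩
    have hsub : ball X 1 ⊆ pt 0 (b k) (θ k) (θ k) ⁻¹' slab E 1 := fun Y hY' => by
      simp only [mem_preimage, mem_slab, pt, Prod.snd_zero, zero_add, abs_mul, abs_of_pos (θ0 k)]
      exact (mul_le_mul_of_nonneg_left (hY Y hY').2 (θ0 k).le).trans_lt h2
    refine ⟨(hw.1.sym (θ0 k) (θ0 k)).mono hsub, (hw.2.1.sym (θ0 k) (θ0 k)).mono hsub,
      fun Y hY' => (h1 Y (hY Y hY').2).trans ?_⟩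
    gcongr
    exact (hY Y hY').1
  have v3 : ∀ X, Tendsto (fun k => W k X) U (𝓝 (v X)) := fun X => v2.tendsto_at (mem_univ X)
  have v0 : v 0 = 0 := tendsto_nhds_unique (v3 0) (by simpa only [W0] using tendsto_const_nhds)
  have vE : Ent v := ⟨v1, fun T δ hδ => by
    obtain ⟨K', hK'⟩ := hg (max 1 (max T (3 / δ))) (le_max_left _ _)
    refine ⟨K', fun X hX => le_of_tendsto (v3 X).abs (hK'.mono fun k hk =>
      (hk X (hX.trans ((le_max_left _ _).trans (le_max_right _ _)))).trans ?_)⟩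
    gcongr
    rw [div_le_iff₀ (by positivity), mul_comm, ← div_le_iff₀ hδ]
    exact (le_max_right _ _).trans (le_max_right _ _)⟩
  have v4 : TendstoLocallyUniformly W v U := tendstoLocallyUniformlyOn_univ.1 v2
  have hfl : ∀ s : ℝ, 0 < s → ∃ K' Λ' : ℝ, 2 * Λ' * s < 1 ∧ ∀ᶠ k in (U : Filter ℕ),
      ∀ Y : E × ℝ, |Y.2| ≤ |(0 : E × ℝ).2| + s + 1 → |W k Y| ≤ K' + Λ' * ‖Y.1‖ ^ 2 := fun s hs => by
    obtain ⟨K', hK'⟩ := hg (6 * s + 1) (by linarith)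
    refine ⟨K', 3 / (6 * s + 1), ?_, hK'.mono fun k hk Y hY => hk Y (hY.trans ?_)⟩
    · rw [← mul_div_assoc, ← mul_div_right_comm, div_lt_one (by positivity)]
      linarith
    · simp only [Prod.snd_zero, abs_zero]
      linarith
  have hsm' : ∀ s : ℝ, 0 < s → ∀ᶠ k in (U : Filter ℕ), θ k * s < 1 ∧ 2 * Λ * (θ k * s) < 1 :=
    fun s hs => ((θs s).eventually (eventually_le_nhds hs₀)).mono fun k hk =>
      hsm _ (mul_pos (θ0 k) hs) hk
  have hA : Affine v := by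
    refine rigid vE 0 (L₁ := L₁) (L₂ := L₂) (fun s hs => ?_) fun s hs => ?_
    · obtain ⟨K', Λ', a1, a2⟩ := hfl s hs
      have a3 := tendsto_Tp hs a1 v4 vE.csq.1 (tendsto_const_nhds (x := (0 : E × ℝ))) a2
      have a4 : Tendsto (fun k => Tp s (W k) 0) U (𝓝 (L₁ * s)) := by
        refine ((hL₁.comp (θs' s hs)).mul_const s).congr' ((hsm' s hs).mono fun k hk => ?_)
        have := θ0 k
        simp only [hW, Function.comp_apply]
        rw [Tp_sym this this hs (by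
          simpa only [pt_zero] using ce0_bddAbove hw (mul_pos this hs) hk.1 hk.2), pt_zero, sym_zero,
          Sp]
        field_simp
        ring
      rw [Sp, tendsto_nhds_unique a3 a4, v0, sub_zero, mul_div_cancel_right₀ _ hs.ne']
    · obtain ⟨K', Λ', a1, a2⟩ := hfl s hs
      have a3 := tendsto_Tm hs a1 v4 vE.csq.1 (tendsto_const_nhds (x := (0 : E × ℝ))) a2
      have a4 : Tendsto (fun k => Tm s (W k) 0) U (𝓝 (-(L₂ * s))) := by
        refine ((hL₂.comp (θs' s hs)).mul_const s).neg.congr' ((hsm' s hs).mono fun k hk => ?_)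
        have := θ0 k
        simp only [hW, Function.comp_apply]
        rw [Tm_sym this this hs (by
          simpa only [pt_zero] using ce0_bddBelow hw (mul_pos this hs) hk.1 hk.2), pt_zero, sym_zero,
          Sm]
        field_simp
        ring
      rw [Sm, tendsto_nhds_unique a3 a4, v0, zero_sub, neg_neg, mul_div_cancel_right₀ _ hs.ne']
  obtain ⟨q, r, hq⟩ := hA.cfw
  obtain ⟨K', hK'⟩ := hg 4 (by norm_num)
  obtain ⟨k, hk⟩ := (persist (On := fun _ => univ) (K := K') (Λ := 3 / 4) one_pos hε (by norm_num)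
    isOpen_univ (fun X _ => mem_univ X) v2
    (hK'.mono fun k hk X _ hX => hk X (hX.trans (by norm_num))) W0 v0 (hq 0 1 one_pos)).exists
  have := (ce0_fl_iff (θ0 k) one_pos).1 ⟨q, r, hk⟩
  rw [mul_one, zero_add] at this
  exact θ2 k this

end R94
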