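import Crest.Agent.R94.CF0

/-!
# R94/CF: algebra of cone-flatness (no PDE; only inner-product inequalities)
-/

set_option autoImplicit false
set_option linter.unusedSectionVars false
set_option linter.unusedVariables false

open Set Filter Topology Metric
open scoped InnerProductSpace

namespace R94

variable {E : Type} [NormedAddCommGroup E] [InnerProductSpace ℝ E] [FiniteDimensional ℝ E]

variable {w : E × ℝ → ℝ} {X X₀ : E × ℝ} {O O' : Set (E × ℝ)} {b b' : E}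
  {ρ ρ' lam lam' h h' a τ : ℝ}

theorem cf_pt (hτ : 0 < τ) (η : E) (σ : ℝ) :
    pt X₀ b a τ (X.1 + η + σ • b', X.2 + σ) =
      ((pt X₀ b a τ X).1 + a • η + (τ * σ) • (b + (a / τ) • b'), (pt X₀ b a τ X).2 + τ * σ) := by
  have : a • σ • b' = (τ * σ) • (a / τ) • b' := by
    rw [smul_smul, smul_smul]; congr 1; field_simp
  simp only [pt, smul_add, this, mul_add, add_smul]
  congr 1 <;> abel

theorem cf_key (ha : 0 < a) (hτ : 0 < τ) (hρ : 0 < ρ) (η : E) (σ : ℝ) :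
    |sym X₀ b h a τ w (X.1 + η + σ • b', X.2 + σ) - sym X₀ b h a τ w X - ⟪b', η⟫_ℝ -
        (h' + ‖b'‖ ^ 2 / 2) * σ| ≤ lam * ρ + ‖η‖ ^ 2 / ρ ↔
      |w ((pt X₀ b a τ X).1 + a • η + (τ * σ) • (b + (a / τ) • b'), (pt X₀ b a τ X).2 + τ * σ) -
        w (pt X₀ b a τ X) - ⟪b + (a / τ) • b', a • η⟫_ℝ -
        (h + (a / τ) ^ 2 * h' + ‖b + (a / τ) • b'‖ ^ 2 / 2) * (τ * σ)| ≤
        (a / τ) ^ 2 * lam * (τ * ρ) + ‖a • η‖ ^ 2 / (τ * ρ) := by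
  have hc : 0 < a ^ 2 / τ := by positivity
  rw [← mul_le_mul_iff_left₀ hc, ← abs_of_pos hc, ← abs_mul, abs_of_pos hc]
  refine iff_of_eq (congrArg₂ (· ≤ ·) (congrArg _ ?_) ?_)
  · simp only [sym, cf_pt hτ, norm_add_sq_real, inner_add_left, inner_add_right,
      real_inner_smul_left, real_inner_smul_right, norm_smul, mul_pow, Real.norm_eq_abs, sq_abs]
    field_simp
    ring
  · rw [norm_smul, mul_pow, Real.norm_eq_abs, sq_abs]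
    field_simp

/-- Covariance. With `v = a/τ`: `pt (X.1 + η + σ • b', X.2 + σ) =
((pt X).1 + a • η + (τσ) • (b + v • b'), (pt X).2 + τσ)`; multiply the inequality by `a²/τ`. -/
theorem cfw_sym_iff (ha : 0 < a) (hτ : 0 < τ) (hρ : 0 < ρ) :
    CFw (pt X₀ b a τ ⁻¹' O) (sym X₀ b h a τ w) X ρ lam b' h' ↔
      CFw O w (pt X₀ b a τ X) (τ * ρ) ((a / τ) ^ 2 * lam) (b + (a / τ) • b')
        (h + (a / τ) ^ 2 * h') := by
  have e : ∀ σ : ℝ, |τ * σ| ≤ τ * ρ ↔ |σ| ≤ ρ := fun σ => by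
    rw [abs_mul, abs_of_pos hτ, mul_le_mul_iff_right₀ hτ]
  refine ⟨fun H η σ h1 h2 => ?_, fun H η σ h1 h2 => (cf_key ha hτ hρ η σ).2
    (H _ _ ((e σ).2 h1) (by rwa [mem_preimage, cf_pt hτ] at h2))⟩
  obtain ⟨η, rfl⟩ : ∃ η', η = a • η' := ⟨a⁻¹ • η, (smul_inv_smul₀ ha.ne' η).symm⟩
  obtain ⟨σ, rfl⟩ : ∃ σ', σ = τ * σ' := ⟨τ⁻¹ * σ, (mul_inv_cancel_left₀ hτ.ne' σ).symm⟩
  exact (cf_key ha hτ hρ η σ).1 (H η σ ((e σ).1 h1) (by rwa [mem_preimage, cf_pt hτ]))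

theorem fl_sym_iff (ha : 0 < a) (hτ : 0 < τ) (hρ : 0 < ρ) :
    Fl (pt X₀ b a τ ⁻¹' O) (sym X₀ b h a τ w) X ρ lam ↔
      Fl O w (pt X₀ b a τ X) (τ * ρ) ((a / τ) ^ 2 * lam) := by
  refine ⟨fun ⟨b', h', H⟩ => ⟨_, _, (cfw_sym_iff ha hτ hρ).1 H⟩, fun ⟨B, k, H⟩ =>
    ⟨(a / τ)⁻¹ • (B - b), (k - h) / (a / τ) ^ 2, (cfw_sym_iff ha hτ hρ).2 ?_⟩⟩
  have hv : a / τ ≠ 0 := by positivity
  rwa [smul_inv_smul₀ hv, add_sub_cancel, mul_div_cancel₀ _ (pow_ne_zero 2 hv), add_sub_cancel]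

/-- the case used most often: the frame at `X₀` normalises the function. -/
theorem CFw.sym_self {v : ℝ} (H : CFw univ w X₀ ρ (v ^ 2 * lam) b h) (hρ : 0 < ρ) (hv : 0 < v)
    (h' : ℝ) : CFw univ (sym X₀ b h' (v * ρ) ρ w) 0 1 lam 0 ((h - h') / v ^ 2) := by
  refine (cfw_sym_iff (O := univ) (mul_pos hv hρ) hρ one_pos).2 ?_
  rwa [pt_zero, mul_one, mul_div_cancel_right₀ _ hρ.ne', smul_zero, add_zero,
    mul_div_cancel₀ _ (pow_ne_zero 2 hv.ne'), add_sub_cancel]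

theorem CFw.rev (H : CFw O w X ρ lam b h) : CFw {Y | -Y ∈ O} (rev w) (-X) ρ lam b h := by
  intro η σ h1 h2
  have e : -((-X).1 + η + σ • b, (-X).2 + σ) = (X.1 + -η + -σ • b, X.2 + -σ) := by
    ext
    · simp only [Prod.fst_neg, neg_smul]; abel
    · simp only [Prod.snd_neg]; ring
  have := H (-η) (-σ) (by rwa [abs_neg]) (by rw [← e]; exact h2)
  rw [norm_neg, inner_neg_right, ← abs_neg] at this
  rw [rev_apply, rev_apply, e, neg_neg]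
  convert this using 2
  ring

theorem CFw.add_time (H : CFw O w X ρ lam b h) (l : ℝ) :
    CFw O (fun Y => w Y + l * Y.2) X ρ lam b (h + l) := by
  intro η σ h1 h2
  convert H η σ h1 h2 using 2
  ring

/-- test `σ = 0`, `η = √ρ • unit b`. -/
theorem CFw.norm_b_le {M : ℝ} (H : CFw O w X ρ lam b h) (hρ : 0 < ρ)
    (hO : ∀ η : E, ‖η‖ ≤ √ρ → (X.1 + η, X.2) ∈ O ∧ |w (X.1 + η, X.2) - w X| ≤ M) :
    ‖b‖ * √ρ ≤ M + lam * ρ + 1 := by
  have hs := Real.sqrt_nonneg ρ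
  have h1 : ‖(√ρ / ‖b‖) • b‖ ≤ √ρ := by
    rw [norm_smul, Real.norm_of_nonneg (by positivity)]
    rcases eq_or_ne ‖b‖ 0 with h | h
    · simp [h]
    · rw [div_mul_cancel₀ _ h]
  obtain ⟨h2, h3⟩ := hO _ h1
  have h4 := H ((√ρ / ‖b‖) • b) 0 (by simpa using hρ.le) (by simpa using h2)
  have h5 : ⟪b, (√ρ / ‖b‖) • b⟫_ℝ = ‖b‖ * √ρ := by
    rw [real_inner_smul_right, real_inner_self_eq_norm_sq]
    rcases eq_or_ne ‖b‖ 0 with h | h
    · simp [h]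
    · field_simp
  have h6 : ‖(√ρ / ‖b‖) • b‖ ^ 2 / ρ ≤ 1 := by
    rw [div_le_one hρ]
    exact (pow_le_pow_left₀ (norm_nonneg _) h1 2).trans_eq (Real.sq_sqrt hρ.le)
  simp only [zero_smul, add_zero, mul_zero, sub_zero, h5] at h4
  linarith [(abs_le.1 h4).1, (abs_le.1 h3).2]

theorem CFw.abs_h_le {M : ℝ} (H : CFw O w X ρ lam b h) (hρ : 0 < ρ)
    (hO : (X.1 + ρ • b, X.2 + ρ) ∈ O) (hM : |w (X.1 + ρ • b, X.2 + ρ) - w X| ≤ M) :
    |h + ‖b‖ ^ 2 / 2| * ρ ≤ M + lam * ρ := by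
  have h4 := H 0 ρ (abs_of_pos hρ).le (by simpa using hO)
  simp only [add_zero, inner_zero_right, sub_zero, norm_zero, ne_eq, OfNat.ofNat_ne_zero,
    not_false_eq_true, zero_pow, zero_div] at h4
  rw [← abs_of_pos hρ, ← abs_mul, abs_of_pos hρ, abs_le]
  constructor <;> linarith [(abs_le.1 h4).1, (abs_le.1 h4).2, (abs_le.1 hM).1, (abs_le.1 hM).2]

/-- `η = Y.1 - X.1 - σ • b`, `‖b‖‖η‖ ≤ ‖η‖²/(2ρ) + ‖b‖²ρ/2`, `‖η‖² ≤ 2‖Y.1-X.1‖² + 2ρ²‖b‖²`. -/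
theorem CFw.growth (H : CFw O w X ρ lam b h) (hρ : 0 < ρ) {Y : E × ℝ} (hY : Y ∈ O)
    (ht : |Y.2 - X.2| ≤ ρ) :
    |w Y - w X| ≤ (lam + |h| + 4 * ‖b‖ ^ 2) * ρ + 3 * ‖Y.1 - X.1‖ ^ 2 / ρ := by
  set σ := Y.2 - X.2 with hσ
  set η := Y.1 - X.1 - σ • b with hη
  have e : (X.1 + η + σ • b, X.2 + σ) = Y :=
    Prod.ext (by simp only [hη]; abel) (by simp [hσ])
  have h1 := H η σ ht (e ▸ hY)
  rw [e] at h1
  have h2 := abs_real_inner_le_norm b η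
  have h3 : |(h + ‖b‖ ^ 2 / 2) * σ| ≤ (|h| + ‖b‖ ^ 2 / 2) * ρ := by
    rw [abs_mul]
    refine mul_le_mul ((abs_add_le _ _).trans_eq ?_) ht (abs_nonneg _) (by positivity)
    rw [abs_of_nonneg (a := ‖b‖ ^ 2 / 2) (by positivity)]
  have h4 : ‖η‖ ≤ ‖Y.1 - X.1‖ + ρ * ‖b‖ := (norm_sub_le _ _).trans (by
    rw [norm_smul]; gcongr; exact ht)
  have h5 : ‖η‖ ^ 2 ≤ 2 * ‖Y.1 - X.1‖ ^ 2 + 2 * (ρ * ‖b‖) ^ 2 :=
    (pow_le_pow_left₀ (norm_nonneg _) h4 2).trans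
      (by nlinarith [sq_nonneg (‖Y.1 - X.1‖ - ρ * ‖b‖)])
  have h6 : ‖η‖ ^ 2 / ρ + ‖b‖ * ‖η‖ ≤ 7 / 2 * ‖b‖ ^ 2 * ρ + 3 * ‖Y.1 - X.1‖ ^ 2 / ρ := by
    rw [← mul_le_mul_iff_left₀ hρ, add_mul, add_mul, div_mul_cancel₀ _ hρ.ne',
      div_mul_cancel₀ _ hρ.ne']
    nlinarith [sq_nonneg (‖η‖ - ρ * ‖b‖)]
  rw [abs_le] at h1 h2 h3 ⊢
  constructor <;> linarith [h1.1, h1.2, h2.1, h2.2, h3.1, h3.2]

/-- the linear parts cancel; `(1-c) c² + c (1-c)² = c (1-c) ≤ 1`. -/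
theorem CFw.abs_del_le {c t : ℝ} {x : E} (H : CFw univ w (x, t) ρ lam b h) (hρ : 0 < ρ)
    (hc0 : 0 ≤ c) (hc1 : c ≤ 1) (η : E) : |Del c w x η t| ≤ lam * ρ + ‖η‖ ^ 2 / ρ := by
  have h1 := H (-(c • η)) 0 (by simpa using hρ.le) trivial
  have h2 := H ((1 - c) • η) 0 (by simpa using hρ.le) trivial
  simp only [zero_smul, add_zero, mul_zero, sub_zero, ← sub_eq_add_neg, inner_neg_right, norm_neg,
    real_inner_smul_right, norm_smul, mul_pow, Real.norm_eq_abs, sq_abs, mul_div_assoc] at h1 h2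
  have h3 : 0 ≤ ‖η‖ ^ 2 / ρ := by positivity
  have h4 : 0 ≤ 1 - c := by linarith
  have h5 := mul_nonneg (show 0 ≤ 1 - c * (1 - c) by nlinarith) h3
  rw [abs_le] at h1 h2 ⊢
  unfold Del
  constructor <;> nlinarith [mul_le_mul_of_nonneg_left h1.1 h4, mul_le_mul_of_nonneg_left h1.2 h4,
    mul_le_mul_of_nonneg_left h2.1 hc0, mul_le_mul_of_nonneg_left h2.2 hc0]

/-- frames for `ε = 1/(n+1)` are bounded by `compare_univ`; pass to a convergent subsequence. -/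
theorem fl_of_forall_eps (hρ : 0 < ρ) (H : ∀ ε : ℝ, 0 < ε → Fl univ w X ρ (lam + ε)) :
    Fl univ w X ρ lam := by
  have := FiniteDimensional.proper_real E
  choose B k hB using fun n : ℕ => H (1 / ((n : ℝ) + 1)) Nat.one_div_pos_of_nat
  have hD : 0 < (2 * |lam| + 2) * ρ := by positivity
  have hb : ∀ n, (B n, k n) ∈ closedBall (B 0) √(9 * ((2 * |lam| + 2) * ρ) / ρ) ×ˢ
      closedBall (k 0) (15 * ((2 * |lam| + 2) * ρ) / ρ) := by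
    intro n
    have := (hB n).compare_univ (hB 0) hρ le_rfl le_rfl hD (by
      have : 1 / ((n : ℝ) + 1) ≤ 1 := by
        rw [div_le_one (by positivity)]; linarith [n.cast_nonneg (α := ℝ)]
      simp only [Nat.cast_zero, zero_add, div_one]
      nlinarith [le_abs_self lam])
    exact ⟨mem_closedBall_iff_norm.2 (Real.le_sqrt_of_sq_le this.1),
      mem_closedBall_iff_norm.2 this.2⟩
  obtain ⟨p, -, φ, hφ, hp⟩ := ((isCompact_closedBall _ _).prod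
    (isCompact_closedBall _ _)).tendsto_subseq hb
  refine ⟨p.1, p.2, fun η σ h1 _ => ?_⟩
  have hq := hp.prodMk_nhds ((tendsto_one_div_add_atTop_nhds_zero_nat (𝕜 := ℝ)).comp hφ.tendsto_atTop)
  have c1 : Continuous fun q : (E × ℝ) × ℝ => |w (X.1 + η + σ • p.1, X.2 + σ) - w X -
    ⟪q.1.1, η + σ • (p.1 - q.1.1)⟫_ℝ - (q.1.2 + ‖q.1.1‖ ^ 2 / 2) * σ| := by fun_prop
  have c2 : Continuous fun q : (E × ℝ) × ℝ =>
    (lam + q.2) * ρ + ‖η + σ • (p.1 - q.1.1)‖ ^ 2 / ρ := by fun_prop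
  have := le_of_tendsto_of_tendsto' ((c1.tendsto _).comp hq) ((c2.tendsto _).comp hq) fun n => by
    have := hB (φ n) (η + σ • (p.1 - B (φ n))) σ h1 trivial
    rwa [show X.1 + (η + σ • (p.1 - B (φ n))) + σ • B (φ n) = X.1 + η + σ • p.1 by
      rw [smul_sub]; abel] at this
  simpa using this

theorem Affine.cfw (hw : Affine w) : ∃ (q : E) (k : ℝ), ∀ (X : E × ℝ) (ρ : ℝ), 0 < ρ →
    CFw univ w X ρ 0 q k := by
  obtain ⟨q, r, k, hw⟩ := hw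
  refine ⟨q, r + ‖q‖ ^ 2 / 2, fun X ρ hρ η σ _ _ => ?_⟩
  rw [hw, hw X]
  simp only [inner_add_right, real_inner_smul_right, real_inner_self_eq_norm_sq]
  refine le_trans (le_of_eq (abs_eq_zero.2 (by ring))) (by positivity)

theorem Affine.del_eq (hw : Affine w) (c : ℝ) (x η : E) (t : ℝ) : Del c w x η t = 0 := by
  obtain ⟨q, r, k, hw⟩ := hw
  simp only [Del, hw, inner_add_right, inner_sub_right, real_inner_smul_right]
  ring

/-- a bounded function is flat in the zero frame. -/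
theorem cfw_of_bdd {M : ℝ} (hρ : 0 < ρ) (hX : X ∈ O) (hM : ∀ Y ∈ O, |w Y| ≤ M) :
    CFw O w X ρ (2 * M / ρ) 0 0 := by
  intro η σ _ h2
  have h3 := abs_le.1 (hM _ h2)
  have h4 := abs_le.1 (hM _ hX)
  have h5 : 0 ≤ ‖η‖ ^ 2 / ρ := by positivity
  rw [div_mul_cancel₀ _ hρ.ne', inner_zero_left, norm_zero, abs_le]
  constructor <;> linarith [h3.1, h3.2, h4.1, h4.2]

end R94
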