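import Crest.Agent.R94.Defs

/-!
# R94/CF0: algebra of cone-flatness (no PDE; only inner-product inequalities)
-/

set_option autoImplicit false
set_option linter.unusedSectionVars false
set_option linter.unusedVariables false

open Set Filter Topology Metric
open scoped InnerProductSpace

namespace R94

variable {E : Type} [NormedAddCommGroup E] [InnerProductSpace ℝ E] [FiniteDimensional ℝ E]

variable {w : E × ℝ → ℝ} {X X₀ : E × ℝ} {O O' : Set (E × ℝ)} {b b' : E}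
  {ρ ρ' lam lam' h h' a τ : ℝ}

theorem CF0_norm_add_sq (x y : E) : ‖x + y‖ ^ 2 ≤ 2 * ‖x‖ ^ 2 + 2 * ‖y‖ ^ 2 := by
  have h1 := pow_le_pow_left₀ (norm_nonneg _) (norm_add_le x y) 2
  nlinarith [sq_nonneg (‖x‖ - ‖y‖)]

/-- test with `η = (2A)⁻¹ • β`. -/
theorem norm_sq_le_of_inner_le {β : E} {D A : ℝ} (hA : 0 < A)
    (H : ∀ η : E, ⟪β, η⟫_ℝ ≤ D + A * ‖η‖ ^ 2) : ‖β‖ ^ 2 ≤ 4 * A * D := by
  have h1 := H ((2 * A)⁻¹ • β)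
  rw [real_inner_smul_right, real_inner_self_eq_norm_sq, norm_smul,
    Real.norm_of_nonneg (by positivity)] at h1
  have h2 : (2 * A)⁻¹ * ‖β‖ ^ 2 - A * ((2 * A)⁻¹ * ‖β‖) ^ 2 = ‖β‖ ^ 2 / (4 * A) := by
    field_simp
    ring
  have h3 : ‖β‖ ^ 2 / (4 * A) ≤ D := by linarith
  rw [div_le_iff₀ (by positivity)] at h3
  linarith

theorem CFw.mono_lam (H : CFw O w X ρ lam b h) (hρ : 0 < ρ) (hl : lam ≤ lam') :
    CFw O w X ρ lam' b h := by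
  exact fun η σ h1 h2 => (H η σ h1 h2).trans (by gcongr)

theorem Fl.mono_lam (H : Fl O w X ρ lam) (hρ : 0 < ρ) (hl : lam ≤ lam') : Fl O w X ρ lam' := by
  obtain ⟨b, h, H⟩ := H
  exact ⟨b, h, H.mono_lam hρ hl⟩

theorem CFw.mono_set (H : CFw O w X ρ lam b h) (hO : O' ⊆ O) : CFw O' w X ρ lam b h := by
  exact fun η σ h1 h2 => H η σ h1 (hO h2)

/-- only times within `ρ` of `X.2` are tested. -/
theorem CFw.to_univ (H : CFw O w X ρ lam b h) (hO : ∀ Y : E × ℝ, |Y.2 - X.2| ≤ ρ → Y ∈ O) :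
    CFw univ w X ρ lam b h := by
  exact fun η σ h1 _ => H η σ h1 (hO _ (by simpa using h1))

theorem CFw.nonneg (H : CFw O w X ρ lam b h) (hρ : 0 < ρ) (hX : X ∈ O) : 0 ≤ lam := by
  have h1 := (abs_nonneg _).trans (H 0 0 (by simpa using hρ.le) (by simpa using hX))
  simp only [norm_zero, ne_eq, OfNat.ofNat_ne_zero, not_false_eq_true, zero_pow, zero_div,
    add_zero] at h1
  exact nonneg_of_mul_nonneg_left h1 hρ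

theorem CFw.shrink (H : CFw O w X ρ lam b h) (hρ' : 0 < ρ') (hle : ρ' ≤ ρ) :
    CFw O w X ρ' (lam * ρ / ρ') b h := by
  refine fun η σ h1 h2 => (H η σ (h1.trans hle) h2).trans ?_
  rw [div_mul_cancel₀ _ hρ'.ne']
  gcongr

theorem CFw.absorb_h (H : CFw O w X ρ lam b h) (hρ : 0 < ρ) (h' : ℝ) :
    CFw O w X ρ (lam + |h - h'|) b h' := by
  intro η σ h1 h2
  have h3 := H η σ h1 h2
  have h4 : |(h - h') * σ| ≤ |h - h'| * ρ := by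
    rw [abs_mul]
    gcongr
  rw [abs_le] at h3 h4 ⊢
  constructor <;> linarith [h3.1, h3.2, h4.1, h4.2]

/-- With `β = b' - b`, write the point as `X + ((η + σ • β) + σ • b, σ)`. The two affine parts differ
by `-⟪β, η⟫ - σ ‖β‖² / 2`; use `‖η + σ • β‖² ≤ 2‖η‖² + 2σ²‖β‖²`, `‖β‖‖η‖ ≤ 2‖η‖²/ρ + ‖β‖²ρ/8`. -/
theorem CFw.change_frame (H : CFw O w X ρ lam b h) (hρ : 0 < ρ) (b' : E) :
    CFw O w X (ρ / 4) (4 * lam + 2 * ‖b - b'‖ ^ 2) b' h := by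
  intro η σ h1 h2
  obtain ⟨β, rfl⟩ : ∃ β, b' = b + β := ⟨b' - b, by abel⟩
  have e : X.1 + η + σ • (b + β) = X.1 + (η + σ • β) + σ • b := by module
  rw [e] at h2 ⊢
  have h3 := H (η + σ • β) σ (h1.trans (by linarith)) h2
  have h4 : ‖η + σ • β‖ ^ 2 / ρ ≤ 2 * (‖η‖ ^ 2 / ρ) + ‖β‖ ^ 2 * ρ / 8 := by
    have a1 := CF0_norm_add_sq η (σ • β)
    have a2 : ‖σ • β‖ ≤ ρ / 4 * ‖β‖ := by
      rw [norm_smul, Real.norm_eq_abs]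
      gcongr
    have a3 := pow_le_pow_left₀ (norm_nonneg _) a2 2
    rw [div_le_iff₀ hρ, add_mul, mul_assoc, div_mul_cancel₀ _ hρ.ne']
    linarith
  have h5 : |⟪β, η⟫_ℝ| ≤ 2 * (‖η‖ ^ 2 / ρ) + ‖β‖ ^ 2 * ρ / 8 := by
    refine (abs_real_inner_le_norm _ _).trans (le_of_mul_le_mul_right ?_ hρ)
    rw [add_mul, mul_assoc 2, div_mul_cancel₀ _ hρ.ne']
    nlinarith [sq_nonneg (4 * ‖η‖ - ‖β‖ * ρ)]
  have h6 : |σ * ‖β‖ ^ 2| ≤ ρ / 4 * ‖β‖ ^ 2 := by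
    rw [abs_mul, abs_of_nonneg (sq_nonneg ‖β‖)]
    gcongr
  have h7 : ‖η‖ ^ 2 / (ρ / 4) = 4 * (‖η‖ ^ 2 / ρ) := by field_simp
  have h8 : 0 ≤ ‖β‖ ^ 2 * ρ := by positivity
  rw [inner_add_right, real_inner_smul_right] at h3
  rw [h7, inner_add_left, norm_add_sq_real, sub_add_cancel_left, norm_neg]
  rw [abs_le] at h3 h5 h6 ⊢
  constructor <;> linarith [h3.1, h3.2, h5.1, h5.2, h6.1, h6.2]

/-- subtract the two inequalities at `(ζ + η, θ + σ)` and at `(ζ, θ)`. -/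
theorem CFw.recenter (H : CFw O w X ρ lam b h) (hρ : 0 < ρ) {ζ : E} {θ : ℝ} (hθ : |θ| ≤ ρ / 2)
    (hX : (X.1 + ζ + θ • b, X.2 + θ) ∈ O) :
    CFw O w (X.1 + ζ + θ • b, X.2 + θ) (ρ / 2) (4 * lam + 6 * ‖ζ‖ ^ 2 / ρ ^ 2) b h := by
  intro η σ h1 h2
  have e : X.1 + ζ + θ • b + η + σ • b = X.1 + (ζ + η) + (θ + σ) • b := by module
  simp only [e, add_assoc X.2] at h2 ⊢
  have h3 := H (ζ + η) (θ + σ) ((abs_add_le _ _).trans (by linarith)) h2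
  have h4 := H ζ θ (hθ.trans (by linarith)) hX
  have h5 : ‖ζ + η‖ ^ 2 / ρ ≤ 2 * (‖ζ‖ ^ 2 / ρ) + 2 * (‖η‖ ^ 2 / ρ) := by
    rw [← mul_div_assoc, ← mul_div_assoc, ← add_div]
    gcongr
    exact CF0_norm_add_sq _ _
  have h6 : (4 * lam + 6 * ‖ζ‖ ^ 2 / ρ ^ 2) * (ρ / 2) + ‖η‖ ^ 2 / (ρ / 2) =
      2 * (lam * ρ) + 3 * (‖ζ‖ ^ 2 / ρ) + 2 * (‖η‖ ^ 2 / ρ) := by
    field_simp
    ring
  rw [inner_add_right] at h3
  rw [h6]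
  rw [abs_le] at h3 h4 ⊢
  constructor <;> linarith [h3.1, h3.2, h4.1, h4.2]

/-- Two frames at the same point. `σ = 0`, `η = ± √(D ρ) • unit(b₁ - b₂)` gives
`‖b₁ - b₂‖ √(Dρ) ≤ 3 D`. The point `(X.1 + ρ • b₁, X.2 + ρ)` has `η₁ = 0`, `η₂ = ρ • (b₁ - b₂)`, and
the affine parts differ by `ρ (h₁ - h₂ + ‖b₁ - b₂‖²/2)`. -/
theorem CFw.compare {ρ₁ ρ₂ l₁ l₂ h₁ h₂ D : ℝ} {b₁ b₂ : E} (H₁ : CFw O w X ρ₁ l₁ b₁ h₁)
    (H₂ : CFw O w X ρ₂ l₂ b₂ h₂) (hρ : 0 < ρ) (h1 : ρ ≤ ρ₁) (h2 : ρ ≤ ρ₂) (hD : 0 < D)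
    (hl : l₁ * ρ₁ + l₂ * ρ₂ ≤ D) (hO : ∀ η : E, ‖η‖ ≤ √(D * ρ) → (X.1 + η, X.2) ∈ O)
    (hO' : (X.1 + ρ • b₁, X.2 + ρ) ∈ O) :
    ‖b₁ - b₂‖ ^ 2 ≤ 9 * D / ρ ∧ |h₁ - h₂| ≤ 15 * D / ρ := by
  obtain ⟨β, rfl⟩ : ∃ β, b₁ = b₂ + β := ⟨b₁ - b₂, by abel⟩
  rw [add_sub_cancel_left]
  have hs : 0 < √(D * ρ) := Real.sqrt_pos.2 (by positivity)
  have hs2 : √(D * ρ) ^ 2 = D * ρ := Real.sq_sqrt (by positivity)
  have k1 : ‖β‖ * √(D * ρ) ≤ 3 * D := by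
    rcases eq_or_ne β 0 with rfl | hβ
    · rw [norm_zero, zero_mul]
      positivity
    have hβ' := norm_pos_iff.2 hβ
    have a1 : ‖(√(D * ρ) / ‖β‖) • β‖ = √(D * ρ) := by
      rw [norm_smul, Real.norm_of_nonneg (by positivity), div_mul_cancel₀ _ hβ'.ne']
    have a2 : ⟪β, (√(D * ρ) / ‖β‖) • β⟫_ℝ = ‖β‖ * √(D * ρ) := by
      rw [real_inner_smul_right, real_inner_self_eq_norm_sq]
      field_simp
    have a3 := H₁ ((√(D * ρ) / ‖β‖) • β) 0 (by simpa using hρ.le.trans h1)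
      (by simpa using hO _ a1.le)
    have a4 := H₂ ((√(D * ρ) / ‖β‖) • β) 0 (by simpa using hρ.le.trans h2)
      (by simpa using hO _ a1.le)
    have a5 : D * ρ / ρ₁ ≤ D := by
      rw [div_le_iff₀ (by linarith)]
      gcongr
    have a6 : D * ρ / ρ₂ ≤ D := by
      rw [div_le_iff₀ (by linarith)]
      gcongr
    simp only [zero_smul, add_zero, mul_zero, sub_zero, a1, hs2, inner_add_left, a2,
      abs_le] at a3 a4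
    linarith [a3.1, a4.2]
  have k2 : ‖β‖ ^ 2 * ρ ≤ 9 * D := by
    have a1 := pow_le_pow_left₀ (by positivity) k1 2
    rw [mul_pow, hs2] at a1
    refine le_of_mul_le_mul_right ?_ hD
    linarith
  refine ⟨(le_div_iff₀ hρ).2 k2, (le_div_iff₀ hρ).2 ?_⟩
  have e : X.1 + ρ • β + ρ • b₂ = X.1 + ρ • (b₂ + β) := by module
  have a3 := H₁ 0 ρ (by rwa [abs_of_pos hρ]) (by rwa [add_zero])
  have a4 := H₂ (ρ • β) ρ (by rwa [abs_of_pos hρ]) (by rwa [e])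
  have a5 : ‖ρ • β‖ ^ 2 / ρ₂ ≤ ‖β‖ ^ 2 * ρ := by
    rw [norm_smul, Real.norm_of_nonneg hρ.le, div_le_iff₀ (by linarith)]
    calc (ρ * ‖β‖) ^ 2 = ‖β‖ ^ 2 * ρ * ρ := by ring
      _ ≤ _ := by gcongr
  have a6 : 0 ≤ ‖β‖ ^ 2 * ρ := by positivity
  rw [add_zero, inner_zero_right, norm_zero, norm_add_sq_real, zero_pow two_ne_zero,
    zero_div] at a3
  rw [e, real_inner_smul_right] at a4
  rw [← abs_of_pos hρ, ← abs_mul]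
  rw [abs_le] at a3 a4 ⊢
  constructor <;> linarith [a3.1, a3.2, a4.1, a4.2]

theorem CFw.compare_univ {ρ₁ ρ₂ l₁ l₂ h₁ h₂ D : ℝ} {b₁ b₂ : E} (H₁ : CFw univ w X ρ₁ l₁ b₁ h₁)
    (H₂ : CFw univ w X ρ₂ l₂ b₂ h₂) (hρ : 0 < ρ) (h1 : ρ ≤ ρ₁) (h2 : ρ ≤ ρ₂) (hD : 0 < D)
    (hl : l₁ * ρ₁ + l₂ * ρ₂ ≤ D) :
    ‖b₁ - b₂‖ ^ 2 ≤ 9 * D / ρ ∧ |h₁ - h₂| ≤ 15 * D / ρ := by
  exact H₁.compare H₂ hρ h1 h2 hD hl (fun _ _ => mem_univ _) (mem_univ _)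

end R94
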