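import Crest.Agent.R94.Can0

/-!
# R94/Can: canonical finite-difference frames
-/

set_option autoImplicit false
set_option linter.unusedSectionVars false
set_option linter.unusedVariables false

open Set Filter Topology Metric
open scoped InnerProductSpace

namespace R94

variable {E : Type} [NormedAddCommGroup E] [InnerProductSpace ℝ E] [FiniteDimensional ℝ E]

variable {w : E × ℝ → ℝ} {X X₀ : E × ℝ} {b : E} {h ρ s : ℝ}

theorem can_chain {Λ : ℝ} (hΛ : 1 ≤ Λ) : ∃ C : ℝ, 0 < C ∧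
    ∀ (w : E × ℝ → ℝ) (X : E × ℝ) (ρ ρ' : ℝ) (b b' : E) (h h' : ℝ), BMO w → 0 < ρ → 0 < ρ' →
      CFw univ w X ρ Λ b h → CFw univ w X ρ' Λ b' h' →
      ‖b - b'‖ ≤ C * (1 + |Real.log (ρ / ρ')|) ∧ |h - h'| ≤ C * (1 + |Real.log (ρ / ρ')|) := by
  obtain ⟨C, hC, H⟩ := chain_log (E := E) (lt_of_lt_of_le one_pos hΛ)
  refine ⟨C, hC, fun w X ρ ρ' b b' h h' hw hρ hρ' H1 H2 => ?_⟩
  rcases le_total ρ' ρ with hle | hle
  · obtain ⟨a1, a2⟩ := H w X ρ ρ' b b' h h' hρ' hle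
      (fun r h1 _ => (hw.2 X r (hρ'.trans_le h1)).mono_lam (hρ'.trans_le h1) hΛ) H1 H2
    have := mul_le_mul_of_nonneg_left (add_le_add_right (le_abs_self (Real.log (ρ / ρ'))) 1) hC.le
    exact ⟨a1.trans this, a2.trans this⟩
  · obtain ⟨a1, a2⟩ := H w X ρ' ρ b' b h' h hρ hle
      (fun r h1 _ => (hw.2 X r (hρ.trans_le h1)).mono_lam (hρ.trans_le h1) hΛ) H2 H1
    rw [← inv_div, Real.log_inv] at a1 a2
    have := mul_le_mul_of_nonneg_left (add_le_add_right (neg_le_abs (Real.log (ρ / ρ'))) 1) hC.le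
    rw [norm_sub_rev, abs_sub_comm]
    exact ⟨a1.trans this, a2.trans this⟩

theorem can_log {s δ a : ℝ} (hs : 0 < s) (hδ : 0 < δ) (ha : 1 ≤ a) :
    |Real.log (s / (a * δ))| ≤ |Real.log (s / δ)| + (a - 1) := by
  have ha0 : 0 < a := lt_of_lt_of_le one_pos ha
  have e : s / (a * δ) = s / δ / a := by rw [div_div, mul_comm]
  rw [e, Real.log_div (div_pos hs hδ).ne' ha0.ne']
  refine (abs_sub _ _).trans (add_le_add_right ?_ _)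
  rw [abs_of_nonneg (Real.log_nonneg ha)]
  exact Real.log_le_sub_one_of_pos ha0

theorem can_rec {x ζ : E} {t : ℝ} (H : CFw univ w (x, t) (2 * s) 1 b h) (hs : 0 < s)
    (hζ : ‖ζ‖ ≤ s) : CFw univ w (x + ζ, t) s 6 b h := by
  have := H.recenter (by positivity) (ζ := ζ) (θ := 0) (by rw [abs_zero]; positivity) (mem_univ _)
  rw [zero_smul, add_zero, add_zero, mul_div_cancel_left₀ _ two_ne_zero] at this
  refine this.mono_lam hs ?_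
  have h1 : 6 * ‖ζ‖ ^ 2 / (2 * s) ^ 2 ≤ 2 := by
    rw [div_le_iff₀ (by positivity)]
    nlinarith [norm_nonneg ζ]
  linarith

/-- Frame `(b',h')` at `(x,t)`, scale `8δ`: `Reg_le`, `abs_Tp_le`, `le_Tm_shift` give
`J0 ≤ 2h' - ⟪b',Z⟫ - ‖Z‖²/3 + 16 + κ²/(2c(1-c))`. `can_close` and `chain_log` between the scales
`8δ` and `‖η‖` (either order) give `‖canB - b'‖, |canL - h'| ≤ C(1 + |log(‖η‖/δ)|)`;
`⟪β,Z⟫ ≤ 3‖β‖² + ‖Z‖²/12`. -/
theorem jc_upper {c κ : ℝ} (hc0 : 0 < c) (hc1 : c < 1) (hκ : 0 ≤ κ) : ∃ C : ℝ, 0 < C ∧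
    ∀ w : E × ℝ → ℝ, BMO w → FLe c κ w → ∀ (x η : E) (t : ℝ) (Z : E) (δ : ℝ), η ≠ 0 → 0 < δ →
      Jc c κ δ w x η t Z ≤ C * (1 + Real.log (‖η‖ / δ) ^ 2) - ‖Z‖ ^ 2 / 4 := by
  obtain ⟨C₁, hC₁, H₁⟩ := can_close (E := E)
  obtain ⟨C₂, hC₂, H₂⟩ := can_chain (E := E) le_rfl
  have hK : 0 ≤ κ ^ 2 / (2 * (c * (1 - c))) := by
    have := sub_pos.2 hc1
    positivity
  refine ⟨16 + κ ^ 2 / (2 * (c * (1 - c))) + 6 * (C₁ + 8 * C₂) ^ 2 + 4 * (C₁ + 8 * C₂),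
    by positivity, fun w hw hF x η t Z δ hη hδ => ?_⟩
  have hN : 0 < ‖η‖ := norm_pos_iff.2 hη
  obtain ⟨b', h', F'⟩ := hw.2 (x, t) (8 * δ) (by positivity)
  obtain ⟨b₀, h₀, F₀⟩ := hw.2 (x, t) ‖η‖ hN
  obtain ⟨a1, a2⟩ := H₁ w _ _ _ _ hN F₀
  obtain ⟨a3, a4⟩ := H₂ w _ _ _ _ _ _ _ hw hN (by positivity) F₀ F'
  have a5 := mul_le_mul_of_nonneg_left (can_log hN hδ (by norm_num : (1 : ℝ) ≤ 8)) hC₂.le
  have l0 := abs_nonneg (Real.log (‖η‖ / δ))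
  have l1 := sq_abs (Real.log (‖η‖ / δ))
  have p1 := mul_nonneg hC₁.le l0
  have p2 := mul_nonneg hC₂.le l0
  have b1 : ‖canB w (x, t) ‖η‖ - b'‖ ≤ (C₁ + 8 * C₂) * (1 + |Real.log (‖η‖ / δ)|) := by
    have := norm_sub_le_norm_sub_add_norm_sub (canB w (x, t) ‖η‖) b₀ b'
    linarith
  have b2 : |canL w (x, t) ‖η‖ - h'| ≤ (C₁ + 8 * C₂) * (1 + |Real.log (‖η‖ / δ)|) := by
    have := abs_sub_le (canL w (x, t) ‖η‖) h₀ h'
    linarith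
  have c1 := Reg_le (x := x) (η := η) (t := t) (y₀ := δ • Z) hw.ent.csq hF hκ hc0 hc1 hδ
  have c2 := (abs_le.1 (F'.abs_Tp_le hδ (by linarith))).2
  have c3 := F'.le_Tm_shift hδ Z
  have c4 : (Reg c δ w x η t (δ • Z) - κ * ‖η‖) / δ ≤
      2 * h' + 16 - ⟪b', Z⟫_ℝ + ‖Z‖ ^ 2 / 6 + κ ^ 2 / (2 * (c * (1 - c))) := by
    rw [div_le_iff₀ hδ]
    rw [mul_div_assoc] at c1
    linarith
  have c5 : ⟪canB w (x, t) ‖η‖, Z⟫_ℝ - ⟪b', Z⟫_ℝ ≤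
      3 * ‖canB w (x, t) ‖η‖ - b'‖ ^ 2 + ‖Z‖ ^ 2 / 12 := by
    rw [← inner_sub_left]
    nlinarith [real_inner_le_norm (canB w (x, t) ‖η‖ - b') Z,
      sq_nonneg (6 * ‖canB w (x, t) ‖η‖ - b'‖ - ‖Z‖)]
  have c6 := pow_le_pow_left₀ (norm_nonneg _) b1 2
  have hC : 0 ≤ C₁ + 8 * C₂ := by positivity
  generalize C₁ + 8 * C₂ = C at *
  have c7 : (C * (1 + |Real.log (‖η‖ / δ)|)) ^ 2 ≤ 2 * C ^ 2 * (1 + Real.log (‖η‖ / δ) ^ 2) := by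
    rw [mul_pow, ← l1]
    nlinarith [mul_nonneg (sq_nonneg C) (sq_nonneg (|Real.log (‖η‖ / δ)| - 1))]
  have c8 : C * (1 + |Real.log (‖η‖ / δ)|) ≤ 2 * C * (1 + Real.log (‖η‖ / δ) ^ 2) := by
    rw [← l1]
    nlinarith [mul_nonneg hC (sq_nonneg (|Real.log (‖η‖ / δ)| - 1)),
      mul_nonneg hC (sq_nonneg |Real.log (‖η‖ / δ)|)]
  have c9 := mul_nonneg (add_nonneg (by norm_num : (0 : ℝ) ≤ 16) hK)
    (sq_nonneg (Real.log (‖η‖ / δ)))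
  have c10 := (abs_le.1 b2).1
  unfold Jc J0
  linarith

/-- `J0_zero`, `Jd_eq`; `abs_Sp_le`, `abs_Sm_le` at scale `2δ`; at `zᵢ` use `chain_log` (constant 6)
between scale `2δ` and the frame obtained by `recenter` from the frame at `(x,t)`, scale `2‖η‖`. -/
theorem jc_lower {c κ : ℝ} (hc0 : 0 ≤ c) (hc1 : c ≤ 1) : ∃ C : ℝ, 0 < C ∧
    ∀ w : E × ℝ → ℝ, BMO w → ∀ (x η : E) (t δ : ℝ), η ≠ 0 → 0 < δ → Del c w x η t = κ * ‖η‖ →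
      -(C * (1 + |Real.log (‖η‖ / δ)|)) ≤ Jc c κ δ w x η t 0 := by
  obtain ⟨C₁, hC₁, H₁⟩ := can_close (E := E)
  obtain ⟨C₂, hC₂, H₂⟩ := can_chain (E := E) (by norm_num : (1 : ℝ) ≤ 6)
  refine ⟨4 + 2 * C₁ + 6 * C₂, by positivity, fun w hw x η t δ hη hδ hD => ?_⟩
  have hN : 0 < ‖η‖ := norm_pos_iff.2 hη
  obtain ⟨b₁, h₁, F₁⟩ := hw.2 (x, t) (2 * ‖η‖) (by positivity)
  have l0 := abs_nonneg (Real.log (‖η‖ / δ))
  have key : ∀ ζ : E, ‖ζ‖ ≤ ‖η‖ →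
      h₁ - 2 - C₂ * (2 + |Real.log (‖η‖ / δ)|) ≤ Sp δ w (x + ζ, t) ∧
      h₁ - 2 - C₂ * (2 + |Real.log (‖η‖ / δ)|) ≤ Sm δ w (x + ζ, t) := fun ζ hζ => by
    obtain ⟨b', h', F'⟩ := hw.2 (x + ζ, t) (2 * δ) (by positivity)
    have a1 := (H₂ w _ _ _ _ _ _ _ hw hN (by positivity) (can_rec F₁ hN hζ)
      (F'.mono_lam (by positivity) (by norm_num))).2
    have a2 := mul_le_mul_of_nonneg_left (can_log hN hδ (by norm_num : (1 : ℝ) ≤ 2)) hC₂.le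
    have a3 := F'.abs_Sp_le hδ le_rfl
    have a4 := F'.abs_Sm_le hδ le_rfl
    rw [one_mul, mul_div_cancel_right₀ _ hδ.ne'] at a3 a4
    constructor <;> linarith [(abs_le.1 a1).2, (abs_le.1 a3).1, (abs_le.1 a4).1]
  have k1 := (key (-(c • η)) (by
    rw [norm_neg, norm_smul, Real.norm_eq_abs, abs_of_nonneg hc0]
    exact mul_le_of_le_one_left hN.le hc1)).1
  have k2 := (key ((1 - c) • η) (by
    rw [norm_smul, Real.norm_eq_abs, abs_of_nonneg (sub_nonneg.2 hc1)]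
    exact mul_le_of_le_one_left hN.le (by linarith))).1
  have k0 := (key 0 (by rw [norm_zero]; exact hN.le)).2
  rw [← sub_eq_add_neg] at k1
  rw [add_zero] at k0
  obtain ⟨b₀, h₀, F₀⟩ := hw.2 (x, t) ‖η‖ hN
  have a1 := (H₁ w _ _ _ _ hN F₀).2
  have F₂ := can_rec (ζ := 0) F₁ hN (by rw [norm_zero]; exact hN.le)
  rw [add_zero] at F₂
  have a2 := (H₂ w _ _ _ _ _ _ _ hw hN hN F₂ (F₀.mono_lam hN (by norm_num))).2
  rw [div_self hN.ne', Real.log_one, abs_zero, add_zero, mul_one] at a2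
  have a3 := mul_le_mul_of_nonneg_left k1 (sub_nonneg.2 hc1)
  have a4 := mul_le_mul_of_nonneg_left k2 hc0
  have p1 := mul_nonneg hC₁.le l0
  have p2 := mul_nonneg hC₂.le l0
  unfold Jc
  rw [J0_zero, Jd_eq hδ, hD, sub_self, zero_div, zero_add, inner_zero_right, add_zero]
  linarith [(abs_le.1 a1).2, (abs_le.1 a2).1]

end R94
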