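import Crest.Agent.R94.Grow

/-!
# R94/Can0: canonical finite-difference frames
-/

set_option autoImplicit false
set_option linter.unusedSectionVars false
set_option linter.unusedVariables false

open Set Filter Topology Metric
open scoped InnerProductSpace

namespace R94

variable {E : Type} [NormedAddCommGroup E] [InnerProductSpace ℝ E] [FiniteDimensional ℝ E]

variable {w : E × ℝ → ℝ} {X X₀ : E × ℝ} {b : E} {h ρ s : ℝ}

theorem can0_norm_sum_le (f : Fin (Module.finrank ℝ E) → ℝ) {M : ℝ} (hf : ∀ i, |f i| ≤ M) :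
    ‖∑ i, f i • stdOrthonormalBasis ℝ E i‖ ≤ (Module.finrank ℝ E : ℝ) * M := by
  refine (norm_sum_le _ _).trans ?_
  calc ∑ i, ‖f i • stdOrthonormalBasis ℝ E i‖ ≤ ∑ _i : Fin (Module.finrank ℝ E), M := by
        refine Finset.sum_le_sum fun i _ => ?_
        rw [norm_smul, (stdOrthonormalBasis ℝ E).orthonormal.1 i, mul_one, Real.norm_eq_abs]
        exact hf i
    _ = (Module.finrank ℝ E : ℝ) * M := by simp

theorem can0_sub (w : E × ℝ → ℝ) (X : E × ℝ) (s : ℝ) (b : E) :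
    canB w X s - b = ∑ i, ((w (X.1 + s • stdOrthonormalBasis ℝ E i, X.2) - w X) / s
      - ⟪b, stdOrthonormalBasis ℝ E i⟫_ℝ) • stdOrthonormalBasis ℝ E i := by
  simp only [sub_smul, Finset.sum_sub_distrib, canB]
  congr 1
  conv_lhs => rw [← (stdOrthonormalBasis ℝ E).sum_repr' b]
  exact Finset.sum_congr rfl fun i _ => by rw [real_inner_comm]

/-- `OrthonormalBasis.sum_repr'`: `∑ ⟪eᵢ, b⟫ • eᵢ = b`. -/
theorem canB_sym (hρ : 0 < ρ) (hs : 0 < s) :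
    canB (sym X₀ b h ρ ρ w) X s = canB w (pt X₀ b ρ ρ X) (ρ * s) - b := by
  rw [can0_sub, canB]
  refine Finset.sum_congr rfl fun i _ => ?_
  congr 1
  have hpt : pt X₀ b ρ ρ (X.1 + s • stdOrthonormalBasis ℝ E i, X.2) =
      ((pt X₀ b ρ ρ X).1 + (ρ * s) • stdOrthonormalBasis ℝ E i, (pt X₀ b ρ ρ X).2) := by
    simp only [pt, smul_add, mul_smul, Prod.mk.injEq, and_true]
    abel
  simp only [sym, hpt, inner_add_right, inner_smul_right]
  field_simp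
  ring

theorem canL_sym (hρ : 0 < ρ) (hs : 0 < s) :
    canL (sym X₀ b h ρ ρ w) X s = canL w (pt X₀ b ρ ρ X) (ρ * s) - h := by
  rw [canL, canL, canB_sym hρ hs]
  generalize canB w (pt X₀ b ρ ρ X) (ρ * s) = B
  have hpt : pt X₀ b ρ ρ (X.1 + s • (B - b), X.2 + s) =
      ((pt X₀ b ρ ρ X).1 + (ρ * s) • B, (pt X₀ b ρ ρ X).2 + ρ * s) := by
    simp only [pt, smul_add, mul_smul, Prod.mk.injEq, smul_sub, mul_add, add_smul]
    constructor
    · abel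
    · ring
  simp only [sym, hpt, inner_add_right, inner_smul_right, inner_sub_right,
    real_inner_self_eq_norm_sq, norm_sub_sq_real, real_inner_comm b B]
  field_simp
  ring

theorem Jc_sym {c κ δ t : ℝ} {x η Z : E} (hw : SQ w) (hρ : 0 < ρ) (hδ : 0 < δ) (hη : η ≠ 0) :
    Jc c κ δ (sym X₀ b h ρ ρ w) x η t Z =
      Jc c κ (ρ * δ) w (pt X₀ b ρ ρ (x, t)).1 (ρ • η) (pt X₀ b ρ ρ (x, t)).2 Z := by
  have hn : 0 < ‖η‖ := norm_pos_iff.2 hη
  rw [Jc, Jc, J0_sym hw hρ hδ, canB_sym hρ hn, canL_sym hρ hn, norm_smul, Real.norm_eq_abs,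
    abs_of_pos hρ, inner_sub_left, Prod.mk.eta]
  ring

/-- each coordinate of `β = canB - b` is `≤ 2`; at the point `(X.1 + s • canB, X.2 + s)`
(`η = s • β`, `σ = s`): `|canL - h + ‖β‖²/2| ≤ 1 + ‖β‖²`. -/
theorem can_close : ∃ C : ℝ, 0 < C ∧ ∀ (w : E × ℝ → ℝ) (X : E × ℝ) (s : ℝ) (b : E) (h : ℝ), 0 < s →
    CFw univ w X s 1 b h → ‖canB w X s - b‖ ≤ C ∧ |canL w X s - h| ≤ C := by
  set N : ℝ := (Module.finrank ℝ E : ℝ) * 2 with hN
  have hN0 : 0 ≤ N := by positivity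
  refine ⟨1 + N + 2 * N ^ 2, by positivity, fun w X s b h hs H => ?_⟩
  have hβ : ‖canB w X s - b‖ ≤ N := by
    rw [can0_sub]
    refine can0_norm_sum_le _ fun i => ?_
    have h1 := H (s • stdOrthonormalBasis ℝ E i) 0 (by simpa using hs.le) (mem_univ _)
    simp only [zero_smul, add_zero, mul_zero, sub_zero, inner_smul_right, norm_smul,
      (stdOrthonormalBasis ℝ E).orthonormal.1 i, mul_one, Real.norm_eq_abs, sq_abs, one_mul] at h1
    have h2 : (w (X.1 + s • stdOrthonormalBasis ℝ E i, X.2) - w X) / s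
        - ⟪b, stdOrthonormalBasis ℝ E i⟫_ℝ = (w (X.1 + s • stdOrthonormalBasis ℝ E i, X.2) - w X
          - s * ⟪b, stdOrthonormalBasis ℝ E i⟫_ℝ) / s := by field_simp
    have h3 : s ^ 2 / s = s := by field_simp
    rw [h2, abs_div, abs_of_pos hs, div_le_iff₀ hs]
    linarith
  refine ⟨by nlinarith [sq_nonneg N], ?_⟩
  obtain ⟨β, hβ'⟩ : ∃ β : E, canB w X s = β + b := ⟨canB w X s - b, by abel⟩
  rw [hβ', add_sub_cancel_right] at hβ
  have h1 := H (s • β) s (by rw [abs_of_pos hs]) (mem_univ _)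
  have hpt : X.1 + s • β + s • b = X.1 + s • (β + b) := by rw [smul_add, add_assoc]
  rw [hpt, inner_smul_right, norm_smul, Real.norm_eq_abs, abs_of_pos hs] at h1
  have h3 : 1 * s + (s * ‖β‖) ^ 2 / s = (1 + ‖β‖ ^ 2) * s := by field_simp
  have h2 : canL w X s - h + ‖β‖ ^ 2 / 2 =
      (w (X.1 + s • (β + b), X.2 + s) - w X - s * ⟪b, β⟫_ℝ - (h + ‖b‖ ^ 2 / 2) * s) / s := by
    rw [canL, hβ', norm_add_sq_real, real_inner_comm b β]
    field_simp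
    ring
  have h4 : |canL w X s - h + ‖β‖ ^ 2 / 2| ≤ 1 + ‖β‖ ^ 2 := by
    rw [h2, abs_div, abs_of_pos hs, div_le_iff₀ hs, ← h3]
    exact h1
  have h5 : ‖β‖ ^ 2 ≤ N ^ 2 := by gcongr
  have h6 := sq_nonneg ‖β‖
  rw [abs_le] at h4 ⊢
  constructor <;> linarith [h4.1, h4.2]

/-- the frame at scale 1 is bounded (`can_close`), so is the one at scale 4 (`compare_univ`);
`change_frame` to `b' = 0` and `absorb_h`. -/
theorem can_nrm : ∃ Λ : ℝ, ∀ w : E × ℝ → ℝ, BMO w → w 0 = 0 → canB w 0 1 = 0 → canL w 0 1 = 0 →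
    Nrm Λ w := by
  obtain ⟨C, hC, HC⟩ := can_close (E := E)
  refine ⟨4 + 2 * (2 * C ^ 2 + 90) + (C + 75), fun w hw h0 hB hL => ⟨h0, ?_⟩⟩
  obtain ⟨b₁, h₁, H₁⟩ := hw.2 0 1 one_pos
  obtain ⟨b₄, h₄, H₄⟩ := hw.2 0 4 (by norm_num)
  obtain ⟨e1, e2⟩ := HC w 0 1 b₁ h₁ one_pos H₁
  rw [hB, zero_sub, norm_neg] at e1
  rw [hL, zero_sub, abs_neg] at e2
  obtain ⟨e3, e4⟩ := H₁.compare_univ (ρ := 1) (D := 5) H₄ one_pos le_rfl (by norm_num)
    (by norm_num) (by norm_num)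
  have e5 : ‖b₄‖ ^ 2 ≤ 2 * C ^ 2 + 90 := by
    have h1 := flow0_sq b₁ (-(b₁ - b₄))
    rw [norm_neg, show b₁ + -(b₁ - b₄) = b₄ by abel] at h1
    have h2 : ‖b₁‖ ^ 2 ≤ C ^ 2 := by gcongr
    linarith
  have e6 : |h₄| ≤ C + 75 := by
    rw [abs_le] at e2 e4 ⊢
    constructor <;> linarith [e2.1, e2.2, e4.1, e4.2]
  have H := (H₄.change_frame (by norm_num) 0).absorb_h (by norm_num) 0
  rw [show (4 : ℝ) / 4 = 1 by norm_num, sub_zero, sub_zero] at H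
  exact H.mono_lam one_pos (by linarith)

theorem can0_hol {H R d : ℝ} (hH : 0 ≤ H) (hw : HolOn (1 / 2) H (ball 0 R) w) {Y Y' : E × ℝ}
    (hY : ‖Y‖ < R) (hY' : ‖Y'‖ < R) (hd : ‖Y - Y'‖ ≤ d) : |w Y - w Y'| ≤ H * √d := by
  have h1 := hw Y (mem_ball_zero_iff.2 hY) Y' (mem_ball_zero_iff.2 hY')
  rw [← Real.sqrt_eq_rpow] at h1
  exact h1.trans (by gcongr)

theorem can0_coord (hB : canB w 0 1 = 0) (h0 : w 0 = 0) (i : Fin (Module.finrank ℝ E)) :
    w (stdOrthonormalBasis ℝ E i, 0) = 0 := by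
  have h1 := (stdOrthonormalBasis ℝ E).orthonormal.inner_right_fintype
    (fun j => (w ((0 : E × ℝ).1 + (1 : ℝ) • stdOrthonormalBasis ℝ E j, (0 : E × ℝ).2) - w 0) / 1) i
  rw [← canB, hB, inner_zero_right] at h1
  simpa [h0] using h1.symm

/-- `canB w 0 1 = 0` means `w (eᵢ, 0) = 0` for all `i`, and then `canL w 0 1 = 0` means
`w (0, 1) = 0`. `grow_hol` gives `‖canB w (x,t) s‖ ≤ C₁ √r`, then
`|w (x + s • canB, t + s) - w (0,1)| ≤ H (r + 2 C₁ √r)^(1/2) ≤ C √√r`. -/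
theorem can_small (Λ : ℝ) : ∃ C : ℝ, 0 ≤ C ∧ ∀ w : E × ℝ → ℝ, BMO w → Nrm Λ w → canB w 0 1 = 0 →
    canL w 0 1 = 0 → ∀ (r : ℝ) (x : E) (t s : ℝ), r ≤ 1 / 4 → ‖x‖ ≤ r → |t| ≤ r → |s - 1| ≤ r →
      ‖canB w (x, t) s‖ ≤ C * √(√r) ∧ |canL w (x, t) s| ≤ C * √(√r) := by
  obtain ⟨H₁, hH₁, G₁⟩ := grow_hol (E := E) Λ 2
  obtain ⟨C₁, hC₁, hC₁0⟩ : ∃ C₁ : ℝ, C₁ = (Module.finrank ℝ E : ℝ) * (4 * H₁) ∧ 0 ≤ C₁ :=
    ⟨_, rfl, by positivity⟩
  obtain ⟨H₂, hH₂, G₂⟩ := grow_hol (E := E) Λ (2 + C₁)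
  refine ⟨C₁ + 2 * (H₂ * √(2 + 2 * C₁) + H₁) + C₁ ^ 2, by positivity,
    fun w hw hN hB hL r x t s hr hx ht hs => ?_⟩
  have h0 : w 0 = 0 := hN.1
  have hr0 : 0 ≤ r := (norm_nonneg _).trans hx
  obtain ⟨hs1, hs2⟩ := abs_le.1 hs
  have hs0 : 0 < s := by linarith
  have hq0 : 0 ≤ √r := Real.sqrt_nonneg _
  have hq1 : √r ≤ 1 / 2 := Real.sqrt_le_iff.2 ⟨by norm_num, by linarith⟩
  have hqq : √r * √r = r := Real.mul_self_sqrt hr0
  have hrq : r ≤ √r := by nlinarith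
  have hp0 : 0 ≤ √(√r) := Real.sqrt_nonneg _
  have hqp : √r ≤ √(√r) := Real.sqrt_le_sqrt hrq
  have hxt : ‖((x, t) : E × ℝ)‖ ≤ r := by
    rw [Prod.norm_mk, Real.norm_eq_abs]; exact max_le hx ht
  have hw0 : |w (x, t)| ≤ H₁ * √r := by
    have := can0_hol hH₁ (G₁ w hw hN) (Y := (x, t)) (Y' := 0) (d := r) (by linarith)
      (by simp) (by simpa using hxt)
    rwa [h0, sub_zero] at this
  have hB1 : ‖canB w (x, t) s‖ ≤ C₁ * √r := by
    rw [canB, hC₁, mul_assoc]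
    refine can0_norm_sum_le _ fun i => ?_
    have he : ‖stdOrthonormalBasis ℝ E i‖ = 1 := (stdOrthonormalBasis ℝ E).orthonormal.1 i
    have h1 : |w (x + s • stdOrthonormalBasis ℝ E i, t) - w (stdOrthonormalBasis ℝ E i, 0)| ≤
        H₁ * √(4 * r) := by
      refine can0_hol hH₁ (G₁ w hw hN) ?_ ?_ ?_
      · rw [Prod.norm_mk, Real.norm_eq_abs]
        refine max_lt ((norm_add_le _ _).trans_lt ?_) (by linarith)
        rw [norm_smul, he, Real.norm_eq_abs, abs_of_pos hs0]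
        linarith
      · rw [Prod.norm_mk, he]; norm_num
      · rw [Prod.mk_sub_mk, Prod.norm_mk, sub_zero, Real.norm_eq_abs]
        refine max_le ?_ (by linarith)
        rw [show x + s • stdOrthonormalBasis ℝ E i - stdOrthonormalBasis ℝ E i =
          x + (s - 1) • stdOrthonormalBasis ℝ E i by rw [sub_smul, one_smul]; abel]
        refine (norm_add_le _ _).trans ?_
        rw [norm_smul, he, Real.norm_eq_abs]
        linarith
    have h4 : √(4 * r) = 2 * √r := by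
      rw [Real.sqrt_mul (by norm_num), show (4 : ℝ) = 2 ^ 2 by norm_num,
        Real.sqrt_sq (by norm_num)]
    rw [can0_coord hB h0, sub_zero, h4] at h1
    rw [abs_div, abs_of_pos hs0, div_le_iff₀ hs0]
    have h5 : |w (x + s • stdOrthonormalBasis ℝ E i, t) - w (x, t)| ≤ 3 * (H₁ * √r) :=
      (abs_sub _ _).trans (by linarith)
    have h6 : 0 ≤ H₁ * √r := by positivity
    have h7 : 3 / 4 * (H₁ * √r) ≤ s * (H₁ * √r) := by gcongr; linarith
    exact h5.trans (by linarith)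
  have hC₁q : C₁ * √r ≤ C₁ * √(√r) := by gcongr
  have hT1 : 0 ≤ (H₂ * √(2 + 2 * C₁) + H₁) * √(√r) := by positivity
  have hT2 : 0 ≤ C₁ ^ 2 * √(√r) := by positivity
  have hT3 : 0 ≤ C₁ * √(√r) := by positivity
  refine ⟨hB1.trans (by linarith), ?_⟩
  have h01 : w (0, 1) = 0 := by
    rw [canL, hB] at hL
    simpa [h0] using hL
  rw [canL]
  generalize canB w (x, t) s = B at hB1 ⊢
  have hsB : ‖s • B‖ ≤ 2 * (C₁ * √r) := by
    rw [norm_smul, Real.norm_eq_abs, abs_of_pos hs0]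
    have : s ≤ 2 := by linarith
    gcongr
  have hCq : C₁ * √r ≤ C₁ * (1 / 2) := by gcongr
  have h1 : |w (x + s • B, t + s) - w (0, 1)| ≤ H₂ * √((2 + 2 * C₁) * √r) := by
    refine can0_hol hH₂ (G₂ w hw hN) ?_ ?_ ?_
    · rw [Prod.norm_mk, Real.norm_eq_abs]
      refine max_lt ((norm_add_le _ _).trans_lt (by linarith)) ((abs_add_le _ _).trans_lt ?_)
      rw [abs_of_pos hs0]
      linarith
    · rw [Prod.norm_mk, norm_zero, norm_one, max_eq_right zero_le_one]; linarith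
    · rw [Prod.mk_sub_mk, Prod.norm_mk, sub_zero, Real.norm_eq_abs]
      have h6 : 0 ≤ C₁ * √r := by positivity
      refine max_le ((norm_add_le _ _).trans (by linarith)) ?_
      rw [add_sub_assoc]
      exact (abs_add_le _ _).trans (by linarith)
  rw [h01, sub_zero, Real.sqrt_mul (by positivity), ← mul_assoc] at h1
  have h2 : H₁ * √r ≤ H₁ * √(√r) := by gcongr
  have h3 : |w (x + s • B, t + s) - w (x, t)| ≤ (H₂ * √(2 + 2 * C₁) + H₁) * √(√r) :=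
    (abs_sub _ _).trans (by linarith)
  have h4 : |(w (x + s • B, t + s) - w (x, t)) / s| ≤
      2 * ((H₂ * √(2 + 2 * C₁) + H₁) * √(√r)) := by
    rw [abs_div, abs_of_pos hs0, div_le_iff₀ hs0]
    have h7 : 1 / 2 * ((H₂ * √(2 + 2 * C₁) + H₁) * √(√r)) ≤
      s * ((H₂ * √(2 + 2 * C₁) + H₁) * √(√r)) := by gcongr; linarith
    linarith
  have h5 : ‖B‖ ^ 2 ≤ C₁ ^ 2 * √(√r) := by
    calc ‖B‖ ^ 2 ≤ (C₁ * √r) ^ 2 := by gcongr
      _ = C₁ ^ 2 * r := by rw [mul_pow, Real.sq_sqrt hr0]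
      _ ≤ C₁ ^ 2 * √(√r) := by gcongr; exact hrq.trans hqp
  have h6 := sq_nonneg ‖B‖
  rw [abs_le] at h4 ⊢
  constructor <;> linarith [h4.1, h4.2]

end R94
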