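import Crest.Agent.R94.Cfg0

/-!
# R94/Cfg: three-point configurations — identities, monotonicity, covariance
-/

set_option autoImplicit false
set_option linter.unusedSectionVars false
set_option linter.unusedVariables false

open Set Filter Topology Metric
open scoped InnerProductSpace

namespace R94

variable {E : Type} [NormedAddCommGroup E] [InnerProductSpace ℝ E] [FiniteDimensional ℝ E]

variable {w : E × ℝ → ℝ} {X₀ : E × ℝ} {b x η y₀ Z : E} {c κ δ δ' t h a τ ρ L : ℝ}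

theorem pt_z1 : pt X₀ b a τ (x - c • η, t) =
    ((pt X₀ b a τ (x, t)).1 - c • (a • η), (pt X₀ b a τ (x, t)).2) := by
  ext
  · simp only [pt]; module
  · rfl

theorem pt_z2 : pt X₀ b a τ (x + (1 - c) • η, t) =
    ((pt X₀ b a τ (x, t)).1 + (1 - c) • (a • η), (pt X₀ b a τ (x, t)).2) := by
  ext
  · simp only [pt]; module
  · rfl

theorem Del_sym : Del c (sym X₀ b h a τ w) x η t =
    Del c w (pt X₀ b a τ (x, t)).1 (a • η) (pt X₀ b a τ (x, t)).2 * (τ / a ^ 2) := by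
  simp only [Del, R94.sym, pt_z1, pt_z2, inner_add_right, inner_sub_right, real_inner_smul_right,
    Prod.mk.eta]
  ring

theorem FLe.sym (hF : FLe c κ w) (hρ : 0 < ρ) : FLe c κ (sym X₀ b h ρ ρ w) := by
  intro x η t
  rw [Del_sym]
  refine (mul_le_mul_of_nonneg_right (hF _ _ _) (by positivity)).trans_eq ?_
  rw [norm_smul, Real.norm_of_nonneg hρ.le]
  field_simp
theorem BMO.sym (hw : BMO w) (hρ : 0 < ρ) : BMO (sym X₀ b h ρ ρ w) :=
  ⟨hw.1.sym hρ hρ, fun X r hr => (fl_sym_iff (O := univ) hρ hρ hr).2 (by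
    simpa [hρ.ne'] using hw.2 _ _ (mul_pos hρ hr))⟩
theorem Cls.gal (hw : Cls w) : Cls (sym X₀ b h 1 1 w) :=
  ⟨hw.1.sym one_pos one_pos, fun X r hr => (fl_sym_iff (O := univ) one_pos one_pos hr).2 (by
    simpa using hw.2 _ _ hr)⟩
theorem Cls.rev (hw : Cls w) : Cls (rev w) :=
  ⟨hw.1.rev, fun X r hr => by
    obtain ⟨b, h, H⟩ := hw.2 (-X) r hr
    exact ⟨b, h, by simpa using H.rev⟩⟩
theorem HLe.sym (hw : HLe w) (hρ : 0 < ρ) : HLe (sym X₀ b 0 ρ ρ w) := by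
  intro X η s hs
  rw [← sub_le_iff_le_add, flow2_idp hρ hρ hs, add_le_iff_nonpos_right]
  refine mul_nonpos_of_nonpos_of_nonneg ?_ (by positivity)
  have := hw (pt X₀ b ρ ρ X) (ρ • η + (ρ * s) • b) (ρ * s) (mul_pos hρ hs)
  linarith

theorem HLe.Sp_le (hw : HLe w) {s : ℝ} (hs : 0 < s) (X : E × ℝ) : Sp s w X ≤ 0 :=
  div_nonpos_of_nonpos_of_nonneg
    (sub_nonpos.2 (Tp_le fun η => sub_le_iff_le_add.2 (hw X η s hs))) hs.le
theorem HLe.Sm_le (hw : HLe w) {s : ℝ} (hs : 0 < s) (X : E × ℝ) : Sm s w X ≤ 0 :=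
  div_nonpos_of_nonpos_of_nonneg (sub_nonpos.2 (le_Tm fun η => by
    simpa using hw (X.1 + η, X.2 - s) (-η) s hs)) hs.le

/-- normalisation by the frame at `X₀`. -/
theorem CFw.nrm {lam h' : ℝ} (H : CFw univ w X₀ ρ lam b h) (hρ : 0 < ρ) :
    Nrm (lam + |h - h'|) (sym X₀ b h' ρ ρ w) :=
  ⟨sym_zero _ _ _ _ _ _, (cfw_sym_iff (O := univ) hρ hρ one_pos).2 (by
    simpa [hρ.ne'] using H.absorb_h hρ h')⟩

/-- `Tp_sym`, `Tm_sym`; the affine parts cancel except for `⟪b, δ • Z⟫`, and the energy shift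
contributes `-h δ` three times with total weight `2`. -/
theorem J0_sym (hw : SQ w) (hρ : 0 < ρ) (hδ : 0 < δ) :
    J0 c κ δ (sym X₀ b h ρ ρ w) x η t Z =
      J0 c κ (ρ * δ) w (pt X₀ b ρ ρ (x, t)).1 (ρ • η) (pt X₀ b ρ ρ (x, t)).2 Z
        + ⟪b, Z⟫_ℝ - 2 * h := by
  have hρδ := mul_pos hρ hδ
  have e : pt X₀ b ρ ρ (x + δ • Z, t) =
      ((pt X₀ b ρ ρ (x, t)).1 + (ρ * δ) • Z, (pt X₀ b ρ ρ (x, t)).2) := by
    ext
    · simp only [pt]; module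
    · rfl
  simp only [J0, Reg]
  rw [Tp_sym hρ hρ hδ (hw.bddAbove hρδ _), Tp_sym hρ hρ hδ (hw.bddAbove hρδ _),
    Tm_sym hρ hρ hδ (hw.bddBelow hρδ _)]
  simp only [R94.sym, pt_z1, pt_z2, e, inner_add_right, inner_sub_right, real_inner_smul_right,
    norm_smul, Real.norm_of_nonneg hρ.le]
  field_simp
  ring

theorem Jd_sym (hw : SQ w) (hρ : 0 < ρ) (hδ : 0 < δ) :
    Jd c κ δ (sym X₀ b h ρ ρ w) x η t =
      Jd c κ (ρ * δ) w (pt X₀ b ρ ρ (x, t)).1 (ρ • η) (pt X₀ b ρ ρ (x, t)).2 - 2 * h := by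
  rw [← J0_zero, ← J0_zero, J0_sym hw hρ hδ, inner_zero_right, add_zero]

theorem jge_sym_iff (hw : SQ w) (hρ : 0 < ρ) :
    JGe c κ (sym X₀ b h ρ ρ w) x η t L ↔
      JGe c κ w (pt X₀ b ρ ρ (x, t)).1 (ρ • η) (pt X₀ b ρ ρ (x, t)).2 (L + 2 * h) := by
  constructor
  · intro H δ hδ
    have := H (δ / ρ) (div_pos hδ hρ)
    rw [Jd_sym hw hρ (div_pos hδ hρ), mul_div_cancel₀ _ hρ.ne'] at this
    linarith
  · intro H δ hδ
    have := H (ρ * δ) (mul_pos hρ hδ)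
    rw [Jd_sym hw hρ hδ]
    linarith

/-- under `HLe` every term of `Jd_eq` is `≤ 0`, so `L ≤ Sm s w (x,t) ≤ 0`. -/
theorem JGe.le_Sm (hJ : JGe c κ w x η t L) (hF : FLe c κ w) (hH : HLe w) (hc0 : 0 ≤ c)
    (hc1 : c ≤ 1) {s : ℝ} (hs : 0 < s) : L ≤ Sm s w (x, t) := by
  have h1 := hJ s hs
  rw [Jd_eq hs] at h1
  have h2 := div_nonpos_of_nonpos_of_nonneg (sub_nonpos.2 (hF x η t)) hs.le
  have h3 := mul_nonpos_of_nonneg_of_nonpos (sub_nonneg.2 hc1) (hH.Sp_le hs (x - c • η, t))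
  have h4 := mul_nonpos_of_nonneg_of_nonpos hc0 (hH.Sp_le hs (x + (1 - c) • η, t))
  linarith

/-- `abs_Sm_le` with `s = ρ/2`. -/
theorem JGe.abs_h_le (hJ : JGe c κ w x η t L) (hF : FLe c κ w) (hH : HLe w) (hc0 : 0 ≤ c)
    (hc1 : c ≤ 1) (hρ : 0 < ρ) (H : CFw univ w (x, t) ρ 1 b h) : |h| ≤ |L| + 2 := by
  have h1 := hJ.le_Sm hF hH hc0 hc1 (half_pos hρ)
  have h2 := hH.Sm_le (half_pos hρ) (x, t)
  have h3 := H.abs_Sm_le (half_pos hρ) (by linarith)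
  rw [show 1 * ρ / (ρ / 2) = 2 by field_simp, abs_le] at h3
  have h4 := neg_abs_le L
  have h5 := abs_nonneg L
  rw [abs_le]
  constructor <;> linarith [h3.1, h3.2]

end R94
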