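import Crest.Agent.R94.Flow1
import Crest.Agent.R94.CF

/-!
# R94/FlowCF: the flows seen through a cone-flatness frame
-/

set_option autoImplicit false
set_option linter.unusedSectionVars false
set_option linter.unusedVariables false

open Set Filter Topology Metric
open scoped InnerProductSpace

namespace R94

variable {E : Type} [NormedAddCommGroup E] [InnerProductSpace ℝ E] [FiniteDimensional ℝ E]

variable {w : E × ℝ → ℝ} {X : E × ℝ} {b : E} {ρ lam h s δ : ℝ}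

theorem flowCF_at (H : CFw univ w X ρ lam b h) (ζ : E) {σ : ℝ} (hσ : |σ| ≤ ρ) :
    |w (X.1 + ζ, X.2 + σ) - w X - ⟪b, ζ⟫_ℝ - (h - ‖b‖ ^ 2 / 2) * σ| ≤
      lam * ρ + ‖ζ - σ • b‖ ^ 2 / ρ := by
  have h1 := H (ζ - σ • b) σ hσ (mem_univ _)
  rw [add_assoc, sub_add_cancel, inner_sub_right, real_inner_smul_right,
    real_inner_self_eq_norm_sq] at h1
  convert h1 using 2
  ring

theorem flowCF_sq (ζ b : E) (hs : 0 < s) :
    ‖ζ + s • b‖ ^ 2 / (2 * s) = ‖ζ‖ ^ 2 / (2 * s) + ⟪b, ζ⟫_ℝ + s * ‖b‖ ^ 2 / 2 := by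
  rw [norm_add_sq_real, norm_smul, mul_pow, Real.norm_eq_abs, sq_abs, real_inner_smul_right,
    real_inner_comm]
  field_simp

/-- Write `ζ = s • b + ζ'`: `‖ζ‖²/(2s) = s‖b‖²/2 + ⟪b, ζ'⟫ + ‖ζ'‖²/(2s)` and `1/ρ ≤ 1/(2s)`; so the
family is bounded above by `w X + h s + lam ρ`; lower bound from `ζ' = 0`. -/
theorem CFw.abs_Tp_le (H : CFw univ w X ρ lam b h) (hs : 0 < s) (hsρ : 2 * s ≤ ρ) :
    |Tp s w X - w X - h * s| ≤ lam * ρ := by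
  have hσ : |s| ≤ ρ := by rw [abs_of_pos hs]; linarith
  have h1 : ∀ ζ : E, w (X.1 + ζ, X.2 + s) - ‖ζ‖ ^ 2 / (2 * s) ≤ w X + h * s + lam * ρ := by
    intro ζ
    have h2 := le_of_abs_le (flowCF_at H ζ hσ)
    have h3 : ‖ζ - s • b‖ ^ 2 / ρ ≤ ‖ζ - s • b‖ ^ 2 / (2 * s) := by gcongr
    have h4 := flowCF_sq ζ (-b) hs
    rw [smul_neg, ← sub_eq_add_neg, inner_neg_left, norm_neg] at h4
    linarith
  have h2 : w (X.1 + s • b, X.2 + s) - ‖s • b‖ ^ 2 / (2 * s) ≤ Tp s w X :=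
    le_ciSup (f := fun ζ : E => w (X.1 + ζ, X.2 + s) - ‖ζ‖ ^ 2 / (2 * s))
      ⟨_, forall_mem_range.2 h1⟩ _
  have h3 := neg_le_of_abs_le (flowCF_at H (s • b) hσ)
  have h4 := flowCF_sq 0 b hs
  have h5 := Tp_le h1
  rw [real_inner_smul_right, real_inner_self_eq_norm_sq] at h3
  simp only [zero_add, norm_zero, inner_zero_right, sub_self, zero_pow two_ne_zero,
    zero_div] at h3 h4
  exact abs_le.2 ⟨by linarith, by linarith⟩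

theorem CFw.abs_Tm_le (H : CFw univ w X ρ lam b h) (hs : 0 < s) (hsρ : 2 * s ≤ ρ) :
    |w X - Tm s w X - h * s| ≤ lam * ρ := by
  have h1 := CFw.abs_Tp_le (H.rev.mono_set fun _ _ => mem_univ _) hs hsρ
  rw [Tm_eq_rev]
  convert h1 using 2
  simp only [rev_apply, neg_neg]
  ring

theorem CFw.abs_Sp_le (H : CFw univ w X ρ lam b h) (hs : 0 < s) (hsρ : 2 * s ≤ ρ) :
    |Sp s w X - h| ≤ lam * ρ / s := by
  have : Sp s w X - h = (Tp s w X - w X - h * s) / s := by rw [Sp]; field_simp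
  rw [this, abs_div, abs_of_pos hs]
  exact div_le_div_of_nonneg_right (H.abs_Tp_le hs hsρ) hs.le

theorem CFw.abs_Sm_le (H : CFw univ w X ρ lam b h) (hs : 0 < s) (hsρ : 2 * s ≤ ρ) :
    |Sm s w X - h| ≤ lam * ρ / s := by
  have : Sm s w X - h = (w X - Tm s w X - h * s) / s := by rw [Sm]; field_simp
  rw [this, abs_div, abs_of_pos hs]
  exact div_le_div_of_nonneg_right (H.abs_Tm_le hs hsρ) hs.le

/-- Write `δ • Z + ζ = -δ • b + δ • u`. Then `‖ζ‖²/(2δ) = δ‖u - Z‖²/2 - δ⟪b, u - Z⟫ + δ‖b‖²/2`, and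
`‖u - Z‖²/2 - ‖u‖²/8 ≥ -‖Z‖²/6`. -/
theorem CFw.le_Tm_shift (H : CFw univ w X (8 * δ) lam b h) (hδ : 0 < δ) (Z : E) :
    w X - h * δ + δ * ⟪b, Z⟫_ℝ - lam * (8 * δ) - δ * ‖Z‖ ^ 2 / 6 ≤ Tm δ w (X.1 + δ • Z, X.2) := by
  refine le_Tm fun ζ => ?_
  have h1 := neg_le_of_abs_le (flowCF_at H (δ • Z + ζ) (σ := -δ)
    (by rw [abs_neg, abs_of_pos hδ]; linarith))
  have h2 := flowCF_sq ζ b hδ
  rw [neg_smul, sub_neg_eq_add, add_assoc (δ • Z), inner_add_right, real_inner_smul_right,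
    ← add_assoc X.1, ← sub_eq_add_neg] at h1
  have h3 : ‖δ • Z + (ζ + δ • b)‖ ^ 2 ≤ (δ * ‖Z‖ + ‖ζ + δ • b‖) ^ 2 := by
    gcongr
    exact (norm_add_le _ _).trans (by rw [norm_smul, Real.norm_eq_abs, abs_of_pos hδ])
  have h4 : ‖δ • Z + (ζ + δ • b)‖ ^ 2 / (8 * δ) ≤
      ‖ζ + δ • b‖ ^ 2 / (2 * δ) + δ * ‖Z‖ ^ 2 / 6 := by
    rw [div_le_iff₀ (by positivity)]
    field_simp
    nlinarith [sq_nonneg (δ * ‖Z‖ - 3 * ‖ζ + δ • b‖)]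
  simp only
  linarith

/-- Take the minimiser `-(δ/2) • p'` of the first half step; with `p̄ = (p + p')/2` the total
displacement is `-δ • p̄`, and `(δ/4)(‖p‖² + ‖p'‖²) - δ⟪b, p̄⟫ + δ‖b‖²/2 = (δ/4)(‖p-b‖² + ‖p'-b‖²)`.
Compare the lower bound from `H` (at `η = -δ • (p̄ - b)`, `σ = -δ`) with `abs_Tm_le`:
`(δ/4 - δ/16) ‖p - b‖² ≤ 16 lam δ`. -/
theorem IsVel.norm_sub_sq_le {p : E} (hp : IsVel δ w X p) (hw : CSQ w) (hδ : 0 < δ)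
    (H : CFw univ w X (8 * δ) lam b h) : ‖p - b‖ ^ 2 ≤ 100 * lam := by
  have h2 : 0 < δ / 2 := half_pos hδ
  obtain ⟨η, hη⟩ := hw.exists_Tm h2 (X.1 - (δ / 2) • p, X.2 - δ / 2)
  have h1 := neg_le_of_abs_le (flowCF_at H (η - (δ / 2) • p) (σ := -δ)
    (by rw [abs_neg, abs_of_pos hδ]; linarith))
  have h3 := neg_le_of_abs_le (H.abs_Tm_le hδ (by linarith))
  have e1 : X.1 + (η - (δ / 2) • p) = X.1 - (δ / 2) • p + η := by abel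
  have e2 : X.2 + -δ = X.2 - δ / 2 - δ / 2 := by ring
  have e3 : η - (δ / 2) • p - -δ • b = η + (δ / 2) • b + -((δ / 2) • (p - b)) := by module
  rw [e1, e2, e3, inner_sub_right, real_inner_smul_right] at h1
  have h4 := flowCF_sq η b h2
  have h5 := flow0_sq (η + (δ / 2) • b) (-((δ / 2) • (p - b)))
  rw [norm_neg, norm_smul, mul_pow, Real.norm_eq_abs, sq_abs] at h5
  have h6 : ‖η + (δ / 2) • b + -((δ / 2) • (p - b))‖ ^ 2 / (8 * δ) ≤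
      ‖η + (δ / 2) • b‖ ^ 2 / (2 * (δ / 2)) + δ / 16 * ‖p - b‖ ^ 2 := by
    rw [div_le_iff₀ (by positivity)]
    field_simp
    nlinarith [sq_nonneg ‖η + (δ / 2) • b‖]
  have h7 : δ / 4 * ‖p - b‖ ^ 2 = δ / 4 * ‖p‖ ^ 2 - δ / 2 * ⟪b, p⟫_ℝ + δ / 4 * ‖b‖ ^ 2 := by
    rw [norm_sub_sq_real, real_inner_comm]
    ring
  rw [hp, hη] at h3
  simp only at h3
  have h8 : δ * (3 * ‖p - b‖ ^ 2) ≤ δ * (256 * lam) := by linarith
  have h9 := le_of_mul_le_mul_left h8 hδ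
  nlinarith [sq_nonneg ‖p - b‖]

/-- `CFw.growth` at a scale `ρ ≥ max T (3/ε)`. -/
theorem sq_of_fl (H : ∀ ρ : ℝ, 1 ≤ ρ → ∃ lam : ℝ, Fl univ w 0 ρ lam) : SQ w := by
  intro T ε hε
  obtain ⟨ρ, h1, h2, h3⟩ : ∃ ρ : ℝ, 1 ≤ ρ ∧ T ≤ ρ ∧ 3 / ε ≤ ρ :=
    ⟨max 1 (max T (3 / ε)), le_max_left _ _, (le_max_left _ _).trans (le_max_right _ _),
      (le_max_right _ _).trans (le_max_right _ _)⟩
  obtain ⟨lam, b, h, hb⟩ := H ρ h1
  have hρ : 0 < ρ := by linarith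
  refine ⟨|w 0| + (lam + |h| + 4 * ‖b‖ ^ 2) * ρ, fun X hX => ?_⟩
  have h4 := hb.growth hρ (mem_univ X) (by simpa using hX.trans h2)
  have h5 : 3 * ‖X.1‖ ^ 2 / ρ ≤ ε * ‖X.1‖ ^ 2 := by
    rw [div_le_iff₀ hε] at h3
    rw [div_le_iff₀ hρ]
    nlinarith [sq_nonneg ‖X.1‖]
  have h6 := abs_sub_abs_le_abs_sub (w X) (w 0)
  simp only [Prod.fst_zero, sub_zero] at h4
  linarith

theorem BMO.cls (hw : BMO w) : Cls w := by
  exact ⟨hw.1, fun X ρ hρ => (hw.2 X ρ hρ).mono_lam hρ (le_max_left _ _)⟩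
theorem Cls.ent (hw : Cls w) : Ent w := by
  exact ⟨hw.1, sq_of_fl fun ρ hρ => ⟨_, hw.2 0 ρ (by linarith)⟩⟩
theorem BMO.ent (hw : BMO w) : Ent w := by
  exact hw.cls.ent
theorem Cls.fl_one (hw : Cls w) (X : E × ℝ) (hρ : 1 ≤ ρ) : Fl univ w X ρ 1 := by
  have h0 : 0 < ρ := by linarith
  exact (hw.2 X ρ h0).mono_lam h0
    (max_le le_rfl (Real.rpow_le_one_of_one_le_of_nonpos hρ (by norm_num)))

/-- Dyadic chain `ρ, ρ/2, …` down to `ρ'` (`k ≤ 1 + log(ρ/ρ')/log 2` steps); consecutive frames are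
compared by `compare_univ` with `D = 3 Λ ρ_small`. -/
theorem chain_log {Λ : ℝ} (hΛ : 0 < Λ) : ∃ C : ℝ, 0 < C ∧
    ∀ (w : E × ℝ → ℝ) (X : E × ℝ) (ρ ρ' : ℝ) (b b' : E) (h h' : ℝ), 0 < ρ' → ρ' ≤ ρ →
      (∀ ρ'' : ℝ, ρ' ≤ ρ'' → ρ'' ≤ ρ → Fl univ w X ρ'' Λ) →
      CFw univ w X ρ Λ b h → CFw univ w X ρ' Λ b' h' →
      ‖b - b'‖ ≤ C * (1 + Real.log (ρ / ρ')) ∧ |h - h'| ≤ C * (1 + Real.log (ρ / ρ')) := by
  obtain ⟨c, hc0, hc⟩ : ∃ c : ℝ, 0 < c ∧ ∀ (w : E × ℝ → ℝ) (X : E × ℝ) (ρ ρ' : ℝ) (b b' : E)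
      (h h' : ℝ), 0 < ρ' → ρ' ≤ ρ → ρ ≤ 2 * ρ' → CFw univ w X ρ Λ b h → CFw univ w X ρ' Λ b' h' →
      ‖b - b'‖ ≤ c ∧ |h - h'| ≤ c := by
    refine ⟨√(27 * Λ) + 45 * Λ, by positivity, fun w X ρ ρ' b b' h h' h0 h1 h2 H H' => ?_⟩
    obtain ⟨h3, h4⟩ := H.compare_univ H' h0 h1 le_rfl (D := 3 * Λ * ρ') (by positivity)
      (by nlinarith)
    have e1 : 9 * (3 * Λ * ρ') / ρ' = 27 * Λ := by field_simp; ring
    have e2 : 15 * (3 * Λ * ρ') / ρ' = 45 * Λ := by field_simp; ring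
    rw [e1] at h3
    rw [e2] at h4
    exact ⟨(Real.le_sqrt_of_sq_le h3).trans (by linarith),
      h4.trans (by linarith [Real.sqrt_nonneg (27 * Λ)])⟩
  refine ⟨2 * c, by positivity, fun w X ρ ρ' b b' h h' h0 h1 hF H H' => ?_⟩
  have key : ∀ (k : ℕ) (ρ : ℝ) (b : E) (h : ℝ), ρ' ≤ ρ → ρ ≤ 2 ^ (k + 1) * ρ' →
      (∀ ρ'' : ℝ, ρ' ≤ ρ'' → ρ'' ≤ ρ → Fl univ w X ρ'' Λ) → CFw univ w X ρ Λ b h →
      ‖b - b'‖ ≤ c * (k + 1) ∧ |h - h'| ≤ c * (k + 1) := by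
    intro k
    induction k with
    | zero =>
      intro ρ b h h1 h2 _ H
      simpa using hc w X ρ ρ' b b' h h' h0 h1 (by simpa using h2) H H'
    | succ k ih =>
      intro ρ b h h1 h2 hF H
      have hk : c ≤ c * ((k + 1 : ℕ) + 1) := le_mul_of_one_le_right hc0.le (by
        linarith [Nat.cast_nonneg (α := ℝ) (k + 1)])
      by_cases h3 : ρ ≤ 2 * ρ'
      · obtain ⟨h4, h5⟩ := hc w X ρ ρ' b b' h h' h0 h1 h3 H H'
        exact ⟨h4.trans hk, h5.trans hk⟩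
      · obtain ⟨b₁, h₁, H₁⟩ := hF (ρ / 2) (by linarith) (by linarith)
        obtain ⟨h4, h5⟩ := hc w X ρ (ρ / 2) b b₁ h h₁ (by linarith) (by linarith) (by linarith) H H₁
        obtain ⟨h6, h7⟩ := ih (ρ / 2) b₁ h₁ (by linarith) (by rw [pow_succ] at h2; linarith)
          (fun r h8 h9 => hF r h8 (by linarith)) H₁
        push_cast
        exact ⟨(norm_sub_le_norm_sub_add_norm_sub b b₁ b').trans (by linarith),
          (abs_sub_le h h₁ h').trans (by linarith)⟩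
  obtain ⟨k, hk1, hk2⟩ := exists_nat_pow_near ((one_le_div h0).2 h1) one_lt_two
  have h2 : (k : ℝ) ≤ 2 * Real.log (ρ / ρ') := by
    have h3 := Real.log_le_log (by positivity) hk1
    rw [Real.log_pow] at h3
    nlinarith [Real.log_two_gt_d9, Nat.cast_nonneg (α := ℝ) k]
  obtain ⟨h3, h4⟩ := key k ρ b h h1 ((div_lt_iff₀ h0).1 hk2).le hF H
  have h5 : c * (k + 1) ≤ 2 * c * (1 + Real.log (ρ / ρ')) := by nlinarith
  exact ⟨h3.trans h5, h4.trans h5⟩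

end R94
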