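import Crest.Agent.R94.Flow2
import Crest.Agent.R94.FlowCF

/-!
# R94/Cfg0: three-point configurations — identities, monotonicity, covariance
-/

set_option autoImplicit false
set_option linter.unusedSectionVars false
set_option linter.unusedVariables false

open Set Filter Topology Metric
open scoped InnerProductSpace

namespace R94

variable {E : Type} [NormedAddCommGroup E] [InnerProductSpace ℝ E] [FiniteDimensional ℝ E]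

variable {w : E × ℝ → ℝ} {X₀ : E × ℝ} {b x η y₀ Z : E} {c κ δ δ' t h a τ ρ L : ℝ}

theorem Phi_eq_Reg : Phi c δ (1 - c) 0 c 0 w x η t y₀ = Reg c δ w x η t y₀ := by
  simp [Phi, Reg, Gam]

theorem J0_zero : J0 c κ δ w x η t 0 = Jd c κ δ w x η t := by
  simp [J0, Jd]

theorem Reg_eq (hδ : 0 < δ) : Reg c δ w x η t 0 = Del c w x η t +
    δ * ((1 - c) * Sp δ w (x - c • η, t) + c * Sp δ w (x + (1 - c) • η, t) + Sm δ w (x, t)) := by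
  simp only [Reg, Del, Sp, Sm, add_zero]
  field_simp
  ring

theorem Jd_eq (hδ : 0 < δ) : Jd c κ δ w x η t = (Del c w x η t - κ * ‖η‖) / δ +
    ((1 - c) * Sp δ w (x - c • η, t) + c * Sp δ w (x + (1 - c) • η, t) + Sm δ w (x, t)) := by
  rw [Jd, Reg_eq hδ]
  field_simp
  ring

theorem Jd_mono (hw : Ent w) (hF : FLe c κ w) (hc0 : 0 ≤ c) (hc1 : c ≤ 1) (hδ : 0 < δ)
    (hδ' : δ ≤ δ') : Jd c κ δ w x η t ≤ Jd c κ δ' w x η t := by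
  rw [Jd_eq hδ, Jd_eq (hδ.trans_le hδ')]
  have h1 := mul_le_mul_of_nonneg_left (hw.Sp_mono hδ hδ' (x - c • η, t)) (sub_nonneg.2 hc1)
  have h2 := mul_le_mul_of_nonneg_left (hw.Sp_mono hδ hδ' (x + (1 - c) • η, t)) hc0
  have h3 := hw.Sm_mono hδ hδ' (x, t)
  have h4 := div_le_div_of_nonneg_left (sub_nonneg.2 (hF x η t)) hδ hδ'
  rw [← neg_sub, neg_div, neg_div] at h4
  linarith

theorem CSQ.continuous_Reg (hw : CSQ w) (hδ : 0 < δ) (c : ℝ) (y₀ : E) :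
    Continuous fun Y : E × E × ℝ => Reg c δ w Y.1 Y.2.1 Y.2.2 y₀ := by
  have h1 := (hw.flowp hδ).1
  have h2 := (hw.flowm hδ).1
  unfold Reg
  fun_prop

theorem CSQ.tendsto_Reg_zero (hw : CSQ w) (c : ℝ) (x η : E) (t : ℝ) :
    Tendsto (fun δ => Reg c δ w x η t 0) (𝓝[>] 0) (𝓝 (Del c w x η t)) := by
  simp only [Reg, Del, add_zero]
  exact (((hw.tendsto_Tp_zero _).const_mul _).add ((hw.tendsto_Tp_zero _).const_mul _)).sub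
    (hw.tendsto_Tm_zero _)

/-- a non-singular contact is a contact: `δ L ≤ Reg - κ‖η‖ → Del - κ‖η‖`. -/
theorem JGe.del_eq (hJ : JGe c κ w x η t L) (hw : CSQ w) (hF : FLe c κ w) :
    Del c w x η t = κ * ‖η‖ := by
  refine le_antisymm (hF x η t) ?_
  have h1 : Tendsto (fun δ : ℝ => L * δ + κ * ‖η‖) (𝓝[>] 0) (𝓝 (L * 0 + κ * ‖η‖)) :=
    tendsto_nhdsWithin_of_tendsto_nhds (Continuous.tendsto (by fun_prop) _)
  rw [mul_zero, zero_add] at h1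
  refine le_of_tendsto_of_tendsto h1 (hw.tendsto_Reg_zero c x η t) ?_
  filter_upwards [self_mem_nhdsWithin] with δ hδ
  have := hJ δ hδ
  rw [Jd, le_div_iff₀ hδ] at this
  linarith

/-- Take the maximisers `ζ₁, ζ₂` at `z₁, z₂`, `ζ̄ = (1-c) • ζ₁ + c • ζ₂`; apply `FLe` to
`(x + ζ̄, η + ζ₂ - ζ₁, t + δ)`; `(1-c)‖ζ₁‖² + c‖ζ₂‖² = ‖ζ̄‖² + c(1-c)‖ζ₂ - ζ₁‖²`, and
`κ u - c(1-c) u²/(2δ) ≤ δκ²/(2c(1-c))`. -/
theorem Reg_le (hw : CSQ w) (hF : FLe c κ w) (hκ : 0 ≤ κ) (hc0 : 0 < c) (hc1 : c < 1) (hδ : 0 < δ) :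
    Reg c δ w x η t y₀ - κ * ‖η‖ ≤
      Tp δ w (x, t) - Tm δ w (x + y₀, t) + δ * κ ^ 2 / (2 * (c * (1 - c))) := by
  obtain ⟨ζ₁, h1⟩ := hw.exists_Tp hδ (x - c • η, t)
  obtain ⟨ζ₂, h2⟩ := hw.exists_Tp hδ (x + (1 - c) • η, t)
  have h3 := hw.2.le_Tp hδ (x, t) ((1 - c) • ζ₁ + c • ζ₂)
  have h4 := hF (x + ((1 - c) • ζ₁ + c • ζ₂)) (η + (ζ₂ - ζ₁)) (t + δ)
  rw [Del, show x + ((1 - c) • ζ₁ + c • ζ₂) - c • (η + (ζ₂ - ζ₁)) = x - c • η + ζ₁ by module,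
    show x + ((1 - c) • ζ₁ + c • ζ₂) + (1 - c) • (η + (ζ₂ - ζ₁)) = x + (1 - c) • η + ζ₂ by module]
    at h4
  have h5 := mul_le_mul_of_nonneg_left (norm_add_le η (ζ₂ - ζ₁)) hκ
  have h6 : ‖(1 - c) • ζ₁ + c • ζ₂‖ ^ 2 =
      (1 - c) * ‖ζ₁‖ ^ 2 + c * ‖ζ₂‖ ^ 2 - c * (1 - c) * ‖ζ₂ - ζ₁‖ ^ 2 := by
    rw [norm_add_sq_real, norm_sub_sq_real, norm_smul, norm_smul, mul_pow, mul_pow, Real.norm_eq_abs,
      Real.norm_eq_abs, sq_abs, sq_abs, real_inner_smul_left, real_inner_smul_right,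
      real_inner_comm]
    ring
  have hc : 0 < c * (1 - c) := mul_pos hc0 (sub_pos.2 hc1)
  have h7 : κ * ‖ζ₂ - ζ₁‖ ≤ δ * κ ^ 2 / (2 * (c * (1 - c))) +
      c * (1 - c) * ‖ζ₂ - ζ₁‖ ^ 2 / (2 * δ) := by
    generalize c * (1 - c) = m at hc
    rw [div_add_div _ _ (by positivity) (by positivity), le_div_iff₀ (by positivity)]
    nlinarith [sq_nonneg (δ * κ - m * ‖ζ₂ - ζ₁‖)]
  rw [h6, sub_div, add_div, mul_div_assoc, mul_div_assoc] at h3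
  rw [Reg, h1, h2]
  dsimp only at h3 ⊢
  linarith

/-- **Pin lemma.** With `Δ = Z - Z₀`, `IsVel.super` gives
`J0 Z - J0 Z₀ ≥ -⟪p + Z₀, Δ⟫ - (3/2)‖Δ‖²`; take `Δ = -(1/3) • (p + Z₀)`. -/
theorem pin {p Z₀ : E} {d e : ℝ} (hw : CSQ w) (hδ : 0 < δ) (hp : IsVel δ w (x + δ • Z₀, t) p)
    (he : 0 ≤ e) (H : ∀ Z : E, J0 c κ δ w x η t Z ≤ J0 c κ δ w x η t Z₀ + d + e * ‖Z - Z₀‖) :
    ‖p + Z₀‖ ^ 2 ≤ 12 * d + 4 * e ^ 2 := by
  have h1 := H (Z₀ + (-(1 / 3) : ℝ) • (p + Z₀))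
  have h2 := hp.super hw hδ (δ • (-(1 / 3) : ℝ) • (p + Z₀))
  obtain ⟨v, hv⟩ : ∃ v, v = p + Z₀ := ⟨_, rfl⟩
  obtain rfl : p = v - Z₀ := by rw [hv, add_sub_cancel_right]
  rw [← hv] at h1 h2 ⊢
  dsimp only at h2
  rw [add_assoc, ← smul_add, norm_smul, norm_smul, real_inner_smul_right, real_inner_smul_right,
    inner_sub_left, real_inner_self_eq_norm_sq, Real.norm_eq_abs, Real.norm_eq_abs, mul_pow, mul_pow,
    sq_abs, sq_abs, sq δ, mul_assoc δ δ, mul_div_cancel_left₀ _ hδ.ne'] at h2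
  rw [J0, J0, Reg, Reg, add_sub_cancel_left, norm_smul, norm_add_sq_real, norm_smul,
    real_inner_smul_right, Real.norm_eq_abs, abs_neg, abs_of_pos (by norm_num)] at h1
  generalize Tm δ w (x + δ • (Z₀ + (-(1 / 3) : ℝ) • v), t) = A at h1 h2
  generalize Tm δ w (x + δ • Z₀, t) = B at h1 h2
  generalize (1 - c) * Tp δ w (x - c • η, t) + c * Tp δ w (x + (1 - c) • η, t) = D at h1
  have h3 : (D - B - κ * ‖η‖) / δ ≤ (D - A - κ * ‖η‖) / δ +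
      (-(1 / 3) * (‖v‖ ^ 2 - ⟪Z₀, v⟫_ℝ) + (-(1 / 3)) ^ 2 * ‖v‖ ^ 2) := by
    rw [div_add' _ _ _ hδ.ne']
    exact div_le_div_of_nonneg_right (by linarith) hδ.le
  nlinarith [sq_nonneg (‖v‖ - 2 * e)]

end R94
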