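import Crest.Agent.R94.Flow0

/-!
# R94/Flow1: the Hopf–Lax flows of continuous functions of subquadratic growth (no PDE)
-/

set_option autoImplicit false
set_option linter.unusedSectionVars false
set_option linter.unusedVariables false

open Set Filter Topology Metric
open scoped InnerProductSpace

namespace R94

variable {E : Type} [NormedAddCommGroup E] [InnerProductSpace ℝ E] [FiniteDimensional ℝ E]

variable {w : E × ℝ → ℝ} {X : E × ℝ} {s s' : ℝ}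

/-- semigroup: `‖η + η'‖²/(2(s+s')) ≤ ‖η‖²/(2s) + ‖η'‖²/(2s')`, equality for the proportional
splitting `η = (s/(s+s')) • ζ`, `η' = (s'/(s+s')) • ζ`. -/
theorem CSQ.Tp_add (hw : CSQ w) (hs : 0 < s) (hs' : 0 < s') (X : E × ℝ) :
    Tp (s + s') w X = Tp s (Tp s' w) X := by
  have hss : 0 < s + s' := add_pos hs hs'
  refine le_antisymm (Tp_le fun ζ => ?_) (Tp_le fun η => sub_le_iff_le_add.2 (Tp_le fun η' => ?_))
  · have h1 := (hw.flowp hs').2.le_Tp hs X ((s / (s + s')) • ζ)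
    have h2 := hw.2.le_Tp hs' (X.1 + (s / (s + s')) • ζ, X.2 + s) ((s' / (s + s')) • ζ)
    have h3 : (s / (s + s')) • ζ + (s' / (s + s')) • ζ = ζ := by
      rw [← add_smul, ← add_div, div_self hss.ne', one_smul]
    have h4 : ‖(s / (s + s')) • ζ‖ ^ 2 / (2 * s) + ‖(s' / (s + s')) • ζ‖ ^ 2 / (2 * s') =
        ‖ζ‖ ^ 2 / (2 * (s + s')) := by
      simp only [norm_smul, mul_pow, Real.norm_eq_abs, sq_abs]
      field_simp
    simp only [add_assoc, h3] at h2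
    linarith
  · have h1 := hw.2.le_Tp hss X (η + η')
    have h2 : ‖η + η'‖ ^ 2 ≤ (‖η‖ + ‖η'‖) ^ 2 := by gcongr; exact norm_add_le _ _
    have h3 : ‖η + η'‖ ^ 2 / (2 * (s + s')) ≤ ‖η‖ ^ 2 / (2 * s) + ‖η'‖ ^ 2 / (2 * s') := by
      refine (div_le_div_of_nonneg_right h2 (by positivity)).trans ?_
      rw [div_add_div _ _ (by positivity) (by positivity),
        div_le_div_iff₀ (by positivity) (by positivity)]
      nlinarith [sq_nonneg (‖η‖ * s' - ‖η'‖ * s)]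
    simp only [add_assoc]
    linarith

theorem CSQ.Tm_add (hw : CSQ w) (hs : 0 < s) (hs' : 0 < s') (X : E × ℝ) :
    Tm (s + s') w X = Tm s (Tm s' w) X := by
  have : R94.rev (Tm s' w) = Tp s' (R94.rev w) := funext fun Y => by
    rw [rev_apply, Tm_eq_rev, neg_neg, neg_neg]
  rw [Tm_eq_rev, Tm_eq_rev (s := s), this, hw.rev.Tp_add hs hs']

/-- any `η` at least as good as `η = 0` is `O(√τ)`. -/
theorem CSQ.opt_small (hw : CSQ w) (X : E × ℝ) : ∃ C : ℝ, 0 ≤ C ∧ ∀ τ : ℝ, 0 < τ → τ ≤ 1 →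
    ∀ η : E, (w (X.1, X.2 + τ) ≤ w (X.1 + η, X.2 + τ) - ‖η‖ ^ 2 / (2 * τ) → ‖η‖ ^ 2 ≤ C * τ) ∧
      (w (X.1 + η, X.2 - τ) + ‖η‖ ^ 2 / (2 * τ) ≤ w (X.1, X.2 - τ) → ‖η‖ ^ 2 ≤ C * τ) := by
  obtain ⟨K, hK⟩ := hw.2 (|X.2| + 1) (1 / 8) (by positivity)
  refine ⟨4 * (2 * |K| + ‖X.1‖ ^ 2), by positivity, fun τ h0 h1 η => ?_⟩
  have key : ∀ t : ℝ, |t| ≤ |X.2| + 1 → ‖η‖ ^ 2 / (2 * τ) ≤ |w (X.1 + η, t)| + |w (X.1, t)| →
      ‖η‖ ^ 2 ≤ 4 * (2 * |K| + ‖X.1‖ ^ 2) * τ := by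
    intro t ht h
    have h2 := hK (X.1 + η, t) ht
    have h3 := hK (X.1, t) ht
    have h4 := flow0_sq X.1 η
    have h5 := le_abs_self K
    have h6 : ‖η‖ ^ 2 / (2 * τ) ≤ 2 * |K| + ‖X.1‖ ^ 2 + ‖η‖ ^ 2 / 4 := by
      simp only at h2 h3
      nlinarith [sq_nonneg ‖X.1‖]
    rw [div_le_iff₀ (by positivity)] at h6
    nlinarith [mul_le_mul_of_nonneg_left h1 (sq_nonneg ‖η‖)]
  refine ⟨fun h => key (X.2 + τ) ?_ ?_, fun h => key (X.2 - τ) ?_ ?_⟩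
  · exact (abs_add_le _ _).trans (by rw [abs_of_pos h0]; linarith)
  · linarith [le_abs_self (w (X.1 + η, X.2 + τ)), neg_abs_le (w (X.1, X.2 + τ))]
  · exact (abs_sub _ _).trans (by rw [abs_of_pos h0]; linarith)
  · linarith [neg_abs_le (w (X.1 + η, X.2 - τ)), le_abs_self (w (X.1, X.2 - τ))]

theorem CSQ.tendsto_Tp_zero (hw : CSQ w) (X : E × ℝ) :
    Tendsto (fun s => Tp s w X) (𝓝[>] 0) (𝓝 (w X)) := by
  obtain ⟨C, hC0, hC⟩ := hw.opt_small X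
  choose! η hη using fun (s : ℝ) (hs : 0 < s) => hw.exists_Tp hs X
  have h0 : ∀ s : ℝ, 0 < s → w (X.1, X.2 + s) ≤ Tp s w X := fun s hs => by
    simpa using hw.2.le_Tp hs X 0
  have hid : Tendsto (fun s : ℝ => s) (𝓝[>] 0) (𝓝 0) := tendsto_nhdsWithin_of_tendsto_nhds tendsto_id
  have h1 : Tendsto η (𝓝[>] 0) (𝓝 0) := by
    have h2 : Tendsto (fun s : ℝ => √(C * s)) (𝓝[>] 0) (𝓝 0) := by
      simpa using (hid.const_mul C).sqrt
    refine squeeze_zero_norm' ?_ h2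
    filter_upwards [Ioc_mem_nhdsGT one_pos] with s hs
    exact Real.le_sqrt_of_sq_le ((hC s hs.1 hs.2 _).1 (hη s hs.1 ▸ h0 s hs.1))
  have h2 : ∀ ζ : ℝ → E, Tendsto ζ (𝓝[>] 0) (𝓝 0) →
      Tendsto (fun s => w (X.1 + ζ s, X.2 + s)) (𝓝[>] 0) (𝓝 (w X)) := fun ζ hζ =>
    (hw.1.tendsto X).comp (by simpa using (hζ.const_add X.1).prodMk_nhds (hid.const_add X.2))
  refine tendsto_of_tendsto_of_tendsto_of_le_of_le' (h2 0 tendsto_const_nhds) (h2 η h1) ?_ ?_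
  · filter_upwards [self_mem_nhdsWithin] with s hs
    simpa using h0 s hs
  · filter_upwards [self_mem_nhdsWithin] with s hs
    have hs' : 0 < s := hs
    rw [hη s hs]
    exact sub_le_self _ (by positivity)

theorem CSQ.tendsto_Tm_zero (hw : CSQ w) (X : E × ℝ) :
    Tendsto (fun s => Tm s w X) (𝓝[>] 0) (𝓝 (w X)) := by
  simpa [Tm_eq_rev] using (hw.rev.tendsto_Tp_zero (-X)).neg

/-- `Tm δ = Tm (δ/2) (Tm (δ/2))`, `exists_Tm` with `η = -(δ/2) • p`. -/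
theorem CSQ.exists_isVel {δ : ℝ} (hw : CSQ w) (hδ : 0 < δ) (X : E × ℝ) : ∃ p : E, IsVel δ w X p := by
  have h2 : 0 < δ / 2 := half_pos hδ
  obtain ⟨η, h⟩ := (hw.flowm h2).exists_Tm h2 X
  rw [← hw.Tm_add h2 h2, add_halves] at h
  refine ⟨-((2 / δ) • η), h.trans ?_⟩
  have h3 : X.1 - (δ / 2) • -((2 / δ) • η) = X.1 + η := by
    rw [smul_neg, smul_smul, sub_neg_eq_add, show δ / 2 * (2 / δ) = 1 by field_simp, one_smul]
  rw [h3, norm_neg, norm_smul, mul_pow, Real.norm_eq_abs, sq_abs]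
  field_simp
  ring

theorem flow1_half {δ : ℝ} (hw : CSQ w) (hδ : 0 < δ) (y y' : E) (t : ℝ) :
    Tm δ w (y, t) ≤ Tm (δ / 2) w (y', t - δ / 2) + ‖y' - y‖ ^ 2 / δ := by
  have h2 : 0 < δ / 2 := half_pos hδ
  have h := (hw.flowm h2).2.Tm_le h2 (y, t) (y' - y)
  rw [← hw.Tm_add h2 h2, add_halves, mul_div_cancel₀ _ two_ne_zero] at h
  simpa using h

/-- `p` is a supergradient: use the same base point `X.1 - (δ/2) • p` for the shifted point. -/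
theorem IsVel.super {δ : ℝ} {p : E} (hp : IsVel δ w X p) (hw : CSQ w) (hδ : 0 < δ) (ζ : E) :
    Tm δ w (X.1 + ζ, X.2) ≤ Tm δ w X + ⟪p, ζ⟫_ℝ + ‖ζ‖ ^ 2 / δ := by
  have h := flow1_half hw hδ (X.1 + ζ) (X.1 - (δ / 2) • p) X.2
  have h1 : X.1 - (δ / 2) • p - (X.1 + ζ) = -((δ / 2) • p + ζ) := by abel
  rw [h1, norm_neg, norm_add_sq_real, norm_smul, mul_pow, Real.norm_eq_abs, sq_abs,
    real_inner_smul_left] at h
  rw [hp]
  refine h.trans_eq ?_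
  field_simp
  ring

/-- general form: the half-step function controls `Tm δ` at every other point. -/
theorem CSQ.Tm_half_le {δ : ℝ} (hw : CSQ w) (hδ : 0 < δ) (y y' : E) (t : ℝ) :
    Tm δ w (y, t) ≤ Tm (δ / 2) w (y', t - δ / 2) + ‖y' - y‖ ^ 2 / δ := by
  exact flow1_half hw hδ y y' t

/-- semiconcavity: use the minimiser at `(x, t)` for both shifted points. -/
theorem CSQ.Tm_midpoint {δ : ℝ} (hw : CSQ w) (hδ : 0 < δ) (x ζ : E) (t : ℝ) :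
    Tm δ w (x + ζ, t) + Tm δ w (x - ζ, t) ≤ 2 * Tm δ w (x, t) + ‖ζ‖ ^ 2 / δ := by
  obtain ⟨η, h⟩ := hw.exists_Tm hδ (x, t)
  have h1 := hw.2.Tm_le hδ (x + ζ, t) (η - ζ)
  have h2 := hw.2.Tm_le hδ (x - ζ, t) (η + ζ)
  have h3 : ‖η - ζ‖ ^ 2 / (2 * δ) + ‖η + ζ‖ ^ 2 / (2 * δ) =
      2 * (‖η‖ ^ 2 / (2 * δ)) + ‖ζ‖ ^ 2 / δ := by
    rw [norm_add_sq_real, norm_sub_sq_real]
    field_simp
    ring
  simp only [add_add_sub_cancel, sub_add_add_cancel] at h h1 h2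
  linarith

end R94
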