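import Crest.Agent.R94.Hold
import Crest.Agent.R94.Flow1

/-!
# R94/Comp0: ultrafilter limits
We use an arbitrary ultrafilter `U` on `ℕ` (users take `hyperfilter ℕ`, which is `≤ atTop`).
-/

set_option autoImplicit false
set_option linter.unusedSectionVars false
set_option linter.unusedVariables false

open Set Filter Topology Metric
open scoped InnerProductSpace

namespace R94

variable {E : Type} [NormedAddCommGroup E] [InnerProductSpace ℝ E] [FiniteDimensional ℝ E]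

variable {U : Ultrafilter ℕ} {W : ℕ → E × ℝ → ℝ} {v : E × ℝ → ℝ} {O : Set (E × ℝ)}

/-- `IsCompact.ultrafilter_le_nhds` for the closed ball and `Ultrafilter.map`. -/
theorem exists_ulim {F : Type} [NormedAddCommGroup F] [ProperSpace F] (U : Ultrafilter ℕ)
    {x : ℕ → F} {M : ℝ} (h : ∀ᶠ n in (U : Filter ℕ), ‖x n‖ ≤ M) :
    ∃ y : F, ‖y‖ ≤ M ∧ Tendsto x U (𝓝 y) := by
  obtain ⟨y, hy, h1⟩ := (isCompact_closedBall (0 : F) M).ultrafilter_le_nhds (U.map x)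
    (by
      rw [le_principal_iff, Ultrafilter.coe_map, mem_map]
      exact h.mono fun n hn => mem_closedBall_zero_iff.2 hn)
  exact ⟨y, mem_closedBall_zero_iff.1 hy, h1⟩

/-- evaluation at moving points (`TendstoLocallyUniformlyOn.tendsto_comp`). -/
theorem tendsto_moving {ι : Type} {l : Filter ι} {W : ι → E × ℝ → ℝ}
    (ht : TendstoLocallyUniformlyOn W v l O) (hO : IsOpen O) (hv : ContinuousOn v O)
    {X : ι → E × ℝ} {X' : E × ℝ} (hX' : X' ∈ O) (hX : Tendsto X l (𝓝 X')) :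
    Tendsto (fun n => W n (X n)) l (𝓝 (v X')) := by
  refine ht.tendsto_comp (hv X' hX') hX' ?_
  rwa [hO.nhdsWithin_eq hX']

/-- **Arzelà–Ascoli along an ultrafilter.** Define `v X` as the ultralimit of `W n X` (bounded
eventually). On each ball the Hölder bound passes to `v`; a finite `ε`-net of the ball gives
uniform convergence there; `IsSol.of_tendsto`. -/
theorem comp0 (U : Ultrafilter ℕ) (W : ℕ → E × ℝ → ℝ) (O : Set (E × ℝ))
    (H : ∀ X ∈ O, ∃ r β L M : ℝ, 0 < r ∧ 0 < β ∧ ball X r ⊆ O ∧ ∀ᶠ n in (U : Filter ℕ),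
      IsSol (ball X r) (W n) ∧ HolOn β L (ball X r) (W n) ∧ |W n X| ≤ M) :
    ∃ v : E × ℝ → ℝ, IsSol O v ∧ TendstoLocallyUniformlyOn W v U O := by
  have h1 : ∀ X, ∃ y : ℝ, X ∈ O → Tendsto (fun n => W n X) U (𝓝 y) := by
    intro X
    by_cases hX : X ∈ O
    · obtain ⟨r, β, L, M, -, -, -, h⟩ := H X hX
      obtain ⟨y, -, hy⟩ := exists_ulim U (x := fun n => W n X) (M := M) (h.mono fun n hn => hn.2.2)
      exact ⟨y, fun _ => hy⟩
    · exact ⟨0, fun h => absurd h hX⟩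
  choose v hv using h1
  have ht : TendstoLocallyUniformlyOn W v U O := by
    rw [Metric.tendstoLocallyUniformlyOn_iff]
    intro ε hε X hX
    obtain ⟨r, β, L, M, hr, hβ, hO, h⟩ := H X hX
    have hH : HolOn β L (ball X r) v :=
      HolOn.of_tendsto (h.mono fun n hn => hn.2.1) fun Y hY => hv Y (hO hY)
    have hc : Continuous fun Y : E × ℝ => L * ‖Y - X‖ ^ β :=
      continuous_const.mul ((continuous_id.sub continuous_const).norm.rpow_const fun _ => Or.inr hβ.le)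
    have h2 : ∀ᶠ Y in 𝓝 X, L * ‖Y - X‖ ^ β < ε / 3 :=
      hc.continuousAt.eventually (gt_mem_nhds (by
        simp only [sub_self, norm_zero, Real.zero_rpow hβ.ne', mul_zero]; positivity))
    refine ⟨ball X r ∩ {Y | L * ‖Y - X‖ ^ β < ε / 3},
      mem_nhdsWithin_of_mem_nhds (inter_mem (ball_mem_nhds X hr) h2), ?_⟩
    filter_upwards [h, (Metric.tendsto_nhds.1 (hv X hX)) (ε / 3) (by positivity)] with n hn h3 Y hY
    have h4 := abs_le.1 (hH Y hY.1 X (mem_ball_self hr))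
    have h5 := abs_le.1 (hn.2.1 Y hY.1 X (mem_ball_self hr))
    have h6 : L * ‖Y - X‖ ^ β < ε / 3 := hY.2
    rw [Real.dist_eq, abs_lt] at h3 ⊢
    constructor <;> linarith [h3.1, h3.2, h4.1, h4.2, h5.1, h5.2]
  refine ⟨v, IsSol.of_tendsto (fun X hX => ?_) ht, ht⟩
  obtain ⟨r, β, L, M, hr, -, hO, h⟩ := H X hX
  exact ⟨r, hr, hO, h.mono fun n hn => hn.1⟩

theorem comp0_quad {a : ℝ} (ha : 0 < a) (p q : ℝ) : ∃ R : ℝ, ∀ t, R ≤ t → p * t + q ≤ a * t ^ 2 := by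
  refine ⟨max 1 ((|p| + |q|) / a), fun t ht => ?_⟩
  have h1 : 1 ≤ t := (le_max_left _ _).trans ht
  have h2 : |p| + |q| ≤ t * a := (div_le_iff₀ ha).1 ((le_max_right _ _).trans ht)
  have h3 := le_abs_self p
  have h4 := le_abs_self q
  have h5 := abs_nonneg q
  nlinarith

/-- **Persistence of flatness.** Choose `R` so that for `‖η‖ ≥ R` the growth bound alone gives the
inequality (`K + Λ‖η + σ • b‖² + ‖b‖‖η‖ + |h + ‖b‖²/2| ρ ≤ ‖η‖²/ρ`, as `Λρ < 1`; `lam ≥ 0` by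
`CFw.nonneg`); on the compact set `‖η‖ ≤ R`, `|σ| ≤ ρ` use uniform convergence. -/
theorem persist {ι : Type} {l : Filter ι} {W : ι → E × ℝ → ℝ} {On : ι → Set (E × ℝ)}
    {ρ lam K Λ h ε : ℝ} {b : E} (hρ : 0 < ρ) (hε : 0 < ε) (hΛ : Λ * ρ < 1) (hO : IsOpen O)
    (hOρ : ∀ X : E × ℝ, |X.2| ≤ ρ → X ∈ O) (ht : TendstoLocallyUniformlyOn W v l O)
    (hg : ∀ᶠ n in l, ∀ X ∈ On n, |X.2| ≤ ρ → |W n X| ≤ K + Λ * ‖X.1‖ ^ 2)
    (h0 : ∀ n, W n 0 = 0) (hv0 : v 0 = 0) (H : CFw univ v 0 ρ lam b h) :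
    ∀ᶠ n in l, CFw (On n) (W n) 0 ρ (lam + ε) b h := by
  have hlam : 0 ≤ lam := H.nonneg hρ (mem_univ _)
  obtain ⟨Λ', hΛ'⟩ : ∃ x : ℝ, x = max Λ 0 := ⟨_, rfl⟩
  have h1 : 0 ≤ Λ' := hΛ' ▸ le_max_right _ _
  have h2 : Λ ≤ Λ' := hΛ' ▸ le_max_left _ _
  have h3 : 0 < 1 / ρ - Λ' := by
    rw [sub_pos, hΛ', max_lt_iff, lt_div_iff₀ hρ]
    exact ⟨hΛ, by positivity⟩
  obtain ⟨R, hR⟩ := comp0_quad h3 (2 * Λ' * (ρ * ‖b‖) + ‖b‖)
    (K + Λ' * (ρ * ‖b‖) ^ 2 + |h + ‖b‖ ^ 2 / 2| * ρ)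
  have hC : IsCompact (closedBall (0 : E) (R + ρ * ‖b‖) ×ˢ closedBall (0 : ℝ) ρ) :=
    (isCompact_closedBall _ _).prod (isCompact_closedBall _ _)
  have hu := (tendstoLocallyUniformlyOn_iff_tendstoUniformlyOn_of_compact hC).1
    (ht.mono fun X hX => hOρ X (by simpa using hX.2))
  filter_upwards [hg, Metric.tendstoUniformlyOn_iff.1 hu (ε * ρ) (by positivity)] with n g1 g2 η σ hσ hm
  have hn : ‖(0 : E × ℝ).1 + η + σ • b‖ ≤ ‖η‖ + ρ * ‖b‖ := by
    rw [Prod.fst_zero, zero_add]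
    refine (norm_add_le _ _).trans ?_
    rw [norm_smul, Real.norm_eq_abs]
    gcongr
  have hσ' : |(0 : E × ℝ).2 + σ| ≤ ρ := by simpa using hσ
  rcases le_total ‖η‖ R with h4 | h4
  · have h5 := g2 ((0 : E × ℝ).1 + η + σ • b, (0 : E × ℝ).2 + σ)
      ⟨mem_closedBall_zero_iff.2 (by linarith), mem_closedBall_zero_iff.2 hσ'⟩
    have h6 := abs_le.1 (H η σ hσ (mem_univ _))
    rw [Real.dist_eq, abs_lt] at h5
    rw [hv0] at h6
    rw [h0 n, abs_le]
    constructor <;> linarith [h5.1, h5.2, h6.1, h6.2]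
  · have h5 := abs_le.1 (g1 _ hm hσ')
    have h6 := hR _ h4
    have h7 : Λ * ‖(0 : E × ℝ).1 + η + σ • b‖ ^ 2 ≤ Λ' * (‖η‖ + ρ * ‖b‖) ^ 2 :=
      mul_le_mul h2 (pow_le_pow_left₀ (norm_nonneg _) hn 2) (by positivity) h1
    have h8 := abs_le.1 (abs_real_inner_le_norm b η)
    have h9 : |(h + ‖b‖ ^ 2 / 2) * σ| ≤ |h + ‖b‖ ^ 2 / 2| * ρ := by
      rw [abs_mul]; gcongr
    have h10 := abs_le.1 h9
    have h11 : 0 ≤ (lam + ε) * ρ := by positivity
    have h12 : ‖η‖ ^ 2 / ρ = 1 / ρ * ‖η‖ ^ 2 := by ring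
    dsimp only at h5
    rw [h0 n, abs_le, h12]
    constructor <;> nlinarith [h5.1, h5.2, h8.1, h8.2, h10.1, h10.2]

/-- **Convergence of the flows.** The growth bound passes to `v` at time `X'.2 + s`. Choose `R`
with all competitors `‖η‖ ≥ R` worse than `η = 0`, uniformly in `n`; on `‖η‖ ≤ R` use uniform
convergence on a compact neighbourhood of `closedBall X'.1 R ×ˢ {X'.2 + s}` and uniform continuity
of `v` there. -/
theorem tendsto_Tp {ι : Type} {l : Filter ι} [l.NeBot] {W : ι → E × ℝ → ℝ} {X : ι → E × ℝ}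
    {X' : E × ℝ} {s K Λ : ℝ} (hs : 0 < s) (hΛ : 2 * Λ * s < 1)
    (ht : TendstoLocallyUniformly W v l) (hv : Continuous v) (hX : Tendsto X l (𝓝 X'))
    (hg : ∀ᶠ n in l, ∀ Y : E × ℝ, |Y.2| ≤ |X'.2| + s + 1 → |W n Y| ≤ K + Λ * ‖Y.1‖ ^ 2) :
    Tendsto (fun n => Tp s (W n) (X n)) l (𝓝 (Tp s v X')) := by
  obtain ⟨Λ', hΛ'⟩ : ∃ x : ℝ, x = max Λ 0 := ⟨_, rfl⟩
  have h1 : 0 ≤ Λ' := hΛ' ▸ le_max_right _ _
  have h2 : Λ ≤ Λ' := hΛ' ▸ le_max_left _ _
  have h3 : 0 < 1 / (2 * s) - Λ' := by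
    rw [sub_pos, hΛ', max_lt_iff, lt_div_iff₀ (by positivity)]
    exact ⟨by linarith, by positivity⟩
  have hgv : ∀ Y : E × ℝ, |Y.2| ≤ |X'.2| + s + 1 → |v Y| ≤ K + Λ * ‖Y.1‖ ^ 2 := fun Y hY =>
    le_of_tendsto (ht.tendsto_comp hv.continuousAt tendsto_const_nhds).abs (hg.mono fun n hn => hn Y hY)
  have htime : ∀ Z : E × ℝ, dist Z X' ≤ 1 → |Z.2 + s| ≤ |X'.2| + s + 1 := by
    intro Z hZ
    have h4 : dist Z.2 X'.2 ≤ 1 := (le_max_right (dist Z.1 X'.1) _).trans hZ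
    rw [Real.dist_eq, abs_le] at h4
    rw [abs_le]
    constructor <;> linarith [h4.1, h4.2, le_abs_self X'.2, neg_abs_le X'.2]
  have hbv : BddAbove (range fun η : E => v (X'.1 + η, X'.2 + s) - ‖η‖ ^ 2 / (2 * s)) :=
    bddAbove_Tp hs hΛ fun y => (le_abs_self _).trans (hgv (y, X'.2 + s) (htime X' (by simp)))
  have hX1 : ∀ᶠ n in l, dist (X n) X' < 1 := Metric.tendsto_nhds.1 hX 1 one_pos
  rw [tendsto_order]
  constructor
  · intro a ha
    obtain ⟨η, hη⟩ := exists_lt_of_lt_ciSup ha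
    have h4 : Tendsto (fun n => X n + (η, s)) l (𝓝 (X' + (η, s))) := hX.add_const _
    have h5 := (ht.tendsto_comp hv.continuousAt h4).sub_const (‖η‖ ^ 2 / (2 * s))
    filter_upwards [hg, hX1, h5.eventually (lt_mem_nhds hη)] with n g1 g2 g3
    exact g3.trans_le (le_ciSup (bddAbove_Tp hs hΛ fun y =>
      (le_abs_self _).trans (g1 (y, (X n).2 + s) (htime _ g2.le))) η)
  · intro a ha
    obtain ⟨T, hT⟩ : ∃ T, T = Tp s v X' := ⟨_, rfl⟩
    have hle : ∀ η : E, v (X'.1 + η, X'.2 + s) - ‖η‖ ^ 2 / (2 * s) ≤ T := fun η =>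
      hT ▸ le_ciSup hbv η
    rw [← hT] at ha
    obtain ⟨R, hR⟩ := comp0_quad h3 (2 * Λ' * (‖X'.1‖ + 1)) (K + Λ' * (‖X'.1‖ + 1) ^ 2 - T)
    have hC : IsCompact (closedBall (X' + (0, s)) (R + 1)) := isCompact_closedBall _ _
    have hu := (tendstoLocallyUniformlyOn_iff_tendstoUniformlyOn_of_compact hC).1
      ht.tendstoLocallyUniformlyOn
    have hε : 0 < (a - T) / 3 := by linarith
    obtain ⟨δ, hδ, hδ'⟩ := Metric.uniformContinuousOn_iff.1
      (hC.uniformContinuousOn_of_continuous hv.continuousOn) _ hε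
    filter_upwards [hg, hX1, Metric.tendstoUniformlyOn_iff.1 hu _ hε, Metric.tendsto_nhds.1 hX δ hδ]
      with n g1 g2 g3 g4
    refine lt_of_le_of_lt (Tp_le (B := T + 2 * ((a - T) / 3)) fun η => ?_) (by linarith)
    rcases le_total ‖η‖ R with h4 | h4
    · have m1 : dist (X' + (η, s)) (X' + (0, s)) ≤ R := by
        rw [dist_add_left, Prod.dist_eq, dist_self, dist_zero_right]
        exact max_le h4 ((norm_nonneg _).trans h4)
      have m2 : dist (X n + (η, s)) (X' + (η, s)) = dist (X n) X' := dist_add_right _ _ _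
      have m3 : X n + (η, s) ∈ closedBall (X' + (0, s)) (R + 1) :=
        (dist_triangle _ (X' + (η, s)) _).trans (by linarith)
      have m4 : X' + (η, s) ∈ closedBall (X' + (0, s)) (R + 1) := m1.trans (by linarith)
      have h5 := g3 _ m3
      have h6 := hδ' _ m3 _ m4 (m2 ▸ g4)
      have h7 := hle η
      rw [Real.dist_eq, abs_lt] at h5 h6
      change W n (X n + (η, s)) - _ ≤ _
      change v (X' + (η, s)) - _ ≤ _ at h7
      linarith [h5.1, h6.2]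
    · have h5 := (le_abs_self _).trans (g1 ((X n).1 + η, (X n).2 + s) (htime _ g2.le))
      have h6 := hR _ h4
      have h7 : ‖(X n).1‖ ≤ ‖X'.1‖ + 1 := by
        have h8 : dist (X n).1 X'.1 ≤ 1 := (le_max_left _ (dist (X n).2 X'.2)).trans g2.le
        rw [dist_eq_norm] at h8
        linarith [norm_sub_norm_le (X n).1 X'.1]
      have h8 : ‖(X n).1 + η‖ ≤ ‖X'.1‖ + 1 + ‖η‖ := (norm_add_le _ _).trans (by linarith)
      have h9 : Λ * ‖(X n).1 + η‖ ^ 2 ≤ Λ' * (‖X'.1‖ + 1 + ‖η‖) ^ 2 :=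
        mul_le_mul h2 (pow_le_pow_left₀ (norm_nonneg _) h8 2) (by positivity) h1
      have h10 : ‖η‖ ^ 2 / (2 * s) = 1 / (2 * s) * ‖η‖ ^ 2 := by ring
      dsimp only at h5
      rw [h10]
      nlinarith

theorem tendsto_Tm {ι : Type} {l : Filter ι} [l.NeBot] {W : ι → E × ℝ → ℝ} {X : ι → E × ℝ}
    {X' : E × ℝ} {s K Λ : ℝ} (hs : 0 < s) (hΛ : 2 * Λ * s < 1)
    (ht : TendstoLocallyUniformly W v l) (hv : Continuous v) (hX : Tendsto X l (𝓝 X'))
    (hg : ∀ᶠ n in l, ∀ Y : E × ℝ, |Y.2| ≤ |X'.2| + s + 1 → |W n Y| ≤ K + Λ * ‖Y.1‖ ^ 2) :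
    Tendsto (fun n => Tm s (W n) (X n)) l (𝓝 (Tm s v X')) := by
  simp only [Tm_eq_rev]
  refine (tendsto_Tp (K := K) (W := fun n => rev (W n)) (v := rev v) hs hΛ ?_ ?_ hX.neg ?_).neg
  · exact uniformContinuous_neg.comp_tendstoLocallyUniformly (ht.comp _ continuous_neg)
  · exact (hv.comp continuous_neg).neg
  · refine hg.mono fun n hn Y hY => ?_
    have := hn (-Y) (by simpa using hY)
    simpa [rev] using this

end R94
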