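import Crest.Agent.R94.Comp0

/-!
# R94/CompG: compactness for families with a flatness gauge on exhausting domains
-/

set_option autoImplicit false
set_option linter.unusedSectionVars false
set_option linter.unusedVariables false

open Set Filter Topology Metric
open scoped InnerProductSpace

namespace R94

variable {E : Type} [NormedAddCommGroup E] [InnerProductSpace ℝ E] [FiniteDimensional ℝ E]

theorem compG_mem {X : E × ℝ} {η : E} {σ R : ℝ} (h1 : ‖X‖ + ‖η‖ < R) (h2 : ‖X‖ + |σ| < R) :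
    (X.1 + η, X.2 + σ) ∈ ball (0 : E × ℝ) R := by
  rw [mem_ball_zero_iff, Prod.norm_def, max_lt_iff]
  refine ⟨(norm_add_le _ _).trans_lt ?_, (norm_add_le _ _).trans_lt ?_⟩
  · linarith [norm_fst_le X]
  · rw [Real.norm_eq_abs σ]
    linarith [norm_snd_le X]

theorem compG_growth {U : Filter ℕ} {W : ℕ → E × ℝ → ℝ} {On : ℕ → Set (E × ℝ)} {G : ℝ → ℝ} {Λ : ℝ}
    (hO : ∀ R : ℝ, ∀ᶠ n in U, ball (0 : E × ℝ) R ⊆ On n)
    (h0 : ∀ n, W n 0 = 0) (hN : ∀ᶠ n in U, CFw (On n) (W n) 0 1 Λ 0 0)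
    (hG : ∀ R ρ ε : ℝ, 0 < ρ → 0 < ε → ∀ᶠ n in U, ∀ X ∈ ball (0 : E × ℝ) R,
      Fl (On n) (W n) X ρ (G ρ + ε)) (T ε : ℝ) (hε : 0 < ε) :
    ∃ K : ℝ, ∀ᶠ n in U, ∀ X ∈ On n, |X.2| ≤ T → |W n X| ≤ K + ε * ‖X.1‖ ^ 2 := by
  obtain ⟨ρ, h1, h2, h3⟩ : ∃ ρ : ℝ, 1 ≤ ρ ∧ T ≤ ρ ∧ 3 / ε ≤ ρ :=
    ⟨max 1 (max T (3 / ε)), le_max_left _ _, (le_max_left _ _).trans (le_max_right _ _),
      (le_max_right _ _).trans (le_max_right _ _)⟩
  have hρ : 0 < ρ := by linarith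
  obtain ⟨D, hD⟩ : ∃ D : ℝ, D = |Λ * 1 + (G ρ + 1) * ρ| + 1 := ⟨_, rfl⟩
  have hD0 : 0 < D := hD ▸ by positivity
  refine ⟨(G ρ + 1 + 15 * D + 36 * D) * ρ, ?_⟩
  filter_upwards [hO (√(D * 1) + 2), hN, hG 1 ρ 1 hρ one_pos] with n g1 g2 g3 X hX hT
  obtain ⟨b, h, H⟩ := g3 0 (mem_ball_self one_pos)
  have hs := Real.sqrt_nonneg (D * 1)
  obtain ⟨c1, c2⟩ := g2.compare H one_pos le_rfl h1 hD0
    (by linarith [le_abs_self (Λ * 1 + (G ρ + 1) * ρ)])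
    (fun η hη => g1 (by
      have := compG_mem (X := (0 : E × ℝ)) (η := η) (σ := 0) (R := √(D * 1) + 2)
        (by rw [norm_zero]; linarith) (by rw [norm_zero, abs_zero]; linarith)
      rwa [add_zero] at this))
    (g1 (compG_mem (by rw [smul_zero, norm_zero, norm_zero]; linarith)
      (by rw [norm_zero, abs_one]; linarith)))
  rw [zero_sub, norm_neg, div_one] at c1
  rw [zero_sub, abs_neg, div_one] at c2
  have h4 := H.growth hρ hX (by rw [Prod.snd_zero, sub_zero]; linarith)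
  rw [h0, sub_zero, Prod.fst_zero, sub_zero] at h4
  refine h4.trans (add_le_add (mul_le_mul_of_nonneg_right (by linarith) hρ.le) ?_)
  rw [div_le_iff₀ hε] at h3
  rw [div_le_iff₀ hρ]
  nlinarith [sq_nonneg ‖X.1‖]

theorem compG_limit {U : Filter ℕ} [U.NeBot] {W : ℕ → E × ℝ → ℝ} {On : ℕ → Set (E × ℝ)}
    {v : E × ℝ → ℝ} (hO : ∀ R : ℝ, ∀ᶠ n in U, ball (0 : E × ℝ) R ⊆ On n)
    (ht : TendstoLocallyUniformly W v U) (hv : Continuous v) {X : E × ℝ} {ρ lam : ℝ}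
    {b : ℕ → E} {h : ℕ → ℝ} {b' : E} {h' : ℝ} (hb : Tendsto b U (𝓝 b'))
    (hh : Tendsto h U (𝓝 h')) (H : ∀ᶠ n in U, CFw (On n) (W n) X ρ lam (b n) (h n)) :
    CFw univ v X ρ lam b' h' := by
  intro η σ hσ _
  have h1 : Tendsto (fun n => ((X.1 + η + σ • b n, X.2 + σ) : E × ℝ)) U
      (𝓝 (X.1 + η + σ • b', X.2 + σ)) :=
    ((hb.const_smul σ).const_add _).prodMk_nhds tendsto_const_nhds
  have h2 := ht.tendsto_comp hv.continuousAt h1
  have h3 : Tendsto (fun n => W n X) U (𝓝 (v X)) :=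
    ht.tendsto_comp hv.continuousAt tendsto_const_nhds
  have h4 := (((h2.sub h3).sub (hb.inner (𝕜 := ℝ) (tendsto_const_nhds (x := η)))).sub
    ((hh.add ((hb.norm.pow 2).div_const 2)).mul_const σ)).abs
  refine le_of_tendsto h4 ?_
  filter_upwards [H, hO (‖((X.1 + η + σ • b', X.2 + σ) : E × ℝ)‖ + 1),
    h1.eventually (isOpen_ball.mem_nhds (mem_ball_zero_iff.2 (lt_add_one _)))] with n g1 g2 g3
  exact g1 η σ hσ (g2 g3)

/-- Growth: for `T, ε` take `ρ ≥ max 1 (max T (3/ε))`; the frame at `0` of scale `ρ`, constant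
`G ρ + 1`, is bounded independently of `n` (`CFw.compare` with the zero frame at scale 1; the test
points lie in `On n` eventually); `CFw.growth`. Hence local bounds; `hol_of_gauge` with `γ = 7/8`
gives equi-Hölder; `comp0` with `O = univ`. Limit gauge at `(X, ρ)`: for `ε > 0` the frames of
`W n` are bounded (`norm_b_le`, `abs_h_le` with the local bounds), take their ultralimit
(`exists_ulim`), pass to the limit in the inequality with `tendsto_moving`, and finish with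
`fl_of_forall_eps`. -/
theorem compG (U : Ultrafilter ℕ) (W : ℕ → E × ℝ → ℝ) (On : ℕ → Set (E × ℝ)) (G : ℝ → ℝ) (Λ : ℝ)
    (hO : ∀ R : ℝ, ∀ᶠ n in (U : Filter ℕ), ball (0 : E × ℝ) R ⊆ On n)
    (hsol : ∀ᶠ n in (U : Filter ℕ), IsSol (On n) (W n))
    (h0 : ∀ n, W n 0 = 0) (hN : ∀ᶠ n in (U : Filter ℕ), CFw (On n) (W n) 0 1 Λ 0 0)
    (hG : ∀ R ρ ε : ℝ, 0 < ρ → 0 < ε → ∀ᶠ n in (U : Filter ℕ), ∀ X ∈ ball (0 : E × ℝ) R,
      Fl (On n) (W n) X ρ (G ρ + ε))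
    (hH : ∀ R : ℝ, ∃ C : ℝ, 0 ≤ C ∧ ∀ᶠ n in (U : Filter ℕ), ∀ X ∈ ball (0 : E × ℝ) R, ∀ ρ : ℝ,
      0 < ρ → ρ ≤ 1 → Fl (On n) (W n) X ρ (C * ρ ^ (-(7 / 8) : ℝ))) :
    ∃ v : E × ℝ → ℝ, IsSol univ v ∧ TendstoLocallyUniformly W v U ∧ Nrm Λ v ∧
      (∀ (X : E × ℝ) (ρ : ℝ), 0 < ρ → Fl univ v X ρ (G ρ)) ∧
      ∀ T ε : ℝ, 0 < ε → ∃ K : ℝ, ∀ᶠ n in (U : Filter ℕ), ∀ X ∈ On n, |X.2| ≤ T →
        |W n X| ≤ K + ε * ‖X.1‖ ^ 2 := by
  have hgr := compG_growth hO h0 hN hG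
  have hloc : ∀ R : ℝ, ∃ M : ℝ, ∀ᶠ n in (U : Filter ℕ), ∀ X ∈ ball (0 : E × ℝ) R,
      X ∈ On n ∧ |W n X| ≤ M := by
    intro R
    obtain ⟨K, hK⟩ := hgr R 1 one_pos
    refine ⟨K + R ^ 2, ?_⟩
    filter_upwards [hK, hO R] with n g1 g2 X hX
    have h1 := mem_ball_zero_iff.1 hX
    refine ⟨g2 hX, (g1 X (g2 hX) ((norm_snd_le X).trans h1.le)).trans ?_⟩
    have h2 := pow_le_pow_left₀ (norm_nonneg _) ((norm_fst_le X).trans h1.le) 2
    linarith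
  obtain ⟨v, hv, ht⟩ := comp0 U W univ fun X _ => by
    obtain ⟨M, hM⟩ := hloc (‖X‖ + 2 * 1)
    obtain ⟨C, hC, hC'⟩ := hH (‖X‖ + 2 * 1)
    obtain ⟨L, -, hL⟩ := hol_of_gauge (E := E) (γ := 7 / 8) (M := M) (by norm_num) (by norm_num) hC
      one_pos
    have hsub : ball X (2 * 1) ⊆ ball (0 : E × ℝ) (‖X‖ + 2 * 1) :=
      ball_subset_ball' (by rw [dist_zero_right]; linarith)
    have hsub' : ball X 1 ⊆ ball X (2 * 1) := ball_subset_ball (by norm_num)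
    refine ⟨1, (1 - 7 / 8) / 2, L, M, one_pos, by norm_num, subset_univ _, ?_⟩
    filter_upwards [hM, hC', hsol] with n g1 g2 g3
    exact ⟨g3.mono fun Y hY => (g1 Y (hsub (hsub' hY))).1,
      hL (On n) (W n) X (fun Y hY => (g1 Y (hsub hY)).1) (fun Y hY => (g1 Y (hsub hY)).2)
        fun Y hY => g2 Y (hsub (hsub' hY)),
      (g1 X (hsub (mem_ball_self (by norm_num)))).2⟩
  rw [tendstoLocallyUniformlyOn_univ] at ht
  have hc : Continuous v := continuousOn_univ.1 hv.1.1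
  refine ⟨v, hv, ht, ⟨?_, compG_limit hO ht hc tendsto_const_nhds tendsto_const_nhds hN⟩,
    fun X ρ hρ => fl_of_forall_eps hρ fun ε hε => ?_, hgr⟩
  · have h1 : Tendsto (fun n => W n 0) U (𝓝 (v 0)) :=
      ht.tendsto_comp hc.continuousAt tendsto_const_nhds
    simp only [h0] at h1
    exact tendsto_nhds_unique h1 tendsto_const_nhds
  · have h1 : ∀ n, ∃ (b : E) (h : ℝ), Fl (On n) (W n) X ρ (G ρ + ε) →
        CFw (On n) (W n) X ρ (G ρ + ε) b h := by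
      intro n
      by_cases h2 : Fl (On n) (W n) X ρ (G ρ + ε)
      · obtain ⟨b, h, H⟩ := h2
        exact ⟨b, h, fun _ => H⟩
      · exact ⟨0, 0, fun h3 => absurd h3 h2⟩
    choose b h hbh using h1
    have h2 : ∀ᶠ n in (U : Filter ℕ), CFw (On n) (W n) X ρ (G ρ + ε) (b n) (h n) :=
      (hG (‖X‖ + 1) ρ ε hρ hε).mono fun n hn => hbh n (hn X (mem_ball_zero_iff.2 (lt_add_one _)))
    have hs := Real.sqrt_pos.2 hρ
    obtain ⟨M, hM⟩ := hloc (‖X‖ + √ρ + 1)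
    obtain ⟨B, hB⟩ : ∃ B : ℝ, B = (2 * M + (G ρ + ε) * ρ + 1) / √ρ := ⟨_, rfl⟩
    have h3 : ∀ᶠ n in (U : Filter ℕ), ‖b n‖ ≤ B := by
      filter_upwards [h2, hM] with n g1 g2
      rw [hB, le_div_iff₀ hs]
      refine g1.norm_b_le hρ fun η hη => ?_
      have m1 := compG_mem (X := X) (η := η) (σ := 0) (R := ‖X‖ + √ρ + 1) (by linarith)
        (by rw [abs_zero]; linarith)
      rw [add_zero] at m1
      have m2 := g2 _ m1
      have m3 := g2 X (mem_ball_zero_iff.2 (by linarith))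
      exact ⟨m2.1, (abs_sub _ _).trans (by linarith [m2.2, m3.2])⟩
    obtain ⟨M', hM'⟩ := hloc (‖X‖ + ρ * B + ρ + 1)
    have h4 : ∀ᶠ n in (U : Filter ℕ), ‖h n‖ ≤ (2 * M' + (G ρ + ε) * ρ) / ρ + B ^ 2 / 2 := by
      filter_upwards [h2, h3, hM'] with n g1 g2 g3
      have m0 : ρ * ‖b n‖ ≤ ρ * B := mul_le_mul_of_nonneg_left g2 hρ.le
      have m0' : 0 ≤ ρ * ‖b n‖ := by positivity
      have m1 := compG_mem (X := X) (η := ρ • b n) (σ := ρ) (R := ‖X‖ + ρ * B + ρ + 1)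
        (by rw [norm_smul, Real.norm_of_nonneg hρ.le]; linarith) (by rw [abs_of_pos hρ]; linarith)
      have m2 := g3 _ m1
      have m3 := g3 X (mem_ball_zero_iff.2 (by linarith))
      have m4 := g1.abs_h_le (M := 2 * M') hρ m2.1 ((abs_sub _ _).trans (by linarith [m2.2, m3.2]))
      rw [← le_div_iff₀ hρ, abs_le] at m4
      have m5 := pow_le_pow_left₀ (norm_nonneg _) g2 2
      rw [Real.norm_eq_abs, abs_le]
      constructor <;> nlinarith [m4.1, m4.2, sq_nonneg ‖b n‖]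
    obtain ⟨b', -, hb'⟩ := exists_ulim U h3
    obtain ⟨h', -, hh'⟩ := exists_ulim U h4
    exact ⟨b', h', compG_limit hO ht hc hb' hh' h2⟩

end R94
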