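import Crest.Agent.R94.Visc

/-!
# R94/Cone: comparison with cones
Key identity (`t > 0`, `t + σ > 0`, `q = t⁻¹ • y`):
`‖y + η‖² / (2 (t + σ)) = ‖y‖²/(2t) + ⟪q, η⟫ - ‖q‖² σ / 2 + ‖η - σ • q‖² / (2 (t + σ))`.
-/

set_option autoImplicit false
set_option linter.unusedSectionVars false
set_option linter.unusedVariables false

open Set Filter Topology Metric
open scoped InnerProductSpace

namespace R94

variable {E : Type} [NormedAddCommGroup E] [InnerProductSpace ℝ E] [FiniteDimensional ℝ E]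

variable {w : E × ℝ → ℝ} {O : Set (E × ℝ)}

theorem cone_key (q η : E) {τ σ : ℝ} (hτ : 0 < τ) (hσ : 0 < τ + σ) :
    ‖τ • q + η‖ ^ 2 / (2 * (τ + σ)) =
      ‖τ • q‖ ^ 2 / (2 * τ) + ⟪q, η⟫_ℝ - ‖q‖ ^ 2 / 2 * σ + ‖η - σ • q‖ ^ 2 / (2 * (τ + σ)) := by
  rw [norm_add_sq_real, norm_sub_sq_real, norm_smul, norm_smul, real_inner_smul_left,
    real_inner_smul_right, real_inner_comm q η, mul_pow, mul_pow, Real.norm_eq_abs,
    Real.norm_eq_abs, sq_abs, sq_abs]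
  field_simp
  ring

theorem cone_growth {Λ b : ℝ} (h : Λ < b) (y₀ : E) (C : ℝ) :
    ∃ R : ℝ, 0 < R ∧ ∀ y : E, R ≤ ‖y - y₀‖ → C + Λ * ‖y‖ ^ 2 ≤ b * ‖y - y₀‖ ^ 2 := by
  have hb : 0 < b - Λ := by linarith
  set D := |C| + |Λ| * (2 * ‖y₀‖ + ‖y₀‖ ^ 2) with hD
  have hD0 : 0 ≤ D := by positivity
  refine ⟨D / (b - Λ) + 1, by positivity, fun y hy => ?_⟩
  have h0 : 0 ≤ D / (b - Λ) := by positivity
  set r := ‖y - y₀‖ with hr
  have hr1 : 1 ≤ r := by linarith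
  have h1 : D ≤ r * (b - Λ) := by rw [← div_le_iff₀ hb]; linarith
  have h2 : ‖y‖ ^ 2 = r ^ 2 + 2 * ⟪y - y₀, y₀⟫_ℝ + ‖y₀‖ ^ 2 := by
    rw [hr, ← norm_add_sq_real, sub_add_cancel]
  have h3 : |⟪y - y₀, y₀⟫_ℝ| ≤ r * ‖y₀‖ := abs_real_inner_le_norm _ _
  have h4 : Λ * (2 * ⟪y - y₀, y₀⟫_ℝ + ‖y₀‖ ^ 2) ≤ |Λ| * (2 * ‖y₀‖ + ‖y₀‖ ^ 2) * r := by
    refine (le_abs_self _).trans ?_
    rw [abs_mul, mul_assoc]
    refine mul_le_mul_of_nonneg_left ((abs_add_le _ _).trans ?_) (abs_nonneg _)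
    rw [abs_mul, abs_two, abs_of_nonneg (sq_nonneg ‖y₀‖)]
    nlinarith [sq_nonneg ‖y₀‖]
  have h5 : C ≤ |C| * r := (le_abs_self C).trans (le_mul_of_one_le_right (abs_nonneg _) hr1)
  have h6 : D * r ≤ r * (b - Λ) * r := mul_le_mul_of_nonneg_right h1 (by linarith)
  rw [h2]
  nlinarith

theorem cone_bottom {f : E → ℝ} {y₀ : E} (hf : ContinuousAt f y₀) {K Λ a : ℝ}
    (hg : ∀ y, f y ≤ K + Λ * ‖y‖ ^ 2) (ha : 0 < a) :
    ∃ G : ℝ, 0 < G ∧ ∀ y, f y ≤ f y₀ + a + G * ‖y - y₀‖ ^ 2 := by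
  obtain ⟨δ, hδ, h⟩ := Metric.continuousAt_iff.1 hf a ha
  refine ⟨|K - f y₀| / δ ^ 2 + |Λ| * (1 + ‖y₀‖ / δ) ^ 2 + 1, by positivity, fun y => ?_⟩
  rcases lt_or_ge ‖y - y₀‖ δ with hy | hy
  · have h1 := h (x := y) (by rwa [dist_eq_norm])
    rw [Real.dist_eq, abs_lt] at h1
    have : 0 ≤ (|K - f y₀| / δ ^ 2 + |Λ| * (1 + ‖y₀‖ / δ) ^ 2 + 1) * ‖y - y₀‖ ^ 2 := by positivity
    linarith [h1.2]
  · have h1 : 1 ≤ ‖y - y₀‖ / δ := by rwa [le_div_iff₀ hδ, one_mul]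
    have h2 : |K - f y₀| ≤ |K - f y₀| / δ ^ 2 * ‖y - y₀‖ ^ 2 := by
      rw [div_mul_eq_mul_div, mul_div_assoc, ← div_pow]
      exact le_mul_of_one_le_right (abs_nonneg _) (one_le_pow₀ h1)
    have h3 : ‖y‖ ≤ (1 + ‖y₀‖ / δ) * ‖y - y₀‖ := by
      have e1 : ‖y‖ ≤ ‖y - y₀‖ + ‖y₀‖ := by simpa using norm_add_le (y - y₀) y₀
      have e2 : ‖y₀‖ ≤ ‖y₀‖ * (‖y - y₀‖ / δ) := le_mul_of_one_le_right (norm_nonneg _) h1
      have e3 : (1 + ‖y₀‖ / δ) * ‖y - y₀‖ = ‖y - y₀‖ + ‖y₀‖ * (‖y - y₀‖ / δ) := by ring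
      linarith
    have h4 : Λ * ‖y‖ ^ 2 ≤ |Λ| * (1 + ‖y₀‖ / δ) ^ 2 * ‖y - y₀‖ ^ 2 := by
      rw [mul_assoc, ← mul_pow]
      exact mul_le_mul (le_abs_self _) (pow_le_pow_left₀ (norm_nonneg _) h3 2) (sq_nonneg _)
        (abs_nonneg _)
    have h5 := le_abs_self (K - f y₀)
    have h6 := hg y
    nlinarith [sq_nonneg ‖y - y₀‖]

/-- Cylinder version. If `w > cone` somewhere, then for small `ε > 0` the function
`w - cone - ε (t - t₁) (t₂ - t)` has a positive maximum over the compact cylinder, attained at an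
interior point `X*`; by the key identity `w` is touched there from above with
`q = (X*.2 - t₀)⁻¹ • (X*.1 - y₀)`, `A = 1 / (X*.2 - t₀)` and the same `ε`. -/
theorem cc_ball (hw : IsSub O w) {y₀ y₁ : E} {R t₀ t₁ t₂ c₀ k : ℝ} (h01 : t₀ < t₁)
    (hO : closedBall y₁ R ×ˢ Icc t₁ t₂ ⊆ O)
    (hb : ∀ X ∈ closedBall y₁ R ×ˢ Icc t₁ t₂, (‖X.1 - y₁‖ = R ∨ X.2 = t₁ ∨ X.2 = t₂) →
      w X ≤ c₀ + ‖X.1 - y₀‖ ^ 2 / (2 * (X.2 - t₀)) + k * (X.2 - t₀)) :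
    ∀ X ∈ closedBall y₁ R ×ˢ Icc t₁ t₂,
      w X ≤ c₀ + ‖X.1 - y₀‖ ^ 2 / (2 * (X.2 - t₀)) + k * (X.2 - t₀) := by
  have : ProperSpace E := FiniteDimensional.proper_real E
  intro X₀ hX₀
  by_contra hc
  push Not at hc
  set g := w X₀ - (c₀ + ‖X₀.1 - y₀‖ ^ 2 / (2 * (X₀.2 - t₀)) + k * (X₀.2 - t₀)) with hg
  have hg0 : 0 < g := by linarith
  have hD : ∀ X ∈ closedBall y₁ R ×ˢ Icc t₁ t₂, 0 ≤ (X.2 - t₁) * (t₂ - X.2) := fun X hX =>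
    mul_nonneg (by linarith [hX.2.1]) (by linarith [hX.2.2])
  obtain ⟨ε, hε, hεg⟩ : ∃ ε : ℝ, 0 < ε ∧ ε * ((X₀.2 - t₁) * (t₂ - X₀.2)) < g := by
    have := hD X₀ hX₀
    refine ⟨g / ((X₀.2 - t₁) * (t₂ - X₀.2) + 1), by positivity, ?_⟩
    rw [div_mul_eq_mul_div, div_lt_iff₀ (by positivity)]
    linarith
  set F : E × ℝ → ℝ := fun X => w X - (c₀ + ‖X.1 - y₀‖ ^ 2 / (2 * (X.2 - t₀)) + k * (X.2 - t₀)) -
    ε * ((X.2 - t₁) * (t₂ - X.2)) with hF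
  have hFc : ContinuousOn F (closedBall y₁ R ×ˢ Icc t₁ t₂) := by
    refine ((hw.1.mono hO).sub ((continuousOn_const.add (ContinuousOn.div (by fun_prop)
      (by fun_prop) fun X hX => ?_)).add (by fun_prop))).sub (by fun_prop)
    have := hX.2.1
    exact mul_ne_zero two_ne_zero (by linarith)
  obtain ⟨X, hX, hmax⟩ := ((isCompact_closedBall y₁ R).prod isCompact_Icc).exists_isMaxOn
    ⟨X₀, hX₀⟩ hFc
  have hpos : 0 < F X := lt_of_lt_of_le (by simp only [hF]; linarith) (hmax hX₀)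
  have hint : ¬ (‖X.1 - y₁‖ = R ∨ X.2 = t₁ ∨ X.2 = t₂) := fun h => by
    have h1 := hb X hX h
    have h2 := mul_nonneg hε.le (hD X hX)
    simp only [hF] at hpos
    linarith
  push Not at hint
  have h1 : ‖X.1 - y₁‖ < R := lt_of_le_of_ne (mem_closedBall_iff_norm.1 hX.1) hint.1
  have h2 : t₁ < X.2 := lt_of_le_of_ne hX.2.1 (Ne.symm hint.2.1)
  have h3 : X.2 < t₂ := lt_of_le_of_ne hX.2.2 hint.2.2
  have hτ : 0 < X.2 - t₀ := by linarith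
  set q : E := (X.2 - t₀)⁻¹ • (X.1 - y₀) with hq
  have hq' : X.1 - y₀ = (X.2 - t₀) • q := by rw [hq, smul_inv_smul₀ hτ.ne']
  refine hw.2 X (hO hX) q (k - ‖q‖ ^ 2 / 2 + ε * (t₁ + t₂ - 2 * X.2)) (1 / (X.2 - t₀)) ε hε ?_
  have hc1 : ContinuousAt (fun Z : E × ℝ => X + Z) 0 := by fun_prop
  have hn : closedBall y₁ R ×ˢ Icc t₁ t₂ ∈ 𝓝 (X + 0) := by
    rw [add_zero]
    exact prod_mem_nhds (closedBall_mem_nhds_of_mem (mem_ball_iff_norm.2 h1)) (Icc_mem_nhds h2 h3)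
  have hs : ∀ᶠ Z : E × ℝ in 𝓝 0, -((X.2 - t₀) / 2) < Z.2 :=
    continuous_snd.continuousAt.eventually (lt_mem_nhds (by simpa using hτ))
  filter_upwards [hc1.eventually hn, hs] with Z hZ hZ2
  have h4 : F (X + Z) ≤ F X := hmax hZ
  have h5 := cone_key q Z.1 hτ (σ := Z.2) (by linarith)
  have h6 : ‖Z.1 - Z.2 • q‖ ^ 2 / (2 * (X.2 - t₀ + Z.2)) ≤ 1 / (X.2 - t₀) * ‖Z.1 - Z.2 • q‖ ^ 2 := by
    rw [one_div, mul_comm (X.2 - t₀)⁻¹, ← div_eq_mul_inv]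
    exact div_le_div_of_nonneg_left (sq_nonneg _) hτ (by linarith)
  simp only [hF, Prod.fst_add, Prod.snd_add] at h4
  rw [show X.1 + Z.1 - y₀ = (X.2 - t₀) • q + Z.1 by rw [← hq']; abel,
    show X.2 + Z.2 - t₀ = X.2 - t₀ + Z.2 by ring, h5, hq'] at h4
  nlinarith

/-- Slab version: by the growth condition the lateral inequality holds on `‖y - y₀‖ = R` for all
large `R`; apply `cc_ball`. -/
theorem cc_slab (hw : IsSub O w) {y₀ : E} {t₀ t₁ t₂ c₀ k K Λ : ℝ} (h01 : t₀ < t₁)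
    (hO : ∀ X : E × ℝ, X.2 ∈ Icc t₁ t₂ → X ∈ O)
    (hg : ∀ X : E × ℝ, X.2 ∈ Icc t₁ t₂ → w X ≤ K + Λ * ‖X.1‖ ^ 2) (hΛ : 2 * Λ * (t₂ - t₀) < 1)
    (h1 : ∀ y : E, w (y, t₁) ≤ c₀ + ‖y - y₀‖ ^ 2 / (2 * (t₁ - t₀)) + k * (t₁ - t₀))
    (h2 : ∀ y : E, w (y, t₂) ≤ c₀ + ‖y - y₀‖ ^ 2 / (2 * (t₂ - t₀)) + k * (t₂ - t₀)) :
    ∀ X : E × ℝ, X.2 ∈ Icc t₁ t₂ →
      w X ≤ c₀ + ‖X.1 - y₀‖ ^ 2 / (2 * (X.2 - t₀)) + k * (X.2 - t₀) := by
  intro X hX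
  have hT : 0 < t₂ - t₀ := by linarith [hX.1, hX.2]
  obtain ⟨R, hR, hgr⟩ := cone_growth (Λ := Λ) (b := 1 / (2 * (t₂ - t₀)))
    (by rw [lt_div_iff₀ (by positivity)]; linarith) y₀ (K - c₀ + |k| * (t₂ - t₀))
  refine cc_ball hw (y₁ := y₀) (R := max R ‖X.1 - y₀‖) (t₂ := t₂) h01 (fun Y hY => hO Y hY.2)
    (fun Y hY h => ?_) X ⟨mem_closedBall_iff_norm.2 (le_max_right _ _), hX⟩
  rcases h with h | h | h
  · have e1 := hgr Y.1 (h ▸ le_max_left _ _)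
    have e2 := hg Y hY.2
    have e0 : 0 < Y.2 - t₀ := by linarith [hY.2.1]
    have e3 : 1 / (2 * (t₂ - t₀)) * ‖Y.1 - y₀‖ ^ 2 ≤ ‖Y.1 - y₀‖ ^ 2 / (2 * (Y.2 - t₀)) := by
      rw [one_div, mul_comm (2 * (t₂ - t₀))⁻¹, ← div_eq_mul_inv]
      exact div_le_div_of_nonneg_left (sq_nonneg _) (by positivity) (by linarith [hY.2.2])
    have e4 : -(|k| * (t₂ - t₀)) ≤ k * (Y.2 - t₀) := by
      have a1 := mul_le_mul_of_nonneg_right (neg_abs_le k) e0.le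
      have a2 : |k| * (Y.2 - t₀) ≤ |k| * (t₂ - t₀) :=
        mul_le_mul_of_nonneg_left (by linarith [hY.2.2]) (abs_nonneg _)
      linarith
    linarith
  · rw [h]; have := h1 Y.1; rwa [← h] at this ⊢
  · rw [h]; have := h2 Y.1; rwa [← h] at this ⊢

/-- mirror image of `cc_slab` (apply it to `rev w`). -/
theorem cc_slab_super (hw : IsSuper O w) {y₀ : E} {t₀ t₁ t₂ c₀ k K Λ : ℝ} (h20 : t₂ < t₀)
    (hO : ∀ X : E × ℝ, X.2 ∈ Icc t₁ t₂ → X ∈ O)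
    (hg : ∀ X : E × ℝ, X.2 ∈ Icc t₁ t₂ → -(K + Λ * ‖X.1‖ ^ 2) ≤ w X) (hΛ : 2 * Λ * (t₀ - t₁) < 1)
    (h1 : ∀ y : E, c₀ - ‖y - y₀‖ ^ 2 / (2 * (t₀ - t₁)) - k * (t₀ - t₁) ≤ w (y, t₁))
    (h2 : ∀ y : E, c₀ - ‖y - y₀‖ ^ 2 / (2 * (t₀ - t₂)) - k * (t₀ - t₂) ≤ w (y, t₂)) :
    ∀ X : E × ℝ, X.2 ∈ Icc t₁ t₂ →
      c₀ - ‖X.1 - y₀‖ ^ 2 / (2 * (t₀ - X.2)) - k * (t₀ - X.2) ≤ w X := by
  intro X hX
  have hn : ∀ y : E, ‖y - -y₀‖ = ‖-y - y₀‖ := fun y => by rw [← norm_neg]; congr 1; abel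
  have h := cc_slab hw.rev (y₀ := -y₀) (t₀ := -t₀) (t₁ := -t₂) (t₂ := -t₁) (c₀ := -c₀) (k := k)
    (K := K) (Λ := Λ) (by linarith)
    (fun Y hY => hO (-Y) ⟨by simp only [Prod.snd_neg]; linarith [hY.2],
      by simp only [Prod.snd_neg]; linarith [hY.1]⟩)
    (fun Y hY => by
      have := hg (-Y) ⟨by simp only [Prod.snd_neg]; linarith [hY.2],
        by simp only [Prod.snd_neg]; linarith [hY.1]⟩
      rw [Prod.fst_neg, norm_neg] at this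
      rw [rev_apply]; linarith)
    (by linarith)
    (fun y => by
      have := h2 (-y)
      rw [rev_apply, Prod.neg_mk, neg_neg, hn, show -t₂ - -t₀ = t₀ - t₂ by ring]; linarith)
    (fun y => by
      have := h1 (-y)
      rw [rev_apply, Prod.neg_mk, neg_neg, hn, show -t₁ - -t₀ = t₀ - t₁ by ring]; linarith)
    (-X) ⟨by simp only [Prod.snd_neg]; linarith [hX.2], by simp only [Prod.snd_neg]; linarith [hX.1]⟩
  rw [rev_apply, neg_neg, hn, Prod.fst_neg, neg_neg, Prod.snd_neg,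
    show -X.2 - -t₀ = t₀ - X.2 by ring] at h
  linarith

/-- Vertex on the face. Fix `a > 0`; for small `ν > 0` use `cc_slab` with vertex time `t₀ - ν` and
`c₀ = w (y₀, t₀) + a - k ν`. Face `t₀`: `w (y, t₀) ≤ w (y₀, t₀) + a + ‖y - y₀‖² / (2ν)` (continuity
near `y₀`, growth away from it). Face `t₀ + s`: need `w (y, t₀+s) ≤ w (y₀,t₀) + a + k s +
‖y - y₀‖² / (2 (s + ν))`; for `‖y - y₀‖ ≤ R` use the hypothesis and `R² ν / (2 s²) ≤ a`, for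
`‖y - y₀‖ ≥ R` use the growth (fix `ν₀` with `2 Λ (s + ν₀) < 1` first, then `R`). Then `ν → 0`
is not even needed: `‖y-y₀‖²/(2(σ+ν)) ≤ ‖y-y₀‖²/(2σ)`; let `a → 0`. -/
theorem cc_vertex (hw : IsSub O w) {y₀ : E} {t₀ s k K Λ : ℝ} (hs : 0 < s)
    (hO : ∀ X : E × ℝ, X.2 ∈ Icc t₀ (t₀ + s) → X ∈ O)
    (hg : ∀ X : E × ℝ, X.2 ∈ Icc t₀ (t₀ + s) → w X ≤ K + Λ * ‖X.1‖ ^ 2) (hΛ : 2 * Λ * s < 1)
    (h2 : ∀ y : E, w (y, t₀ + s) ≤ w (y₀, t₀) + k * s + ‖y - y₀‖ ^ 2 / (2 * s)) :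
    ∀ σ : ℝ, 0 < σ → σ ≤ s → ∀ y : E,
      w (y, t₀ + σ) ≤ w (y₀, t₀) + k * σ + ‖y - y₀‖ ^ 2 / (2 * σ) := by
  intro σ hσ hσs y
  refine le_of_forall_pos_le_add fun a ha => ?_
  obtain ⟨ν₀, hν₀, hΛ₀⟩ : ∃ ν₀ : ℝ, 0 < ν₀ ∧ 2 * Λ * (s + ν₀) < 1 := by
    have h0 : 0 < 1 - 2 * Λ * s := by linarith
    refine ⟨(1 - 2 * Λ * s) / (2 * |Λ| + 1), by positivity, ?_⟩
    have h1 : 2 * Λ * ((1 - 2 * Λ * s) / (2 * |Λ| + 1)) < 1 - 2 * Λ * s := by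
      rw [← mul_div_assoc, div_lt_iff₀ (by positivity)]
      nlinarith [le_abs_self Λ]
    linarith
  obtain ⟨R, hR, hgr⟩ := cone_growth (Λ := Λ) (b := 1 / (2 * (s + ν₀)))
    (by rw [lt_div_iff₀ (by positivity)]; linarith) y₀ (K - (w (y₀, t₀) + a + k * s))
  have hc : ContinuousAt (fun y : E => w (y, t₀)) y₀ :=
    (hw.1.comp_continuous (f := fun y : E => (y, t₀)) (by fun_prop)
      fun y => hO _ ⟨le_rfl, by linarith⟩).continuousAt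
  obtain ⟨G, hG, hbot⟩ := cone_bottom hc (fun y => hg (y, t₀) ⟨le_rfl, by linarith⟩) ha
  obtain ⟨ν, hν, n1, n2, n3⟩ : ∃ ν : ℝ, 0 < ν ∧ ν ≤ ν₀ ∧ ν ≤ 2 * s ^ 2 * a / R ^ 2 ∧ ν ≤ 1 / (2 * G) :=
    ⟨min ν₀ (min (2 * s ^ 2 * a / R ^ 2) (1 / (2 * G))), by positivity, min_le_left _ _,
      (min_le_right _ _).trans (min_le_left _ _), (min_le_right _ _).trans (min_le_right _ _)⟩
  have h := cc_slab hw (y₀ := y₀) (t₀ := t₀ - ν) (t₁ := t₀) (t₂ := t₀ + s)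
    (c₀ := w (y₀, t₀) + a - k * ν) (k := k) (by linarith) hO hg
    (by
      rw [show t₀ + s - (t₀ - ν) = s + ν by ring]
      rcases le_total 0 Λ with h | h
      · nlinarith
      · nlinarith)
    (fun z => by
      rw [show t₀ - (t₀ - ν) = ν by ring]
      have e1 := hbot z
      have e2 : G * ‖z - y₀‖ ^ 2 ≤ ‖z - y₀‖ ^ 2 / (2 * ν) := by
        rw [le_div_iff₀ (by positivity)] at n3 ⊢
        nlinarith [sq_nonneg ‖z - y₀‖]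
      linarith)
    (fun z => by
      rw [show t₀ + s - (t₀ - ν) = s + ν by ring]
      rcases le_total R ‖z - y₀‖ with hz | hz
      · have e1 := hgr z hz
        have e2 := hg (z, t₀ + s) ⟨by linarith, le_rfl⟩
        have e3 : 1 / (2 * (s + ν₀)) * ‖z - y₀‖ ^ 2 ≤ ‖z - y₀‖ ^ 2 / (2 * (s + ν)) := by
          rw [one_div, mul_comm (2 * (s + ν₀))⁻¹, ← div_eq_mul_inv]
          exact div_le_div_of_nonneg_left (sq_nonneg _) (by positivity) (by linarith)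
        linarith
      · have e1 := h2 z
        have e2 : ‖z - y₀‖ ^ 2 / (2 * s) =
            ‖z - y₀‖ ^ 2 / (2 * (s + ν)) + ‖z - y₀‖ ^ 2 * ν / (2 * s * (s + ν)) := by
          field_simp
        have e3 : ‖z - y₀‖ ^ 2 * ν / (2 * s * (s + ν)) ≤ a := by
          rw [le_div_iff₀ (by positivity)] at n2
          rw [div_le_iff₀ (by positivity)]
          have a1 : ‖z - y₀‖ ^ 2 * ν ≤ R ^ 2 * ν := by gcongr
          have a2 : 0 ≤ a * (2 * s * ν) := by positivity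
          nlinarith
        linarith)
    (y, t₀ + σ) ⟨by linarith, by linarith⟩
  simp only at h
  rw [show t₀ + σ - (t₀ - ν) = σ + ν by ring] at h
  have e : ‖y - y₀‖ ^ 2 / (2 * (σ + ν)) ≤ ‖y - y₀‖ ^ 2 / (2 * σ) :=
    div_le_div_of_nonneg_left (sq_nonneg _) (by positivity) (by linarith)
  linarith

theorem cc_vertex_super (hw : IsSuper O w) {y₀ : E} {t₀ s k K Λ : ℝ} (hs : 0 < s)
    (hO : ∀ X : E × ℝ, X.2 ∈ Icc (t₀ - s) t₀ → X ∈ O)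
    (hg : ∀ X : E × ℝ, X.2 ∈ Icc (t₀ - s) t₀ → -(K + Λ * ‖X.1‖ ^ 2) ≤ w X) (hΛ : 2 * Λ * s < 1)
    (h2 : ∀ y : E, w (y₀, t₀) - k * s - ‖y - y₀‖ ^ 2 / (2 * s) ≤ w (y, t₀ - s)) :
    ∀ σ : ℝ, 0 < σ → σ ≤ s → ∀ y : E,
      w (y₀, t₀) - k * σ - ‖y - y₀‖ ^ 2 / (2 * σ) ≤ w (y, t₀ - σ) := by
  intro σ hσ hσs y
  have hn : ∀ y : E, ‖y - -y₀‖ = ‖-y - y₀‖ := fun y => by rw [← norm_neg]; congr 1; abel
  have h := cc_vertex hw.rev (y₀ := -y₀) (t₀ := -t₀) (k := k) (K := K) (Λ := Λ) hs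
    (fun Y hY => hO (-Y) ⟨by simp only [Prod.snd_neg]; linarith [hY.2],
      by simp only [Prod.snd_neg]; linarith [hY.1]⟩)
    (fun Y hY => by
      have := hg (-Y) ⟨by simp only [Prod.snd_neg]; linarith [hY.2],
        by simp only [Prod.snd_neg]; linarith [hY.1]⟩
      rw [Prod.fst_neg, norm_neg] at this
      rw [rev_apply]; linarith)
    hΛ
    (fun y => by
      have := h2 (-y)
      rw [rev_apply, rev_apply, Prod.neg_mk, Prod.neg_mk, neg_neg, neg_neg, hn,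
        show -(-t₀ + s) = t₀ - s by ring]
      linarith)
    σ hσ hσs (-y)
  rw [rev_apply, rev_apply, Prod.neg_mk, Prod.neg_mk, neg_neg, neg_neg, neg_neg, hn, neg_neg,
    show -(-t₀ + σ) = t₀ - σ by ring] at h
  linarith

/-- Steady subsolutions are Lipschitz. `M ≥ 0` (take `x = y`). If `‖x - y‖ ≥ 1/8` trivial. Else fix
`M' > M`, `k = 32 M'²`, `a > 0`, `T` large (`k T ≥ M`, `T ≥ σ` below), small `ν`, and apply `cc_ball`
on `closedBall y (1/8) ×ˢ Icc 0 T`, vertex `(y, -ν)`, `c₀ = u y + a`. Lateral face: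
`(1/8)² / (2 s) + k s ≥ (1/8) √(2k) = M'` (AM-GM). Bottom: continuity of `u` at `y` and `osc ≤ M`.
Evaluate at time `σ - ν`, `σ = ‖x - y‖ / (8 M')` (if `x ≠ y`, `ν < σ`): `u x ≤ u y + a + 8 M' ‖x-y‖`. -/
theorem lip_steady {u : E → ℝ} {M : ℝ}
    (hu : IsSub (ball (0 : E) 1 ×ˢ (univ : Set ℝ)) (fun X => u X.1))
    (hM : ∀ x ∈ ball (0 : E) 1, ∀ y ∈ ball (0 : E) 1, u x - u y ≤ M) :
    ∀ x ∈ closedBall (0 : E) (3 / 4), ∀ y ∈ closedBall (0 : E) (3 / 4),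
      u x - u y ≤ 8 * M * ‖x - y‖ := by
  intro x hx y hy
  have hb : ∀ z ∈ closedBall (0 : E) (3 / 4), z ∈ ball (0 : E) 1 := fun z hz =>
    closedBall_subset_ball (by norm_num) hz
  have hM0 : 0 ≤ M := by simpa using hM y (hb y hy) y (hb y hy)
  rcases le_or_gt (1 / 8) ‖x - y‖ with hd | hd
  · have := hM x (hb x hx) y (hb y hy)
    nlinarith
  rcases eq_or_ne x y with rfl | hne
  · simp
  have hd0 : 0 < ‖x - y‖ := norm_pos_iff.2 (sub_ne_zero.2 hne)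
  refine le_of_forall_pos_le_add fun ε hε => ?_
  obtain ⟨M', hM'⟩ : ∃ M', M' = M + ε / 2 := ⟨_, rfl⟩
  have hM'0 : 0 < M' := by linarith
  have hin : ∀ z ∈ closedBall y (1 / 8), z ∈ ball (0 : E) 1 := fun z hz => by
    rw [mem_closedBall_iff_norm] at hz
    rw [mem_closedBall_zero_iff] at hy
    rw [mem_ball_zero_iff]
    have : ‖z‖ ≤ ‖z - y‖ + ‖y‖ := by simpa using norm_add_le (z - y) y
    linarith
  have hc : ContinuousAt u y := by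
    have h1 : ContinuousOn u (ball (0 : E) 1) :=
      hu.1.comp (f := fun z : E => (z, (0 : ℝ))) (by fun_prop) fun z hz => ⟨hz, mem_univ _⟩
    exact h1.continuousAt (isOpen_ball.mem_nhds (hb y hy))
  obtain ⟨δ, hδ, hδ'⟩ := Metric.continuousAt_iff.1 hc (ε / 2) (by positivity)
  obtain ⟨σ, hσ⟩ : ∃ σ, σ = ‖x - y‖ / (8 * M') := ⟨_, rfl⟩
  have hσ0 : 0 < σ := by rw [hσ]; positivity
  obtain ⟨ν, hν, n1, n2⟩ : ∃ ν : ℝ, 0 < ν ∧ ν ≤ σ ∧ ν ≤ δ ^ 2 / (2 * M') :=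
    ⟨min σ (δ ^ 2 / (2 * M')), by positivity, min_le_left _ _, min_le_right _ _⟩
  have hT : 0 ≤ M / (32 * M' ^ 2) := by positivity
  have h := cc_ball hu (y₀ := y) (y₁ := y) (R := 1 / 8) (t₀ := -ν) (t₁ := 0)
    (t₂ := σ + M / (32 * M' ^ 2)) (c₀ := u y + ε / 2) (k := 32 * M' ^ 2) (by linarith)
    (fun X hX => ⟨hin _ hX.1, mem_univ _⟩)
    (fun X hX h => by
      have e0 : 0 < X.2 - -ν := by linarith [hX.2.1]
      have e1 := hM X.1 (hin _ hX.1) y (hb y hy)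
      have e2 : 0 ≤ ‖X.1 - y‖ ^ 2 / (2 * (X.2 - -ν)) := by positivity
      have e3 : 0 ≤ 32 * M' ^ 2 * (X.2 - -ν) := by positivity
      rcases h with h | h | h
      · have e4 : M' - 32 * M' ^ 2 * (X.2 - -ν) ≤ ‖X.1 - y‖ ^ 2 / (2 * (X.2 - -ν)) := by
          rw [h, le_div_iff₀ (by positivity)]
          nlinarith [sq_nonneg (1 - 64 * M' * (X.2 - -ν))]
        linarith
      · rcases lt_or_ge ‖X.1 - y‖ δ with hz | hz
        · have e4 := hδ' (x := X.1) (by rwa [dist_eq_norm])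
          rw [Real.dist_eq, abs_lt] at e4
          linarith [e4.2]
        · have e4 : M' ≤ ‖X.1 - y‖ ^ 2 / (2 * (X.2 - -ν)) := by
            rw [h, zero_sub, neg_neg, le_div_iff₀ (by positivity)]
            rw [le_div_iff₀ (by positivity)] at n2
            have : δ ^ 2 ≤ ‖X.1 - y‖ ^ 2 := by gcongr
            linarith
          linarith
      · have e4 : 32 * M' ^ 2 * (X.2 - -ν) = M + 32 * M' ^ 2 * (σ + ν) := by
          rw [h]; field_simp; ring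
        have e5 : 0 ≤ 32 * M' ^ 2 * (σ + ν) := by positivity
        linarith)
    (x, σ - ν) ⟨mem_closedBall_iff_norm.2 hd.le, by simp only; linarith, by simp only; linarith⟩
  simp only at h
  rw [show σ - ν - -ν = σ by ring] at h
  have e : ‖x - y‖ ^ 2 / (2 * σ) + 32 * M' ^ 2 * σ = 8 * M' * ‖x - y‖ := by
    rw [hσ]; field_simp; ring
  have e' : ε / 2 * (8 * ‖x - y‖) ≤ ε / 2 * 1 := by gcongr; linarith
  rw [add_assoc, e, hM'] at h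
  linarith

end R94
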