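import Mathlib

/-!
# R94 (S0124): C^{1,α} for ∞-harmonic functions — definitions

We work on space-time `E × ℝ` (sup norm, so `ball 0 1` is a box) with the *parabolic Aronsson
equation* `V · D²w · V = 0`, `V = (D_y w, 1)`, which belongs to `H(q, r) = r + ‖q‖²/2`.
A steady function `w (y, t) = u y` solves it iff `u` is ∞-harmonic.
Its cones are `c₀ + ‖y - y₀‖² / (2 (t - t₀)) + k (t - t₀)`, its symmetries are `sym` and `rev`.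
A *frame* `(b, h)` is the affine function with spatial gradient `b` and energy `H = h`; it is read
along the moving coordinates `(x + η + σ • b, t + σ)`.
Convention for three-point configurations `(x, η, t)`: `z₁ = x - c • η`, `z₂ = x + (1 - c) • η`,
so `x = (1 - c) • z₁ + c • z₂` and `η = z₂ - z₁`; weights `c₁ = 1 - c`, `c₂ = c`.
-/

set_option autoImplicit false
set_option linter.unusedSectionVars false

open Set Filter Topology Metric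
open scoped InnerProductSpace

namespace R94

variable {E : Type} [NormedAddCommGroup E] [InnerProductSpace ℝ E]

/-- viscosity subsolution at a point (quadratic test functions). -/
def SubAt (w : E × ℝ → ℝ) (X : E × ℝ) : Prop :=
  ∀ (q : E) (r A ε : ℝ), 0 < ε →
    ¬ ∀ᶠ Z : E × ℝ in 𝓝 0,
      w (X + Z) ≤ w X + ⟪q, Z.1⟫_ℝ + r * Z.2 + A * ‖Z.1 - Z.2 • q‖ ^ 2 - ε * Z.2 ^ 2

/-- viscosity supersolution at a point. -/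
def SuperAt (w : E × ℝ → ℝ) (X : E × ℝ) : Prop :=
  ∀ (q : E) (r A ε : ℝ), 0 < ε →
    ¬ ∀ᶠ Z : E × ℝ in 𝓝 0,
      w X + ⟪q, Z.1⟫_ℝ + r * Z.2 - A * ‖Z.1 - Z.2 • q‖ ^ 2 + ε * Z.2 ^ 2 ≤ w (X + Z)

def IsSub (O : Set (E × ℝ)) (w : E × ℝ → ℝ) : Prop := ContinuousOn w O ∧ ∀ X ∈ O, SubAt w X
def IsSuper (O : Set (E × ℝ)) (w : E × ℝ → ℝ) : Prop := ContinuousOn w O ∧ ∀ X ∈ O, SuperAt w X
def IsSol (O : Set (E × ℝ)) (w : E × ℝ → ℝ) : Prop := IsSub O w ∧ IsSuper O w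

/-- point reflection; swaps sub and super, keeps frames. -/
def rev (w : E × ℝ → ℝ) : E × ℝ → ℝ := fun X => - w (-X)

/-- the change of variables of `sym`. -/
def pt (X₀ : E × ℝ) (b : E) (a τ : ℝ) (X : E × ℝ) : E × ℝ :=
  (X₀.1 + a • X.1 + (τ * X.2) • b, X₀.2 + τ * X.2)

/-- translation + Galilean boost `b` + energy shift `h` + scaling (space `a`, time `τ`). -/
noncomputable def sym (X₀ : E × ℝ) (b : E) (h a τ : ℝ) (w : E × ℝ → ℝ) (X : E × ℝ) : ℝ :=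
  (w (pt X₀ b a τ X) - w X₀ - a * ⟪b, X.1⟫_ℝ - (h + ‖b‖ ^ 2 / 2) * (τ * X.2)) * (τ / a ^ 2)

/-- cone-flatness at `X`, scale `ρ`, constant `lam`, in the frame `(b, h)`, tested inside `O`. -/
def CFw (O : Set (E × ℝ)) (w : E × ℝ → ℝ) (X : E × ℝ) (ρ lam : ℝ) (b : E) (h : ℝ) : Prop :=
  ∀ (η : E) (σ : ℝ), |σ| ≤ ρ → (X.1 + η + σ • b, X.2 + σ) ∈ O →
    |w (X.1 + η + σ • b, X.2 + σ) - w X - ⟪b, η⟫_ℝ - (h + ‖b‖ ^ 2 / 2) * σ| ≤ lam * ρ + ‖η‖ ^ 2 / ρ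

def Fl (O : Set (E × ℝ)) (w : E × ℝ → ℝ) (X : E × ℝ) (ρ lam : ℝ) : Prop :=
  ∃ (b : E) (h : ℝ), CFw O w X ρ lam b h

/-- forward Hopf–Lax flow. -/
noncomputable def Tp (s : ℝ) (w : E × ℝ → ℝ) (X : E × ℝ) : ℝ :=
  ⨆ η : E, (w (X.1 + η, X.2 + s) - ‖η‖ ^ 2 / (2 * s))

/-- backward Hopf–Lax flow. -/
noncomputable def Tm (s : ℝ) (w : E × ℝ → ℝ) (X : E × ℝ) : ℝ :=
  ⨅ η : E, (w (X.1 + η, X.2 - s) + ‖η‖ ^ 2 / (2 * s))

noncomputable def Sp (s : ℝ) (w : E × ℝ → ℝ) (X : E × ℝ) : ℝ := (Tp s w X - w X) / s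
noncomputable def Sm (s : ℝ) (w : E × ℝ → ℝ) (X : E × ℝ) : ℝ := (w X - Tm s w X) / s

/-- subquadratic growth in space, locally uniformly in time. -/
def SQ (w : E × ℝ → ℝ) : Prop :=
  ∀ T ε : ℝ, 0 < ε → ∃ K : ℝ, ∀ X : E × ℝ, |X.2| ≤ T → |w X| ≤ K + ε * ‖X.1‖ ^ 2

def CSQ (w : E × ℝ → ℝ) : Prop := Continuous w ∧ SQ w
def Ent (w : E × ℝ → ℝ) : Prop := IsSol univ w ∧ SQ w

/-- `p` is an optimal velocity for the last half step of `Tm δ w` at `X`. -/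
def IsVel (δ : ℝ) (w : E × ℝ → ℝ) (X : E × ℝ) (p : E) : Prop :=
  Tm δ w X = Tm (δ / 2) w (X.1 - (δ / 2) • p, X.2 - δ / 2) + δ / 4 * ‖p‖ ^ 2

/-- three-point second difference. -/
def Del (c : ℝ) (w : E × ℝ → ℝ) (x η : E) (t : ℝ) : ℝ :=
  (1 - c) * w (x - c • η, t) + c * w (x + (1 - c) • η, t) - w (x, t)

/-- its regularisation by the flows; the middle point is shifted by `y₀`. -/
noncomputable def Reg (c δ : ℝ) (w : E × ℝ → ℝ) (x η : E) (t : ℝ) (y₀ : E) : ℝ :=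
  (1 - c) * Tp δ w (x - c • η, t) + c * Tp δ w (x + (1 - c) • η, t) - Tm δ w (x + y₀, t)

/-- quadratic reparametrisation of a value (Evans–Smart term). -/
noncomputable def Gam (α γ u : ℝ) : ℝ := α * u + γ / 2 * u ^ 2

/-- `Reg` with general weights and Evans–Smart terms on the two outer points. -/
noncomputable def Phi (c δ α₁ γ₁ α₂ γ₂ : ℝ) (w : E × ℝ → ℝ) (x η : E) (t : ℝ) (y₀ : E) : ℝ :=
  Gam α₁ γ₁ (Tp δ w (x - c • η, t)) + Gam α₂ γ₂ (Tp δ w (x + (1 - c) • η, t))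
    - Tm δ w (x + y₀, t)

noncomputable def Jd (c κ δ : ℝ) (w : E × ℝ → ℝ) (x η : E) (t : ℝ) : ℝ :=
  (Reg c δ w x η t 0 - κ * ‖η‖) / δ

noncomputable def J0 (c κ δ : ℝ) (w : E × ℝ → ℝ) (x η : E) (t : ℝ) (Z : E) : ℝ :=
  (Reg c δ w x η t (δ • Z) - κ * ‖η‖) / δ - ‖Z‖ ^ 2 / 2

/-- non-singular contact of level `≥ L`. -/
def JGe (c κ : ℝ) (w : E × ℝ → ℝ) (x η : E) (t L : ℝ) : Prop :=
  ∀ δ : ℝ, 0 < δ → L ≤ Jd c κ δ w x η t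

def FLe (c κ : ℝ) (w : E × ℝ → ℝ) : Prop := ∀ (x η : E) (t : ℝ), Del c w x η t ≤ κ * ‖η‖

def BMO (w : E × ℝ → ℝ) : Prop := IsSol univ w ∧ ∀ (X : E × ℝ) (ρ : ℝ), 0 < ρ → Fl univ w X ρ 1

def Cls (w : E × ℝ → ℝ) : Prop :=
  IsSol univ w ∧ ∀ (X : E × ℝ) (ρ : ℝ), 0 < ρ → Fl univ w X ρ (max 1 (ρ ^ (-(7 / 8) : ℝ)))

/-- normalised at the origin. -/
def Nrm (Λ : ℝ) (w : E × ℝ → ℝ) : Prop := w 0 = 0 ∧ CFw univ w 0 1 Λ 0 0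

/-- `H(Dw) ≤ 0` everywhere, in integrated form. -/
def HLe (w : E × ℝ → ℝ) : Prop :=
  ∀ (X : E × ℝ) (η : E) (s : ℝ), 0 < s → w (X.1 + η, X.2 + s) ≤ w X + ‖η‖ ^ 2 / (2 * s)

def Affine (w : E × ℝ → ℝ) : Prop :=
  ∃ (q : E) (r k : ℝ), ∀ X : E × ℝ, w X = k + ⟪q, X.1⟫_ℝ + r * X.2

def HolOn (β L : ℝ) (O : Set (E × ℝ)) (w : E × ℝ → ℝ) : Prop :=
  ∀ X ∈ O, ∀ X' ∈ O, |w X - w X'| ≤ L * ‖X - X'‖ ^ β

/-- a-priori (qualitative) local Hölder-1/4 continuity. -/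
def AP (O : Set (E × ℝ)) (w : E × ℝ → ℝ) : Prop :=
  ∀ X ∈ O, ∃ r L : ℝ, 0 < r ∧ HolOn (1 / 4) L (ball X r) w

/-- the open slab `|t| < T`. -/
def slab (E : Type) (T : ℝ) : Set (E × ℝ) := {X | |X.2| < T}

/-- solutions on the unit slab with quadratic growth. -/
def Slab (K Λ : ℝ) (w : E × ℝ → ℝ) : Prop :=
  IsSol (slab E 1) w ∧ AP (slab E 1) w ∧ w 0 = 0 ∧
    ∀ X : E × ℝ, |X.2| < 1 → |w X| ≤ K + Λ * ‖X.1‖ ^ 2

/-- `S⁺(0, s)` stays bounded below as `s → 0`. -/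
def NSp (w : E × ℝ → ℝ) : Prop :=
  ∃ C s₀ : ℝ, 0 < s₀ ∧ ∀ s : ℝ, 0 < s → s ≤ s₀ → ∃ y : E, -(C * s) ≤ w (y, s) - ‖y‖ ^ 2 / (2 * s)

/-- `S⁻(0, s)` stays bounded below as `s → 0`. -/
def NSm (w : E × ℝ → ℝ) : Prop :=
  ∃ C s₀ : ℝ, 0 < s₀ ∧ ∀ s : ℝ, 0 < s → s ≤ s₀ → ∃ y : E, w (y, -s) + ‖y‖ ^ 2 / (2 * s) ≤ C * s

/-- the hypotheses of the interior estimates: a bounded, a-priori Hölder solution on the box. -/
def Box (w : E × ℝ → ℝ) : Prop :=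
  IsSol (ball 0 1) w ∧ (∀ X ∈ ball (0 : E × ℝ) 1, |w X| ≤ 1) ∧
    ∃ L : ℝ, HolOn (1 / 4) L (ball 0 1) w

/-- Liouville property for the gauge `max ρ^γ ρ^(-7/8)`. -/
def Liou (E : Type) [NormedAddCommGroup E] [InnerProductSpace ℝ E] (γ : ℝ) : Prop :=
  ∀ w : E × ℝ → ℝ, IsSol univ w →
    (∀ (X : E × ℝ) (ρ : ℝ), 0 < ρ → Fl univ w X ρ (max (ρ ^ γ) (ρ ^ (-(7 / 8) : ℝ)))) → Affine w

/-- the interior estimate (fixed frame at the centre of the box). -/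
def Est (E : Type) [NormedAddCommGroup E] [InnerProductSpace ℝ E] : Prop :=
  ∃ α C : ℝ, 0 < α ∧ α ≤ 1 ∧ 0 < C ∧ ∀ w : E × ℝ → ℝ, Box w →
    ∃ (b : E) (h : ℝ), ‖b‖ ≤ C ∧ |h| ≤ C ∧
      ∀ ρ : ℝ, 0 < ρ → ρ ≤ 1 → CFw (ball 0 1) w 0 ρ (C * ρ ^ α) b h

/-- improvement of flatness for triples with a supporting chord. -/
def TripleAt (E : Type) [NormedAddCommGroup E] [InnerProductSpace ℝ E] (c θm ε₁ R : ℝ) : Prop :=
  ∀ (W0 W1 W2 : E × ℝ → ℝ) (e : E) (l : ℝ), Slab 1 1 W0 → Slab 1 1 W1 → Slab 1 1 W2 → ‖e‖ = 1 →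
    (∀ (y y' : E) (σ : ℝ), ‖y‖ ≤ R → ‖y'‖ ≤ R → |σ| < 1 →
      (1 - c) * W1 (y, σ) + W2 (y', c * σ) + l * σ ≤ W0 ((1 - c) • y + y', σ) + ε₁) →
    (∀ τ₁ τ₂ : ℝ, R⁻¹ ≤ τ₁ → τ₁ ≤ R → R⁻¹ ≤ τ₂ → τ₂ ≤ R →
      -(ε₁ * (τ₁ + τ₂)) ≤ τ₂ * W2 (-(τ₁ • e), 0) + τ₁ * W2 (τ₂ • e, 0)) →
    ∃ (θ : ℝ) (b : E) (h0 h1 h2 : ℝ), θm ≤ θ ∧ θ ≤ 1 / 65536 ∧
      CFw univ W0 0 θ (1 / 4) b h0 ∧ CFw univ W1 0 θ (1 / 4) b h1 ∧ CFw univ W2 0 θ (1 / 4) b h2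

/-- a normalised near-extremal configuration `(0, η₀, 0)` with bias `Z₀` at flow time `δ`. -/
structure Ext (c κ Λ CE : ℝ) (w : E × ℝ → ℝ) (δ : ℝ) (η₀ Z₀ : E) (n a : ℝ) : Prop where
  bmo : BMO w
  fle : FLe c κ w
  nrm : Nrm Λ w
  δpos : 0 < δ
  unit : ‖η₀‖ = 1
  alow : -CE ≤ a
  aup : δ * |a| ≤ κ / 2
  e1 : n - δ ≤ J0 c κ δ w 0 η₀ 0 Z₀
  e2 : ∀ δ' : ℝ, (δ' = δ ∨ δ' = 3 / 2 * δ) → ∀ (r : ℝ) (x η : E) (t : ℝ) (Z : E), r ≤ 1 / 4 →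
    ‖x‖ ≤ r → |t| ≤ r → ‖η - η₀‖ ≤ r →
    J0 c κ δ' w x η t Z ≤ n + a * (‖η‖ * δ / δ' - 1) + CE * (‖η‖ * δ / δ' - 1) ^ 2
      + CE * √(√r) * (1 + ‖Z‖)

/-- an extremal function: `L` is the largest level of a non-singular contact. -/
structure Xtr (c κ : ℝ) (w : E × ℝ → ℝ) (L : ℝ) : Prop where
  bmo : BMO w
  fle : FLe c κ w
  hle : HLe w
  max : ∀ (x η : E) (t L' : ℝ), η ≠ 0 → JGe c κ w x η t L' → L' ≤ L

/-- the barrier on a thin tube along `e`: concave along `e`, strongly convex across. -/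
noncomputable def tubeL (e : E) (k m μ Λ : ℝ) (y : E) (σ : ℝ) : ℝ :=
  k + m * ⟪e, y⟫_ℝ - μ * ⟪e, y⟫_ℝ ^ 2 + Λ * (‖y‖ ^ 2 - ⟪e, y⟫_ℝ ^ 2 + σ ^ 2)

def InTube (e : E) (τ₁ τ₂ ω : ℝ) (y : E) (σ : ℝ) : Prop :=
  -τ₁ ≤ ⟪e, y⟫_ℝ ∧ ⟪e, y⟫_ℝ ≤ τ₂ ∧ ‖y‖ ^ 2 - ⟪e, y⟫_ℝ ^ 2 ≤ ω ^ 2 ∧ |σ| ≤ ω

def OnTube (e : E) (τ₁ τ₂ ω : ℝ) (y : E) (σ : ℝ) : Prop :=
  ⟪e, y⟫_ℝ = -τ₁ ∨ ⟪e, y⟫_ℝ = τ₂ ∨ ‖y‖ ^ 2 - ⟪e, y⟫_ℝ ^ 2 = ω ^ 2 ∨ |σ| = ω

/-- state of the iteration in the fast case. -/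
def St (c κ : ℝ) (w : E × ℝ → ℝ) (η₀ : E) (ρ v : ℝ) (b : E) : Prop :=
  ∃ h0 h1 h2 : ℝ, CFw univ w 0 ρ (v ^ 2) b h0 ∧
    CFw univ w (-(c • η₀), 0) ρ (v ^ 2) (b - (κ / (1 - c)) • η₀) h1 ∧
    CFw univ w ((1 - c) • η₀, 0) (ρ / c) (v ^ 2) (b + (κ / c) • η₀) h2

/-- canonical finite-difference velocity at scale `s`. -/
noncomputable def canB [FiniteDimensional ℝ E] (w : E × ℝ → ℝ) (X : E × ℝ) (s : ℝ) : E :=
  ∑ i, ((w (X.1 + s • stdOrthonormalBasis ℝ E i, X.2) - w X) / s) • stdOrthonormalBasis ℝ E i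

/-- canonical finite-difference energy at scale `s`. -/
noncomputable def canL [FiniteDimensional ℝ E] (w : E × ℝ → ℝ) (X : E × ℝ) (s : ℝ) : ℝ :=
  (w (X.1 + s • canB w X s, X.2 + s) - w X) / s - ‖canB w X s‖ ^ 2 / 2

/-- the invariant version of `J0`. -/
noncomputable def Jc [FiniteDimensional ℝ E] (c κ δ : ℝ) (w : E × ℝ → ℝ) (x η : E) (t : ℝ)
    (Z : E) : ℝ :=
  J0 c κ δ w x η t Z + ⟪canB w (x, t) ‖η‖, Z⟫_ℝ - 2 * canL w (x, t) ‖η‖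

/-- penalised supremum along the direction `e` (dimension reduction). -/
noncomputable def supE (e : E) (ε : ℝ) (u : E × ℝ → ℝ) (X : (ℝ ∙ e)ᗮ × ℝ) : ℝ :=
  ⨆ Y : ℝ, (u ((X.1 : E) + Y • e, X.2) - ε * Y ^ 2)

/-- realise the equation lemmas here (avoids duplicate realisations downstream). -/
theorem eqns_realised : True := by
  have := @SubAt.eq_1
  have := @SubAt.eq_def
  have := @SuperAt.eq_1
  have := @SuperAt.eq_def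
  have := @IsSub.eq_1
  have := @IsSub.eq_def
  have := @IsSuper.eq_1
  have := @IsSuper.eq_def
  have := @IsSol.eq_1
  have := @IsSol.eq_def
  have := @rev.eq_1
  have := @rev.eq_def
  have := @pt.eq_1
  have := @pt.eq_def
  have := @sym.eq_1
  have := @sym.eq_def
  have := @CFw.eq_1
  have := @CFw.eq_def
  have := @Fl.eq_1
  have := @Fl.eq_def
  have := @Tp.eq_1
  have := @Tp.eq_def
  have := @Tm.eq_1
  have := @Tm.eq_def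
  have := @Sp.eq_1
  have := @Sp.eq_def
  have := @Sm.eq_1
  have := @Sm.eq_def
  have := @SQ.eq_1
  have := @SQ.eq_def
  have := @CSQ.eq_1
  have := @CSQ.eq_def
  have := @Ent.eq_1
  have := @Ent.eq_def
  have := @IsVel.eq_1
  have := @IsVel.eq_def
  have := @Del.eq_1
  have := @Del.eq_def
  have := @Reg.eq_1
  have := @Reg.eq_def
  have := @Gam.eq_1
  have := @Gam.eq_def
  have := @Phi.eq_1
  have := @Phi.eq_def
  have := @Jd.eq_1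
  have := @Jd.eq_def
  have := @J0.eq_1
  have := @J0.eq_def
  have := @JGe.eq_1
  have := @JGe.eq_def
  have := @FLe.eq_1
  have := @FLe.eq_def
  have := @BMO.eq_1
  have := @BMO.eq_def
  have := @Cls.eq_1
  have := @Cls.eq_def
  have := @Nrm.eq_1
  have := @Nrm.eq_def
  have := @HLe.eq_1
  have := @HLe.eq_def
  have := @Affine.eq_1
  have := @Affine.eq_def
  have := @HolOn.eq_1
  have := @HolOn.eq_def
  have := @AP.eq_1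
  have := @AP.eq_def
  have := @slab.eq_1
  have := @slab.eq_def
  have := @Slab.eq_1
  have := @Slab.eq_def
  have := @NSp.eq_1
  have := @NSp.eq_def
  have := @NSm.eq_1
  have := @NSm.eq_def
  have := @Box.eq_1
  have := @Box.eq_def
  have := @Liou.eq_1
  have := @Liou.eq_def
  have := @Est.eq_1
  have := @Est.eq_def
  have := @TripleAt.eq_1
  have := @TripleAt.eq_def
  have := @tubeL.eq_1
  have := @tubeL.eq_def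
  have := @InTube.eq_1
  have := @InTube.eq_def
  have := @OnTube.eq_1
  have := @OnTube.eq_def
  have := @St.eq_1
  have := @St.eq_def
  have := @canB.eq_1
  have := @canB.eq_def
  have := @canL.eq_1
  have := @canL.eq_def
  have := @Jc.eq_1
  have := @Jc.eq_def
  have := @supE.eq_1
  have := @supE.eq_def
  trivial

@[simp] theorem rev_apply (w : E × ℝ → ℝ) (X : E × ℝ) : rev w X = - w (-X) := rfl
@[simp] theorem rev_rev (w : E × ℝ → ℝ) : rev (rev w) = w := by funext X; simp [rev]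
@[simp] theorem pt_zero (X₀ : E × ℝ) (b : E) (a τ : ℝ) : pt X₀ b a τ 0 = X₀ := by simp [pt]
@[simp] theorem sym_zero (X₀ : E × ℝ) (b : E) (h a τ : ℝ) (w : E × ℝ → ℝ) :
    sym X₀ b h a τ w 0 = 0 := by simp [sym]
@[simp] theorem mem_slab {T : ℝ} {X : E × ℝ} : X ∈ slab E T ↔ |X.2| < T := Iff.rfl

theorem Slab.mono {K Λ K' Λ' : ℝ} {w : E × ℝ → ℝ} (hw : Slab K Λ w) (hK : K ≤ K') (hΛ : Λ ≤ Λ') :
    Slab K' Λ' w :=
  ⟨hw.1, hw.2.1, hw.2.2.1, fun X hX => (hw.2.2.2 X hX).trans (by nlinarith [sq_nonneg ‖X.1‖])⟩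

theorem Nrm.mono {Λ Λ' : ℝ} {w : E × ℝ → ℝ} (hw : Nrm Λ w) (hΛ : Λ ≤ Λ') : Nrm Λ' w :=
  ⟨hw.1, fun η σ h1 h2 => (hw.2 η σ h1 h2).trans (by linarith)⟩

theorem isOpen_slab (T : ℝ) : IsOpen (slab E T) :=
  isOpen_lt (by fun_prop) continuous_const

theorem continuous_pt (X₀ : E × ℝ) (b : E) (a τ : ℝ) : Continuous (pt X₀ b a τ) := by
  unfold pt; fun_prop

end R94
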