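import Crest.Agent.R94.Flow2

/-!
# R94/Engine: the discrete three-point maximum principle (replaces the theorem on sums)
-/

set_option autoImplicit false
set_option linter.unusedSectionVars false
set_option linter.unusedVariables false

open Set Filter Topology Metric
open scoped InnerProductSpace

namespace R94

variable {E : Type} [NormedAddCommGroup E] [InnerProductSpace ℝ E] [FiniteDimensional ℝ E]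

variable {w : E × ℝ → ℝ}

/-- `‖η + u‖ = √((‖η‖ + u∥)² + ‖u⊥‖²) ≤ ‖η‖ + u∥ + ‖u⊥‖² / (2(‖η‖ + u∥))`, `‖η‖ + u∥ ≥ ‖η‖/2`. -/
theorem norm_add_le_expand {η u : E} (hη : η ≠ 0) (hu : ‖u‖ ≤ ‖η‖ / 2) :
    ‖η + u‖ ≤ ‖η‖ + ⟪η, u⟫_ℝ / ‖η‖ + ‖u - (⟪η, u⟫_ℝ / ‖η‖ ^ 2) • η‖ ^ 2 / ‖η‖ := by
  have hN : 0 < ‖η‖ := norm_pos_iff.2 hη
  have h1 : |⟪η, u⟫_ℝ| ≤ ‖η‖ * ‖u‖ := abs_real_inner_le_norm η u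
  have h2 : ‖u - (⟪η, u⟫_ℝ / ‖η‖ ^ 2) • η‖ ^ 2 = ‖u‖ ^ 2 - (⟪η, u⟫_ℝ / ‖η‖) ^ 2 := by
    rw [norm_sub_sq_real, inner_smul_right, norm_smul, mul_pow, Real.norm_eq_abs, sq_abs,
      real_inner_comm η u]
    field_simp
    ring
  have h3 : ‖η + u‖ ^ 2 = (‖η‖ + ⟪η, u⟫_ℝ / ‖η‖) ^ 2 + ‖u - (⟪η, u⟫_ℝ / ‖η‖ ^ 2) • η‖ ^ 2 := by
    rw [h2, norm_add_sq_real]
    field_simp
    ring
  have h4 : -(‖η‖ / 2) ≤ ⟪η, u⟫_ℝ / ‖η‖ := by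
    rw [le_div_iff₀ hN]
    nlinarith [(abs_le.1 h1).1]
  have h5 : 0 ≤ ‖u - (⟪η, u⟫_ℝ / ‖η‖ ^ 2) • η‖ ^ 2 / ‖η‖ := by positivity
  have h6 : ‖u - (⟪η, u⟫_ℝ / ‖η‖ ^ 2) • η‖ ^ 2 =
      ‖η‖ * (‖u - (⟪η, u⟫_ℝ / ‖η‖ ^ 2) • η‖ ^ 2 / ‖η‖) := by field_simp
  refine le_of_sq_le_sq ?_ (by linarith)
  rw [h3]
  generalize ‖u - (⟪η, u⟫_ℝ / ‖η‖ ^ 2) • η‖ ^ 2 / ‖η‖ = m at *
  rw [h6]
  nlinarith [mul_nonneg h5 (by linarith : 0 ≤ ‖η‖ / 2 + ⟪η, u⟫_ℝ / ‖η‖), sq_nonneg m]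

theorem engine_limit {F : Type} [PseudoMetricSpace F] {K : Set (ℝ × ℝ)} (hK : IsCompact K)
    {G : (ℝ × ℝ) × F → ℝ} (hG : Continuous G) (v : F) (c : ℝ)
    (h : ∀ ε : ℝ, 0 < ε → ∃ k ∈ K, ∃ q, dist q v ≤ ε ∧ G (k, q) ≤ c) : ∃ k ∈ K, G (k, v) ≤ c := by
  choose k hk q hq hG' using fun n : ℕ => h (1 / ((n : ℝ) + 1)) Nat.one_div_pos_of_nat
  obtain ⟨k₀, hk₀, φ, hφ, hlim⟩ := hK.tendsto_subseq hk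
  have hql : Tendsto q atTop (𝓝 v) := tendsto_iff_dist_tendsto_zero.2
    (squeeze_zero (fun _ => dist_nonneg) hq tendsto_one_div_add_atTop_nhds_zero_nat)
  exact ⟨k₀, hk₀, le_of_tendsto' ((hG.tendsto _).comp
    (hlim.prodMk_nhds (hql.comp hφ.tendsto_atTop))) fun n => hG' _⟩

theorem engine_sq_div {τ : ℝ} (hτ : 0 < τ) (q : E) : ‖τ • q‖ ^ 2 / (2 * τ) = τ * ‖q‖ ^ 2 / 2 := by
  rw [norm_smul, Real.norm_eq_abs, abs_of_pos hτ]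
  field_simp

theorem engine_fwd_p (hw : CSQ w) {δ : ℝ} (hδ : 0 < δ) (X : E × ℝ) :
    ∃ C : ℝ, ∀ τ : ℝ, 0 < τ → τ ≤ 1 → ∃ q : E, ‖τ • q‖ ^ 2 ≤ C * τ ∧
      Tp δ w (X.1 + τ • q, X.2 + τ) = Tp (δ + τ) w X + τ * ‖q‖ ^ 2 / 2 := by
  obtain ⟨C, -, hC⟩ := (hw.flowp hδ).opt_small X
  refine ⟨C, fun τ hτ hτ1 => ?_⟩
  obtain ⟨η, hη⟩ := (hw.flowp hδ).exists_Tp hτ X
  obtain ⟨q, rfl⟩ : ∃ q : E, η = τ • q := ⟨τ⁻¹ • η, by rw [smul_inv_smul₀ hτ.ne']⟩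
  refine ⟨q, (hC τ hτ hτ1 _).1 ?_, ?_⟩
  · have := (hw.flowp hδ).2.le_Tp hτ X 0
    rw [hη] at this
    simpa using this
  · rw [add_comm δ τ, hw.Tp_add hτ hδ, hη, engine_sq_div hτ, sub_add_cancel]

theorem engine_bwd_m (hw : CSQ w) {δ : ℝ} (hδ : 0 < δ) (X : E × ℝ) :
    ∃ C : ℝ, ∀ τ : ℝ, 0 < τ → τ ≤ 1 → ∃ q : E, ‖τ • q‖ ^ 2 ≤ C * τ ∧
      Tm δ w (X.1 + -(τ • q), X.2 + -τ) = Tm (δ + τ) w X - τ * ‖q‖ ^ 2 / 2 := by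
  obtain ⟨C, -, hC⟩ := (hw.flowm hδ).opt_small X
  refine ⟨C, fun τ hτ hτ1 => ?_⟩
  obtain ⟨η, hη⟩ := (hw.flowm hδ).exists_Tm hτ X
  obtain ⟨q, rfl⟩ : ∃ q : E, η = -(τ • q) :=
    ⟨-(τ⁻¹ • η), by rw [smul_neg, neg_neg, smul_inv_smul₀ hτ.ne']⟩
  refine ⟨q, ?_, ?_⟩
  · rw [← norm_neg]
    refine (hC τ hτ hτ1 _).2 ?_
    have := (hw.flowm hδ).2.Tm_le hτ X 0
    rw [hη] at this
    simpa using this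
  · rw [add_comm δ τ, hw.Tm_add hτ hδ, hη, norm_neg, engine_sq_div hτ, add_sub_cancel_right,
      sub_eq_add_neg X.2]

theorem engine_bwd_p (hw : Ent w) {δ τ : ℝ} (hτ : 0 < τ) (hτδ : τ < δ) (X : E × ℝ) (v : E) :
    2 * Tp δ w X - Tp (δ + τ) w X - τ * ‖v‖ ^ 2 / 2 ≤ Tp δ w (X.1 + -(τ • v), X.2 + -τ) := by
  have h1 := hw.second_Tp hτ hτδ X
  have h2 := (hw.csq.flowp (sub_pos.2 hτδ)).2.le_Tp hτ (X.1 + -(τ • v), X.2 + -τ) (τ • v)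
  rw [← hw.csq.Tp_add hτ (sub_pos.2 hτδ), add_sub_cancel, engine_sq_div hτ] at h2
  simp only [neg_add_cancel_right, Prod.mk.eta] at h2
  linarith

theorem engine_fwd_m (hw : Ent w) {δ τ : ℝ} (hτ : 0 < τ) (hτδ : τ < δ) (X : E × ℝ) (p : E) :
    Tm δ w (X.1 + τ • p, X.2 + τ) ≤ 2 * Tm δ w X - Tm (δ + τ) w X + τ * ‖p‖ ^ 2 / 2 := by
  have h1 := hw.second_Tm hτ hτδ X
  have h2 := (hw.csq.flowm (sub_pos.2 hτδ)).2.Tm_le hτ (X.1 + τ • p, X.2 + τ) (-(τ • p))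
  rw [← hw.csq.Tm_add hτ (sub_pos.2 hτδ), add_sub_cancel, norm_neg, engine_sq_div hτ] at h2
  simp only [add_neg_cancel_right, add_sub_cancel_right, Prod.mk.eta] at h2
  linarith

theorem engine_gam (α γ f f' : ℝ) :
    Gam α γ f' = Gam α γ f + (α + γ * f) * (f' - f) + γ / 2 * (f' - f) ^ 2 := by
  unfold Gam
  ring

theorem engine_norm_sub (τ : ℝ) (q v : E) :
    ‖τ • q - τ • v‖ ^ 2 = τ ^ 2 * (‖q‖ ^ 2 - 2 * ⟪v, q⟫_ℝ + ‖v‖ ^ 2) := by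
  rw [← smul_sub, norm_smul, mul_pow, Real.norm_eq_abs, sq_abs, norm_sub_sq_real, real_inner_comm]

theorem engine_ev (c d : ℝ) (hd : 0 < d) : ∀ᶠ τ : ℝ in 𝓝[>] 0, c * τ < d := by
  have : Tendsto (fun τ : ℝ => c * τ) (𝓝 0) (𝓝 (c * 0)) := (continuous_const_mul c).tendsto 0
  rw [mul_zero] at this
  exact (this.eventually_lt_const hd).filter_mono nhdsWithin_le_nhds

theorem engine_alg {τ a₁ a₂ n₁ n₂ n₀ G A D : ℝ} (hτ : 0 < τ) (ha₁ : 0 < a₁) (ha₂ : 0 < a₂)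
    (hn₁ : 0 ≤ n₁) (hn₂ : 0 ≤ n₂) (hn₀ : 0 ≤ n₀) (hG : 0 ≤ G) (h₁ : 4 * A * τ < a₁)
    (h₂ : 4 * A * τ < a₂) (h₀ : 2 * A * τ < 1)
    (h : a₁ * τ * n₁ / 2 + a₂ * τ * n₂ / 2 + τ * n₀ / 2 + τ ^ 2 * G / 2 ≤
      A * τ ^ 2 * (n₁ + n₂ + n₀) + 2 * D * τ ^ 2) :
    G ≤ 4 * D ∧ n₁ ≤ 8 * D / a₁ * τ ∧ n₂ ≤ 8 * D / a₂ * τ := by
  have h' : a₁ * n₁ / 2 + a₂ * n₂ / 2 + n₀ / 2 + τ * G / 2 ≤ A * τ * (n₁ + n₂ + n₀) + 2 * D * τ := by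
    refine le_of_mul_le_mul_left ?_ hτ
    linarith
  have e1 := mul_le_mul_of_nonneg_right h₁.le hn₁
  have e2 := mul_le_mul_of_nonneg_right h₂.le hn₂
  have e0 := mul_le_mul_of_nonneg_right h₀.le hn₀
  have p1 := mul_nonneg ha₁.le hn₁
  have p2 := mul_nonneg ha₂.le hn₂
  have p3 := mul_nonneg hτ.le hG
  refine ⟨le_of_mul_le_mul_left (by linarith) hτ, ?_, ?_⟩
  · rw [div_mul_eq_mul_div, le_div_iff₀ ha₁]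
    linarith
  · rw [div_mul_eq_mul_div, le_div_iff₀ ha₂]
    linarith

/-- **Three free points.** `f = Tp δ w`, `g = Tm δ' w`. For small `τ > 0` let `τ • qᵢ` be the
maximiser of `Tp τ f` at `Xᵢ`, `-τ • q₀` the minimiser of `Tm τ g` at `X₀` (all `O(√τ)` by
`opt_small`, so the displacements below are in the neighbourhood). Forward move
`(τ • q₁, τ • q₂, τ • p, τ)`, backward move `(-τ • v₁, -τ • v₂, -τ • q₀, -τ)`. With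
`kᵢ(τ) = (Tp (δ+τ) w Xᵢ - Tp δ w Xᵢ)/τ`: `fᵢ⁺ - fᵢ = τ kᵢ(τ) + τ‖qᵢ‖²/2` (semigroup);
`fᵢ⁻ ≥ Tp (δ-τ) w Xᵢ - τ‖vᵢ‖²/2 ≥ fᵢ - τ kᵢ(τ) - τ‖vᵢ‖²/2` (`f = Tp τ (Tp (δ-τ) w)`, `le_Tp`,
`second_Tp`); likewise `g⁺ + g⁻ - 2 g ≤ τ (‖p‖² - ‖q₀‖²)/2`. `Gam (f+u) = Gam f + a u + γ u²/2`; drop
the `γ` term backwards. Adding the two instances of `hmax`:
`Σ (aᵢτ/2 - Aτ²)‖qᵢ - vᵢ‖² + (τ/2 - Aτ²)‖q₀ - p‖² + Σ γᵢ τ² (kᵢ(τ) + ‖qᵢ‖²/2)²/2 ≤ 2 D τ²`.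
Hence `qᵢ → vᵢ` as `τ → 0`; `kᵢ(τ)` stays in the compact interval of `slope_Tp`; take `τₙ → 0` and
a convergent subsequence (or an ultrafilter limit). -/
theorem engine3 (hw : Ent w) {δ δ' : ℝ} (hδ : 0 < δ) (hδ' : 0 < δ') (X₁ X₂ X₀ : E × ℝ)
    {α₁ γ₁ α₂ γ₂ a₁ a₂ : ℝ} (hγ₁ : 0 ≤ γ₁) (hγ₂ : 0 ≤ γ₂) (ha₁ : a₁ = α₁ + γ₁ * Tp δ w X₁)
    (ha₂ : a₂ = α₂ + γ₂ * Tp δ w X₂) (hp₁ : 0 < a₁) (hp₂ : 0 < a₂) (v₁ v₂ p : E) (r A D : ℝ)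
    (hmax : ∀ᶠ Z : E × E × E × ℝ in 𝓝 0,
      Gam α₁ γ₁ (Tp δ w (X₁.1 + Z.1, X₁.2 + Z.2.2.2)) +
          Gam α₂ γ₂ (Tp δ w (X₂.1 + Z.2.1, X₂.2 + Z.2.2.2)) -
          Tm δ' w (X₀.1 + Z.2.2.1, X₀.2 + Z.2.2.2) ≤
        Gam α₁ γ₁ (Tp δ w X₁) + Gam α₂ γ₂ (Tp δ w X₂) - Tm δ' w X₀ +
          a₁ * ⟪v₁, Z.1⟫_ℝ + a₂ * ⟪v₂, Z.2.1⟫_ℝ - ⟪p, Z.2.2.1⟫_ℝ + r * Z.2.2.2 +
          A * (‖Z.1 - Z.2.2.2 • v₁‖ ^ 2 + ‖Z.2.1 - Z.2.2.2 • v₂‖ ^ 2 + ‖Z.2.2.1 - Z.2.2.2 • p‖ ^ 2) +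
          D * Z.2.2.2 ^ 2) :
    ∃ k₁ k₂ : ℝ, Sp δ w X₁ ≤ k₁ ∧ k₁ ≤ (Tp (2 * δ) w X₁ - Tp δ w X₁) / δ ∧
      Sp δ w X₂ ≤ k₂ ∧ k₂ ≤ (Tp (2 * δ) w X₂ - Tp δ w X₂) / δ ∧
      γ₁ * (k₁ + ‖v₁‖ ^ 2 / 2) ^ 2 + γ₂ * (k₂ + ‖v₂‖ ^ 2 / 2) ^ 2 ≤ 4 * D := by
  obtain ⟨ρ, hρ, hmax⟩ := Metric.eventually_nhds_iff.1 hmax
  obtain ⟨C₁, hC₁⟩ := engine_fwd_p hw.csq hδ X₁
  obtain ⟨C₂, hC₂⟩ := engine_fwd_p hw.csq hδ X₂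
  obtain ⟨C₀, hC₀⟩ := engine_bwd_m hw.csq hδ' X₀
  have key := engine_limit (F := E × E)
    (K := Icc (Sp δ w X₁) ((Tp (2 * δ) w X₁ - Tp δ w X₁) / δ) ×ˢ
      Icc (Sp δ w X₂) ((Tp (2 * δ) w X₂ - Tp δ w X₂) / δ)) (isCompact_Icc.prod isCompact_Icc)
    (G := fun z => γ₁ * (z.1.1 + ‖z.2.1‖ ^ 2 / 2) ^ 2 + γ₂ * (z.1.2 + ‖z.2.2‖ ^ 2 / 2) ^ 2)
    (by fun_prop) (v₁, v₂) (4 * D) fun ε hε => ?_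
  · obtain ⟨k, hk, h⟩ := key
    exact ⟨k.1, k.2, hk.1.1, hk.1.2, hk.2.1, hk.2.2, h⟩
  have hρ2 : 0 < ρ ^ 2 := by positivity
  have hε2 : 0 < ε ^ 2 := by positivity
  obtain ⟨τ, hτ, t1, t2, t3, t4, t5, t6, t7, t8, t9, t10, t11, t12, t13, t14, t15⟩ :
      ∃ τ : ℝ, 0 < τ ∧ 1 * τ < 1 ∧ 1 * τ < δ ∧ 1 * τ < δ' ∧ 1 * τ < ρ ∧ C₁ * τ < ρ ^ 2 ∧
        C₂ * τ < ρ ^ 2 ∧ C₀ * τ < ρ ^ 2 ∧ ‖v₁‖ * τ < ρ ∧ ‖v₂‖ * τ < ρ ∧ ‖p‖ * τ < ρ ∧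
        4 * A * τ < a₁ ∧ 4 * A * τ < a₂ ∧ 2 * A * τ < 1 ∧ 8 * D / a₁ * τ < ε ^ 2 ∧
        8 * D / a₂ * τ < ε ^ 2 := by
    refine Filter.Eventually.exists (f := 𝓝[>] (0 : ℝ)) ?_
    filter_upwards [self_mem_nhdsWithin, engine_ev 1 1 one_pos, engine_ev 1 δ hδ,
      engine_ev 1 δ' hδ', engine_ev 1 ρ hρ, engine_ev C₁ _ hρ2, engine_ev C₂ _ hρ2,
      engine_ev C₀ _ hρ2, engine_ev ‖v₁‖ ρ hρ, engine_ev ‖v₂‖ ρ hρ, engine_ev ‖p‖ ρ hρ,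
      engine_ev (4 * A) a₁ hp₁, engine_ev (4 * A) a₂ hp₂, engine_ev (2 * A) 1 one_pos,
      engine_ev (8 * D / a₁) _ hε2, engine_ev (8 * D / a₂) _ hε2]
      with τ h0 h1 h2 h3 h4 h5 h6 h7 h8 h9 h10 h11 h12 h13 h14 h15
    exact ⟨h0, h1, h2, h3, h4, h5, h6, h7, h8, h9, h10, h11, h12, h13, h14, h15⟩
  rw [one_mul] at t1 t2 t3 t4
  obtain ⟨q₁, hq₁, e₁⟩ := hC₁ τ hτ t1.le
  obtain ⟨q₂, hq₂, e₂⟩ := hC₂ τ hτ t1.le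
  obtain ⟨q₀, hq₀, e₀⟩ := hC₀ τ hτ t1.le
  have hs : ∀ {v : E}, ‖v‖ * τ < ρ → ‖τ • v‖ < ρ := fun h => by
    rwa [norm_smul, Real.norm_eq_abs, abs_of_pos hτ, mul_comm]
  have hs' : ∀ {q : E} {C : ℝ}, ‖τ • q‖ ^ 2 ≤ C * τ → C * τ < ρ ^ 2 → ‖τ • q‖ < ρ := fun h h' =>
    lt_of_pow_lt_pow_left₀ 2 hρ.le (h.trans_lt h')
  have hτn : ‖τ‖ < ρ := by rwa [Real.norm_eq_abs, abs_of_pos hτ]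
  have hF := @hmax (τ • q₁, τ • q₂, τ • p, τ) (by
    simp only [dist_zero_right, Prod.norm_mk, max_lt_iff]
    exact ⟨hs' hq₁ t5, hs' hq₂ t6, hs t10, hτn⟩)
  have hB := @hmax (-(τ • v₁), -(τ • v₂), -(τ • q₀), -τ) (by
    simp only [dist_zero_right, Prod.norm_mk, max_lt_iff, norm_neg]
    exact ⟨hs t8, hs t9, hs' hq₀ t7, hτn⟩)
  have b₁ := engine_bwd_p hw hτ t2 X₁ v₁
  have b₂ := engine_bwd_p hw hτ t2 X₂ v₂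
  have f₀ := engine_fwd_m hw hτ t3 X₀ p
  have s₁ := hw.slope_Tp hδ hτ t2.le X₁
  have s₂ := hw.slope_Tp hδ hτ t2.le X₂
  set k₁ := (Tp (δ + τ) w X₁ - Tp δ w X₁) / τ with hk₁
  set k₂ := (Tp (δ + τ) w X₂ - Tp δ w X₂) / τ with hk₂
  have ek₁ : Tp (δ + τ) w X₁ = Tp δ w X₁ + τ * k₁ := by rw [hk₁]; field_simp; ring
  have ek₂ : Tp (δ + τ) w X₂ = Tp δ w X₂ + τ * k₂ := by rw [hk₂]; field_simp; ring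
  clear_value k₁ k₂
  have en : ∀ q v : E, -(τ • q) - -τ • v = -(τ • q - τ • v) := fun q v => by
    rw [neg_smul]
    abel
  simp only [en, norm_neg, inner_neg_right, inner_smul_right, real_inner_self_eq_norm_sq,
    engine_norm_sub] at hF hB
  rw [engine_gam α₁ γ₁ (Tp δ w X₁) (Tp δ w (_, _)), engine_gam α₂ γ₂ (Tp δ w X₂) (Tp δ w (_, _)),
    ← ha₁, ← ha₂] at hF hB
  rw [e₁, e₂, ek₁, ek₂] at hF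
  rw [e₀] at hB
  rw [ek₁] at b₁
  rw [ek₂] at b₂
  have c₁ := mul_le_mul_of_nonneg_left b₁ hp₁.le
  have c₂ := mul_le_mul_of_nonneg_left b₂ hp₂.le
  have d₁ := mul_nonneg hγ₁ (sq_nonneg (Tp δ w (X₁.1 + -(τ • v₁), X₁.2 + -τ) - Tp δ w X₁))
  have d₂ := mul_nonneg hγ₂ (sq_nonneg (Tp δ w (X₂.1 + -(τ • v₂), X₂.2 + -τ) - Tp δ w X₂))
  have hn : ∀ q v : E, ‖q - v‖ ^ 2 = ‖q‖ ^ 2 - 2 * ⟪v, q⟫_ℝ + ‖v‖ ^ 2 := fun q v => by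
    rw [norm_sub_sq_real, real_inner_comm]
  obtain ⟨g1, g2, g3⟩ := engine_alg (n₁ := ‖q₁ - v₁‖ ^ 2) (n₂ := ‖q₂ - v₂‖ ^ 2)
    (n₀ := ‖q₀ - p‖ ^ 2) (G := γ₁ * (k₁ + ‖q₁‖ ^ 2 / 2) ^ 2 + γ₂ * (k₂ + ‖q₂‖ ^ 2 / 2) ^ 2)
    (D := D) hτ hp₁ hp₂ (sq_nonneg _) (sq_nonneg _) (sq_nonneg _) (by positivity) t11 t12 t13 (by
      rw [hn, hn, hn]
      linarith)
  refine ⟨(k₁, k₂), ⟨s₁, s₂⟩, (q₁, q₂), ?_, g1⟩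
  rw [Prod.dist_eq, max_le_iff, dist_eq_norm, dist_eq_norm]
  exact ⟨(lt_of_pow_lt_pow_left₀ 2 hε.le (g2.trans_lt t14)).le,
    (lt_of_pow_lt_pow_left₀ 2 hε.le (g3.trans_lt t15)).le⟩

end R94
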