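import Crest.Agent.R94.Defs

/-!
# R94/Env: an envelope (penalised maximisation) lemma of one real variable
-/

set_option autoImplicit false
set_option linter.unusedSectionVars false
set_option linter.unusedVariables false

open Set Filter Topology Metric
open scoped InnerProductSpace

namespace R94

variable {E : Type} [NormedAddCommGroup E] [InnerProductSpace ℝ E] [FiniteDimensional ℝ E]

/-- `A = 16 C`, `G N = sSup (J i - A (ν i - N)²)`; `ν² ≤ 2N² + 2(ν - N)²` gives `G N ≤ C + 2CN²`, and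
`G N ≥ -C(1+N)` for `N ≥ 0`. For arbitrarily large integers `M`, `G M - G (M-1) ≥ -(C+1)`
(otherwise `G` decreases faster than `-C(1+N)`). Take `i` with
`J i - A(ν i - M)² ≥ G M - exp(-2M)` and `a = 2A(ν i - M)`. Then `J j ≤ G M + A(ν j - M)²` is the
last claim (expand; `exp(-2M) ≤ exp(-ν i)` once `ν i ≤ 2M`). `G (M-1) ≥ J i - A(ν i - M + 1)²`
gives `a ≥ -(C + 2 + A)`. `14C(ν i - M)² ≤ C + 2CM² + C(1+M) + 1` gives `|ν i - M| ≤ M/2` for large
`M`. -/
theorem envelope {I : Type} (J ν : I → ℝ) {C : ℝ} (hC : 0 < C) (hup : ∀ i, J i ≤ C * (1 + ν i ^ 2))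
    (hlo : ∀ N : ℝ, 0 ≤ N → ∃ i, ν i = N ∧ -(C * (1 + N)) ≤ J i) :
    ∃ A C' : ℝ, 0 < A ∧ 0 < C' ∧ ∀ N₀ : ℝ, ∃ (N : ℝ) (i : I) (a : ℝ), N₀ ≤ N ∧ -C' ≤ a ∧
      |a| ≤ C' * (1 + N) ∧ N / 2 ≤ ν i ∧ ν i ≤ 2 * N ∧ -(C' * (1 + N)) ≤ J i ∧
      ∀ j, J j ≤ J i + Real.exp (-ν i) + a * (ν j - ν i) + A * (ν j - ν i) ^ 2 := by
  have : Nonempty I := ⟨(hlo 0 le_rfl).choose⟩
  let G : ℝ → ℝ := fun N => ⨆ i, (J i - 16 * C * (ν i - N) ^ 2)
  have hup' : ∀ i N, J i ≤ C + 2 * C * N ^ 2 + 2 * C * (ν i - N) ^ 2 := fun i N => by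
    nlinarith [hup i, mul_nonneg hC.le (sq_nonneg (ν i - 2 * N))]
  have hG : ∀ N i, J i - 16 * C * (ν i - N) ^ 2 ≤ G N := fun N i =>
    le_ciSup (f := fun i => J i - 16 * C * (ν i - N) ^ 2) ⟨C + 2 * C * N ^ 2, by
      rintro _ ⟨i, rfl⟩
      nlinarith [hup' i N, mul_nonneg hC.le (sq_nonneg (ν i - N))]⟩ i
  have hG' : ∀ N, 0 ≤ N → -(C * (1 + N)) ≤ G N := fun N hN => by
    obtain ⟨i, h1, h2⟩ := hlo N hN
    simpa [h1] using h2.trans (by simpa [h1] using hG N i)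
  have hM : ∀ M₀ : ℝ, 0 ≤ M₀ → ∃ M, M₀ ≤ M ∧ G M - (C + 1) ≤ G (M + 1) := fun M₀ h0 => by
    by_contra hn
    push Not at hn
    have h1 : ∀ k : ℕ, G (M₀ + k) ≤ G M₀ - k * (C + 1) := fun k => by
      induction k with
      | zero => simp
      | succ k ih =>
        have := hn (M₀ + k) (le_add_of_nonneg_right (Nat.cast_nonneg k))
        push_cast
        rw [← add_assoc]
        linarith
    obtain ⟨k, hk⟩ := exists_nat_gt (G M₀ + C * (1 + M₀))
    have := (hG' _ (add_nonneg h0 (Nat.cast_nonneg k))).trans (h1 k)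
    linarith
  refine ⟨16 * C, 17 * C + 2, by positivity, by positivity, fun N₀ => ?_⟩
  obtain ⟨M, h1, h2⟩ := hM (max N₀ (4 + 1 / C)) (le_max_of_le_right (by positivity))
  have h3 := le_of_max_le_left h1
  have h4 := le_of_max_le_right h1
  have h5 : 0 < 1 / C := by positivity
  have h6 : 1 ≤ C * (M + 1) := by
    have : C * (1 / C) = 1 := by field_simp
    nlinarith
  obtain ⟨N, hN⟩ : ∃ N, N = M + 1 := ⟨_, rfl⟩
  rw [← hN] at h2 h6
  have hN4 : 4 ≤ N := by linarith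
  obtain ⟨i, hi⟩ := exists_lt_of_lt_ciSup (f := fun i => J i - 16 * C * (ν i - N) ^ 2)
    (sub_lt_self (G N) (Real.exp_pos (-(2 * N))))
  have e1 : Real.exp (-(2 * N)) ≤ 1 := Real.exp_le_one_iff.2 (by linarith)
  have a1 := hG' N (by linarith)
  have a2 := hup' i N
  have a3 : (ν i - N) ^ 2 ≤ (N / 2) ^ 2 := by
    refine le_of_mul_le_mul_left ?_ hC
    have b1 : C * N * 4 ≤ C * N * N := mul_le_mul_of_nonneg_left hN4 (by positivity)
    have b2 : C * 4 ≤ C * N := mul_le_mul_of_nonneg_left hN4 hC.le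
    nlinarith
  have a4 := abs_le.1 (abs_le_of_sq_le_sq' a3 (by linarith) |> abs_le.2)
  have a5 := hG M i
  refine ⟨N, i, 32 * C * (ν i - N), by linarith, ?_, ?_, by linarith, by linarith, ?_, fun j => ?_⟩
  · have : M = N - 1 := by linarith
    rw [this] at a5 h2
    nlinarith
  · rw [abs_le]
    constructor <;> nlinarith [mul_le_mul_of_nonneg_left a4.1 hC.le,
      mul_le_mul_of_nonneg_left a4.2 hC.le]
  · nlinarith [mul_nonneg hC.le (sq_nonneg (ν i - N))]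
  · have b1 := hG N j
    have b2 : Real.exp (-(2 * N)) ≤ Real.exp (-ν i) := Real.exp_le_exp.2 (by linarith)
    nlinarith

end R94
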