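import Crest.Agent.R94.BU

/-!
# R94/EstL: from the Liouville theorem to the fixed-frame estimate
-/

set_option autoImplicit false
set_option linter.unusedSectionVars false
set_option linter.unusedVariables false

open Set Filter Topology Metric
open scoped InnerProductSpace

namespace R94

variable {E : Type} [NormedAddCommGroup E] [InnerProductSpace ℝ E] [FiniteDimensional ℝ E]

private lemma estL_mem {η : E} {t : ℝ} (h1 : ‖η‖ < 1) (h2 : |t| < 1) :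
    (((0 : E × ℝ).1 + η, (0 : E × ℝ).2 + t) : E × ℝ) ∈ ball (0 : E × ℝ) 1 := by
  simp only [Prod.fst_zero, Prod.snd_zero, zero_add, mem_ball, dist_zero_right, Prod.norm_mk,
    Real.norm_eq_abs]
  exact max_lt h1 h2

private lemma estL_mem0 {η : E} (h1 : ‖η‖ < 1) :
    (((0 : E × ℝ).1 + η, (0 : E × ℝ).2) : E × ℝ) ∈ ball (0 : E × ℝ) 1 := by
  have := estL_mem (t := 0) h1 (by simp)
  simpa using this

private lemma estL_diff {w : E × ℝ → ℝ} (hw : ∀ X ∈ ball (0 : E × ℝ) 1, |w X| ≤ 1) {Y : E × ℝ}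
    (hY : Y ∈ ball (0 : E × ℝ) 1) : |w Y - w 0| ≤ 2 := by
  have h1 := hw Y hY
  have h2 := hw 0 (mem_ball_self one_pos)
  have := abs_sub (w Y) (w 0)
  linarith

private lemma estL_b {w : E × ℝ → ℝ} (hw : ∀ X ∈ ball (0 : E × ℝ) 1, |w X| ≤ 1) {ρ lam h : ℝ}
    {b : E} (H : CFw (ball 0 1) w 0 ρ lam b h) (hρ : 0 < ρ) (hρ1 : ρ < 1) :
    ‖b‖ * √ρ ≤ 2 + lam * ρ + 1 := by
  refine H.norm_b_le hρ fun η hη => ?_
  have h1 : √ρ < 1 := by rw [Real.sqrt_lt' one_pos]; simpa using hρ1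
  have hm := estL_mem0 (lt_of_le_of_lt hη h1)
  exact ⟨hm, estL_diff hw hm⟩

/-- the dyadic frames converge. -/
private lemma estL_lim {F : Type} [NormedAddCommGroup F] [CompleteSpace F] (u : ℕ → F) {A r : ℝ}
    (hr : r < 1) (hu : ∀ n, ‖u n - u (n + 1)‖ ≤ A * r ^ n) :
    ∃ x : F, ∀ n, ‖u n - x‖ ≤ A * r ^ n / (1 - r) := by
  have hd : ∀ n, dist (u n) (u (n + 1)) ≤ A * r ^ n := fun n => by rw [dist_eq_norm]; exact hu n
  obtain ⟨x, hx⟩ := cauchySeq_tendsto_of_complete (cauchySeq_of_le_geometric r A hr hd)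
  exact ⟨x, fun n => by rw [← dist_eq_norm]; exact dist_le_of_le_geometric_of_tendsto r A hr hd hx n⟩

private lemma estL_dyadic {ρ₁ ρ : ℝ} (hρ : 0 < ρ) (hle : ρ ≤ ρ₁ / 4) :
    ∃ n : ℕ, ρ ≤ ρ₁ * (1 / 2) ^ n / 4 ∧ ρ₁ * (1 / 2) ^ n ≤ 8 * ρ := by
  have hρ₁ : 0 < ρ₁ := by linarith
  have hx : 0 < 4 * ρ / ρ₁ := by positivity
  have hx1 : 4 * ρ / ρ₁ ≤ 1 := by rw [div_le_one hρ₁]; linarith
  obtain ⟨n, h1, h2⟩ := exists_nat_pow_near_of_lt_one hx hx1 (y := (1 / 2 : ℝ)) (by norm_num)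
    (by norm_num)
  refine ⟨n, ?_, ?_⟩
  · rw [div_le_iff₀ hρ₁] at h2; linarith
  · rw [lt_div_iff₀ hρ₁, pow_succ] at h1; linarith

/-- `blow_up` with `γ₀ = 0` gives `α, C` and frames `(b_ρ,h_ρ)` at `0` with constant `C ρ^α`.
`norm_b_le`: `‖b_ρ‖ √ρ ≤ 3 + C` for `ρ < 1`; `abs_h_le` bounds `h_ρ` when `ρ‖b_ρ‖ < 1`. Fix
`ρ₁ ∈ (0,1/2]` with `(3 + C)√ρ₁ < 1` and `√(5C) ρ₁ < 1`. For `ρ ≤ ρ' ≤ 2ρ`, `ρ' ≤ ρ₁`:
`CFw.compare` with `D = 5 C ρ^(1+α)` gives `‖b_ρ - b_ρ'‖² ≤ 45 C ρ^α`, `|h_ρ - h_ρ'| ≤ 75 C ρ^α`.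
So the dyadic frames converge to `(b,h)` (geometric series, `cauchySeq_of_le_geometric`) with
`‖b_ρ - b‖² ≤ C' ρ^α`, `|h_ρ - h| ≤ C' ρ^α` for `ρ ≤ ρ₁`, and `‖b‖, |h| ≤ C'`. `change_frame` and
`absorb_h` give the claim for `ρ ≤ ρ₁/4`. For `ρ₁/4 ≤ ρ ≤ 1` the left side is at most
`2 + ‖b‖‖η‖ + (|h| + ‖b‖²/2)ρ ≤ C'' + ‖η‖²/ρ`. -/
theorem est_of_liou (hL : Liou E 0) : Est E := by
  obtain ⟨α, C, hα0, hα1, hC, hF⟩ := blow_up (E := E) (γ₀ := 0) (by norm_num) le_rfl hL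
  -- constants
  set s₁ : ℝ := 1 / (2 * (3 + C)) with hs₁
  have hs₁0 : 0 < s₁ := by positivity
  have hs₁C : s₁ * (3 + C) = 1 / 2 := by rw [hs₁]; field_simp
  have hs₁le : s₁ ≤ 1 / 6 := by nlinarith
  set ρ₁ : ℝ := s₁ ^ 2 with hρ₁
  have hρ₁0 : 0 < ρ₁ := by positivity
  have hρ₁le : ρ₁ ≤ 1 / 36 := by nlinarith
  set r : ℝ := (1 / 2 : ℝ) ^ (α / 2) with hr
  have hr0 : 0 < r := by positivity
  have hr1 : r < 1 := Real.rpow_lt_one (by norm_num) (by norm_num) (by linarith)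
  have hrr : r ^ 2 < 1 := by nlinarith
  set A : ℝ := √(45 * C) with hA
  have hA0 : 0 ≤ A := Real.sqrt_nonneg _
  have hA2 : A ^ 2 = 45 * C := Real.sq_sqrt (by positivity)
  set B₀ : ℝ := (3 + C) / s₁ + A / (1 - r) with hB₀
  set H₀ : ℝ := (2 + C) / ρ₁ + ((3 + C) / s₁) ^ 2 / 2 + 75 * C / (1 - r ^ 2) with hH₀
  have h1r : 0 < 1 - r := by linarith
  have h1rr : 0 < 1 - r ^ 2 := by linarith
  have hB₀0 : 0 < B₀ := by positivity
  have hH₀0 : 0 < H₀ := by positivity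
  set K₁ : ℝ := 16 * (4 * C + 2 * (45 * C / (1 - r) ^ 2) + 75 * C / (1 - r ^ 2)) with hK₁
  set K₂ : ℝ := (8 / ρ₁ + 2 * B₀ ^ 2 + H₀) * (4 / ρ₁) with hK₂
  have hK₁0 : 0 < K₁ := by positivity
  have hK₂0 : 0 < K₂ := by positivity
  refine ⟨α, B₀ + H₀ + K₁ + K₂, hα0, hα1, by positivity, fun w hw => ?_⟩
  have hw1 := hw.2.1
  -- dyadic scales
  set ρn : ℕ → ℝ := fun n => ρ₁ * (1 / 2) ^ n with hρn
  have hρn0 : ∀ n, 0 < ρn n := fun n => by simp only [hρn]; positivity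
  have hρnle : ∀ n, ρn n ≤ ρ₁ := fun n => by
    simp only [hρn]
    exact mul_le_of_le_one_right hρ₁0.le (pow_le_one₀ (by norm_num) (by norm_num))
  have hρnS : ∀ n, ρn n = 2 * ρn (n + 1) := fun n => by simp only [hρn]; ring
  have hpow1 : ∀ n, ρn n ^ α ≤ 1 := fun n =>
    Real.rpow_le_one (hρn0 n).le (by linarith [hρnle n]) hα0.le
  have hpow0 : ∀ n, 0 < ρn n ^ α := fun n => Real.rpow_pos_of_pos (hρn0 n) _
  have hpowE : ∀ n, ρn n ^ α = ρ₁ ^ α * (r ^ 2) ^ n := fun n => by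
    simp only [hρn, hr]
    rw [Real.mul_rpow hρ₁0.le (by positivity), ← Real.rpow_natCast ((1 / 2 : ℝ) ^ (α / 2)) 2,
      ← Real.rpow_mul (by norm_num), ← Real.rpow_natCast (1 / 2 : ℝ) n,
      ← Real.rpow_mul (by norm_num), ← Real.rpow_natCast _ n, ← Real.rpow_mul (by norm_num)]
    congr 2
    push_cast; ring
  have hρ₁α : ρ₁ ^ α ≤ 1 := Real.rpow_le_one hρ₁0.le (by linarith) hα0.le
  have hρ₁α0 : 0 < ρ₁ ^ α := Real.rpow_pos_of_pos hρ₁0 _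
  have hex : ∀ n, ∃ (b : E) (h : ℝ), CFw (ball 0 1) w 0 (ρn n) (C * ρn n ^ α) b h := fun n =>
    hF w hw 0 (mem_ball_self (by norm_num)) (ρn n) (hρn0 n) (by linarith [hρnle n])
  choose bn hn Hn using hex
  have hsq : ∀ n, √(ρn n) ≤ s₁ := fun n => by
    rw [Real.sqrt_le_left hs₁0.le]; exact hρnle n
  have hbn : ∀ n, ‖bn n‖ * √(ρn n) ≤ 3 + C := fun n => by
    have h1 := estL_b hw1 (Hn n) (hρn0 n) (by linarith [hρnle n])
    have h2 : C * ρn n ^ α * ρn n ≤ C := by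
      have : ρn n ^ α * ρn n ≤ 1 :=
        mul_le_one₀ (hpow1 n) (hρn0 n).le (by linarith [hρnle n])
      nlinarith
    linarith
  have hmem : ∀ n, (((0 : E × ℝ).1 + ρn n • bn n, (0 : E × ℝ).2 + ρn n) : E × ℝ) ∈
      ball (0 : E × ℝ) 1 := fun n => by
    refine estL_mem ?_ ?_
    · rw [norm_smul, Real.norm_eq_abs, abs_of_pos (hρn0 n)]
      have h1 : ρn n = √(ρn n) * √(ρn n) := (Real.mul_self_sqrt (hρn0 n).le).symm
      have h2 : ρn n * ‖bn n‖ = √(ρn n) * (‖bn n‖ * √(ρn n)) := by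
        conv_lhs => rw [h1]
        ring
      have h3 : √(ρn n) * (‖bn n‖ * √(ρn n)) ≤ s₁ * (3 + C) :=
        mul_le_mul (hsq n) (hbn n) (by positivity) hs₁0.le
      linarith
    · rw [abs_of_pos (hρn0 n)]; linarith [hρnle n]
  have hcmp : ∀ n, ‖bn (n + 1) - bn n‖ ^ 2 ≤ 45 * C * ρn n ^ α ∧
      |hn (n + 1) - hn n| ≤ 75 * C * ρn n ^ α := fun n => by
    have hp : ρn (n + 1) ^ α ≤ ρn n ^ α :=
      Real.rpow_le_rpow (hρn0 _).le (by linarith [hρnS n, hρn0 (n + 1)]) hα0.le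
    have hρ' := hρn0 (n + 1)
    have hD : 0 < 5 * C * ρn n ^ α * ρn (n + 1) := by have := hpow0 n; positivity
    have key := (Hn (n + 1)).compare (Hn n) (D := 5 * C * ρn n ^ α * ρn (n + 1)) hρ' le_rfl
      (by linarith [hρnS n]) hD ?_ ?_ (hmem (n + 1))
    · have e1 : 9 * (5 * C * ρn n ^ α * ρn (n + 1)) / ρn (n + 1) = 45 * C * ρn n ^ α := by
        field_simp; ring
      have e2 : 15 * (5 * C * ρn n ^ α * ρn (n + 1)) / ρn (n + 1) = 75 * C * ρn n ^ α := by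
        field_simp; ring
      rw [e1, e2] at key
      exact key
    · have h1 : C * ρn (n + 1) ^ α * ρn (n + 1) ≤ C * ρn n ^ α * ρn (n + 1) := by gcongr
      have h2 : C * ρn n ^ α * ρn n = 2 * (C * ρn n ^ α * ρn (n + 1)) := by
        conv_lhs => enter [2]; rw [hρnS n]
        ring
      have h3 : 0 < C * ρn n ^ α * ρn (n + 1) := by have := hpow0 n; positivity
      linarith
    · intro η hη
      refine estL_mem0 (lt_of_le_of_lt hη ?_)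
      rw [Real.sqrt_lt' one_pos]
      have h1 : ρn (n + 1) ≤ ρ₁ := hρnle _
      have h2 : 5 * C * ρn n ^ α * ρn (n + 1) * ρn (n + 1) ≤ 5 * C * 1 * ρ₁ * ρ₁ := by
        gcongr
        exact hpow1 n
      have h3 : C * s₁ ≤ 1 / 2 := by nlinarith
      have h4 : C * ρ₁ ≤ 1 / 12 := by rw [hρ₁]; nlinarith
      nlinarith
  set s₀ : ℝ := √(ρ₁ ^ α) with hs₀
  have hs₀0 : 0 ≤ s₀ := Real.sqrt_nonneg _
  have hs₀2 : s₀ ^ 2 = ρ₁ ^ α := Real.sq_sqrt hρ₁α0.le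
  have hs₀1 : s₀ ≤ 1 := by nlinarith
  obtain ⟨b, hb⟩ := estL_lim bn (A := A * s₀) hr1 (fun n => by
    rw [norm_sub_rev]
    refine abs_le_of_sq_le_sq' ?_ (by positivity) |>.2
    calc ‖bn (n + 1) - bn n‖ ^ 2 ≤ 45 * C * ρn n ^ α := (hcmp n).1
      _ = (A * s₀ * r ^ n) ^ 2 := by
        rw [hpowE, mul_pow, mul_pow, hA2, hs₀2, ← pow_mul, ← pow_mul, mul_comm 2 n]; ring)
  obtain ⟨h, hh⟩ := estL_lim hn (A := 75 * C * ρ₁ ^ α) hrr (fun n => by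
    rw [norm_sub_rev, Real.norm_eq_abs]
    calc |hn (n + 1) - hn n| ≤ 75 * C * ρn n ^ α := (hcmp n).2
      _ = _ := by rw [hpowE]; ring)
  have hb2 : ∀ n, ‖bn n - b‖ ^ 2 ≤ 45 * C / (1 - r) ^ 2 * ρn n ^ α := fun n => by
    calc ‖bn n - b‖ ^ 2 ≤ (A * s₀ * r ^ n / (1 - r)) ^ 2 := by gcongr; exact hb n
      _ = _ := by
        rw [hpowE, div_pow, mul_pow, mul_pow, hA2, hs₀2, ← pow_mul, ← pow_mul, mul_comm 2 n]; ring
  have hh2 : ∀ n, |hn n - h| ≤ 75 * C / (1 - r ^ 2) * ρn n ^ α := fun n => by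
    have := hh n
    rw [Real.norm_eq_abs] at this
    calc |hn n - h| ≤ _ := this
      _ = _ := by rw [hpowE]; ring
  have hρn00 : ρn 0 = ρ₁ := by simp [hρn]
  have hb0 : ‖bn 0‖ ≤ (3 + C) / s₁ := by
    have := hbn 0
    rw [hρn00, hρ₁, Real.sqrt_sq hs₁0.le] at this
    rwa [le_div_iff₀ hs₁0]
  have hbB : ‖b‖ ≤ B₀ := by
    have h1 := hb 0
    have h2 : A * s₀ * r ^ 0 / (1 - r) ≤ A / (1 - r) := by
      rw [pow_zero, mul_one]; gcongr; exact mul_le_of_le_one_right hA0 hs₀1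
    have h3 : ‖b‖ ≤ ‖bn 0‖ + ‖bn 0 - b‖ := by
      have := norm_sub_le (bn 0) (bn 0 - b)
      simpa using this
    rw [hB₀]; linarith
  have hhH : |h| ≤ H₀ := by
    have h1 := (Hn 0).abs_h_le (hρn0 0) (hmem 0) (estL_diff hw1 (hmem 0))
    have h2 : C * ρn 0 ^ α * ρn 0 ≤ C := by
      have : ρn 0 ^ α * ρn 0 ≤ 1 :=
        mul_le_one₀ (hpow1 0) (hρn0 0).le (by linarith [hρnle 0])
      nlinarith
    have h3 : |hn 0 + ‖bn 0‖ ^ 2 / 2| ≤ (2 + C) / ρ₁ := by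
      rw [le_div_iff₀ hρ₁0, ← hρn00]; linarith
    have h4 : ‖bn 0‖ ^ 2 ≤ ((3 + C) / s₁) ^ 2 := by gcongr
    have h5 := hh2 0
    have h6 : 75 * C / (1 - r ^ 2) * ρn 0 ^ α ≤ 75 * C / (1 - r ^ 2) :=
      mul_le_of_le_one_right (by positivity) (hpow1 0)
    have h7 := abs_le.1 h3
    have h8 := abs_le.1 h5
    have h9 : 0 ≤ ‖bn 0‖ ^ 2 := by positivity
    rw [hH₀, abs_le]
    constructor <;> linarith [h7.1, h7.2, h8.1, h8.2]
  refine ⟨b, h, by linarith, by linarith, fun ρ hρ hρ1 => ?_⟩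
  have hρα : 0 < ρ ^ α := Real.rpow_pos_of_pos hρ _
  rcases le_total ρ (ρ₁ / 4) with hle | hle
  · obtain ⟨n, h1, h2⟩ := estL_dyadic hρ hle
    change ρ ≤ ρn n / 4 at h1
    change ρn n ≤ 8 * ρ at h2
    have hq : 0 < ρn n / 4 := by linarith
    have H1 := ((((Hn n).change_frame (hρn0 n) b).absorb_h hq h).shrink hρ h1)
    refine H1.mono_lam hρ ?_
    have h3 : ρn n ^ α ≤ 8 * ρ ^ α := by
      calc ρn n ^ α ≤ (8 * ρ) ^ α := Real.rpow_le_rpow (hρn0 n).le h2 hα0.le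
        _ = 8 ^ α * ρ ^ α := Real.mul_rpow (by norm_num) hρ.le
        _ ≤ 8 * ρ ^ α := by
          gcongr
          calc (8 : ℝ) ^ α ≤ 8 ^ (1 : ℝ) := Real.rpow_le_rpow_of_exponent_le (by norm_num) hα1
            _ = 8 := Real.rpow_one _
    set K : ℝ := 4 * C + 2 * (45 * C / (1 - r) ^ 2) + 75 * C / (1 - r ^ 2) with hK
    have hK0 : 0 < K := by positivity
    have h4 : 4 * (C * ρn n ^ α) + 2 * ‖bn n - b‖ ^ 2 + |hn n - h| ≤ K * ρn n ^ α := by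
      have := hb2 n
      have := hh2 n
      rw [hK]; nlinarith
    have h5 : K * ρn n ^ α ≤ K * (8 * ρ ^ α) := by gcongr
    have h6 : (4 * (C * ρn n ^ α) + 2 * ‖bn n - b‖ ^ 2 + |hn n - h|) * (ρn n / 4) ≤
        (K * (8 * ρ ^ α)) * (2 * ρ) :=
      mul_le_mul (h4.trans h5) (by linarith) hq.le (by positivity)
    rw [div_le_iff₀ hρ]
    have h7 : K₁ * ρ ^ α * ρ ≤ (B₀ + H₀ + K₁ + K₂) * ρ ^ α * ρ := by
      gcongr; linarith
    have h8 : K₁ * ρ ^ α * ρ = (K * (8 * ρ ^ α)) * (2 * ρ) := by rw [hK₁]; ring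
    linarith
  · have h4ρ : 0 < 4 * ρ := by linarith
    have H0 := cfw_of_bdd (X := (0 : E × ℝ)) h4ρ (mem_ball_self one_pos) hw1
    have H1 := H0.change_frame h4ρ b
    rw [show 4 * ρ / 4 = ρ by ring] at H1
    refine (H1.absorb_h hρ h).mono_lam hρ ?_
    have h1 : 4 * (2 * 1 / (4 * ρ)) ≤ 8 / ρ₁ := by
      rw [show 4 * (2 * 1 / (4 * ρ)) = 8 / (4 * ρ) by ring]
      gcongr; linarith
    have h2 : ‖0 - b‖ ^ 2 ≤ B₀ ^ 2 := by
      rw [zero_sub, norm_neg]; gcongr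
    have h3 : |0 - h| ≤ H₀ := by rwa [zero_sub, abs_neg]
    have h4 : ρ ≤ ρ ^ α := by
      calc ρ = ρ ^ (1 : ℝ) := (Real.rpow_one _).symm
        _ ≤ ρ ^ α := Real.rpow_le_rpow_of_exponent_ge hρ hρ1 hα1
    have h5 : 1 ≤ 4 / ρ₁ * ρ ^ α := by
      rw [div_mul_eq_mul_div, le_div_iff₀ hρ₁0]; linarith
    have h6 : (8 / ρ₁ + 2 * B₀ ^ 2 + H₀) ≤ K₂ * ρ ^ α := by
      rw [hK₂, mul_assoc]
      exact le_mul_of_one_le_right (by positivity) h5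
    have h7 : K₂ * ρ ^ α ≤ (B₀ + H₀ + K₁ + K₂) * ρ ^ α := by
      gcongr; linarith
    linarith

end R94
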