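import Crest.Agent.R94.Step

/-!
# R94/Fast: the bias of a near-extremal configuration cannot be large
-/

set_option autoImplicit false
set_option linter.unusedSectionVars false
set_option linter.unusedVariables false

open Set Filter Topology Metric
open scoped InnerProductSpace

namespace R94

variable {E : Type} [NormedAddCommGroup E] [InnerProductSpace ℝ E] [FiniteDimensional ℝ E]

theorem fast_log (K₁ : ℝ) {K₂ : ℝ} (hK : 0 ≤ K₂) :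
    ∃ Q₀ : ℝ, ∀ Q : ℝ, Q₀ ≤ Q → 0 ≤ Q → K₁ + K₂ * Real.log (1 + Q) ≤ Q / 4 := by
  refine ⟨8 * K₁ + 1 + 8 * (K₂ * Real.log (8 * K₂ + 1)), fun Q h h0 => ?_⟩
  have hM : 0 < 8 * K₂ + 1 := by linarith
  have h1 := Real.log_le_sub_one_of_pos (x := (1 + Q) / (8 * K₂ + 1)) (by positivity)
  rw [Real.log_div (by positivity) hM.ne'] at h1
  have h2 : K₂ * ((1 + Q) / (8 * K₂ + 1)) ≤ (1 + Q) / 8 := by
    rw [← mul_div_assoc, div_le_div_iff₀ hM (by norm_num)]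
    nlinarith
  have h3 := mul_le_mul_of_nonneg_left h1 hK
  nlinarith

theorem fast_final {c κ Λ CE δ n a h : ℝ} {w : E × ℝ → ℝ} {η₀ Z₀ b : E}
    (hE : Ext c κ Λ CE w δ η₀ Z₀ n a) (hδ1 : δ ≤ 1) (H : CFw univ w 0 (8 * δ) 1 b h)
    (hb : ‖b‖ ≤ ‖Z₀‖ / 4) : ‖Z₀‖ ^ 2 ≤ 204 := by
  have hδ := hE.δpos
  have h1 := hE.e2 δ (Or.inl rfl) 0 0 η₀ 0 0 (by norm_num) (by simp) (by simp) (by simp)
  rw [hE.unit, one_mul, div_self hδ.ne', sub_self] at h1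
  simp only [mul_zero, add_zero, Real.sqrt_zero, zero_mul, ne_eq, OfNat.ofNat_ne_zero,
    not_false_eq_true, zero_pow] at h1
  have h2 := hE.e1
  have h3 := (abs_le.1 (H.abs_Tm_le hδ (by linarith))).1
  have h4 := H.le_Tm_shift hδ Z₀
  have h5 := (abs_le.1 (abs_real_inner_le_norm b Z₀)).1
  have h6 := mul_le_mul_of_nonneg_right hb (norm_nonneg Z₀)
  simp only [J0, Reg, smul_zero, add_zero, norm_zero] at h1 h2
  simp only [Prod.fst_zero, Prod.snd_zero] at h4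
  rw [show ((0 : E), (0 : ℝ)) = (0 : E × ℝ) from rfl] at h1
  set A := (1 - c) * Tp δ w (0 - c • η₀, 0) + c * Tp δ w (0 + (1 - c) • η₀, 0)
  set T0 := Tm δ w 0
  set T1 := Tm δ w (0 + δ • Z₀, 0)
  have h7 : (A - T0 - κ * ‖η₀‖) / δ - (A - T1 - κ * ‖η₀‖) / δ = (T1 - T0) / δ := by ring
  have h8 : ⟪b, Z₀⟫_ℝ - 16 - ‖Z₀‖ ^ 2 / 6 ≤ (T1 - T0) / δ := by
    rw [le_div_iff₀ hδ]
    linarith
  nlinarith

theorem fast_iter {P : ℝ → ℝ → E → Prop} {T θm : ℝ} (hT : 0 < T) (hθ : 0 < θm)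
    (hP : ∀ ρ v b, P ρ v b → T ≤ v ^ 2 * ρ → ∃ θ b', θm ≤ θ ∧ θ ≤ 1 ∧ P (θ * ρ) (v / 2) b')
    (k : ℕ) : ∀ ρ v b, P ρ v b → T ≤ v ^ 2 * ρ → v ^ 2 * ρ < 4 ^ k * T →
      ∃ ρ' v' b', P ρ' v' b' ∧ θm * T / 4 ≤ v' ^ 2 * ρ' ∧ v' ^ 2 * ρ' < T := by
  induction k with
  | zero => intro ρ v b _ h1 h2; linarith
  | succ k ih =>
    intro ρ v b h h1 h2
    obtain ⟨θ, b', h3, h4, h5⟩ := hP ρ v b h h1
    have e : (v / 2) ^ 2 * (θ * ρ) = θ * (v ^ 2 * ρ) / 4 := by ring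
    have h6 : θm * T ≤ θ * (v ^ 2 * ρ) := mul_le_mul h3 h1 hT.le (hθ.le.trans h3)
    have h7 : θ * (v ^ 2 * ρ) ≤ v ^ 2 * ρ := mul_le_of_le_one_left (hT.le.trans h1) h4
    by_cases h8 : (v / 2) ^ 2 * (θ * ρ) < T
    · exact ⟨_, _, _, h5, by linarith, h8⟩
    · refine ih _ _ _ h5 (not_lt.1 h8) ?_
      rw [pow_succ 4 k] at h2
      linarith

theorem fast_n1 {δ η Q : ℝ} (hδ0 : 0 < δ) (hη : 0 < η) (hQ : 0 ≤ Q) (hδ : δ * (1 + Q) ^ 10 ≤ η ^ 2) :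
    δ * (1 + Q ^ 2) / η ≤ η / (1 + Q) ^ 8 := by
  rw [div_le_div_iff₀ hη (by positivity)]
  have h1 : (1 + Q ^ 2) * (1 + Q) ^ 8 ≤ (1 + Q) ^ 2 * (1 + Q) ^ 8 :=
    mul_le_mul_of_nonneg_right (by nlinarith) (by positivity)
  have h2 := mul_le_mul_of_nonneg_left h1 hδ0.le
  linarith

theorem fast_n2 {δ η Q T V θ x : ℝ} (hδ0 : 0 < δ) (hT : 0 < T) (hV : 0 < V)
    (h1 : η * T = δ * (1 + Q ^ 2)) (h2 : η ≤ θ / (32 * V ^ 2)) (h3 : θ * T / 4 ≤ x) :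
    8 * δ ≤ x / V ^ 2 := by
  rw [le_div_iff₀ (by positivity)] at h2 ⊢
  have h4 : δ ≤ η * T := h1 ▸ le_mul_of_one_le_right hδ0.le (by nlinarith)
  have h5 := mul_le_mul_of_nonneg_right h2 hT.le
  have h6 := mul_le_mul_of_nonneg_right h4 (sq_nonneg V)
  linarith

theorem fast_n3 {δ η Q T ρ : ℝ} (hδ0 : 0 < δ) (hη : 0 < η) (hQ : 0 ≤ Q) (hρ : 0 < ρ)
    (h1 : η * T = δ * (1 + Q ^ 2)) (h2 : ρ ≤ T) :
    Real.log (ρ / (8 * δ)) ≤ 2 * Real.log (1 + Q) - Real.log η := by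
  have e : 2 * Real.log (1 + Q) - Real.log η = Real.log ((1 + Q) ^ 2 / η) := by
    rw [Real.log_div (by positivity) hη.ne', Real.log_pow]
    norm_num
  rw [e]
  refine Real.log_le_log (by positivity) ?_
  rw [div_le_div_iff₀ (by positivity) hη]
  have h3 := mul_le_mul_of_nonneg_left h2 hη.le
  have h4 : δ * (1 + Q ^ 2) ≤ δ * (1 + Q) ^ 2 := mul_le_mul_of_nonneg_left (by nlinarith) hδ0.le
  have h5 : 0 ≤ δ * (1 + Q) ^ 2 := by positivity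
  linarith

/-- `V, C₀, η₁` from `top`, `η₂` from `step`, `η₃ = min η₁ η₂ (θm/(32V²)) 1`, `C_T = 4/√θm`,
`ρ₀ = η₃/(1+Q)⁸`, `B₀ = C₀(1 + log ρ₀⁻¹)`, `T = δ(1+Q²)/η₃`; `T ≤ ρ₀` when `δ(1+Q)¹⁰ ≤ η₃²`.
Invariant `P ρ v b`: `St ρ v b`, `0 < ρ`, `0 < v ≤ V`, `ρ(1+Q)⁸ ≤ η₃v¹⁶`,
`‖b‖ + 2vC_T ≤ B₀ + 2VC_T`, `θm T/4 ≤ v²ρ`. It holds at `(ρ₀,V)` (one use of `step` there
shows `θm ≤ 1/65536`); while `T ≤ v²ρ`, `step` preserves
it and divides `v²ρ` by at least 4 (`B₀ + 2VC_T ≤ Q/4` for large `Q`). So some state has `v²ρ < T`.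
`shrink` to `ρ'' = v²ρ/V²` (constant `V²`); `8δ ≤ ρ'' ≤ T`; `chain_log` (`Λ = V²`) to a frame
`(b',h')` of constant 1 at scale `8δ`: `‖b'‖ ≤ B₀ + 2VC_T + C(1 + log((1+Q²)/η₃)) ≤ Q/4` for large
`Q` (`log(1+Q) = o(Q)`). `e2` at `r = 0`, `Z = 0` and `e1`: `J0 0 ≤ J0 Z₀ + δ`; `abs_Tm_le`,
`le_Tm_shift`: `Q²/3 ≤ 17 + ‖b'‖Q`, so `Q² ≤ 204`. -/
theorem fast {c θm ε₁ R κ Λ CE : ℝ} (hc0 : 0 < c) (hc1 : c < 1) (hθ : 0 < θm) (hε₁ : 0 < ε₁)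
    (hR : 1 ≤ R) (hT : TripleAt E c θm ε₁ R) (hκ : 0 < κ) (hCE : 0 ≤ CE) :
    ∃ η' : ℝ, 0 < η' ∧ ∀ (w : E × ℝ → ℝ) (δ : ℝ) (η₀ Z₀ : E) (n a : ℝ),
      Ext c κ Λ CE w δ η₀ Z₀ n a → δ * (1 + ‖Z₀‖) ^ 10 ≤ η' → η' * ‖Z₀‖ < 1 := by
  obtain ⟨V, C₀, η₁, hV, hC₀, hη₁, htop⟩ := top (E := E) (Λ := Λ) hc0 hc1 hκ hCE
  have hV0 : 0 < V := by linarith
  obtain ⟨η₂, hη₂, hstep⟩ := step (Λ := Λ) hc0 hc1 hθ hε₁ hR hT hκ hCE hV0
  have hV2 : 1 ≤ V ^ 2 := one_le_pow₀ hV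
  obtain ⟨C, hC, hchain⟩ := chain_log (E := E) (Λ := V ^ 2) (by linarith)
  obtain ⟨η₃, h30, h31, h32, h33, h34⟩ : ∃ η₃ : ℝ, 0 < η₃ ∧ η₃ ≤ η₁ ∧ η₃ ≤ η₂ ∧
      η₃ ≤ θm / (32 * V ^ 2) ∧ η₃ ≤ 1 :=
    ⟨min (min η₁ η₂) (min (θm / (32 * V ^ 2)) 1), by positivity,
      (min_le_left _ _).trans (min_le_left _ _), (min_le_left _ _).trans (min_le_right _ _),
      (min_le_right _ _).trans (min_le_left _ _), (min_le_right _ _).trans (min_le_right _ _)⟩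
  set CT := 4 / √θm with hCT
  have hCT0 : 0 ≤ CT := by positivity
  have hlog : Real.log η₃ ≤ 0 := Real.log_nonpos h30.le h34
  obtain ⟨Q₀, hQ₀⟩ := fast_log (C₀ * (1 - Real.log η₃) + 2 * V * CT + C * (1 - Real.log η₃))
    (K₂ := 8 * C₀ + 2 * C) (by positivity)
  have hm : 0 < max Q₀ 15 := lt_max_of_lt_right (by norm_num)
  refine ⟨min (η₃ ^ 2) (min η₂ (max Q₀ 15)⁻¹), by positivity, fun w δ η₀ Z₀ n a hE hδ => ?_⟩
  by_contra hcon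
  rw [not_lt] at hcon
  set Q := ‖Z₀‖ with hQ
  have hQ0 : 0 ≤ Q := norm_nonneg _
  have hδ0 := hE.δpos
  replace hδ := hδ.trans (min_le_left _ _)
  have q1 : 1 ≤ η₂ * Q :=
    hcon.trans (mul_le_mul_of_nonneg_right ((min_le_right _ _).trans (min_le_left _ _)) hQ0)
  have q2 : max Q₀ 15 ≤ Q := by
    have := hcon.trans
      (mul_le_mul_of_nonneg_right ((min_le_right _ _).trans (min_le_right _ _)) hQ0)
    rwa [inv_mul_eq_div, one_le_div hm] at this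
  have q3 := hQ₀ Q ((le_max_left _ _).trans q2) hQ0
  have q4 : 15 ≤ Q := (le_max_right _ _).trans q2
  have hp8 : 1 ≤ (1 + Q) ^ 8 := one_le_pow₀ (by linarith)
  have hL : 0 ≤ Real.log (1 + Q) := Real.log_nonneg (by linarith)
  have hδ1 : δ ≤ 1 := by
    have h1 : δ ≤ δ * (1 + Q) ^ 10 := le_mul_of_one_le_right hδ0.le (one_le_pow₀ (by linarith))
    have h2 : η₃ ^ 2 ≤ 1 := pow_le_one₀ h30.le h34
    linarith
  set ρ₀ := η₃ / (1 + Q) ^ 8 with hρ₀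
  have hρ0 : 0 < ρ₀ := by positivity
  have hρ1 : ρ₀ * (1 + Q) ^ 8 = η₃ := div_mul_cancel₀ _ (by positivity)
  set T := δ * (1 + Q ^ 2) / η₃ with hTd
  have hT0 : 0 < T := by positivity
  have hT1 : η₃ * T = δ * (1 + Q ^ 2) := mul_div_cancel₀ _ h30.ne'
  have hT2 : T ≤ ρ₀ := fast_n1 hδ0 h30 hQ0 hδ
  obtain ⟨b₀, hb₀, hb₁⟩ := htop w δ η₀ Z₀ n a hE ρ₀ hρ0
    ((div_le_self h30.le hp8).trans h31) (hT1 ▸ mul_le_mul h31 hT2 hT0.le hη₁.le)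
  have hB : Real.log ρ₀⁻¹ = 8 * Real.log (1 + Q) - Real.log η₃ := by
    rw [hρ₀, inv_div, Real.log_div (by positivity) h30.ne', Real.log_pow]
    norm_num
  rw [hB] at hb₁
  set B := C₀ * (1 + (8 * Real.log (1 + Q) - Real.log η₃)) + 2 * V * CT with hBd
  have hBQ : B + C * (1 + (2 * Real.log (1 + Q) - Real.log η₃)) ≤ Q / 4 := by
    rw [hBd]
    linarith
  have hCl : 0 ≤ C * (1 + (2 * Real.log (1 + Q) - Real.log η₃)) :=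
    mul_nonneg hC.le (by linarith)
  obtain ⟨k, hk⟩ := pow_unbounded_of_one_lt (V ^ 2 * ρ₀ / T) (y := (4 : ℝ)) (by norm_num)
  obtain ⟨ρ, v, b, ⟨⟨h0, -, -, hS, -, -⟩, hρ, hv, hvV, -, hb⟩, r1, r2⟩ := fast_iter
    (P := fun ρ v b => St c κ w η₀ ρ v b ∧ 0 < ρ ∧ 0 < v ∧ v ≤ V ∧
      ρ * (1 + Q) ^ 8 ≤ η₃ * v ^ 16 ∧ ‖b‖ + 2 * v * CT ≤ B) hT0 hθ
    (fun ρ v b ⟨hS, hρ, hv, hvV, h1, h2⟩ h3 => by
      have h4 : 0 ≤ v * CT := mul_nonneg hv.le hCT0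
      obtain ⟨θ, b', t1, t2, t3, t4⟩ := hstep w δ η₀ Z₀ n a hE ρ v b hρ hv hvV (by linarith)
        (h1.trans (mul_le_mul_of_nonneg_right h32 (by positivity)))
        (hT1 ▸ mul_le_mul h32 h3 hT0.le hη₂.le) q1 hS
      have hθ0 : 0 < θ := hθ.trans_le t1
      refine ⟨θ, _, t1, by linarith, t4, by positivity, by positivity, by linarith, ?_, ?_⟩
      · have h5 : θ * (ρ * (1 + Q) ^ 8) ≤ 1 / 65536 * (η₃ * v ^ 16) :=
          mul_le_mul t2 h1 (by positivity) (by norm_num)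
        calc θ * ρ * (1 + Q) ^ 8 = θ * (ρ * (1 + Q) ^ 8) := mul_assoc _ _ _
          _ ≤ _ := h5
          _ = _ := by ring
      · have h5 := norm_add_le b (v • b')
        rw [norm_smul, Real.norm_of_nonneg hv.le] at h5
        have h6 := mul_le_mul_of_nonneg_left t3 hv.le
        linarith)
    k ρ₀ V b₀ ⟨hb₀, hρ0, hV0, le_rfl,
      hρ1.trans_le (le_mul_of_one_le_right h30.le (one_le_pow₀ hV)), by linarith⟩
    (hT2.trans (le_mul_of_one_le_left hρ0.le hV2)) ((div_lt_iff₀ hT0).1 hk)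
  set ρ' := v ^ 2 * ρ / V ^ 2 with hρ'
  have hρ'0 : 0 < ρ' := by positivity
  have s1 : ρ' ≤ ρ := by
    rw [hρ', div_le_iff₀ (by positivity), mul_comm]
    exact mul_le_mul_of_nonneg_left (pow_le_pow_left₀ hv.le hvV 2) hρ.le
  have s2 := hS.shrink hρ'0 s1
  rw [show v ^ 2 * ρ / ρ' = V ^ 2 by rw [hρ']; field_simp] at s2
  have s3 : 8 * δ ≤ ρ' := fast_n2 hδ0 hT0 hV0 hT1 h33 r1
  have s4 : ρ' ≤ T := (div_le_self (by positivity) hV2).trans r2.le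
  obtain ⟨b', h', H⟩ := hE.bmo.2 0 (8 * δ) (by positivity)
  have s5 := (hchain w 0 ρ' (8 * δ) b b' h0 h' (by positivity) s3
    (fun ρ'' h1 _ => (hE.bmo.2 0 ρ'' (by linarith)).mono_lam (by linarith) hV2) s2
    (H.mono_lam (by positivity) hV2)).1
  have s6 := fast_n3 hδ0 h30 hQ0 hρ'0 hT1 s4
  have s7 : ‖b'‖ ≤ ‖b‖ + ‖b - b'‖ := norm_le_insert _ _
  have s8 := mul_le_mul_of_nonneg_left (add_le_add_right s6 1) hC.le
  have s9 : 0 ≤ v * CT := mul_nonneg hv.le hCT0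
  have s10 := fast_final hE hδ1 H (by linarith)
  have s11 : (15 : ℝ) ^ 2 ≤ Q ^ 2 := pow_le_pow_left₀ (by norm_num) q4 2
  linarith

end R94
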