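import Crest.Agent.R94.Cone
import Crest.Agent.R94.Hold

/-!
# R94/Final: from the estimate to `C^{1,α}`
-/

set_option autoImplicit false
set_option linter.unusedSectionVars false
set_option linter.unusedVariables false

open Set Filter Topology Metric
open scoped InnerProductSpace

namespace R94

variable {E : Type} [NormedAddCommGroup E] [InnerProductSpace ℝ E] [FiniteDimensional ℝ E]

open scoped Gradient

theorem final_sym (u : E → ℝ) (x : E) {M : ℝ} (hM : 0 < M) (X : E × ℝ) :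
    sym (x, 0) 0 0 (1 / 4) (1 / (16 * M)) (fun X : E × ℝ => u X.1) X =
      (u (x + (1 / 4 : ℝ) • X.1) - u x) / M := by
  simp only [sym, pt, smul_zero, add_zero, inner_zero_left, norm_zero]
  field_simp
  ring

theorem final_mem {x y : E} (hx : x ∈ ball (0 : E) 2⁻¹) (hy : ‖y‖ < 1) :
    ‖x + (1 / 4 : ℝ) • y‖ < 3 / 4 := by
  have h1 := norm_add_le x ((1 / 4 : ℝ) • y)
  rw [norm_smul, Real.norm_eq_abs, abs_of_pos (by norm_num : (0 : ℝ) < 1 / 4)] at h1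
  have h2 := mem_ball_zero_iff.1 hx
  linarith

theorem final_box {u : E → ℝ} {M : ℝ} (hM0 : 0 < M)
    (hu : IsSol (ball (0 : E) 1 ×ˢ (univ : Set ℝ)) (fun X => u X.1))
    (hM : ∀ x ∈ ball (0 : E) 1, ∀ y ∈ ball (0 : E) 1, u x - u y ≤ M) {x : E}
    (hx : x ∈ ball (0 : E) 2⁻¹) :
    Box (sym (x, 0) 0 0 (1 / 4) (1 / (16 * M)) (fun X : E × ℝ => u X.1)) := by
  have h1 : ∀ X ∈ ball (0 : E × ℝ) 1, ‖x + (1 / 4 : ℝ) • X.1‖ < 3 / 4 := fun X hX =>
    final_mem hx ((norm_fst_le X).trans_lt (mem_ball_zero_iff.1 hX))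
  have h2 : ∀ X ∈ ball (0 : E × ℝ) 1, x + (1 / 4 : ℝ) • X.1 ∈ ball (0 : E) 1 := fun X hX =>
    mem_ball_zero_iff.2 ((h1 X hX).trans (by norm_num))
  have hx1 : x ∈ ball (0 : E) 1 := ball_subset_ball (by norm_num) hx
  refine ⟨(hu.sym (by norm_num) (by positivity)).mono fun X hX => ⟨?_, mem_univ _⟩, fun X hX => ?_,
    4, fun X hX X' hX' => ?_⟩
  · simpa [pt] using h2 X hX
  · rw [final_sym u x hM0, abs_div, abs_of_pos hM0, div_le_one hM0, abs_le]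
    have a1 := hM _ (h2 X hX) _ hx1
    have a2 := hM _ hx1 _ (h2 X hX)
    constructor <;> linarith
  · rw [final_sym u x hM0, final_sym u x hM0, ← sub_div, sub_sub_sub_cancel_right, abs_div,
      abs_of_pos hM0, div_le_iff₀ hM0]
    have m1 := mem_closedBall_zero_iff.2 (h1 X hX).le
    have m2 := mem_closedBall_zero_iff.2 (h1 X' hX').le
    have a1 := lip_steady hu.1 hM _ m1 _ m2
    have a2 := lip_steady hu.1 hM _ m2 _ m1
    rw [norm_sub_rev] at a2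
    have e : ‖x + (1 / 4 : ℝ) • X.1 - (x + (1 / 4 : ℝ) • X'.1)‖ ≤ 1 / 4 * ‖X - X'‖ := by
      rw [add_sub_add_left_eq_sub, ← smul_sub, norm_smul, Real.norm_eq_abs,
        abs_of_pos (by norm_num : (0 : ℝ) < 1 / 4)]
      exact mul_le_mul_of_nonneg_left (norm_fst_le (X - X')) (by norm_num)
    have hd : ‖X - X'‖ ≤ 2 := by
      linarith [norm_sub_le X X', mem_ball_zero_iff.1 hX, mem_ball_zero_iff.1 hX']
    have hr : ‖X - X'‖ ≤ 2 * ‖X - X'‖ ^ (1 / 4 : ℝ) := by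
      have b1 : ‖X - X'‖ / 2 ≤ (‖X - X'‖ / 2) ^ (1 / 4 : ℝ) :=
        Real.self_le_rpow_of_le_one (by positivity) (by linarith) (by norm_num)
      have b2 : (‖X - X'‖ / 2) ^ (1 / 4 : ℝ) ≤ ‖X - X'‖ ^ (1 / 4 : ℝ) :=
        Real.rpow_le_rpow (by positivity) (half_le_self (norm_nonneg _)) (by norm_num)
      linarith
    have a3 := mul_le_mul_of_nonneg_left (e.trans (mul_le_mul_of_nonneg_left hr (by norm_num)))
      (show 0 ≤ 8 * M by positivity)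
    rw [abs_le]
    constructor <;> linarith

theorem final_rpow {α s C : ℝ} (hα : 0 < α) (hs : 0 < s) :
    C * (s ^ (2 / (2 + α))) ^ α * s ^ (2 / (2 + α)) + s ^ 2 / s ^ (2 / (2 + α)) =
      (C + 1) * s ^ (1 + α / (2 + α)) := by
  have h1 : (s ^ (2 / (2 + α))) ^ α * s ^ (2 / (2 + α)) = s ^ (1 + α / (2 + α)) := by
    rw [← Real.rpow_mul hs.le, ← Real.rpow_add hs]
    congr 1
    field_simp
    ring
  have h2 : s ^ 2 / s ^ (2 / (2 + α)) = s ^ (1 + α / (2 + α)) := by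
    rw [← Real.rpow_two, ← Real.rpow_sub hs]
    congr 1
    field_simp
    ring
  rw [mul_assoc, h1, h2]
  ring

/-- `M ≥ 0`. If `M = 0`, `u` is constant on the ball, `b = 0`. Otherwise
`W = sym (x,0) 0 0 (1/4) (1/(16M)) (fun X => u X.1) = (u (x + y/4) - u x)/M` is `Box`
(`IsSol.sym`; `lip_steady` gives `|ΔW| ≤ 2‖Δy‖ ≤ 4‖Δ‖^(1/4)` on `ball 0 1`). `Est` at `σ = 0`,
`η' = 4 • η`, `ρ = ‖η'‖^(2/(2+α))`: `|W (η',0) - ⟪b,η'⟫| ≤ (C+1)‖η'‖^(1+α')`, `α' = α/(2+α)`. -/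
theorem taylor_of_est (hE : Est E) : ∃ α C : ℝ, 0 < α ∧ α ≤ 1 / 3 ∧ 0 ≤ C ∧
    ∀ (u : E → ℝ) (M : ℝ), IsSol (ball (0 : E) 1 ×ˢ (univ : Set ℝ)) (fun X => u X.1) →
      (∀ x ∈ ball (0 : E) 1, ∀ y ∈ ball (0 : E) 1, u x - u y ≤ M) →
      ∀ x ∈ ball (0 : E) 2⁻¹, ∃ b : E, ‖b‖ ≤ C * M ∧ ∀ η : E, ‖η‖ < 1 / 4 →
        |u (x + η) - u x - ⟪b, η⟫_ℝ| ≤ C * M * ‖η‖ ^ (1 + α) := by
  obtain ⟨α, C, hα, hα1, hC, H⟩ := hE
  have hα' : α / (2 + α) ≤ 1 / 3 := by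
    rw [div_le_div_iff₀ (by positivity) (by norm_num)]
    linarith
  refine ⟨α / (2 + α), 16 * (C + 1), by positivity, hα', by positivity, fun u M hu hM x hx => ?_⟩
  have hx1 : x ∈ ball (0 : E) 1 := ball_subset_ball (by norm_num) hx
  have hM0 : 0 ≤ M := by simpa using hM x hx1 x hx1
  rcases hM0.eq_or_lt with rfl | hM0
  · refine ⟨0, by simp, fun η hη => ?_⟩
    have h1 : x + η ∈ ball (0 : E) 1 := mem_ball_zero_iff.2 (by
      linarith [norm_add_le x η, mem_ball_zero_iff.1 hx])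
    have a1 := hM _ h1 _ hx1
    have a2 := hM _ hx1 _ h1
    rw [inner_zero_left, mul_zero, zero_mul, abs_le]
    constructor <;> linarith
  obtain ⟨b, h, hb, -, hcf⟩ := H _ (final_box hM0 hu hM hx)
  refine ⟨(4 * M) • b, ?_, fun η hη => ?_⟩
  · rw [norm_smul, Real.norm_eq_abs, abs_of_pos (by positivity)]
    nlinarith [mul_le_mul_of_nonneg_left hb hM0.le]
  rcases eq_or_ne η 0 with rfl | hη0
  · rw [add_zero, sub_self, inner_zero_right, sub_zero, abs_zero]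
    positivity
  have hn : ‖(4 : ℝ) • η‖ = 4 * ‖η‖ := by rw [norm_smul, Real.norm_eq_abs, abs_of_pos (by norm_num)]
  have hs : 0 < 4 * ‖η‖ := by positivity
  have hs1 : 4 * ‖η‖ < 1 := by linarith
  have hρ : 0 < (4 * ‖η‖) ^ (2 / (2 + α)) := Real.rpow_pos_of_pos hs _
  have h1 := hcf _ hρ (Real.rpow_le_one hs.le hs1.le (by positivity)) ((4 : ℝ) • η) 0
    (by rw [abs_zero]; exact hρ.le) (by
      rw [mem_ball_zero_iff, Prod.norm_def]
      simpa [hn] using hs1)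
  rw [sym_zero, final_sym u x hM0, hn, final_rpow hα hs] at h1
  simp only [Prod.fst_zero, zero_add, zero_smul, add_zero, smul_smul, mul_zero, sub_zero,
    real_inner_smul_right] at h1
  rw [show (1 / 4 : ℝ) * 4 = 1 by norm_num, one_smul] at h1
  have e : u (x + η) - u x - ⟪(4 * M) • b, η⟫_ℝ = M * ((u (x + η) - u x) / M - 4 * ⟪b, η⟫_ℝ) := by
    rw [real_inner_smul_left]
    field_simp
  have h2 : (4 * ‖η‖) ^ (1 + α / (2 + α)) ≤ 16 * ‖η‖ ^ (1 + α / (2 + α)) := by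
    rw [Real.mul_rpow (by norm_num) (norm_nonneg _)]
    refine mul_le_mul_of_nonneg_right ?_ (by positivity)
    calc (4 : ℝ) ^ (1 + α / (2 + α)) ≤ 4 ^ (2 : ℝ) :=
          Real.rpow_le_rpow_of_exponent_le (by norm_num) (by linarith)
      _ = 16 := by norm_num
  rw [e, abs_mul, abs_of_pos hM0]
  calc M * |(u (x + η) - u x) / M - 4 * ⟪b, η⟫_ℝ|
      ≤ M * ((C + 1) * (16 * ‖η‖ ^ (1 + α / (2 + α)))) :=
        mul_le_mul_of_nonneg_left (h1.trans (mul_le_mul_of_nonneg_left h2 (by positivity))) hM0.le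
    _ = _ := by ring

/-- `HasGradientAt u bₓ x` (little-o). For `r = ‖x - y‖ ≥ 1/16`: `2B ≤ 32 B r^α`. For `0 < r < 1/16`
and a unit vector `ξ`, `z = x + r • ξ`: combine the expansions at `x` (to `z`) and at `y` (to `z` and
to `x`): `r⟪bₓ - b_y, ξ⟫ ≤ 6 B r^(1+α)`. -/
theorem c1a_of_taylor {d : ℕ} {u : EuclideanSpace ℝ (Fin d) → ℝ} {α B : ℝ} (hα : 0 < α)
    (hα1 : α ≤ 1) (hB : 0 ≤ B)
    (H : ∀ x ∈ ball (0 : EuclideanSpace ℝ (Fin d)) 2⁻¹, ∃ b : EuclideanSpace ℝ (Fin d), ‖b‖ ≤ B ∧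
      ∀ η : EuclideanSpace ℝ (Fin d), ‖η‖ < 1 / 4 →
        |u (x + η) - u x - ⟪b, η⟫_ℝ| ≤ B * ‖η‖ ^ (1 + α)) :
    (∀ x ∈ ball (0 : EuclideanSpace ℝ (Fin d)) 2⁻¹, DifferentiableAt ℝ u x) ∧
      ∀ x ∈ ball (0 : EuclideanSpace ℝ (Fin d)) 2⁻¹, ∀ y ∈ ball (0 : EuclideanSpace ℝ (Fin d)) 2⁻¹,
        ‖∇ u x‖ ≤ 32 * B ∧ ‖∇ u x - ∇ u y‖ ≤ 32 * B * ‖x - y‖ ^ α := by
  choose! b hb hT using H
  have hG : ∀ x ∈ ball (0 : EuclideanSpace ℝ (Fin d)) 2⁻¹, HasGradientAt u (b x) x := by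
    intro x hx
    rw [hasGradientAt_iff_isLittleO_nhds_zero]
    refine Asymptotics.IsLittleO.of_bound fun c hc => ?_
    have h1 : Tendsto (fun η : EuclideanSpace ℝ (Fin d) => B * ‖η‖ ^ α) (𝓝 0) (𝓝 0) := by
      have : Continuous fun η : EuclideanSpace ℝ (Fin d) => B * ‖η‖ ^ α :=
        continuous_const.mul (continuous_norm.rpow_const fun _ => Or.inr hα.le)
      simpa [Real.zero_rpow hα.ne'] using this.tendsto 0
    filter_upwards [h1.eventually (gt_mem_nhds hc), ball_mem_nhds 0 (by norm_num : (0 : ℝ) < 1 / 4)]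
      with η h2 h3
    refine (hT x hx η (mem_ball_zero_iff.1 h3)).trans ?_
    rw [Real.rpow_one_add' (norm_nonneg _) (by linarith), mul_comm ‖η‖, ← mul_assoc]
    exact mul_le_mul_of_nonneg_right h2.le (norm_nonneg _)
  refine ⟨fun x hx => (hG x hx).differentiableAt, fun x hx y hy => ?_⟩
  rw [(hG x hx).gradient, (hG y hy).gradient]
  refine ⟨(hb x hx).trans (by linarith), ?_⟩
  rcases eq_or_ne (b x - b y) 0 with h0 | h0
  · rw [h0, norm_zero]
    positivity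
  have hxy : 0 < ‖x - y‖ := norm_pos_iff.2 fun h => h0 (by rw [sub_eq_zero.1 h, sub_self])
  obtain ⟨r, hr⟩ : ∃ r, r = ‖x - y‖ := ⟨_, rfl⟩
  rw [← hr] at hxy ⊢
  have hrα : 0 < r ^ α := Real.rpow_pos_of_pos hxy α
  rcases le_or_gt (1 / 16) r with h16 | h16
  · have h1 : r ≤ 1 := by
      linarith [norm_sub_le x y, mem_ball_zero_iff.1 hx, mem_ball_zero_iff.1 hy]
    have h2 : r ≤ r ^ α := Real.self_le_rpow_of_le_one hxy.le h1 hα1
    have h3 := mul_le_mul_of_nonneg_left (h16.trans h2) hB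
    linarith [norm_sub_le (b x) (b y), hb x hx, hb y hy]
  have hβ : 0 < ‖b x - b y‖ := norm_pos_iff.2 h0
  obtain ⟨η, hη1, hη2⟩ : ∃ η : EuclideanSpace ℝ (Fin d), ‖η‖ = r ∧
      ⟪b x - b y, η⟫_ℝ = r * ‖b x - b y‖ := by
    refine ⟨(r / ‖b x - b y‖) • (b x - b y), ?_, ?_⟩
    · rw [norm_smul, Real.norm_eq_abs, abs_of_pos (by positivity), div_mul_cancel₀ _ hβ.ne']
    · rw [real_inner_smul_right, real_inner_self_eq_norm_sq]
      field_simp
  have hn : ‖x - y + η‖ ≤ 2 * r := by linarith [norm_add_le (x - y) η]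
  have a1 := abs_le.1 (hT x hx η (by linarith))
  have a2 := abs_le.1 (hT y hy (x - y + η) (by linarith))
  have a3 := abs_le.1 (hT y hy (x - y) (by linarith))
  rw [← add_assoc, add_sub_cancel, inner_add_right] at a2
  rw [add_sub_cancel, ← hr] at a3
  rw [hη1] at a1
  rw [inner_sub_left] at hη2
  have h4 : ‖x - y + η‖ ^ (1 + α) ≤ 4 * r ^ (1 + α) :=
    calc ‖x - y + η‖ ^ (1 + α) ≤ (2 * r) ^ (1 + α) :=
          Real.rpow_le_rpow (norm_nonneg _) hn (by linarith)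
      _ = 2 ^ (1 + α) * r ^ (1 + α) := Real.mul_rpow (by norm_num) hxy.le
      _ ≤ 2 ^ (2 : ℝ) * r ^ (1 + α) :=
          mul_le_mul_of_nonneg_right (Real.rpow_le_rpow_of_exponent_le (by norm_num) (by linarith))
            (by positivity)
      _ = _ := by norm_num
  have h5 := mul_le_mul_of_nonneg_left h4 hB
  have h6 : r * ‖b x - b y‖ ≤ r * (6 * B * r ^ α) := by
    have e : r * (6 * B * r ^ α) = 6 * (B * r ^ (1 + α)) := by
      rw [Real.rpow_one_add' hxy.le (by linarith)]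
      ring
    linarith [a1.1, a2.2, a3.1]
  have h7 := le_of_mul_le_mul_left h6 hxy
  have h8 : 0 ≤ B * r ^ α := by positivity
  linarith

end R94
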