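import Crest.Agent.R94.Defs

/-!
# R94/Flow0: the Hopf–Lax flows of continuous functions of subquadratic growth (no PDE)
-/

set_option autoImplicit false
set_option linter.unusedSectionVars false
set_option linter.unusedVariables false

open Set Filter Topology Metric
open scoped InnerProductSpace

namespace R94

variable {E : Type} [NormedAddCommGroup E] [InnerProductSpace ℝ E] [FiniteDimensional ℝ E]

variable {w : E × ℝ → ℝ} {X : E × ℝ} {s s' : ℝ}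

theorem bddAbove_Tp {K Λ : ℝ} (hs : 0 < s) (hΛ : 2 * Λ * s < 1)
    (hg : ∀ y : E, w (y, X.2 + s) ≤ K + Λ * ‖y‖ ^ 2) :
    BddAbove (range fun η : E => w (X.1 + η, X.2 + s) - ‖η‖ ^ 2 / (2 * s)) := by
  obtain ⟨L, hL0, hL1, hL2⟩ : ∃ L : ℝ, 0 ≤ L ∧ Λ ≤ L ∧ L < 1 / (2 * s) :=
    ⟨max Λ 0, le_max_right _ _, le_max_left _ _,
      max_lt ((lt_div_iff₀ (by positivity)).2 (by linarith)) (by positivity)⟩
  refine ⟨K + L * ‖X.1‖ ^ 2 + (L * ‖X.1‖) ^ 2 / (1 / (2 * s) - L), ?_⟩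
  rintro _ ⟨η, rfl⟩
  have h1 := hg (X.1 + η)
  have h2 : ‖X.1 + η‖ ^ 2 ≤ (‖X.1‖ + ‖η‖) ^ 2 := by gcongr; exact norm_add_le _ _
  have h3 : Λ * ‖X.1 + η‖ ^ 2 ≤ L * (‖X.1‖ + ‖η‖) ^ 2 :=
    (mul_le_mul_of_nonneg_right hL1 (by positivity)).trans (by gcongr)
  have h4 : 2 * (L * ‖X.1‖) * ‖η‖ - (1 / (2 * s) - L) * ‖η‖ ^ 2 ≤
      (L * ‖X.1‖) ^ 2 / (1 / (2 * s) - L) := by
    rw [le_div_iff₀ (sub_pos.2 hL2)]
    nlinarith [sq_nonneg (L * ‖X.1‖ - (1 / (2 * s) - L) * ‖η‖)]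
  have h5 : ‖η‖ ^ 2 / (2 * s) = 1 / (2 * s) * ‖η‖ ^ 2 := by ring
  simp only
  nlinarith

theorem bddBelow_Tm {K Λ : ℝ} (hs : 0 < s) (hΛ : 2 * Λ * s < 1)
    (hg : ∀ y : E, -(K + Λ * ‖y‖ ^ 2) ≤ w (y, X.2 - s)) :
    BddBelow (range fun η : E => w (X.1 + η, X.2 - s) + ‖η‖ ^ 2 / (2 * s)) := by
  obtain ⟨B, hB⟩ := bddAbove_Tp (w := R94.rev w) (X := -X) (K := K) hs hΛ fun y => by
    have := hg (-y)
    simp only [rev_apply, Prod.neg_mk, Prod.snd_neg, neg_add, neg_neg, norm_neg,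
      ← sub_eq_add_neg] at this ⊢
    linarith
  refine ⟨-B, ?_⟩
  rintro _ ⟨η, rfl⟩
  have := hB ⟨-η, rfl⟩
  simp only [rev_apply, Prod.neg_mk, Prod.snd_neg, Prod.fst_neg, neg_add, neg_neg, norm_neg,
    ← sub_eq_add_neg X.2] at this ⊢
  linarith

theorem Tp_le {B : ℝ} (h : ∀ η : E, w (X.1 + η, X.2 + s) - ‖η‖ ^ 2 / (2 * s) ≤ B) :
    Tp s w X ≤ B := by
  exact ciSup_le h

theorem le_Tm {B : ℝ} (h : ∀ η : E, B ≤ w (X.1 + η, X.2 - s) + ‖η‖ ^ 2 / (2 * s)) :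
    B ≤ Tm s w X := by
  exact le_ciInf h

/-- valid without hypotheses (`Real.sInf_def`-type identity and `η ↦ -η`). -/
theorem Tm_eq_rev : Tm s w X = - Tp s (rev w) (-X) := by
  rw [Tm, Tp, iInf, iSup, Real.sInf_def]
  congr 2
  ext r
  simp only [Set.mem_neg, mem_range, rev_apply, Prod.neg_mk, Prod.snd_neg, Prod.fst_neg, neg_add,
    neg_neg, ← sub_eq_add_neg X.2]
  constructor
  · rintro ⟨η, h⟩
    exact ⟨-η, by rw [neg_neg, norm_neg]; linarith⟩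
  · rintro ⟨η, h⟩
    exact ⟨-η, by rw [norm_neg]; linarith⟩
theorem Tp_eq_rev : Tp s w X = - Tm s (rev w) (-X) := by
  rw [Tm_eq_rev, rev_rev, neg_neg, neg_neg]
theorem Sm_eq_rev : Sm s w X = Sp s (rev w) (-X) := by
  rw [Sm, Sp, Tm_eq_rev, rev_apply, neg_neg]
  ring
theorem Sp_eq_rev : Sp s w X = Sm s (rev w) (-X) := by
  rw [Sm_eq_rev, rev_rev, neg_neg]

theorem SQ.rev (hw : SQ w) : SQ (rev w) := by
  intro T ε hε
  obtain ⟨K, hK⟩ := hw T ε hε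
  exact ⟨K, fun X hX => by simpa using hK (-X) (by simpa using hX)⟩
theorem CSQ.rev (hw : CSQ w) : CSQ (rev w) := by
  exact ⟨(hw.1.comp continuous_neg).neg, hw.2.rev⟩

theorem SQ.bddAbove (hw : SQ w) (hs : 0 < s) (X : E × ℝ) :
    BddAbove (range fun η : E => w (X.1 + η, X.2 + s) - ‖η‖ ^ 2 / (2 * s)) := by
  obtain ⟨K, hK⟩ := hw |X.2 + s| (1 / (4 * s)) (by positivity)
  refine bddAbove_Tp (K := K) (Λ := 1 / (4 * s)) hs ?_ fun y =>
    (le_abs_self _).trans (hK (y, X.2 + s) le_rfl)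
  field_simp
  norm_num

theorem SQ.bddBelow (hw : SQ w) (hs : 0 < s) (X : E × ℝ) :
    BddBelow (range fun η : E => w (X.1 + η, X.2 - s) + ‖η‖ ^ 2 / (2 * s)) := by
  obtain ⟨K, hK⟩ := hw |X.2 - s| (1 / (4 * s)) (by positivity)
  refine bddBelow_Tm (K := K) (Λ := 1 / (4 * s)) hs ?_ fun y =>
    neg_le_of_abs_le (hK (y, X.2 - s) le_rfl)
  field_simp
  norm_num

theorem SQ.le_Tp (hw : SQ w) (hs : 0 < s) (X : E × ℝ) (η : E) :
    w (X.1 + η, X.2 + s) - ‖η‖ ^ 2 / (2 * s) ≤ Tp s w X := by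
  exact le_ciSup (hw.bddAbove hs X) η

theorem SQ.Tm_le (hw : SQ w) (hs : 0 < s) (X : E × ℝ) (η : E) :
    Tm s w X ≤ w (X.1 + η, X.2 - s) + ‖η‖ ^ 2 / (2 * s) := by
  exact ciInf_le (hw.bddBelow hs X) η

theorem flow0_sq (x η : E) : ‖x + η‖ ^ 2 ≤ 2 * ‖x‖ ^ 2 + 2 * ‖η‖ ^ 2 := by
  have h2 : ‖x + η‖ ^ 2 ≤ (‖x‖ + ‖η‖) ^ 2 := by gcongr; exact norm_add_le _ _
  nlinarith [sq_nonneg (‖x‖ - ‖η‖)]

theorem flow0_max (hw : CSQ w) (hs : 0 < s) (T : ℝ) : ∃ R : ℝ, ∀ X : E × ℝ, ‖X‖ ≤ T →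
    IsGreatest ((fun η : E => w (X.1 + η, X.2 + s) - ‖η‖ ^ 2 / (2 * s)) '' closedBall 0 R)
      (Tp s w X) := by
  obtain ⟨K, hK⟩ := hw.2 (T + s) (1 / (8 * s)) (by positivity)
  obtain ⟨R, hR1, hR2⟩ : ∃ R : ℝ, 1 ≤ R ∧ 4 * s * (2 * K) + 2 * T ^ 2 ≤ R :=
    ⟨_, le_max_left _ _, le_max_right _ _⟩
  refine ⟨R, fun X hX => ?_⟩
  have hc : Continuous fun η : E => w (X.1 + η, X.2 + s) - ‖η‖ ^ 2 / (2 * s) := by
    have := hw.1
    fun_prop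
  have h0 : (0 : E) ∈ closedBall (0 : E) R := mem_closedBall_self (by linarith)
  obtain ⟨η₀, h1, h2⟩ := (isCompact_closedBall (0 : E) R).exists_isMaxOn ⟨0, h0⟩ hc.continuousOn
  have h3 : |X.2 + s| ≤ T + s :=
    (abs_add_le _ _).trans (add_le_add ((norm_snd_le X).trans hX) (abs_of_pos hs).le)
  have h4 : ‖X.1‖ ^ 2 ≤ T ^ 2 := by gcongr; exact (norm_fst_le X).trans hX
  refine ⟨⟨η₀, h1, le_antisymm (hw.2.le_Tp hs X η₀) (Tp_le fun η => ?_)⟩, ?_⟩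
  · by_cases hη : η ∈ closedBall (0 : E) R
    · exact h2 hη
    · refine le_trans ?_ (h2 h0)
      rw [mem_closedBall_zero_iff, not_le] at hη
      have h5 := le_of_abs_le (hK (X.1 + η, X.2 + s) h3)
      have h6 := neg_le_of_abs_le (hK (X.1, X.2 + s) h3)
      have h7 := flow0_sq X.1 η
      have h8 : R ≤ ‖η‖ ^ 2 := by nlinarith
      have h9 : 2 * K + 1 / (8 * s) * (‖X.1 + η‖ ^ 2 + ‖X.1‖ ^ 2) ≤ ‖η‖ ^ 2 / (2 * s) := by
        rw [le_div_iff₀ (by positivity)]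
        field_simp
        nlinarith [sq_nonneg T]
      simp only [add_zero, norm_zero, zero_pow two_ne_zero, zero_div, sub_zero] at h5 h6 ⊢
      linarith
  · rintro _ ⟨η, -, rfl⟩
    exact hw.2.le_Tp hs X η

/-- coercivity + continuity (`Continuous.exists_forall_ge'` or a closed ball). -/
theorem CSQ.exists_Tp (hw : CSQ w) (hs : 0 < s) (X : E × ℝ) :
    ∃ η : E, Tp s w X = w (X.1 + η, X.2 + s) - ‖η‖ ^ 2 / (2 * s) := by
  obtain ⟨R, hR⟩ := flow0_max hw hs ‖X‖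
  obtain ⟨η, -, h⟩ := (hR X le_rfl).1
  exact ⟨η, h.symm⟩

theorem CSQ.exists_Tm (hw : CSQ w) (hs : 0 < s) (X : E × ℝ) :
    ∃ η : E, Tm s w X = w (X.1 + η, X.2 - s) + ‖η‖ ^ 2 / (2 * s) := by
  obtain ⟨η, h⟩ := hw.rev.exists_Tp hs (-X)
  refine ⟨-η, ?_⟩
  rw [Tm_eq_rev, h]
  simp only [rev_apply, Prod.neg_mk, Prod.snd_neg, Prod.fst_neg, neg_add, neg_neg, norm_neg,
    ← sub_eq_add_neg X.2]
  ring

/-- Continuity: for `X` in a bounded set the supremum may be restricted to a fixed closed ball of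
`η`'s (outside it the value is below the value at `η = 0`); use `IsCompact.continuous_sSup` or
uniform continuity. Growth: lower bound from `η = 0`; upper bound from
`ε ‖y + η‖² ≤ 2ε‖y‖² + 2ε‖η‖²` with `2ε ≤ 1/(2s)`. -/
theorem CSQ.flowp (hw : CSQ w) (hs : 0 < s) : CSQ (Tp s w) := by
  refine ⟨continuous_iff_continuousAt.2 fun X₀ => ?_, fun T ε hε => ?_⟩
  · obtain ⟨R, hR⟩ := flow0_max hw hs (‖X₀‖ + 1)
    have hc : Continuous fun X : E × ℝ =>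
        sSup ((fun η : E => w (X.1 + η, X.2 + s) - ‖η‖ ^ 2 / (2 * s)) '' closedBall 0 R) := by
      refine (isCompact_closedBall (0 : E) R).continuous_sSup
        (f := fun (X : E × ℝ) (η : E) => w (X.1 + η, X.2 + s) - ‖η‖ ^ 2 / (2 * s)) ?_
      have := hw.1
      fun_prop
    refine hc.continuousAt.congr ?_
    filter_upwards [(continuous_norm.tendsto X₀).eventually (eventually_le_nhds (lt_add_one _))]
      with X hX using (hR X hX).csSup_eq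
  · obtain ⟨ε', h0, h1, h2⟩ : ∃ ε' : ℝ, 0 < ε' ∧ ε' ≤ ε / 2 ∧ ε' ≤ 1 / (4 * s) :=
      ⟨_, lt_min (by positivity) (by positivity), min_le_left _ _, min_le_right _ _⟩
    obtain ⟨K, hK⟩ := hw.2 (T + s) ε' h0
    refine ⟨K, fun X hX => ?_⟩
    have h3 : |X.2 + s| ≤ T + s := (abs_add_le _ _).trans (add_le_add hX (abs_of_pos hs).le)
    have h4 : ε' * ‖X.1‖ ^ 2 ≤ ε / 2 * ‖X.1‖ ^ 2 := by gcongr
    refine abs_le.2 ⟨?_, Tp_le fun η => ?_⟩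
    · have h5 := neg_le_of_abs_le (hK (X.1, X.2 + s) h3)
      have h6 := hw.2.le_Tp hs X 0
      have h7 : 0 ≤ ε' * ‖X.1‖ ^ 2 := by positivity
      simp only [add_zero, norm_zero] at h5 h6
      norm_num at h6
      linarith
    · have h5 := le_of_abs_le (hK (X.1 + η, X.2 + s) h3)
      have h6 := mul_le_mul_of_nonneg_left (flow0_sq X.1 η) h0.le
      have h7 : ε' * ‖η‖ ^ 2 ≤ 1 / (4 * s) * ‖η‖ ^ 2 := by gcongr
      have h8 : ‖η‖ ^ 2 / (2 * s) = 2 * (1 / (4 * s) * ‖η‖ ^ 2) := by ring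
      simp only at h5
      linarith

theorem CSQ.flowm (hw : CSQ w) (hs : 0 < s) : CSQ (Tm s w) := by
  have : Tm s w = R94.rev (Tp s (R94.rev w)) := funext fun X => Tm_eq_rev
  rw [this]
  exact (hw.rev.flowp hs).rev

end R94
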