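import Crest.Agent.R94.Flow1
import Crest.Agent.R94.Cone

/-!
# R94/Flow2: convexity of the flows in time, and covariance under `sym`
-/

set_option autoImplicit false
set_option linter.unusedSectionVars false
set_option linter.unusedVariables false

open Set Filter Topology Metric
open scoped InnerProductSpace

namespace R94

variable {E : Type} [NormedAddCommGroup E] [InnerProductSpace ℝ E] [FiniteDimensional ℝ E]

variable {w : E × ℝ → ℝ} {X X₀ : E × ℝ} {b : E} {s s' δ τ h a : ℝ}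

theorem Ent.csq (hw : Ent w) : CSQ w := by
  exact ⟨continuousOn_univ.1 hw.1.1.1, hw.2⟩
theorem Ent.rev (hw : Ent w) : Ent (rev w) := by
  exact ⟨by simpa using hw.1.rev, hw.2.rev⟩

/-- `pt` is affine with time component depending on time only; `‖a • y + c‖² ≤ 2a²‖y‖² + 2‖c‖²`. -/
theorem SQ.sym (hw : SQ w) (ha : 0 < a) (hτ : 0 < τ) : SQ (sym X₀ b h a τ w) := by
  intro T ε hε
  obtain ⟨K, hK⟩ := hw (|X₀.2| + τ * T) (ε / (4 * τ)) (by positivity)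
  set c := τ / a ^ 2 with hc
  have hc0 : 0 < c := by positivity
  refine ⟨(K + ε / (4 * τ) * (2 * (‖X₀.1‖ + τ * T * ‖b‖) ^ 2) + |w X₀| +
    |h + ‖b‖ ^ 2 / 2| * (τ * T)) * c + (c * a * ‖b‖) ^ 2 / (2 * ε), fun X hX => ?_⟩
  have hT : 0 ≤ T := (abs_nonneg _).trans hX
  have h1 : |τ * X.2| ≤ τ * T := by rw [abs_mul, abs_of_pos hτ]; gcongr
  have h2 := hK (pt X₀ b a τ X) ((abs_add_le _ _).trans (add_le_add le_rfl h1))
  have h3 : ‖(pt X₀ b a τ X).1‖ ^ 2 ≤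
      2 * (‖X₀.1‖ + τ * T * ‖b‖) ^ 2 + 2 * (a ^ 2 * ‖X.1‖ ^ 2) := by
    have e : (pt X₀ b a τ X).1 = (X₀.1 + (τ * X.2) • b) + a • X.1 := by
      simp only [pt]; abel
    have h4 : ‖X₀.1 + (τ * X.2) • b‖ ≤ ‖X₀.1‖ + τ * T * ‖b‖ := by
      refine (norm_add_le _ _).trans (add_le_add le_rfl ?_)
      rw [norm_smul, Real.norm_eq_abs]
      gcongr
    have h5 : ‖X₀.1 + (τ * X.2) • b‖ ^ 2 ≤ (‖X₀.1‖ + τ * T * ‖b‖) ^ 2 := by gcongr
    have h6 := flow0_sq (X₀.1 + (τ * X.2) • b) (a • X.1)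
    rw [norm_smul, mul_pow, Real.norm_eq_abs, sq_abs] at h6
    rw [e]
    linarith
  have h4 : |a * ⟪b, X.1⟫_ℝ| ≤ a * (‖b‖ * ‖X.1‖) := by
    rw [abs_mul, abs_of_pos ha]
    gcongr
    exact abs_real_inner_le_norm _ _
  have h5 : |(h + ‖b‖ ^ 2 / 2) * (τ * X.2)| ≤ |h + ‖b‖ ^ 2 / 2| * (τ * T) := by
    rw [abs_mul]
    gcongr
  have h6 : |w (pt X₀ b a τ X) - w X₀ - a * ⟪b, X.1⟫_ℝ - (h + ‖b‖ ^ 2 / 2) * (τ * X.2)| ≤
      |w (pt X₀ b a τ X)| + |w X₀| + |a * ⟪b, X.1⟫_ℝ| + |(h + ‖b‖ ^ 2 / 2) * (τ * X.2)| :=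
    (abs_sub _ _).trans (add_le_add ((abs_sub _ _).trans (add_le_add (abs_sub _ _) le_rfl)) le_rfl)
  have h7 : ε / (4 * τ) * ‖(pt X₀ b a τ X).1‖ ^ 2 ≤
      ε / (4 * τ) * (2 * (‖X₀.1‖ + τ * T * ‖b‖) ^ 2 + 2 * (a ^ 2 * ‖X.1‖ ^ 2)) := by gcongr
  have h8 : c * a * ‖b‖ * ‖X.1‖ ≤ ε / 2 * ‖X.1‖ ^ 2 + (c * a * ‖b‖) ^ 2 / (2 * ε) := by
    have : 0 ≤ (ε * ‖X.1‖ - c * a * ‖b‖) ^ 2 / (2 * ε) := by positivity
    have e : (ε * ‖X.1‖ - c * a * ‖b‖) ^ 2 / (2 * ε) =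
        ε / 2 * ‖X.1‖ ^ 2 + (c * a * ‖b‖) ^ 2 / (2 * ε) - c * a * ‖b‖ * ‖X.1‖ := by
      field_simp
      ring
    linarith
  have h9 : ε / (4 * τ) * (2 * (a ^ 2 * ‖X.1‖ ^ 2)) * c = ε / 2 * ‖X.1‖ ^ 2 := by
    rw [hc]
    field_simp
    ring
  rw [R94.sym, ← hc, abs_mul, abs_of_pos hc0]
  have h10 : |w (pt X₀ b a τ X) - w X₀ - a * ⟪b, X.1⟫_ℝ - (h + ‖b‖ ^ 2 / 2) * (τ * X.2)| ≤
      K + ε / (4 * τ) * (2 * (‖X₀.1‖ + τ * T * ‖b‖) ^ 2) + |w X₀| +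
        |h + ‖b‖ ^ 2 / 2| * (τ * T) + ε / (4 * τ) * (2 * (a ^ 2 * ‖X.1‖ ^ 2)) +
        a * (‖b‖ * ‖X.1‖) := by linarith
  have h11 := mul_le_mul_of_nonneg_right h10 hc0.le
  nlinarith
theorem CSQ.sym (hw : CSQ w) (ha : 0 < a) (hτ : 0 < τ) : CSQ (sym X₀ b h a τ w) := by
  refine ⟨?_, hw.2.sym ha hτ⟩
  have h1 := hw.1.comp (continuous_pt X₀ b a τ)
  change Continuous fun X : E × ℝ => (w (pt X₀ b a τ X) - w X₀ - a * ⟪b, X.1⟫_ℝ -
    (h + ‖b‖ ^ 2 / 2) * (τ * X.2)) * (τ / a ^ 2)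
  exact (((h1.sub continuous_const).sub (by fun_prop)).sub (by fun_prop)).mul continuous_const
theorem Ent.sym (hw : Ent w) (ha : 0 < a) (hτ : 0 < τ) : Ent (sym X₀ b h a τ w) := by
  exact ⟨by simpa using hw.1.sym (X₀ := X₀) (b := b) (h := h) ha hτ, hw.2.sym ha hτ⟩

theorem flow2_growth (hw : SQ w) (X : E × ℝ) (hs : 0 < s) : ∃ K : ℝ, ∀ Y : E × ℝ,
    Y.2 ∈ Icc X.2 (X.2 + s) → w Y ≤ K + 1 / (4 * s) * ‖Y.1‖ ^ 2 := by
  obtain ⟨K, hK⟩ := hw (|X.2| + s) (1 / (4 * s)) (by positivity)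
  refine ⟨K, fun Y hY => (le_abs_self _).trans (hK Y (abs_le.2 ⟨?_, ?_⟩))⟩
  · linarith [hY.1, neg_abs_le X.2]
  · linarith [hY.2, le_abs_self X.2]

/-- For `0 < s₁ < s₂` let `c₀ + k s` interpolate `Tp s₁ w X`, `Tp s₂ w X` linearly; `cc_slab` on
`[X.2 + s₁, X.2 + s₂]` with vertex `X` (growth from `SQ` with `2 ε s₂ < 1`) gives
`Tp s w X ≤ c₀ + k s` in between. -/
theorem Ent.convex_Tp (hw : Ent w) (X : E × ℝ) : ConvexOn ℝ (Ioi 0) (fun s => Tp s w X) := by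
  refine LinearOrder.convexOn_of_lt (convex_Ioi 0) fun s₁ h₁ s₂ h₂ h12 α β hα hβ hαβ => ?_
  have h₁' : 0 < s₁ := h₁
  have h₂' : 0 < s₂ := h₂
  obtain ⟨K, hK⟩ := flow2_growth hw.2 X h₂'
  set k := (Tp s₂ w X - Tp s₁ w X) / (s₂ - s₁) with hk
  have hk' : k * (s₂ - s₁) = Tp s₂ w X - Tp s₁ w X := div_mul_cancel₀ _ (sub_pos.2 h12).ne'
  have key := cc_slab (O := univ) hw.1.1 (y₀ := X.1) (t₀ := X.2) (t₁ := X.2 + s₁)
    (t₂ := X.2 + s₂) (c₀ := Tp s₁ w X - k * s₁) (k := k) (K := K) (Λ := 1 / (4 * s₂))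
    (by linarith) (fun _ _ => mem_univ _)
    (fun Y hY => hK Y ⟨by linarith [hY.1], hY.2⟩)
    (by rw [add_sub_cancel_left]; field_simp; norm_num)
    (fun y => by
      have := hw.2.le_Tp h₁' X (y - X.1)
      rw [add_sub_cancel] at this
      rw [add_sub_cancel_left]
      linarith)
    (fun y => by
      have := hw.2.le_Tp h₂' X (y - X.1)
      rw [add_sub_cancel] at this
      rw [add_sub_cancel_left]
      linarith)
  simp only [smul_eq_mul]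
  refine Tp_le fun η => ?_
  have hβ' : β = 1 - α := by linarith
  have := key (X.1 + η, X.2 + (α * s₁ + β * s₂)) ⟨by simp only; nlinarith, by simp only; nlinarith⟩
  simp only [add_sub_cancel_left] at this
  subst hβ'
  nlinarith

theorem Ent.concave_Tm (hw : Ent w) (X : E × ℝ) : ConcaveOn ℝ (Ioi 0) (fun s => Tm s w X) := by
  have := (hw.rev.convex_Tp (-X)).neg
  have e : (fun s => Tm s w X) = -fun s => Tp s (R94.rev w) (-X) := funext fun s => Tm_eq_rev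
  rwa [e]

/-- `cc_vertex` with `k = Sp s' w X` (or convexity and `tendsto_Tp_zero`). -/
theorem Ent.Sp_mono (hw : Ent w) (hs : 0 < s) (hss : s ≤ s') (X : E × ℝ) :
    Sp s w X ≤ Sp s' w X := by
  have hs' : 0 < s' := hs.trans_le hss
  obtain ⟨K, hK⟩ := flow2_growth hw.2 X hs'
  have hk : Sp s' w X * s' = Tp s' w X - w X := div_mul_cancel₀ _ hs'.ne'
  have key := cc_vertex (O := univ) hw.1.1 (y₀ := X.1) (t₀ := X.2) (s := s') (k := Sp s' w X)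
    (K := K) (Λ := 1 / (4 * s')) hs' (fun _ _ => mem_univ _) hK (by field_simp; norm_num)
    (fun y => by
      have := hw.2.le_Tp hs' X (y - X.1)
      rw [add_sub_cancel] at this
      rw [Prod.mk.eta]
      linarith) s hs hss
  rw [Sp, div_le_iff₀ hs, sub_le_iff_le_add]
  refine Tp_le fun η => ?_
  have := key (X.1 + η)
  rw [add_sub_cancel_left, Prod.mk.eta] at this
  linarith

theorem Ent.Sm_mono (hw : Ent w) (hs : 0 < s) (hss : s ≤ s') (X : E × ℝ) :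
    Sm s w X ≤ Sm s' w X := by
  rw [Sm_eq_rev, Sm_eq_rev]
  exact hw.rev.Sp_mono hs hss _

/-- `(Tp (δ+τ) - Tp δ)/τ ≥ Sp δ` is `Sp_mono`; the rest is convexity of slopes. -/
theorem Ent.slope_Tp (hw : Ent w) (hδ : 0 < δ) (hτ : 0 < τ) (hτδ : τ ≤ δ) (X : E × ℝ) :
    Sp δ w X ≤ (Tp (δ + τ) w X - Tp δ w X) / τ ∧
      (Tp (δ + τ) w X - Tp δ w X) / τ ≤ (Tp (2 * δ) w X - Tp δ w X) / δ := by
  constructor
  · have h1 := hw.Sp_mono hδ (le_add_of_nonneg_right hτ.le) X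
    have hk : Sp δ w X * δ = Tp δ w X - w X := div_mul_cancel₀ _ hδ.ne'
    rw [Sp.eq_1 (δ + τ), le_div_iff₀ (by positivity)] at h1
    rw [le_div_iff₀ hτ]
    linarith
  · have := (hw.convex_Tp X).secant_mono (a := δ) (x := δ + τ) (y := 2 * δ) hδ
      (show 0 < δ + τ by positivity) (show 0 < 2 * δ by positivity) (by linarith) (by linarith)
      (by linarith)
    rwa [add_sub_cancel_left, show 2 * δ - δ = δ by ring] at this

theorem Ent.second_Tp (hw : Ent w) (hτ : 0 < τ) (hτδ : τ < δ) (X : E × ℝ) :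
    2 * Tp δ w X ≤ Tp (δ + τ) w X + Tp (δ - τ) w X := by
  have := (hw.convex_Tp X).2 (show δ + τ ∈ Ioi 0 from show 0 < δ + τ by linarith)
    (show δ - τ ∈ Ioi 0 from show 0 < δ - τ by linarith) 
    (show (0 : ℝ) ≤ 1 / 2 by norm_num) (show (0 : ℝ) ≤ 1 / 2 by norm_num) (by norm_num)
  simp only [smul_eq_mul] at this
  rw [show 1 / 2 * (δ + τ) + 1 / 2 * (δ - τ) = δ by ring] at this
  linarith

theorem Ent.second_Tm (hw : Ent w) (hτ : 0 < τ) (hτδ : τ < δ) (X : E × ℝ) :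
    Tm (δ + τ) w X + Tm (δ - τ) w X ≤ 2 * Tm δ w X := by
  have := hw.rev.second_Tp hτ hτδ (-X)
  rw [Tm_eq_rev, Tm_eq_rev, Tm_eq_rev (s := δ)]
  linarith

theorem flow2_idp (ha : 0 < a) (hτ : 0 < τ) (hs : 0 < s) (η : E) :
    sym X₀ b h a τ w (X.1 + η, X.2 + s) - ‖η‖ ^ 2 / (2 * s) = sym X₀ b h a τ w X +
      (w ((pt X₀ b a τ X).1 + (a • η + (τ * s) • b), (pt X₀ b a τ X).2 + τ * s) -
        ‖a • η + (τ * s) • b‖ ^ 2 / (2 * (τ * s)) - w (pt X₀ b a τ X) - h * (τ * s)) *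
        (τ / a ^ 2) := by
  have e : pt X₀ b a τ (X.1 + η, X.2 + s) =
      ((pt X₀ b a τ X).1 + (a • η + (τ * s) • b), (pt X₀ b a τ X).2 + τ * s) := by
    simp only [pt, smul_add, mul_add, add_smul]
    refine Prod.ext ?_ ?_
    · simp only; abel
    · simp only; ring
  have e2 : ‖a • η + (τ * s) • b‖ ^ 2 =
      a ^ 2 * ‖η‖ ^ 2 + 2 * (a * (τ * s) * ⟪b, η⟫_ℝ) + (τ * s) ^ 2 * ‖b‖ ^ 2 := by
    rw [norm_add_sq_real, norm_smul, norm_smul, mul_pow, mul_pow, Real.norm_eq_abs,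
      Real.norm_eq_abs, sq_abs, sq_abs, real_inner_smul_left, real_inner_smul_right,
      real_inner_comm]
    ring
  simp only [sym]
  rw [e, e2, inner_add_right]
  field_simp
  ring

theorem flow2_idm (ha : 0 < a) (hτ : 0 < τ) (hs : 0 < s) (η : E) :
    sym X₀ b h a τ w (X.1 + η, X.2 - s) + ‖η‖ ^ 2 / (2 * s) = sym X₀ b h a τ w X -
      (w (pt X₀ b a τ X) -
        (w ((pt X₀ b a τ X).1 + (a • η - (τ * s) • b), (pt X₀ b a τ X).2 - τ * s) +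
        ‖a • η - (τ * s) • b‖ ^ 2 / (2 * (τ * s))) - h * (τ * s)) * (τ / a ^ 2) := by
  have e : pt X₀ b a τ (X.1 + η, X.2 - s) =
      ((pt X₀ b a τ X).1 + (a • η - (τ * s) • b), (pt X₀ b a τ X).2 - τ * s) := by
    simp only [pt, smul_add, mul_sub, sub_smul]
    refine Prod.ext ?_ ?_
    · simp only; abel
    · simp only; ring
  have e2 : ‖a • η - (τ * s) • b‖ ^ 2 =
      a ^ 2 * ‖η‖ ^ 2 - 2 * (a * (τ * s) * ⟪b, η⟫_ℝ) + (τ * s) ^ 2 * ‖b‖ ^ 2 := by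
    rw [norm_sub_sq_real, norm_smul, norm_smul, mul_pow, mul_pow, Real.norm_eq_abs,
      Real.norm_eq_abs, sq_abs, sq_abs, real_inner_smul_left, real_inner_smul_right,
      real_inner_comm]
    ring
  simp only [sym]
  rw [e, e2, inner_add_right]
  field_simp
  ring

/-- Reparametrise by the bijection `η ↦ ζ = a • η + (τ s) • b`:
`‖ζ‖²/(2τs) = a²‖η‖²/(2τs) + a ⟪b, η⟫ + τ s ‖b‖²/2`. -/
theorem Tp_sym (ha : 0 < a) (hτ : 0 < τ) (hs : 0 < s)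
    (hb : BddAbove (range fun η : E =>
      w ((pt X₀ b a τ X).1 + η, (pt X₀ b a τ X).2 + τ * s) - ‖η‖ ^ 2 / (2 * (τ * s)))) :
    Tp s (sym X₀ b h a τ w) X = sym X₀ b h a τ w X +
      (Tp (τ * s) w (pt X₀ b a τ X) - w (pt X₀ b a τ X) - h * (τ * s)) * (τ / a ^ 2) := by
  have hc : 0 < τ / a ^ 2 := by positivity
  have hle : ∀ η : E, sym X₀ b h a τ w (X.1 + η, X.2 + s) - ‖η‖ ^ 2 / (2 * s) ≤
      sym X₀ b h a τ w X +
      (Tp (τ * s) w (pt X₀ b a τ X) - w (pt X₀ b a τ X) - h * (τ * s)) * (τ / a ^ 2) := by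
    intro η
    rw [flow2_idp ha hτ hs]
    gcongr
    exact le_ciSup hb _
  refine le_antisymm (Tp_le hle) ?_
  rw [← le_sub_iff_add_le', ← le_div_iff₀ hc, sub_le_iff_le_add, sub_le_iff_le_add]
  refine Tp_le fun ζ => ?_
  have h1 : sym X₀ b h a τ w (X.1 + a⁻¹ • (ζ - (τ * s) • b), X.2 + s) -
      ‖a⁻¹ • (ζ - (τ * s) • b)‖ ^ 2 / (2 * s) ≤ Tp s (sym X₀ b h a τ w) X :=
    le_ciSup (f := fun η : E => sym X₀ b h a τ w (X.1 + η, X.2 + s) - ‖η‖ ^ 2 / (2 * s))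
      ⟨_, by rintro _ ⟨η, rfl⟩; exact hle η⟩ _
  rw [flow2_idp ha hτ hs, smul_inv_smul₀ ha.ne', sub_add_cancel, ← le_sub_iff_add_le',
    ← le_div_iff₀ hc] at h1
  linarith

theorem Tm_sym (ha : 0 < a) (hτ : 0 < τ) (hs : 0 < s)
    (hb : BddBelow (range fun η : E =>
      w ((pt X₀ b a τ X).1 + η, (pt X₀ b a τ X).2 - τ * s) + ‖η‖ ^ 2 / (2 * (τ * s)))) :
    Tm s (sym X₀ b h a τ w) X = sym X₀ b h a τ w X -
      (w (pt X₀ b a τ X) - Tm (τ * s) w (pt X₀ b a τ X) - h * (τ * s)) * (τ / a ^ 2) := by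
  have hc : 0 < τ / a ^ 2 := by positivity
  have hle : ∀ η : E, sym X₀ b h a τ w X -
      (w (pt X₀ b a τ X) - Tm (τ * s) w (pt X₀ b a τ X) - h * (τ * s)) * (τ / a ^ 2) ≤
      sym X₀ b h a τ w (X.1 + η, X.2 - s) + ‖η‖ ^ 2 / (2 * s) := by
    intro η
    rw [flow2_idm ha hτ hs]
    gcongr
    exact ciInf_le hb _
  refine le_antisymm ?_ (le_Tm hle)
  rw [le_sub_comm, ← le_div_iff₀ hc, sub_le_iff_le_add, sub_le_comm]
  refine le_Tm fun ζ => ?_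
  have h1 : Tm s (sym X₀ b h a τ w) X ≤
      sym X₀ b h a τ w (X.1 + a⁻¹ • (ζ + (τ * s) • b), X.2 - s) +
      ‖a⁻¹ • (ζ + (τ * s) • b)‖ ^ 2 / (2 * s) :=
    ciInf_le (f := fun η : E => sym X₀ b h a τ w (X.1 + η, X.2 - s) + ‖η‖ ^ 2 / (2 * s))
      ⟨_, by rintro _ ⟨η, rfl⟩; exact hle η⟩ _
  rw [flow2_idm ha hτ hs, smul_inv_smul₀ ha.ne', add_sub_cancel_right, le_sub_comm,
    ← le_div_iff₀ hc] at h1
  linarith

theorem SQ.Sp_sym (hw : SQ w) (ha : 0 < a) (hτ : 0 < τ) (hs : 0 < s) (X : E × ℝ) :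
    Sp s (R94.sym X₀ b h a τ w) X = (Sp (τ * s) w (pt X₀ b a τ X) - h) * (τ / a) ^ 2 := by
  rw [Sp, Sp, Tp_sym ha hτ hs (hw.bddAbove (by positivity) _)]
  field_simp
  ring

theorem SQ.Sm_sym (hw : SQ w) (ha : 0 < a) (hτ : 0 < τ) (hs : 0 < s) (X : E × ℝ) :
    Sm s (R94.sym X₀ b h a τ w) X = (Sm (τ * s) w (pt X₀ b a τ X) - h) * (τ / a) ^ 2 := by
  rw [Sm, Sm, Tm_sym ha hτ hs (hw.bddBelow (by positivity) _)]
  field_simp
  ring

end R94
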