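import Crest.Agent.R94.Visc0

/-!
# R94/Visc: viscosity toolkit (no PDE theory, only the definitions `SubAt`, `SuperAt`)
-/

set_option autoImplicit false
set_option linter.unusedSectionVars false
set_option linter.unusedVariables false

open Set Filter Topology Metric
open scoped InnerProductSpace

namespace R94

variable {E : Type} [NormedAddCommGroup E] [InnerProductSpace ℝ E] [FiniteDimensional ℝ E]

variable {w v w' : E × ℝ → ℝ} {X X₀ : E × ℝ} {O O' : Set (E × ℝ)} {b : E} {h a τ : ℝ}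

/-- the strict test function -/
noncomputable def viscPsi (q : E) (p B ε : ℝ) (Z : E × ℝ) : ℝ :=
  ⟪q, Z.1⟫_ℝ + p * Z.2 + B * ‖Z.1 - Z.2 • q‖ ^ 2 - ε / 2 * Z.2 ^ 2

theorem visc_continuous (q : E) (p B ε : ℝ) : Continuous (viscPsi q p B ε) := by
  unfold viscPsi
  fun_prop

theorem visc_expand (q : E) (p : ℝ) {B ε : ℝ} (hB : 0 ≤ B) (Z W : E × ℝ)
    (hu : 8 * B ^ 3 * ‖Z.1 - Z.2 • q‖ ^ 2 ≤ ε / 4) :
    viscPsi q p B ε (Z + W) - viscPsi q p B ε Z ≤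
      ⟪q + (2 * B) • (Z.1 - Z.2 • q), W.1⟫_ℝ + (p - 2 * B * ⟪Z.1 - Z.2 • q, q⟫_ℝ - ε * Z.2) * W.2
        + 2 * B * ‖W.1 - W.2 • (q + (2 * B) • (Z.1 - Z.2 • q))‖ ^ 2 - ε / 4 * W.2 ^ 2 := by
  unfold viscPsi
  have e1 : (Z + W).1 - (Z + W).2 • q = (Z.1 - Z.2 • q) + (W.1 - W.2 • q) := by
    simp only [Prod.fst_add, Prod.snd_add, add_smul]
    abel
  rw [e1]
  generalize Z.1 - Z.2 • q = u at *
  have e2 : W.1 - W.2 • q = (W.1 - W.2 • (q + (2 * B) • u)) + (W.2 * (2 * B)) • u := by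
    rw [smul_add, smul_smul]
    abel
  have h1 : ‖W.1 - W.2 • q‖ ^ 2 ≤
      2 * ‖W.1 - W.2 • (q + (2 * B) • u)‖ ^ 2 + 2 * ((W.2 * (2 * B)) ^ 2 * ‖u‖ ^ 2) := by
    rw [e2]
    generalize W.1 - W.2 • (q + (2 * B) • u) = y
    have a1 := norm_add_le y ((W.2 * (2 * B)) • u)
    have a2 := pow_le_pow_left₀ (norm_nonneg _) a1 2
    rw [← sq_abs (W.2 * (2 * B)), ← mul_pow, ← Real.norm_eq_abs, ← norm_smul]
    nlinarith [sq_nonneg (‖y‖ - ‖(W.2 * (2 * B)) • u‖)]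
  have h2 := mul_le_mul_of_nonneg_left h1 hB
  have h3 := mul_le_mul_of_nonneg_right hu (sq_nonneg W.2)
  rw [norm_add_sq_real, inner_sub_right, inner_smul_right, inner_add_left, real_inner_smul_left,
    Prod.fst_add, Prod.snd_add, inner_add_right]
  nlinarith

/-- **Stability** (one lemma for limits and suprema). Suppose `w` is touched at `X` with
`ψ Z = ⟪q,Z.1⟫ + r Z.2 + A ‖Z.1 - Z.2 • q‖² - ε Z.2²`, wlog `A ≥ 0`. Put
`ψ' = ψ + ‖Z.1 - Z.2 • q‖² + (ε/2) Z.2²`; then `w (X+Z) - w X - ψ' Z ≤ -m ‖Z‖²` on a closed ball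
`‖Z‖ ≤ r' < r`, with `m > 0`. For small `ε'` take `v` from `h`, and a maximiser `Z₀` of
`v (X + Z) - ψ' Z` on that compact ball. Comparing with `Z = 0`: `m ‖Z₀‖² ≤ 2 ε'`, so `Z₀` is
interior and small. Expand `ψ' (Z₀ + W) - ψ' Z₀ = ⟪q₀, W.1⟫ + r₀ W.2 + (A+1) ‖W.1 - W.2 • q‖²
- (ε/2) W.2²`, `q₀ = q + 2 (A+1) • (Z₀.1 - Z₀.2 • q)`, and use
`‖W.1 - W.2 • q‖² ≤ 2 ‖W.1 - W.2 • q₀‖² + 2 ‖q - q₀‖² W.2²` with `2 (A+1) ‖q-q₀‖² < ε/4`:
contradiction with `SubAt v (X + Z₀)`. -/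
theorem subAt_of_approx {r : ℝ} (hr : 0 < r)
    (h : ∀ ε : ℝ, 0 < ε → ∃ v : E × ℝ → ℝ, IsSub (ball X r) v ∧
      (∀ Y ∈ ball X r, v Y ≤ w Y + ε) ∧ w X - ε ≤ v X) : SubAt w X := by
  intro q p A ε hε hT
  have := FiniteDimensional.proper_real E
  obtain ⟨r₁, hr₁, hT⟩ := Metric.eventually_nhds_iff_ball.1 hT
  obtain ⟨ρ, hρ⟩ : ∃ ρ, ρ = min r r₁ / 2 := ⟨_, rfl⟩
  have hm := lt_min hr hr₁
  have hρ0 : 0 < ρ := by rw [hρ]; positivity
  have hρ1 : ρ < r := by linarith [min_le_left r r₁]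
  have hρ2 : ρ < r₁ := by linarith [min_le_right r r₁]
  obtain ⟨B, hB⟩ : ∃ B, B = |A| + 1 := ⟨_, rfl⟩
  have hB0 : 0 < B := by rw [hB]; positivity
  have hB1 : A + 1 ≤ B := by linarith [le_abs_self A]
  obtain ⟨η, hη⟩ : ∃ η, η = min (ρ / (2 * (1 + ‖q‖))) (min 1 (ε / (32 * B ^ 3))) := ⟨_, rfl⟩
  have hη0 : 0 < η := by rw [hη]; positivity
  have hη1 : η * (2 * (1 + ‖q‖)) ≤ ρ := by
    rw [← le_div_iff₀ (by positivity), hη]
    exact min_le_left _ _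
  have hη2 : η ≤ 1 := by rw [hη]; exact (min_le_right _ _).trans (min_le_left _ _)
  have hη3 : η * (32 * B ^ 3) ≤ ε := by
    rw [← le_div_iff₀ (by positivity), hη]
    exact (min_le_right _ _).trans (min_le_right _ _)
  obtain ⟨v, hv, hv1, hv2⟩ := h (min (η ^ 2 / 2) (ε * η ^ 2 / 4)) (by positivity)
  have hin : ∀ Z ∈ closedBall (0 : E × ℝ) ρ, X + Z ∈ ball X r := fun Z hZ => by
    rw [mem_closedBall_zero_iff] at hZ
    rw [add_mem_ball_iff_norm]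
    linarith
  have hc : ContinuousOn (fun Z => v (X + Z) - viscPsi q p B ε Z) (closedBall (0 : E × ℝ) ρ) :=
    (hv.1.comp (by fun_prop) hin).sub (visc_continuous q p B ε).continuousOn
  obtain ⟨Z, hZ, hmax⟩ := (isCompact_closedBall (0 : E × ℝ) ρ).exists_isMaxOn
    ⟨0, mem_closedBall_self hρ0.le⟩ hc
  have a1 : v (X + 0) - viscPsi q p B ε 0 ≤ v (X + Z) - viscPsi q p B ε Z :=
    hmax (mem_closedBall_self hρ0.le)
  have a2 : viscPsi q p B ε 0 = 0 := by simp [viscPsi]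
  rw [add_zero, a2] at a1
  have a3 := hv1 _ (hin Z hZ)
  have a4 := hT Z (closedBall_subset_ball hρ2 hZ)
  have a5 := mul_le_mul_of_nonneg_right hB1 (sq_nonneg ‖Z.1 - Z.2 • q‖)
  have a6 := min_le_left (η ^ 2 / 2) (ε * η ^ 2 / 4)
  have a7 := min_le_right (η ^ 2 / 2) (ε * η ^ 2 / 4)
  have a8 : 0 ≤ ε * Z.2 ^ 2 := by positivity
  have a9 := sq_nonneg ‖Z.1 - Z.2 • q‖
  unfold viscPsi at a1
  have b1 : ‖Z.1 - Z.2 • q‖ ^ 2 ≤ η ^ 2 := by linarith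
  have b2 : Z.2 ^ 2 ≤ η ^ 2 := le_of_mul_le_mul_left (by linarith) hε
  have b3 : ‖Z.1 - Z.2 • q‖ ≤ η := (pow_le_pow_iff_left₀ (norm_nonneg _) hη0.le two_ne_zero).1 b1
  have b4 : |Z.2| ≤ η := abs_le_of_sq_le_sq' b2 hη0.le |> abs_le.2
  have b5 : ‖Z‖ < ρ := by
    have c1 : ‖Z.1‖ ≤ ‖Z.1 - Z.2 • q‖ + ‖Z.2 • q‖ := norm_le_norm_sub_add _ _
    rw [norm_smul, Real.norm_eq_abs] at c1
    have c2 := mul_le_mul_of_nonneg_right b4 (norm_nonneg q)
    have c3 : 0 ≤ η * ‖q‖ := by positivity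
    rw [Prod.norm_def, Real.norm_eq_abs]
    exact max_lt (by linarith) (by linarith)
  have b6 : 8 * B ^ 3 * ‖Z.1 - Z.2 • q‖ ^ 2 ≤ ε / 4 := by
    have c1 : η ^ 2 ≤ η := by nlinarith
    have c2 := mul_le_mul_of_nonneg_left (b1.trans c1) (show 0 ≤ 8 * B ^ 3 by positivity)
    linarith
  refine hv.2 _ (hin Z hZ) (q + (2 * B) • (Z.1 - Z.2 • q))
    (p - 2 * B * ⟪Z.1 - Z.2 • q, q⟫_ℝ - ε * Z.2) (2 * B) (ε / 4) (by positivity) ?_
  filter_upwards [ball_mem_nhds (0 : E × ℝ) (sub_pos.2 b5)] with W hW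
  rw [mem_ball_zero_iff] at hW
  have c1 : v (X + (Z + W)) - viscPsi q p B ε (Z + W) ≤ v (X + Z) - viscPsi q p B ε Z :=
    hmax (mem_closedBall_zero_iff.2 (by linarith [norm_add_le Z W]))
  have c2 := visc_expand q p hB0.le Z W b6
  rw [add_assoc X Z W]
  linarith

theorem superAt_of_approx {r : ℝ} (hr : 0 < r)
    (h : ∀ ε : ℝ, 0 < ε → ∃ v : E × ℝ → ℝ, IsSuper (ball X r) v ∧
      (∀ Y ∈ ball X r, w Y - ε ≤ v Y) ∧ v X ≤ w X + ε) : SuperAt w X := by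
  rw [superAt_iff_rev]
  refine subAt_of_approx hr fun ε hε => ?_
  obtain ⟨v, hv, h1, h2⟩ := h ε hε
  have hm : ∀ Y ∈ ball (-X) r, -Y ∈ ball X r := fun Y hY => by
    rw [mem_ball] at hY ⊢
    rwa [← dist_neg_neg, neg_neg]
  refine ⟨rev v, hv.rev.mono hm, fun Y hY => ?_, ?_⟩
  · have := h1 _ (hm Y hY)
    simp only [rev_apply]
    linarith
  · simp only [rev_apply, neg_neg]
    linarith

/-- locally uniform limits of solutions (uniform convergence on the compact `closedBall X (r/2)`,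
continuity of the limit, then `subAt_of_approx` on `ball X (r/2)`). -/
theorem IsSol.of_tendsto {ι : Type} {l : Filter ι} [l.NeBot] {W : ι → E × ℝ → ℝ}
    (hW : ∀ X ∈ O, ∃ r : ℝ, 0 < r ∧ ball X r ⊆ O ∧ ∀ᶠ n in l, IsSol (ball X r) (W n))
    (ht : TendstoLocallyUniformlyOn W v l O) : IsSol O v := by
  have := FiniteDimensional.proper_real E
  have key : ∀ X ∈ O, ContinuousAt v X ∧ SubAt v X ∧ SuperAt v X := by
    intro X hX
    obtain ⟨r, hr, hO, hW⟩ := hW X hX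
    have h1 : closedBall X (r / 2) ⊆ ball X r := closedBall_subset_ball (by linarith)
    have h2 : ball X (r / 2) ⊆ ball X r := ball_subset_ball (by linarith)
    have hu := (tendstoLocallyUniformlyOn_iff_tendstoUniformlyOn_of_compact
      (isCompact_closedBall X (r / 2))).1 (ht.mono (h1.trans hO))
    have hap : ∀ ε : ℝ, 0 < ε → ∃ n, IsSol (ball X (r / 2)) (W n) ∧
        ∀ Y ∈ ball X (r / 2), |v Y - W n Y| < ε := fun ε hε => by
      obtain ⟨n, a, b⟩ := (hW.and (Metric.tendstoUniformlyOn_iff.1 hu ε hε)).exists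
      exact ⟨n, a.mono h2, fun Y hY => b Y (ball_subset_closedBall hY)⟩
    have hX' : X ∈ ball X (r / 2) := mem_ball_self (by linarith)
    refine ⟨(hu.continuousOn (hW.mono fun n hn => hn.1.1.mono h1).frequently).continuousAt
      (closedBall_mem_nhds X (by linarith)), subAt_of_approx (half_pos hr) fun ε hε => ?_,
      superAt_of_approx (half_pos hr) fun ε hε => ?_⟩
    · obtain ⟨n, a, b⟩ := hap ε hε
      exact ⟨W n, a.1, fun Y hY => by linarith [(abs_lt.1 (b Y hY)).1],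
        by linarith [(abs_lt.1 (b X hX')).2]⟩
    · obtain ⟨n, a, b⟩ := hap ε hε
      exact ⟨W n, a.2, fun Y hY => by linarith [(abs_lt.1 (b Y hY)).2],
        by linarith [(abs_lt.1 (b X hX')).1]⟩
  have hc : ContinuousOn v O := fun X hX => (key X hX).1.continuousWithinAt
  exact ⟨⟨hc, fun X hX => (key X hX).2.1⟩, hc, fun X hX => (key X hX).2.2⟩

end R94
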