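import Crest.Agent.R94.CF
import Crest.Agent.R94.Visc

/-!
# R94/Hold0: Hölder bounds from flatness gauges and back; the a-priori class `AP`
-/

set_option autoImplicit false
set_option linter.unusedSectionVars false
set_option linter.unusedVariables false

open Set Filter Topology Metric
open scoped InnerProductSpace

namespace R94

variable {E : Type} [NormedAddCommGroup E] [InnerProductSpace ℝ E] [FiniteDimensional ℝ E]

variable {w : E × ℝ → ℝ} {X X₀ : E × ℝ} {O O' : Set (E × ℝ)} {b : E} {h a τ β β' L : ℝ}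

theorem hold0_mem {r : ℝ} {X Y : E × ℝ} (hY : Y ∈ ball X r) {ζ : E} {σ : ℝ} (h1 : ‖ζ‖ ≤ r / 2)
    (h2 : |σ| ≤ r / 2) : (Y.1 + ζ, Y.2 + σ) ∈ ball X (2 * r) := by
  have hr : 0 < r := pos_of_mem_ball hY
  have h3 : dist (Y.1 + ζ, Y.2 + σ) Y ≤ r / 2 := by
    rw [Prod.dist_eq]
    exact max_le (by simpa using h1) (by simpa using h2)
  rw [mem_ball] at hY ⊢
  linarith [dist_triangle (Y.1 + ζ, Y.2 + σ) Y X]

/-- the estimate at small distances `d = u⁴`, scale `ρ = u²`. -/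
theorem hold0_small {M r u G N : ℝ} {Y Y' : E × ℝ} (hO : ball X (2 * r) ⊆ O)
    (hM : ∀ Y ∈ ball X (2 * r), |w Y| ≤ M) (hY : Y ∈ ball X r) (hY' : Y' ∈ ball X r)
    (hu0 : 0 < u) (hu1 : u ≤ 1) (hN1 : 1 ≤ N) (hN : 2 * M + G + 1 ≤ N) (hNu : N * u ≤ r / 2)
    (hd : ‖Y' - Y‖ ≤ u ^ 4) {lam : ℝ} (hl : lam * u ^ 2 ≤ G) (H : CFw O w Y (u ^ 2) lam b h) :
    |w Y' - w Y| ≤ 7 * N ^ 2 * u ^ 2 + lam * u ^ 2 := by
  have hr : 0 < r := pos_of_mem_ball hY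
  have hY2 : Y ∈ ball X (2 * r) := ball_subset_ball (by linarith) hY
  have hdiff : ∀ Z ∈ ball X (2 * r), |w Z - w Y| ≤ 2 * M := fun Z hZ =>
    (abs_sub _ _).trans (by linarith [hM Z hZ, hM Y hY2])
  have hur : u ≤ r / 2 := by nlinarith
  have hu2 : u ^ 2 ≤ u := by nlinarith
  have hρ : 0 < u ^ 2 := by positivity
  have hb : ‖b‖ * u ≤ N := by
    have := H.norm_b_le (M := 2 * M) hρ fun η hη => by
      rw [Real.sqrt_sq hu0.le] at hη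
      have h1 := hold0_mem hY (ζ := η) (σ := 0) (hη.trans hur) (by simp; linarith)
      rw [add_zero] at h1
      exact ⟨hO h1, hdiff _ h1⟩
    rw [Real.sqrt_sq hu0.le] at this
    linarith
  have hh : |h + ‖b‖ ^ 2 / 2| * u ^ 2 ≤ N := by
    have h1 := hold0_mem hY (ζ := u ^ 2 • b) (σ := u ^ 2) (by
      rw [norm_smul, Real.norm_eq_abs, abs_of_pos hρ]
      nlinarith) (by rw [abs_of_pos hρ]; linarith)
    linarith [H.abs_h_le hρ (hO h1) (hdiff _ h1)]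
  set σ := Y'.2 - Y.2 with hσ
  set η := Y'.1 - Y.1 - σ • b with hη
  have hσd : |σ| ≤ u ^ 4 := (norm_snd_le (Y' - Y)).trans hd
  have hu4 : u ^ 4 ≤ u ^ 3 := pow_le_pow_of_le_one hu0.le hu1 (by norm_num)
  have hu42 : u ^ 4 ≤ u ^ 2 := pow_le_pow_of_le_one hu0.le hu1 (by norm_num)
  have hηd : ‖η‖ ≤ 2 * N * u ^ 3 := by
    have h1 : ‖Y'.1 - Y.1‖ ≤ u ^ 4 := (norm_fst_le (Y' - Y)).trans hd
    have h2 : ‖σ • b‖ ≤ u ^ 4 * ‖b‖ := by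
      rw [norm_smul]; exact mul_le_mul_of_nonneg_right hσd (norm_nonneg _)
    have h3 := norm_sub_le (Y'.1 - Y.1) (σ • b)
    have h4 := mul_le_mul_of_nonneg_right hb (by positivity : 0 ≤ u ^ 3)
    have h5 := mul_le_mul_of_nonneg_right hN1 (by positivity : 0 ≤ u ^ 3)
    nlinarith
  have e : (Y.1 + η + σ • b, Y.2 + σ) = Y' := by
    ext
    · simp only [hη]; abel
    · simp [hσ]
  have h1 := H η σ (hσd.trans hu42) (by rw [e]; exact hO (ball_subset_ball (by linarith) hY'))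
  rw [e] at h1
  have h2 : |⟪b, η⟫_ℝ| ≤ 2 * N ^ 2 * u ^ 2 := by
    refine (abs_real_inner_le_norm b η).trans ?_
    have h3 := mul_le_mul_of_nonneg_left hηd (norm_nonneg b)
    have h4 := mul_le_mul_of_nonneg_right hb (by positivity : 0 ≤ 2 * N * u ^ 2)
    nlinarith
  have h3 : |(h + ‖b‖ ^ 2 / 2) * σ| ≤ N ^ 2 * u ^ 2 := by
    rw [abs_mul]
    have h4 := mul_le_mul_of_nonneg_left hσd (abs_nonneg (h + ‖b‖ ^ 2 / 2))
    have h5 := mul_le_mul_of_nonneg_right hh hρ.le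
    have h6 := mul_le_mul_of_nonneg_right hN1 (by positivity : 0 ≤ N * u ^ 2)
    nlinarith
  have h4 : ‖η‖ ^ 2 / u ^ 2 ≤ 4 * N ^ 2 * u ^ 2 := by
    rw [div_le_iff₀ hρ]
    have h5 := pow_le_pow_left₀ (norm_nonneg _) hηd 2
    have h6 : u ^ 6 ≤ u ^ 4 := pow_le_pow_of_le_one hu0.le hu1 (by norm_num)
    have h7 := mul_le_mul_of_nonneg_left h6 (by positivity : 0 ≤ 4 * N ^ 2)
    nlinarith
  rw [abs_le] at h1 h2 h3 ⊢
  constructor <;> linarith [h1.1, h1.2, h2.1, h2.2, h3.1, h3.2]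

/-- Let `Y, Y' ∈ ball X r`, `d = ‖Y - Y'‖ > 0`. Fix `d₀ ∈ (0,1]` so small that `ρ = √d ≤ √d₀`
satisfies `√ρ ≤ r/2`, `ρ ≤ r/2`, `(2M + C + 1) √ρ ≤ r/2`. If `d ≥ d₀` use `|w Y - w Y'| ≤ 2M`.
Otherwise take the frame `(b,h)` at `Y`, scale `ρ = √d`: `norm_b_le` gives `‖b‖ √ρ ≤ 2M + C + 1`
(`C ρ^(1-γ) ≤ C`), `abs_h_le` gives `|h + ‖b‖²/2| ρ ≤ 2M + C`. Write `Y' = Y + (η + σ • b, σ)`,
`|σ| ≤ d ≤ ρ`, `‖η‖ ≤ d (1 + ‖b‖)`; then every term of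
`|w Y' - w Y| ≤ ‖b‖‖η‖ + |h + ‖b‖²/2| |σ| + C ρ^(1-γ) + ‖η‖²/ρ` is `≤ const · d^((1-γ)/2)`
(all but the third are `≤ const · √d`). -/
theorem hol_of_gauge {γ M C r : ℝ} (hγ0 : 0 ≤ γ) (hγ1 : γ < 1) (hC : 0 ≤ C) (hr : 0 < r) :
    ∃ H : ℝ, 0 ≤ H ∧ ∀ (O : Set (E × ℝ)) (w : E × ℝ → ℝ) (X : E × ℝ), ball X (2 * r) ⊆ O →
      (∀ Y ∈ ball X (2 * r), |w Y| ≤ M) →
      (∀ Y ∈ ball X r, ∀ ρ : ℝ, 0 < ρ → ρ ≤ 1 → Fl O w Y ρ (C * ρ ^ (-γ))) →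
      HolOn ((1 - γ) / 2) H (ball X r) w := by
  set N : ℝ := 2 * |M| + C + 1 with hN
  have hN1 : 1 ≤ N := by have := abs_nonneg M; linarith
  set u₀ : ℝ := min 1 (r / 2 / N) with hu₀
  have hu₀0 : 0 < u₀ := lt_min one_pos (by positivity)
  set β : ℝ := (1 - γ) / 2 with hβ
  have hβ0 : 0 < β := by linarith
  have hd₀ : 0 < (u₀ ^ 4) ^ β := by positivity
  refine ⟨7 * N ^ 2 + C + 2 * |M| / (u₀ ^ 4) ^ β, by positivity,
    fun O w X hO hM hF Y' hY' Y hY => ?_⟩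
  have hdβ : 0 ≤ ‖Y' - Y‖ ^ β := by positivity
  rcases le_or_gt (u₀ ^ 4) ‖Y' - Y‖ with hd | hd
  · have h1 : |w Y' - w Y| ≤ 2 * |M| := by
      have h2 := hM Y (ball_subset_ball (by linarith) hY)
      have h3 := hM Y' (ball_subset_ball (by linarith) hY')
      linarith [abs_sub (w Y') (w Y), le_abs_self M]
    have h2 : (u₀ ^ 4) ^ β ≤ ‖Y' - Y‖ ^ β := Real.rpow_le_rpow (by positivity) hd hβ0.le
    have h3 : 2 * |M| ≤ 2 * |M| / (u₀ ^ 4) ^ β * ‖Y' - Y‖ ^ β := by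
      rw [div_mul_eq_mul_div, le_div_iff₀ hd₀]
      exact mul_le_mul_of_nonneg_left h2 (by positivity)
    have h4 : 0 ≤ (7 * N ^ 2 + C) * ‖Y' - Y‖ ^ β := by positivity
    linarith
  rcases (norm_nonneg (Y' - Y)).eq_or_lt with h0 | h0
  · rw [sub_eq_zero.1 (norm_eq_zero.1 h0.symm), sub_self, abs_zero]
    positivity
  set d := ‖Y' - Y‖ with hdd
  set u : ℝ := √(√d) with hu
  have hu2 : u ^ 2 = √d := Real.sq_sqrt (Real.sqrt_nonneg _)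
  have hu4 : u ^ 4 = d := by
    rw [show u ^ 4 = (u ^ 2) ^ 2 by ring, hu2, Real.sq_sqrt h0.le]
  have hu0 : 0 < u := Real.sqrt_pos.2 (Real.sqrt_pos.2 h0)
  have huu : u ≤ u₀ := (lt_of_pow_lt_pow_left₀ 4 hu₀0.le (hu4 ▸ hd)).le
  have hu1 : u ≤ 1 := huu.trans (min_le_left _ _)
  have hNu : N * u ≤ r / 2 := by
    have := huu.trans (min_le_right _ _)
    rw [le_div_iff₀ (by linarith)] at this
    linarith
  have hρ : 0 < u ^ 2 := by positivity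
  have hd1 : d ≤ 1 := hu4 ▸ pow_le_one₀ hu0.le hu1
  obtain ⟨b, h, H⟩ := hF Y hY (u ^ 2) hρ (pow_le_one₀ hu0.le hu1)
  have e1 : C * (u ^ 2) ^ (-γ) * u ^ 2 = C * d ^ β := by
    rw [mul_assoc, ← Real.rpow_add_one hρ.ne', hu2, Real.sqrt_eq_rpow, ← Real.rpow_mul h0.le]
    congr 2
    rw [hβ]; ring
  have e2 : d ^ β ≤ 1 := Real.rpow_le_one h0.le hd1 hβ0.le
  have e3 : u ^ 2 ≤ d ^ β := by
    rw [hu2, Real.sqrt_eq_rpow]
    exact Real.rpow_le_rpow_of_exponent_ge h0 hd1 (by linarith)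
  have h1 := hold0_small (M := |M|) (G := C) hO (fun Z hZ => (hM Z hZ).trans (le_abs_self M)) hY hY'
    hu0 hu1 hN1 le_rfl hNu hu4.ge (by rw [e1]; exact mul_le_of_le_one_right hC e2) H
  rw [e1] at h1
  have h2 := mul_le_mul_of_nonneg_left e3 (by positivity : 0 ≤ 7 * N ^ 2)
  have h3 : 0 ≤ 2 * |M| / (u₀ ^ 4) ^ β * d ^ β := by positivity
  linarith

/-- zero frame. Wlog `L ≥ 0`. The displacement has norm `max ‖η‖ |σ|`. If `‖η‖ ≤ √ρ` it is `≤ √ρ`,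
giving `L ρ^(1/8)`. If `‖η‖ ≥ √ρ`: `L ‖η‖^(1/4) ≤ ‖η‖²/ρ + L' ρ^(1/7)` (split at
`‖η‖^(7/4) = L ρ`), and `ρ^(1/7) ≤ ρ^(1/8)`. -/
theorem gauge_of_hol (L : ℝ) : ∃ L' : ℝ, 0 ≤ L' ∧
    ∀ (O : Set (E × ℝ)) (w : E × ℝ → ℝ), HolOn (1 / 4) L O w → ∀ X ∈ O, ∀ ρ : ℝ, 0 < ρ → ρ ≤ 1 →
      CFw O w X ρ (L' * ρ ^ (-(7 / 8) : ℝ)) 0 0 := by
  set A : ℝ := |L| + 1 with hA
  have hA1 : 1 ≤ A := by have := abs_nonneg L; linarith
  refine ⟨|L| * A ^ (1 / 4 : ℝ), by positivity, fun O w H X hX ρ hρ hρ1 η σ hσ hmem => ?_⟩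
  have h1 := H _ hmem X hX
  have e : (X.1 + η + σ • (0 : E), X.2 + σ) - X = (η, σ) := by ext <;> simp
  rw [e, Prod.norm_mk, Real.norm_eq_abs] at h1
  have h2 : L * max ‖η‖ |σ| ^ (1 / 4 : ℝ) ≤ |L| * max ‖η‖ |σ| ^ (1 / 4 : ℝ) :=
    mul_le_mul_of_nonneg_right (le_abs_self L) (by positivity)
  have hs0 : 0 < √ρ := Real.sqrt_pos.2 hρ
  have hs1 : √ρ ≤ 1 := Real.sqrt_le_one.2 hρ1
  have hs2 : ρ ≤ √ρ := by nlinarith [Real.mul_self_sqrt hρ.le]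
  have hs3 : √ρ ≤ A * √ρ := le_mul_of_one_le_left hs0.le hA1
  have e2 : |L| * A ^ (1 / 4 : ℝ) * ρ ^ (-(7 / 8) : ℝ) * ρ = |L| * (A * √ρ) ^ (1 / 4 : ℝ) := by
    rw [mul_assoc, ← Real.rpow_add_one hρ.ne', Real.mul_rpow (by linarith) hs0.le, Real.sqrt_eq_rpow,
      ← Real.rpow_mul hρ.le, mul_assoc]
    norm_num
  simp only [inner_zero_left, norm_zero, sub_zero, ne_eq, OfNat.ofNat_ne_zero, not_false_eq_true,
    zero_pow, zero_div, add_zero, zero_mul]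
  rw [e2]
  refine h1.trans (h2.trans ?_)
  rcases le_total ‖η‖ (A * √ρ) with h3 | h3
  · have h4 : max ‖η‖ |σ| ^ (1 / 4 : ℝ) ≤ (A * √ρ) ^ (1 / 4 : ℝ) :=
      Real.rpow_le_rpow (by positivity) (max_le h3 (by linarith)) (by norm_num)
    have h5 := mul_le_mul_of_nonneg_left h4 (abs_nonneg L)
    have h6 : 0 ≤ ‖η‖ ^ 2 / ρ := by positivity
    linarith
  · rw [max_eq_left (by linarith)]
    have h4 : A ≤ ‖η‖ / √ρ := by rwa [le_div_iff₀ hs0]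
    have h5 : ‖η‖ ≤ ‖η‖ / √ρ := le_div_self (norm_nonneg _) hs0 hs1
    have h6 : ‖η‖ ^ (1 / 4 : ℝ) ≤ ‖η‖ / √ρ :=
      (Real.rpow_le_rpow (norm_nonneg _) h5 (by norm_num)).trans
        (Real.rpow_le_self_of_one_le (hA1.trans h4) (by norm_num))
    have h7 : ‖η‖ ^ 2 / ρ = (‖η‖ / √ρ) * (‖η‖ / √ρ) := by
      rw [div_mul_div_comm, Real.mul_self_sqrt hρ.le, sq]
    have h8 : |L| * ‖η‖ ^ (1 / 4 : ℝ) ≤ (‖η‖ / √ρ) * (‖η‖ / √ρ) :=
      mul_le_mul (by linarith) h6 (by positivity) (by positivity)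
    have h9 : 0 ≤ |L| * (A * √ρ) ^ (1 / 4 : ℝ) := by positivity
    linarith

theorem HolOn.mono (H : HolOn β L O w) (hO : O' ⊆ O) : HolOn β L O' w :=
  fun X hX X' hX' => H X (hO hX) X' (hO hX')

theorem HolOn.continuousOn (H : HolOn β L O w) (hβ : 0 < β) : ContinuousOn w O := by
  intro X hX
  rw [ContinuousWithinAt, tendsto_iff_dist_tendsto_zero]
  have hc : Continuous fun Y : E × ℝ => L * ‖Y - X‖ ^ β :=
    continuous_const.mul ((Real.continuous_rpow_const hβ.le).comp (by fun_prop))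
  have h1 := (hc.tendsto X).mono_left (nhdsWithin_le_nhds (s := O))
  rw [sub_self, norm_zero, Real.zero_rpow hβ.ne', mul_zero] at h1
  refine squeeze_zero' (Eventually.of_forall fun _ => dist_nonneg) ?_ h1
  filter_upwards [self_mem_nhdsWithin] with Y hY
  exact H Y hY X hX

/-- lower the exponent on a set of diameter `≤ D`. -/
theorem HolOn.lower {D : ℝ} (H : HolOn β L O w) (hL : 0 ≤ L) (hβ' : 0 < β') (hβ : β' ≤ β)
    (hD : ∀ X ∈ O, ∀ X' ∈ O, ‖X - X'‖ ≤ D) : HolOn β' (L * D ^ (β - β')) O w := by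
  intro X hX X' hX'
  refine (H X hX X' hX').trans ?_
  have e : ‖X - X'‖ ^ β = ‖X - X'‖ ^ (β - β') * ‖X - X'‖ ^ β' := by
    rw [← Real.rpow_add_of_nonneg (norm_nonneg _) (sub_nonneg.2 hβ) hβ'.le, sub_add_cancel]
  rw [e, mul_assoc]
  exact mul_le_mul_of_nonneg_left (mul_le_mul_of_nonneg_right
    (Real.rpow_le_rpow (norm_nonneg _) (hD X hX X' hX') (sub_nonneg.2 hβ)) (by positivity)) hL

theorem HolOn.of_tendsto {ι : Type} {l : Filter ι} [l.NeBot] {W : ι → E × ℝ → ℝ}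
    (H : ∀ᶠ n in l, HolOn β L O (W n)) (ht : ∀ X ∈ O, Tendsto (fun n => W n X) l (𝓝 (w X))) :
    HolOn β L O w :=
  fun X hX X' hX' => le_of_tendsto ((ht X hX).sub (ht X' hX')).abs (H.mono fun _ h => h X hX X' hX')

end R94
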