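import Crest.Agent.R94.NoC1
import Crest.Agent.R94.Rigid

/-!
# R94/NoC: there is no non-singular contact
-/

set_option autoImplicit false
set_option linter.unusedSectionVars false
set_option linter.unusedVariables false

open Set Filter Topology Metric
open scoped InnerProductSpace

namespace R94

variable {E : Type} [NormedAddCommGroup E] [InnerProductSpace ℝ E] [FiniteDimensional ℝ E]

variable {c κ : ℝ}

theorem noc_chain {α : Type} {P : α → Prop} {r : α → α → Prop}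
    (h : ∀ a, P a → ∃ a', P a' ∧ r a a') {a₀ : α} (h₀ : P a₀) :
    ∃ f : ℕ → α, (∀ n, P (f n)) ∧ ∀ n, r (f n) (f (n + 1)) := by
  choose g hg hr using h
  let G : {a // P a} → {a // P a} := fun a => ⟨g a.1 a.2, hg a.1 a.2⟩
  refine ⟨fun n => (G^[n] ⟨a₀, h₀⟩).1, fun n => (G^[n] ⟨a₀, h₀⟩).2, fun n => ?_⟩
  simp only [Function.iterate_succ_apply']
  exact hr _ _

theorem noc_time {t s : ℕ → ℝ} {R : ℝ} (hR : 0 < R) (hs0 : ∀ k, 0 < s k)
    (hs : ∀ k, s (k + 1) = s k / 2) (ht : ∀ k, |t (k + 1) - t k| ≤ R * s k) (k n : ℕ) :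
    |t (k + n) - t k| ≤ 2 * R * s k := by
  have h : |t (k + n) - t k| ≤ 2 * R * (s k - s (k + n)) := by
    induction n with
    | zero => simp
    | succ n ih =>
      have h1 := ht (k + n)
      have h2 := abs_sub_le (t (k + n + 1)) (t (k + n)) (t k)
      rw [← add_assoc, hs]
      linarith
  have := mul_pos hR (hs0 (k + n))
  linarith

theorem noc_space {x b : ℕ → E} {t s : ℕ → ℝ} {R : ℝ} (hR : 0 < R) (hs0 : ∀ k, 0 < s k)
    (hs : ∀ k, s (k + 1) = s k / 2) (ht : ∀ k, |t (k + 1) - t k| ≤ R * s k)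
    (hx : ∀ k, ‖x (k + 1) - x k - (t (k + 1) - t k) • b k‖ ≤ R * s k)
    (hb : ∀ k, ‖b (k + 1) - b k‖ ≤ R) (n k : ℕ) :
    ‖x (k + n) - x k - (t (k + n) - t k) • b k‖ ≤ (2 * R + 2 * R ^ 2) * s k := by
  induction n generalizing k with
  | zero =>
    have := hs0 k
    simp only [add_zero, sub_self, zero_smul, norm_zero]
    positivity
  | succ n ih =>
    have h1 := ih (k + 1)
    have h2 := noc_time hR hs0 hs ht (k + 1) n
    rw [show k + 1 + n = k + (n + 1) by ring, hs] at h1 h2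
    have e : x (k + (n + 1)) - x k - (t (k + (n + 1)) - t k) • b k =
        (x (k + 1) - x k - (t (k + 1) - t k) • b k) +
        (x (k + (n + 1)) - x (k + 1) - (t (k + (n + 1)) - t (k + 1)) • b (k + 1)) +
        (t (k + (n + 1)) - t (k + 1)) • (b (k + 1) - b k) := by
      module
    have h3 : ‖(t (k + (n + 1)) - t (k + 1)) • (b (k + 1) - b k)‖ ≤ 2 * R * (s k / 2) * R := by
      rw [norm_smul, Real.norm_eq_abs]
      exact mul_le_mul h2 (hb k) (norm_nonneg _) ((abs_nonneg _).trans h2)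
    rw [e]
    refine (norm_add₃_le).trans ?_
    have h4 := hx k
    linarith

/-- Iterate `halve` (recursion on a subtype of states): `(xₖ,ηₖ,tₖ,bₖ,hₖ)`, `sₖ = ‖ηₖ‖ = s₀/2ᵏ`.
For `m ≥ k`: `|tₘ - tₖ| ≤ 2Rsₖ` and `‖xₘ - xₖ - (tₘ - tₖ) • bₖ‖ ≤ (2R + 2R²)sₖ` (induct on `m - k`,
peeling the first step). `‖bₖ‖ ≤ ‖b₀‖ + Rk`, so `(xₖ,tₖ) → X∞`. `L ≤ Sm s w X∞ ≤ 0` (`le_Sm`,
continuity of `Tm s w`), `L - 4 ≤ Sp s w X∞ ≤ 0` (`abs_Sp_le`, `abs_Sm_le` at scale `2s`); both are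
monotone in `s`, so converge as `s → 0⁺` to `L₁, L₂`. `Wₖ = sym (xₖ,tₖ) bₖ 0 sₖ sₖ w` is
`Nrm (|L|+3)`; the points `Xᵏ` with `pt Xᵏ = X∞` are bounded. `compB`, `exists_ulim`, `tendsto_S`,
`Sp_sym`: `Sp s v X̄ = L₁`, `Sm s v X̄ = L₂`; `rigid`; but `Del c Wₖ 0 (sₖ⁻¹ • ηₖ) 0 = κ`
(`JGe.del_eq`, `Del_sym`), `tendsto_Del`, `Affine.del_eq`. -/
theorem Xtr.false (hc0 : 0 < c) (hc1 : c < 1) (hκ : 0 < κ) {w : E × ℝ → ℝ} {L : ℝ}
    (hX : Xtr c κ w L) {x η : E} {t : ℝ} (hη : η ≠ 0) (hJ : JGe c κ w x η t L) : False := by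
  obtain ⟨R, hR, hstep⟩ := hX.halve hc0 hc1 hκ
  have hent := hX.bmo.ent
  have hcsq := hent.csq
  obtain ⟨b₀, h₀, hb₀⟩ := hX.bmo.2 (x, t) ‖η‖ (norm_pos_iff.2 hη)
  obtain ⟨f, hP, hQ⟩ := noc_chain (α := E × E × ℝ × E × ℝ)
    (P := fun p => p.2.1 ≠ 0 ∧ JGe c κ w p.1 p.2.1 p.2.2.1 L ∧
      CFw univ w (p.1, p.2.2.1) ‖p.2.1‖ 1 p.2.2.2.1 p.2.2.2.2)
    (r := fun p q => ‖q.2.1‖ = ‖p.2.1‖ / 2 ∧ |q.2.2.1 - p.2.2.1| ≤ R * ‖p.2.1‖ ∧
      ‖q.1 - p.1 - (q.2.2.1 - p.2.2.1) • p.2.2.2.1‖ ≤ R * ‖p.2.1‖ ∧ ‖q.2.2.2.1 - p.2.2.2.1‖ ≤ R)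
    (by
      rintro ⟨x, η, t, b, h⟩ ⟨h1, h2, h3⟩
      obtain ⟨x', η', t', b', h', a1, a2, a3, a4, a5, a6⟩ := hstep x η t b h h1 h2 h3
      refine ⟨(x', η', t', b', h'), ⟨?_, a2, a3⟩, a1, a4, a5, a6⟩
      have : 0 < ‖η‖ := norm_pos_iff.2 h1
      exact norm_pos_iff.1 (by change 0 < ‖η'‖; rw [a1]; positivity))
    (a₀ := (x, η, t, b₀, h₀)) ⟨hη, hJ, hb₀⟩
  clear hstep hb₀ hJ hη
  set xx : ℕ → E := fun k => (f k).1 with hxx
  set ee : ℕ → E := fun k => (f k).2.1 with hee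
  set tt : ℕ → ℝ := fun k => (f k).2.2.1 with htt
  set bb : ℕ → E := fun k => (f k).2.2.2.1 with hbb
  set hh : ℕ → ℝ := fun k => (f k).2.2.2.2 with hhh
  set ss : ℕ → ℝ := fun k => ‖ee k‖ with hss
  have hs0 : ∀ k, 0 < ss k := fun k => norm_pos_iff.2 (hP k).1
  have hJ : ∀ k, JGe c κ w (xx k) (ee k) (tt k) L := fun k => (hP k).2.1
  have hC : ∀ k, CFw univ w (xx k, tt k) (ss k) 1 (bb k) (hh k) := fun k => (hP k).2.2
  have hs : ∀ k, ss (k + 1) = ss k / 2 := fun k => (hQ k).1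
  have hT := noc_time (t := tt) hR hs0 hs fun k => (hQ k).2.1
  have hS := noc_space (x := xx) (b := bb) (t := tt) hR hs0 hs (fun k => (hQ k).2.1)
    (fun k => (hQ k).2.2.1) fun k => (hQ k).2.2.2
  have hsn : ∀ k, ‖ee k‖ = ss k := fun k => rfl
  clear_value xx tt bb hh ss ee
  clear hP hQ hxx hee htt hbb hhh hss f
  let U : Ultrafilter ℕ := hyperfilter ℕ
  have hU : (U : Filter ℕ) ≤ atTop := Nat.hyperfilter_le_atTop
  have hT' : ∀ k, ∀ᶠ m in (U : Filter ℕ), |tt m - tt k| ≤ 2 * R * ss k := fun k =>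
    hU ((eventually_ge_atTop k).mono fun m hm => by
      obtain ⟨n, rfl⟩ := Nat.exists_eq_add_of_le hm
      exact hT k n)
  have hS' : ∀ k, ∀ᶠ m in (U : Filter ℕ),
      ‖xx m - xx k - (tt m - tt k) • bb k‖ ≤ (2 * R + 2 * R ^ 2) * ss k := fun k =>
    hU ((eventually_ge_atTop k).mono fun m hm => by
      obtain ⟨n, rfl⟩ := Nat.exists_eq_add_of_le hm
      exact hS n k)
  obtain ⟨d, -, hd⟩ := exists_ulim U (x := fun m => tt m - tt 0) (hT' 0)
  obtain ⟨y, -, hy⟩ := exists_ulim U (hS' 0)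
  obtain ⟨t', ht'⟩ : ∃ t', Tendsto tt U (𝓝 t') := ⟨_, by simpa using hd.add_const (tt 0)⟩
  obtain ⟨x', hx'⟩ : ∃ x', Tendsto xx U (𝓝 x') :=
    ⟨_, by simpa using (hy.add (hd.smul_const (bb 0))).add_const (xx 0)⟩
  have hT'' : ∀ k, |t' - tt k| ≤ 2 * R * ss k := fun k =>
    le_of_tendsto (ht'.sub_const (tt k)).abs (hT' k)
  have hS'' : ∀ k, ‖x' - xx k - (t' - tt k) • bb k‖ ≤ (2 * R + 2 * R ^ 2) * ss k := fun k =>
    le_of_tendsto ((hx'.sub_const (xx k)).sub ((ht'.sub_const (tt k)).smul_const (bb k))).norm (hS' k)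
  have hSm : ∀ s, 0 < s → L ≤ Sm s w (x', t') := by
    intro s hs
    have h1 : Continuous (Sm s w) := by
      have h2 := (hcsq.flowm hs).1
      have h3 := hcsq.1
      exact (h3.sub h2).div_const s
    exact ge_of_tendsto' ((h1.tendsto _).comp (hx'.prodMk_nhds ht')) fun k =>
      (hJ k).le_Sm hX.fle hX.hle hc0.le hc1.le hs
  have hSp : ∀ s, 0 < s → L - 4 ≤ Sp s w (x', t') := by
    intro s hs
    obtain ⟨b, h, H⟩ := hX.bmo.2 (x', t') (2 * s) (by positivity)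
    have h1 := H.abs_Sp_le hs le_rfl
    have h2 := H.abs_Sm_le hs le_rfl
    have e : 1 * (2 * s) / s = 2 := by field_simp
    rw [e] at h1 h2
    linarith [hSm s hs, (abs_le.1 h1).1, (abs_le.1 h2).2]
  have hL1 := MonotoneOn.tendsto_nhdsGT (f := fun s => Sp s w (x', t')) (x := 0)
    (fun s hs s' _ h => hent.Sp_mono hs h _) ⟨L - 4, by rintro _ ⟨s, hs, rfl⟩; exact hSp s hs⟩
  have hL2 := MonotoneOn.tendsto_nhdsGT (f := fun s => Sm s w (x', t')) (x := 0)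
    (fun s hs s' _ h => hent.Sm_mono hs h _) ⟨L, by rintro _ ⟨s, hs, rfl⟩; exact hSm s hs⟩
  have hs_lim : Tendsto ss U (𝓝 0) := by
    have e : ss = fun k => ss 0 * (1 / 2) ^ k := by
      funext k
      induction k with
      | zero => simp
      | succ k ih => rw [hs, ih]; ring
    rw [e]
    refine Tendsto.mono_left ?_ hU
    simpa using (tendsto_pow_atTop_nhds_zero_of_lt_one (r := (1 / 2 : ℝ)) (by norm_num)
      (by norm_num)).const_mul (ss 0)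
  have hs_lim' : ∀ s, 0 < s → Tendsto (fun k => ss k * s) U (𝓝[>] 0) := fun s hs =>
    tendsto_nhdsWithin_iff.2 ⟨by simpa using hs_lim.mul_const s,
      Eventually.of_forall fun k => mul_pos (hs0 k) hs⟩
  let W : ℕ → E × ℝ → ℝ := fun k => sym (xx k, tt k) (bb k) 0 (ss k) (ss k) w
  have hWb : ∀ k, BMO (W k) := fun k => hX.bmo.sym (hs0 k)
  have hWn : ∀ k, Nrm (|L| + 3) (W k) := fun k => ((hC k).nrm (h' := 0) (hs0 k)).mono (by
    have := (hJ k).abs_h_le hX.fle hX.hle hc0.le hc1.le (hs0 k) (hC k)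
    rw [sub_zero]
    linarith)
  obtain ⟨v, hvb, -, hv⟩ := compB U W _ hWb hWn
  let Y : ℕ → E × ℝ := fun k =>
    ((ss k)⁻¹ • (x' - xx k - (t' - tt k) • bb k), (ss k)⁻¹ * (t' - tt k))
  have hYp : ∀ k, pt (xx k, tt k) (bb k) (ss k) (ss k) (Y k) = (x', t') := by
    intro k
    simp only [pt, Y, smul_smul, ← mul_assoc, mul_inv_cancel₀ (hs0 k).ne', one_smul, one_mul]
    congr 1
    · abel
    · ring
  obtain ⟨Y', -, hY⟩ := exists_ulim U (x := Y) (M := 2 * R + 2 * R ^ 2)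
    (Eventually.of_forall fun k => by
      have h0 := hs0 k
      rw [Prod.norm_def, max_le_iff]
      simp only [Y, norm_smul, norm_mul, norm_inv, Real.norm_eq_abs, abs_of_pos h0]
      rw [inv_mul_le_iff₀ h0, inv_mul_le_iff₀ h0]
      refine ⟨by linarith [hS'' k], ?_⟩
      have h1 := hT'' k
      have h2 : 0 ≤ R ^ 2 * ss k := by positivity
      linarith)
  obtain ⟨e', -, he⟩ := exists_ulim U (x := fun k => (ss k)⁻¹ • ee k) (M := 1)
    (Eventually.of_forall fun k => by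
      have h0 := hs0 k
      rw [norm_smul, norm_inv, Real.norm_eq_abs, abs_of_pos h0, hsn, inv_mul_cancel₀ h0.ne'])
  have hvc : Continuous v := hvb.ent.csq.1
  have haff : Affine v := by
    refine rigid hvb.ent Y' (L₁ := _) (L₂ := _) (fun s hs => tendsto_nhds_unique
      (tendsto_S hWb hWn hv hvc hY hs).1 ((hL1.comp (hs_lim' s hs)).congr fun k => ?_))
      fun s hs => tendsto_nhds_unique
      (tendsto_S hWb hWn hv hvc hY hs).2 ((hL2.comp (hs_lim' s hs)).congr fun k => ?_)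
    · simp only [W, Function.comp]
      rw [hcsq.2.Sp_sym (hs0 k) (hs0 k) hs, hYp, div_self (hs0 k).ne']
      ring
    · simp only [W, Function.comp]
      rw [hcsq.2.Sm_sym (hs0 k) (hs0 k) hs, hYp, div_self (hs0 k).ne']
      ring
  have hD := tendsto_Del (c := c) hv hvc (x := fun _ => 0) (t := fun _ => 0) tendsto_const_nhds he
    tendsto_const_nhds
  have hD' : ∀ k, Del c (W k) 0 ((ss k)⁻¹ • ee k) 0 = κ := by
    intro k
    have h0 := hs0 k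
    have h1 := (hJ k).del_eq hcsq hX.fle
    simp only [W]
    rw [Del_sym, show ((0 : E), (0 : ℝ)) = 0 from rfl, pt_zero, smul_smul, mul_inv_cancel₀ h0.ne',
      one_smul, h1, hsn]
    field_simp
  simp only [hD', haff.del_eq] at hD
  exact hκ.ne' (tendsto_nhds_unique tendsto_const_nhds hD)

theorem no_contact (hc0 : 0 < c) (hc1 : c < 1) (hκ : 0 < κ) {w : E × ℝ → ℝ} {x η : E} {t L : ℝ}
    (hw : BMO w) (hF : FLe c κ w) (hη : η ≠ 0) (hJ : JGe c κ w x η t L) : False := by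
  obtain ⟨w₁, η₁, L₁, h1, h2, h3, h4, h5⟩ := exists_hle hc0 hc1 hκ hw hF hη hJ
  obtain ⟨w₂, η₂, L₂, h6, h7, h8⟩ := exists_xtr hc0 hc1 h1 h2 h3 h4 h5
  exact h6.false hc0 hc1 hκ h7 h8

end R94
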