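import Crest.Agent.R94.Can
import Crest.Agent.R94.Env

/-!
# R94/Select: selection of near-extremal configurations
-/

set_option autoImplicit false
set_option linter.unusedSectionVars false
set_option linter.unusedVariables false

open Set Filter Topology Metric
open scoped InnerProductSpace

namespace R94

variable {E : Type} [NormedAddCommGroup E] [InnerProductSpace ℝ E] [FiniteDimensional ℝ E]

theorem select_small {ε : ℝ} (hε : 0 < ε) :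
    ∃ N₀ : ℝ, ∀ N, N₀ ≤ N → 0 ≤ N ∧ Real.exp (-(N / 2)) * (1 + N) ^ 10 ≤ ε := by
  have h1 : Tendsto (fun N : ℝ => (1 + N) / 2) atTop atTop :=
    (tendsto_atTop_add_const_left _ 1 tendsto_id).atTop_div_const two_pos
  have h2 := ((Real.tendsto_pow_mul_exp_neg_atTop_nhds_zero 10).comp h1).const_mul
    (2 ^ 10 * Real.exp (1 / 2))
  rw [mul_zero] at h2
  obtain ⟨N₀, h⟩ := eventually_atTop.1 ((h2.eventually (ge_mem_nhds hε)).and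
    (eventually_ge_atTop 0))
  refine ⟨N₀, fun N hN => ⟨(h N hN).2, le_trans (le_of_eq ?_) (h N hN).1⟩⟩
  have e : Real.exp (-(N / 2)) = Real.exp (1 / 2) * Real.exp (-((1 + N) / 2)) := by
    rw [← Real.exp_add]; congr 1; ring
  simp only [Function.comp]
  rw [e]
  ring

theorem select_log {u a A C' : ℝ} (hu : 1 / 2 ≤ u) (ha : -C' ≤ a) (hA : 0 ≤ A) (hC : 0 ≤ C') :
    a * Real.log u + A * Real.log u ^ 2 ≤ a * (u - 1) + (2 * C' + 4 * A) * (u - 1) ^ 2 := by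
  have h0 : 0 < u := by linarith
  have h1 := Real.log_le_sub_one_of_pos h0
  have h2 := Real.one_sub_inv_le_log_of_pos h0
  have h3 : u⁻¹ ≤ 2 := by rw [inv_le_comm₀ h0 two_pos]; linarith
  have h4 : u - 1 - (1 - u⁻¹) = (u - 1) ^ 2 * u⁻¹ := by field_simp
  have h5 : u - 1 - Real.log u ≤ 2 * (u - 1) ^ 2 := by nlinarith [sq_nonneg (u - 1)]
  have h6 : Real.log u ^ 2 ≤ 4 * (u - 1) ^ 2 := by
    have h7 : 1 - u⁻¹ = (u - 1) * u⁻¹ := by field_simp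
    have h8 := inv_pos.2 h0
    rcases le_total 1 u with h | h
    · have := Real.log_nonneg h
      nlinarith
    · have := Real.log_nonpos h0.le h
      have h9 : 2 * (u - 1) ≤ Real.log u := by nlinarith
      nlinarith
  have h7 := mul_le_mul_of_nonneg_left h6 hA
  have h8 := mul_le_mul_of_nonneg_left h5 hC
  have h9 := mul_le_mul_of_nonneg_right ha (sub_nonneg.2 h1)
  linarith

/-- `envelope` on the index type of `(x, η, t, Z, δ)` with `η ≠ 0`, `δ > 0`; `J = Jc`,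
`ν = log (‖η‖/δ)`; `jc_upper`, and `jc_lower` at the given contact with `δ = exp (-N)`.
For the selected index put `ρ = ‖η*‖`, `w = sym (x*,t*) (canB ..) (canL ..) ρ ρ W`, `δ = δ*/ρ
= exp(-ν*)`, `η₀ = ρ⁻¹ • η*`, `n = Jc* + δ`. `canB w 0 1 = 0`, `canL w 0 1 = 0` (`canB_sym`,
`canL_sym`), `can_nrm`, `Jc_sym`. For `e2`: `u = ‖η‖δ/δ' ∈ [1/2, 5/4]`, `ν j - ν i = log u`,
`1 - 1/u ≤ log u ≤ u - 1`, so `a log u ≤ a(u-1) + 2C'(u-1)²`, `(log u)² ≤ 4(u-1)²`; `can_small` with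
`s = ‖η‖`. `‖Z₀‖² ≤ 4(C(1+4N²) + C'(1+N))` and `δ ≤ exp(-N/2)` give the smallness and `aup`. -/
theorem select {c κ : ℝ} (hc0 : 0 < c) (hc1 : c < 1) (hκ : 0 < κ) {W : E × ℝ → ℝ} {η : E}
    (hW : BMO W) (hF : FLe c κ W) (hη : ‖η‖ = 1) (hD : Del c W 0 η 0 = κ) :
    ∃ Λ CE : ℝ, 0 ≤ CE ∧ ∀ ε : ℝ, 0 < ε → ∃ (w : E × ℝ → ℝ) (δ : ℝ) (η₀ Z₀ : E) (n a : ℝ),
      Ext c κ Λ CE w δ η₀ Z₀ n a ∧ δ * (1 + ‖Z₀‖) ^ 10 ≤ ε := by
  obtain ⟨C₁, hC₁, hup⟩ := jc_upper (E := E) hc0 hc1 hκ.le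
  obtain ⟨C₂, hC₂, hlo⟩ := jc_lower (E := E) (κ := κ) hc0.le hc1.le
  obtain ⟨Λ, hΛ⟩ := can_nrm (E := E)
  obtain ⟨Cs, hCs, hsmall⟩ := can_small (E := E) Λ
  have hη0 : η ≠ 0 := by rintro rfl; simp at hη
  obtain ⟨A, C', hA, hC', henv⟩ := envelope
    (I := {p : E × E × ℝ × E × ℝ // p.2.1 ≠ 0 ∧ 0 < p.2.2.2.2})
    (fun p => Jc c κ p.1.2.2.2.2 W p.1.1 p.1.2.1 p.1.2.2.1 p.1.2.2.2.1)
    (fun p => Real.log (‖p.1.2.1‖ / p.1.2.2.2.2)) (C := C₁ + C₂) (by positivity)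
    (fun p => by
      have h1 := hup W hW hF p.1.1 p.1.2.1 p.1.2.2.1 p.1.2.2.2.1 p.1.2.2.2.2 p.2.1 p.2.2
      have h2 : 0 ≤ C₂ * (1 + Real.log (‖p.1.2.1‖ / p.1.2.2.2.2) ^ 2) := by positivity
      linarith [sq_nonneg ‖p.1.2.2.2.1‖])
    (fun N hN => by
      have h1 : Real.log (‖η‖ / Real.exp (-N)) = N := by
        rw [hη, one_div, ← Real.exp_neg, neg_neg, Real.log_exp]
      refine ⟨⟨(0, η, 0, 0, Real.exp (-N)), hη0, Real.exp_pos _⟩, h1, ?_⟩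
      have h2 := hlo W hW 0 η 0 _ hη0 (Real.exp_pos (-N)) (by rw [hD, hη, mul_one])
      rw [h1, abs_of_nonneg hN] at h2
      have h3 : 0 ≤ C₁ * (1 + N) := by positivity
      simp only
      linarith)
  refine ⟨Λ, 2 * C' + 4 * A + 2 * Cs, by positivity, fun ε hε => ?_⟩
  obtain ⟨K, hK⟩ : ∃ K : ℝ, K = 1 + 4 * (4 * C₁ + C') := ⟨_, rfl⟩
  have hK1 : 1 ≤ K := by rw [hK]; linarith
  obtain ⟨N₀, hN₀⟩ := select_small (ε := min (ε / (K + 1) ^ 10) (κ / (2 * C')))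
    (lt_min (by positivity) (by positivity))
  obtain ⟨N, ⟨⟨x₁, η₁, t₁, Z₀, δ₁⟩, hη₁, hδ₁⟩, a, hN, ha1, ha2, hν1, hν2, hJ, hmax⟩ := henv N₀
  obtain ⟨hN0, hNs⟩ := hN₀ N hN
  simp only at hη₁ hδ₁ hν1 hν2 hJ hmax
  have hZ := hup W hW hF x₁ η₁ t₁ Z₀ δ₁ hη₁ hδ₁
  obtain ⟨ρ, hρ⟩ : ∃ ρ, ρ = ‖η₁‖ := ⟨_, rfl⟩
  have hρ0 : 0 < ρ := by rw [hρ]; exact norm_pos_iff.2 hη₁
  rw [← hρ] at hν1 hν2 hmax hZ
  obtain ⟨δ, hδ⟩ : ∃ δ, δ = δ₁ / ρ := ⟨_, rfl⟩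
  have hδ0 : 0 < δ := by rw [hδ]; positivity
  have hlog : Real.log (ρ / δ₁) = -Real.log δ := by rw [hδ, ← Real.log_inv, inv_div]
  have hexp : Real.exp (-Real.log (ρ / δ₁)) = δ := by rw [hlog, neg_neg, Real.exp_log hδ0]
  have hδle : δ ≤ Real.exp (-(N / 2)) := by rw [← hexp]; exact Real.exp_le_exp.2 (by linarith)
  obtain ⟨w, hw⟩ : ∃ w, w = sym (x₁, t₁) (canB W (x₁, t₁) ρ) (canL W (x₁, t₁) ρ) ρ ρ W := ⟨_, rfl⟩
  have hB : canB w 0 1 = 0 := by rw [hw, canB_sym hρ0 one_pos, pt_zero, mul_one, sub_self]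
  have hL : canL w 0 1 = 0 := by rw [hw, canL_sym hρ0 one_pos, pt_zero, mul_one, sub_self]
  have hbmo : BMO w := hw ▸ hW.sym hρ0
  have hnrm : Nrm Λ w := hΛ w hbmo (hw ▸ sym_zero _ _ _ _ _ _) hB hL
  have hunit : ‖ρ⁻¹ • η₁‖ = 1 := by
    rw [norm_smul, norm_inv, Real.norm_of_nonneg hρ0.le, ← hρ, inv_mul_cancel₀ hρ0.ne']
  have h1N : 1 ≤ 1 + N := by linarith
  refine ⟨w, δ, ρ⁻¹ • η₁, Z₀, Jc c κ δ₁ W x₁ η₁ t₁ Z₀ + δ, a,
    ⟨hbmo, hw ▸ hF.sym hρ0, hnrm, hδ0, hunit, by linarith, ?_, ?_, ?_⟩, ?_⟩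
  · have h1 := hNs.trans (min_le_right _ _)
    rw [le_div_iff₀ (by positivity)] at h1
    have h2 : 1 + N ≤ (1 + N) ^ 10 := le_self_pow₀ h1N (by norm_num)
    have h3 : δ * |a| ≤ Real.exp (-(N / 2)) * (C' * (1 + N) ^ 10) :=
      mul_le_mul hδle (ha2.trans (mul_le_mul_of_nonneg_left h2 hC'.le)) (abs_nonneg _)
        (Real.exp_pos _).le
    linarith
  · have h1 : Jc c κ δ w 0 (ρ⁻¹ • η₁) 0 Z₀ = Jc c κ δ₁ W x₁ η₁ t₁ Z₀ := by
      rw [hw, Jc_sym hW.ent.2 hρ0 hδ0 (smul_ne_zero (inv_ne_zero hρ0.ne') hη₁), Prod.mk_zero_zero,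
        pt_zero, smul_inv_smul₀ hρ0.ne', hδ, mul_div_cancel₀ _ hρ0.ne']
    rw [← h1, Jc, hunit, Prod.mk_zero_zero, hB, hL]
    simp
  · intro δ' hδ' r x η' t Z hr hx ht hη'
    have hδ'0 : 0 < δ' := by rcases hδ' with rfl | rfl <;> positivity
    have hs : |‖η'‖ - 1| ≤ r := by rw [← hunit]; exact (abs_norm_sub_norm_le _ _).trans hη'
    have hs' : 3 / 4 ≤ ‖η'‖ := by linarith [(abs_le.1 hs).1]
    have hη'0 : η' ≠ 0 := by rintro rfl; norm_num at hs'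
    have hu : 1 / 2 ≤ ‖η'‖ * δ / δ' := by
      rw [le_div_iff₀ hδ'0]
      have := mul_le_mul_of_nonneg_right hs' hδ0.le
      rcases hδ' with rfl | rfl <;> linarith
    obtain ⟨h1, h2⟩ := hsmall w hbmo hnrm hB hL r x t _ hr hx ht hs
    have h3 := hmax ⟨((pt (x₁, t₁) (canB W (x₁, t₁) ρ) ρ ρ (x, t)).1, ρ • η',
      (pt (x₁, t₁) (canB W (x₁, t₁) ρ) ρ ρ (x, t)).2, Z, ρ * δ'),
      smul_ne_zero hρ0.ne' hη'0, mul_pos hρ0 hδ'0⟩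
    have h4 : Real.log (‖ρ • η'‖ / (ρ * δ')) - Real.log (ρ / δ₁) = Real.log (‖η'‖ * δ / δ') := by
      have h5 : 0 < ‖η'‖ := by linarith
      rw [norm_smul, Real.norm_of_nonneg hρ0.le, mul_div_mul_left _ _ hρ0.ne', hlog,
        sub_neg_eq_add, ← Real.log_mul (by positivity) hδ0.ne']
      congr 1
      ring
    simp only at h3
    rw [← Jc_sym (h := canL W (x₁, t₁) ρ) hW.ent.2 hρ0 hδ'0 hη'0, ← hw, h4, hexp, Jc] at h3
    have h5 := select_log hu ha1 hA.le hC'.le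
    have h6 := (abs_le.1 ((abs_real_inner_le_norm (canB w (x, t) ‖η'‖) Z).trans
      (mul_le_mul_of_nonneg_right h1 (norm_nonneg Z)))).1
    have h7 := (abs_le.1 h2).2
    have h8 : 0 ≤ √(√r) := Real.sqrt_nonneg _
    have h9 := norm_nonneg Z
    have h10 : 0 ≤ Cs * (‖η'‖ * δ / δ' - 1) ^ 2 := by positivity
    have h11 : 0 ≤ (2 * C' + 4 * A) * √(√r) * (1 + ‖Z‖) := by positivity
    have h12 : 0 ≤ Cs * √(√r) * ‖Z‖ := by positivity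
    linarith
  · have h1 := hNs.trans (min_le_left _ _)
    rw [le_div_iff₀ (by positivity)] at h1
    have h2 : Real.log (ρ / δ₁) ^ 2 ≤ (2 * N) ^ 2 := pow_le_pow_left₀ (by linarith) hν2 2
    have h3 : ‖Z₀‖ ≤ K * (1 + N) := by
      refine le_of_sq_le_sq (a := ‖Z₀‖) ?_ (by positivity)
      have h4 := mul_le_mul_of_nonneg_left h2 hC₁.le
      have h5 : C₁ * (1 + 4 * N ^ 2) ≤ C₁ * (4 * (1 + N) ^ 2) :=
        mul_le_mul_of_nonneg_left (by linarith) hC₁.le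
      have h6 : C' * (1 + N) ≤ C' * (1 + N) ^ 2 :=
        mul_le_mul_of_nonneg_left (le_self_pow₀ h1N two_ne_zero) hC'.le
      have h7 : 4 * (4 * C₁ + C') * (1 + N) ^ 2 ≤ K ^ 2 * (1 + N) ^ 2 :=
        mul_le_mul_of_nonneg_right (by linarith [le_self_pow₀ hK1 two_ne_zero]) (by positivity)
      linarith
    have h4 : (1 + ‖Z₀‖) ^ 10 ≤ ((K + 1) * (1 + N)) ^ 10 :=
      pow_le_pow_left₀ (by positivity) (by linarith) 10
    calc δ * (1 + ‖Z₀‖) ^ 10 ≤ Real.exp (-(N / 2)) * ((K + 1) * (1 + N)) ^ 10 :=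
        mul_le_mul hδle h4 (by positivity) (Real.exp_pos _).le
      _ = Real.exp (-(N / 2)) * (1 + N) ^ 10 * (K + 1) ^ 10 := by ring
      _ ≤ ε := h1

end R94
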