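import Crest.Agent.R94.TL
import Crest.Agent.R94.CE0

/-!
# R94/Triple: improvement of flatness for triples (compactness)
-/

set_option autoImplicit false
set_option linter.unusedSectionVars false
set_option linter.unusedVariables false

open Set Filter Topology Metric
open scoped InnerProductSpace

namespace R94

variable {E : Type} [NormedAddCommGroup E] [InnerProductSpace ℝ E] [FiniteDimensional ℝ E]

theorem triple_cmp {u w : E × ℝ → ℝ} {θ ε hu hw : ℝ} {bu bw : E} (hθ : 0 < θ)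
    (Hu : CFw univ u 0 θ ε bu hu) (Hw : CFw univ w 0 θ ε bw hw) (u0 : u 0 = 0) (w0 : w 0 = 0)
    (hle : ∀ y : E, u (y, 0) ≤ w (y, 0)) : ‖bu - bw‖ ^ 2 ≤ 16 * ε := by
  have := norm_sq_le_of_inner_le (β := bu - bw) (D := 2 * ε * θ) (A := 2 / θ) (by positivity)
    fun η => by
      have h1 := (abs_le.1 (Hu η 0 (by simpa using hθ.le) (mem_univ _))).1
      have h2 := (abs_le.1 (Hw η 0 (by simpa using hθ.le) (mem_univ _))).2
      simp only [Prod.fst_zero, Prod.snd_zero, zero_add, zero_smul, add_zero, mul_zero, sub_zero,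
        u0, w0] at h1 h2
      have h3 := hle η
      have h4 : 2 / θ * ‖η‖ ^ 2 = 2 * (‖η‖ ^ 2 / θ) := by ring
      rw [inner_sub_left, h4]
      linarith
  refine this.trans_eq ?_
  field_simp
  ring

theorem triple_persist {U : Ultrafilter ℕ} {W : ℕ → E × ℝ → ℝ} {v : E × ℝ → ℝ} {θ h : ℝ}
    {b b' : E} (hW : ∀ n, Slab 1 1 (W n)) (hv : v 0 = 0)
    (ht : TendstoLocallyUniformlyOn W v U (slab E 1)) (hθ : 0 < θ) (hθ1 : θ ≤ 1)
    (H : CFw univ v 0 θ (1 / 1000) b h) (hb : ‖b - b'‖ ^ 2 ≤ 16 * (1 / 1000)) :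
    ∀ᶠ n in (U : Filter ℕ), CFw univ (W n) 0 (θ / 4) (1 / 4) b' h := by
  have h1 := (H.change_frame hθ b').mono_lam (lam' := 1 / 8) (by positivity) (by linarith)
  have h2 := persist (On := fun _ => univ) (K := 1) (Λ := 1) (ε := 1 / 8) (by positivity)
    (by norm_num) (by linarith) (isOpen_slab 1) (fun X hX => by rw [mem_slab]; linarith) ht
    (Eventually.of_forall fun n X _ hX => (hW n).2.2.2 X (by linarith)) (fun n => (hW n).2.2.1) hv h1
  rwa [show (1 / 8 + 1 / 8 : ℝ) = 1 / 4 by norm_num] at h2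

/-- Otherwise for each `n` there is a counterexample with `c = 1/(n+2)`, `θm = ε₁ = 1/(n+1)`,
`R = n+1`. Testing `y = y' = 0`, `σ = ±1/2` gives `|lₙ| ≤ 8`. `compS` three times and `exists_ulim`
for `eₙ`, `lₙ` (along `hyperfilter ℕ`); `tendsto_moving` gives the limit inequality for
`w₁ + lσ` (`Slab.add_time`), `w₂ (·,0)`, `w₀`, and the chord condition; `triple_limit`; `ce0` with
`ε' = 1/1000` at a common scale `θ' ≤ 1/65536`: frames `(bᵢ,hᵢ)` (`CFw.add_time` removes `lσ`).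
`w₁ (y,0) ≤ w₀ (y,0)` and `w₂ (y,0) ≤ w₀ (y,0)` give `‖bᵢ - b₀‖² ≤ 16ε'`
(`norm_sq_le_of_inner_le`, `A = 2/θ'`, `D = 2ε'θ'`); `change_frame`: common frame `b₀` at scale
`θ = θ'/4` with constant `≤ 36ε' < 1/8`; `persist` (`On = slab E 1`, `Λ = 1`, `ε = 1/8`) and
`CFw.to_univ`; eventually `1/(n+1) ≤ θ`: contradiction. -/
theorem triple (hE : ∀ e : E, ‖e‖ = 1 → Est (ℝ ∙ e)ᗮ) :
    ∃ c θm ε₁ R : ℝ, 0 < c ∧ c ≤ 1 / 2 ∧ 0 < θm ∧ 0 < ε₁ ∧ 1 ≤ R ∧ TripleAt E c θm ε₁ R := by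
  by_contra hcon
  have hn : ∀ n : ℕ, ¬ TripleAt E (1 / ((n : ℝ) + 2)) (1 / ((n : ℝ) + 1)) (1 / ((n : ℝ) + 1))
      ((n : ℝ) + 1) := fun n h => hcon ⟨_, _, _, _, by positivity,
    one_div_le_one_div_of_le (by norm_num) (by linarith [Nat.cast_nonneg (α := ℝ) n]),
    by positivity, by positivity, by linarith [Nat.cast_nonneg (α := ℝ) n], h⟩
  simp only [TripleAt, not_forall] at hn
  choose W0 W1 W2 e l s0 s1 s2 he hL hch hno using hn
  let U := hyperfilter ℕ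
  have hU : (U : Filter ℕ) ≤ atTop := Nat.hyperfilter_le_atTop
  have tR : Tendsto (fun n : ℕ => (n : ℝ) + 1) U atTop :=
    (tendsto_atTop_add_const_right _ _ tendsto_natCast_atTop_atTop).mono_left hU
  have tε : Tendsto (fun n : ℕ => 1 / ((n : ℝ) + 1)) U (𝓝 0) :=
    tendsto_one_div_add_atTop_nhds_zero_nat.mono_left hU
  have tc : Tendsto (fun n : ℕ => 1 / ((n : ℝ) + 2)) U (𝓝 0) :=
    tendsto_const_nhds.div_atTop
      ((tendsto_atTop_add_const_right _ _ tendsto_natCast_atTop_atTop).mono_left hU)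
  have hc : ∀ n : ℕ, 0 < 1 / ((n : ℝ) + 2) ∧ 1 / ((n : ℝ) + 2) ≤ 1 / 2 := fun n =>
    ⟨by positivity,
      one_div_le_one_div_of_le (by norm_num) (by linarith [Nat.cast_nonneg (α := ℝ) n])⟩
  have hl : ∀ n, ‖l n‖ ≤ 8 := by
    intro n
    have h1 : 1 / ((n : ℝ) + 1) ≤ 1 :=
      (div_le_one (by positivity)).2 (by linarith [Nat.cast_nonneg (α := ℝ) n])
    have key : ∀ σ : ℝ, |σ| = 1 / 2 → l n * σ ≤ 4 := by
      intro σ hσ
      have hR : ‖(0 : E)‖ ≤ (n : ℝ) + 1 := by rw [norm_zero]; positivity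
      have h2 := hL n 0 0 σ hR hR (by rw [hσ]; norm_num)
      have h3 := abs_le.1 ((s0 n).2.2.2 (0, σ) (by simp only [hσ]; norm_num))
      have h4 := abs_le.1 ((s1 n).2.2.2 (0, σ) (by simp only [hσ]; norm_num))
      have h5 := abs_le.1 ((s2 n).2.2.2 (0, 1 / ((n : ℝ) + 2) * σ) (by
        simp only [abs_mul, hσ, abs_of_pos (hc n).1]
        linarith [(hc n).2]))
      simp only [norm_zero, smul_zero, add_zero] at h2 h3 h4 h5
      nlinarith [hc n]
    have k1 := key (1 / 2) (by norm_num [abs_of_pos])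
    have k2 := key (-(1 / 2)) (by norm_num [abs_of_pos])
    rw [Real.norm_eq_abs, abs_le]
    constructor <;> linarith
  obtain ⟨l₀, -, tl⟩ := exists_ulim U (Eventually.of_forall hl)
  obtain ⟨e₀, -, te⟩ := exists_ulim U (Eventually.of_forall fun n => (he n).le)
  have he₀ : ‖e₀‖ = 1 := tendsto_nhds_unique te.norm (by simp only [he]; exact tendsto_const_nhds)
  obtain ⟨v0, S0, t0⟩ := compS U W0 s0
  obtain ⟨v1, S1, t1⟩ := compS U W1 s1
  obtain ⟨v2, S2, t2⟩ := compS U W2 s2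
  have hLim : ∀ (y y' : E) (σ : ℝ), |σ| < 1 →
      (v1 (y, σ) + l₀ * σ) + v2 (y', 0) ≤ v0 (y + y', σ) := by
    intro y y' σ hσ
    have a1 := tendsto_moving t1 (isOpen_slab 1) S1.1.1.1 (X := fun _ => (y, σ)) (X' := (y, σ))
      hσ tendsto_const_nhds
    have a2 := tendsto_moving t2 (isOpen_slab 1) S2.1.1.1
      (X := fun n : ℕ => (y', 1 / ((n : ℝ) + 2) * σ)) (X' := (y', 0)) (by simp)
      (tendsto_const_nhds.prodMk_nhds (by simpa using tc.mul_const σ))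
    have a0 := tendsto_moving t0 (isOpen_slab 1) S0.1.1.1
      (X := fun n : ℕ => ((1 - 1 / ((n : ℝ) + 2)) • y + y', σ)) (X' := (y + y', σ)) hσ
      (Tendsto.prodMk_nhds (by
        simpa using (((tendsto_const_nhds (x := (1 : ℝ))).sub tc).smul_const y).add_const y')
        tendsto_const_nhds)
    have := le_of_tendsto_of_tendsto
      (((((tendsto_const_nhds (x := (1 : ℝ))).sub tc).mul a1).add a2).add (tl.mul_const σ))
      (a0.add tε) (by
        filter_upwards [tR.eventually_ge_atTop ‖y‖, tR.eventually_ge_atTop ‖y'‖] with n i1 i2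
        exact hL n y y' σ i1 i2 hσ)
    linarith
  have hChord : ∀ τ₁ τ₂ : ℝ, 0 < τ₁ → 0 < τ₂ →
      0 ≤ τ₂ * v2 (-(τ₁ • e₀), 0) + τ₁ * v2 (τ₂ • e₀, 0) := by
    intro τ₁ τ₂ p1 p2
    have a1 := tendsto_moving t2 (isOpen_slab 1) S2.1.1.1
      (X := fun n : ℕ => (-(τ₁ • e n), 0)) (X' := (-(τ₁ • e₀), 0)) (by simp)
      ((te.const_smul τ₁).neg.prodMk_nhds tendsto_const_nhds)
    have a2 := tendsto_moving t2 (isOpen_slab 1) S2.1.1.1
      (X := fun n : ℕ => (τ₂ • e n, 0)) (X' := (τ₂ • e₀, 0)) (by simp)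
      ((te.const_smul τ₂).prodMk_nhds tendsto_const_nhds)
    have := le_of_tendsto_of_tendsto (tε.mul_const (τ₁ + τ₂)).neg
      ((a1.const_mul τ₂).add (a2.const_mul τ₁)) (by
        filter_upwards [tR.eventually_ge_atTop τ₁, tR.eventually_ge_atTop τ₂,
          tε.eventually (ge_mem_nhds p1), tε.eventually (ge_mem_nhds p2)] with n i1 i2 i3 i4
        exact hch n τ₁ τ₂ (by rwa [← one_div]) i1 (by rwa [← one_div]) i2)
    simpa using this
  have S1' := S1.add_time l₀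
  have hK : (1 : ℝ) ≤ 1 + |l₀| := by linarith [abs_nonneg l₀]
  obtain ⟨n0, n1, n2⟩ := triple_limit he₀ (hE e₀ he₀) (S0.mono hK le_rfl) S1' (S2.mono hK le_rfl)
    hLim hChord
  obtain ⟨θ0, p0, f0⟩ := ce0 S0 n0.1 n0.2 (ε := 1 / 1000) (by norm_num)
  obtain ⟨θ1, p1, f1⟩ := ce0 S1' n1.1 n1.2 (ε := 1 / 1000) (by norm_num)
  obtain ⟨θ2, p2, f2⟩ := ce0 S2 n2.1 n2.2 (ε := 1 / 1000) (by norm_num)
  set θ := min (min θ0 θ1) (min θ2 (1 / 65536)) with hθdef
  have hθ : 0 < θ := by positivity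
  have hθ1 : θ ≤ 1 / 65536 := (min_le_right _ _).trans (min_le_right _ _)
  obtain ⟨b0, h0, F0⟩ := f0 θ hθ ((min_le_left _ _).trans (min_le_left _ _))
  obtain ⟨b1, h1, F1⟩ := f1 θ hθ ((min_le_left _ _).trans (min_le_right _ _))
  obtain ⟨b2, h2, F2⟩ := f2 θ hθ ((min_le_right _ _).trans (min_le_left _ _))
  have F1' : CFw univ v1 0 θ (1 / 1000) b1 (h1 + -l₀) := by
    have := F1.add_time (-l₀)
    simpa using this
  have z1 : v1 (0, 0) = 0 := S1.2.2.1
  have z2 : v2 (0, 0) = 0 := S2.2.2.1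
  have c1 := triple_cmp hθ F1' F0 S1.2.2.1 S0.2.2.1 fun y => by
    simpa [z2] using hLim y 0 0 (by simp)
  have c2 := triple_cmp hθ F2 F0 S2.2.2.1 S0.2.2.1 fun y => by
    simpa [z1] using hLim 0 y 0 (by simp)
  have e0 := triple_persist s0 S0.2.2.1 t0 hθ (by linarith) F0 (b' := b0) (by simp)
  have e1 := triple_persist s1 S1.2.2.1 t1 hθ (by linarith) F1' c1
  have e2 := triple_persist s2 S2.2.2.1 t2 hθ (by linarith) F2 c2
  obtain ⟨n, i0, i1, i2, i3⟩ := (e0.and (e1.and (e2.and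
    (tε.eventually (ge_mem_nhds (by positivity : 0 < θ / 4)))))).exists
  exact hno n ⟨θ / 4, b0, _, _, _, i3, by linarith, i0, i1, i2⟩

end R94
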