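import Crest.Agent.R94.Fast
import Crest.Agent.R94.Triple
import Crest.Agent.R94.Select
import Crest.Agent.R94.NoC
import Crest.Agent.R94.EstL

/-!
# R94/Main: the Liouville theorem and the induction on the dimension
-/

set_option autoImplicit false
set_option linter.unusedSectionVars false
set_option linter.unusedVariables false

open Set Filter Topology Metric
open scoped InnerProductSpace

namespace R94

variable {E : Type} [NormedAddCommGroup E] [InnerProductSpace ℝ E] [FiniteDimensional ℝ E]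

/-- `c` from `triple`; if `w ∈ Cls` is not affine: `blow_down`, `select`, `fast` (so
`‖Z₀‖ < 1/η'`), `ext_cons` (so `Jd δₙ ≥ -C(1 + 1/η'²)`) for `εₙ = min η' (min δ₀ (1/(n+1)))`;
`compB`, `exists_ulim` for the unit vectors, `FLe.of_tendsto`, `JGe.of_tendsto`, `no_contact`. -/
theorem liou_of_est (hE : ∀ e : E, ‖e‖ = 1 → Est (ℝ ∙ e)ᗮ) : Liou E 0 := by
  intro w hw hfl
  by_contra hna
  have := FiniteDimensional.proper_real E
  have hcls : Cls w := ⟨hw, fun X ρ hρ => by simpa only [Real.rpow_zero] using hfl X ρ hρ⟩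
  obtain ⟨c, θm, ε₁, R, hc0, hc2, hθ, hε₁, hR, hT⟩ := triple hE
  have hc1 : c < 1 := by linarith
  obtain ⟨κ, W, η, hκ, hW, hF, hη, hD⟩ := blow_down hc0 hc1 hcls hna
  obtain ⟨Λ, CE, hCE, hsel⟩ := select hc0 hc1 hκ hW hF hη hD
  obtain ⟨η', hη', hfast⟩ := fast (Λ := Λ) hc0 hc1 hθ hε₁ hR hT hκ hCE
  obtain ⟨C, δ₀, hC, hδ₀, hcons⟩ := ext_cons (E := E) (Λ := Λ) hc0 hc1 hκ hCE
  choose w' δ η₀ Z₀ n a hX hs using fun k : ℕ =>
    hsel (min η' (min δ₀ (1 / ((k : ℝ) + 1)))) (by positivity)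
  have h1 : ∀ k, δ k * (1 + ‖Z₀ k‖) ≤ δ k * (1 + ‖Z₀ k‖) ^ 10 := fun k =>
    mul_le_mul_of_nonneg_left (le_self_pow₀ (by linarith [norm_nonneg (Z₀ k)]) (by norm_num))
      (hX k).δpos.le
  have h2 : ∀ k, δ k ≤ 1 / ((k : ℝ) + 1) := fun k => by
    have a1 := mul_nonneg (hX k).δpos.le (norm_nonneg (Z₀ k))
    have a2 := (hs k).trans ((min_le_right _ _).trans (min_le_right _ _))
    linarith [h1 k]
  have h3 : ∀ k, -(C * (1 + (η'⁻¹) ^ 2)) ≤ Jd c κ (δ k) (w' k) 0 (η₀ k) 0 := fun k => by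
    have a1 := hfast _ _ _ _ _ _ (hX k) ((hs k).trans (min_le_left _ _))
    have a2 := (hcons _ _ _ _ _ _ (hX k)
      ((h1 k).trans ((hs k).trans ((min_le_right _ _).trans (min_le_left _ _))))).1
    have a3 : ‖Z₀ k‖ ≤ η'⁻¹ := by
      rw [← one_div, le_div_iff₀ hη', mul_comm]
      exact a1.le
    have a4 := pow_le_pow_left₀ (norm_nonneg _) a3 2
    have a5 := mul_le_mul_of_nonneg_left a4 hC.le
    linarith
  let U := hyperfilter ℕ
  have hU : (U : Filter ℕ) ≤ atTop := Nat.hyperfilter_le_atTop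
  obtain ⟨v, hv, -, ht⟩ := compB U w' Λ (fun k => (hX k).bmo) (fun k => (hX k).nrm)
  obtain ⟨e, -, he⟩ := exists_ulim U (x := η₀) (M := 1)
    (Eventually.of_forall fun k => (hX k).unit.le)
  have he1 : ‖e‖ = 1 := tendsto_nhds_unique he.norm
    (tendsto_const_nhds.congr fun k => (hX k).unit.symm)
  have hδ : Tendsto δ U (𝓝 0) := squeeze_zero (fun k => (hX k).δpos.le) h2
    (tendsto_one_div_add_atTop_nhds_zero_nat.mono_left hU)
  refine no_contact hc0 hc1 hκ hv (FLe.of_tendsto ht (Eventually.of_forall fun k => (hX k).fle))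
    (x := 0) (η := e) (t := 0) (L := -(C * (1 + (η'⁻¹) ^ 2))) (by rintro rfl; simp at he1) ?_
  exact JGe.of_tendsto hc0.le hc1.le (fun k => (hX k).bmo) (fun k => (hX k).nrm)
    (fun k => (hX k).fle) ht (continuousOn_univ.1 hv.1.1.1) tendsto_const_nhds he tendsto_const_nhds
    tendsto_const_nhds (fun k => (hX k).δpos) hδ (Eventually.of_forall h3)

/-- induction on `finrank`; `finrank (ℝ ∙ e)ᗮ + 1 = finrank E`
(`Submodule.finrank_add_finrank_orthogonal`, `finrank_span_singleton`). -/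
theorem est_all (n : ℕ) : ∀ (F : Type) [NormedAddCommGroup F] [InnerProductSpace ℝ F]
    [FiniteDimensional ℝ F], Module.finrank ℝ F = n → Est F := by
  induction n using Nat.strong_induction_on with
  | _ n ih =>
    intro F _ _ _ hF
    refine est_of_liou (liou_of_est fun e he => ih _ ?_ _ rfl)
    have h0 : e ≠ 0 := by rintro rfl; simp at he
    have h1 := Submodule.finrank_add_finrank_orthogonal (ℝ ∙ e)
    rw [finrank_span_singleton h0] at h1
    omega

end R94
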