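import Crest.Agent.R94.Cone
import Crest.Agent.R94.Hold

/-!
# R94/NS1: non-singularity lemmas, part 1 (only cone comparison on the slab)
-/

set_option autoImplicit false
set_option linter.unusedSectionVars false
set_option linter.unusedVariables false

open Set Filter Topology Metric
open scoped InnerProductSpace

namespace R94

variable {E : Type} [NormedAddCommGroup E] [InnerProductSpace ℝ E] [FiniteDimensional ℝ E]

variable {w : E × ℝ → ℝ} {K Λ : ℝ}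

private theorem ns1_sym (h0 : w 0 = 0) (b : E) (h : ℝ) (y : E) (s : ℝ) :
    sym 0 b h 1 1 w (y, s) = w (y + s • b, s) - ⟪b, y⟫_ℝ - (h + ‖b‖ ^ 2 / 2) * s := by
  simp [sym, pt, h0]

private theorem ns1_exp (b y : E) {s : ℝ} (hs : s ≠ 0) :
    ‖y + s • b‖ ^ 2 / (2 * s) = ‖y‖ ^ 2 / (2 * s) + ⟪b, y⟫_ℝ + s * ‖b‖ ^ 2 / 2 := by
  rw [norm_add_sq_real, inner_smul_right, norm_smul, mul_pow, Real.norm_eq_abs, sq_abs,
    real_inner_comm]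
  field_simp

private theorem ns1_exp' (b y : E) {s : ℝ} (hs : s ≠ 0) :
    ‖y + (-s) • b‖ ^ 2 / (2 * s) = ‖y‖ ^ 2 / (2 * s) - ⟪b, y⟫_ℝ + s * ‖b‖ ^ 2 / 2 := by
  rw [norm_add_sq_real, inner_smul_right, norm_smul, mul_pow, Real.norm_eq_abs, sq_abs,
    real_inner_comm]
  field_simp
  ring

private theorem ns1_add_sq (a b : E) : ‖a + b‖ ^ 2 ≤ 2 * ‖a‖ ^ 2 + 2 * ‖b‖ ^ 2 := by
  have h := norm_add_le a b
  have h0 := norm_nonneg (a + b)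
  nlinarith [sq_nonneg (‖a‖ - ‖b‖), norm_nonneg a, norm_nonneg b]

private theorem ns1_div_le {q s t : ℝ} (hq : 0 ≤ q) (hs : 0 < s) (hst : s ≤ t) : q / t ≤ q / s :=
  div_le_div_of_nonneg_left hq hs hst

/-- the backward cone bound from points of a fixed compact set. -/
private theorem ns1_back (hw : Slab K Λ w) (hK : 0 ≤ K) (hΛ : 0 ≤ Λ) : ∃ U s₁ : ℝ, 0 ≤ U ∧ 0 < s₁ ∧
    s₁ ≤ 1 / 4 ∧ 4 * Λ * s₁ ≤ 1 ∧ ∀ (y' : E) (t' : ℝ), ‖y'‖ ≤ 1 → |t'| ≤ 1 / 4 →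
      ∀ σ : ℝ, 0 < σ → σ ≤ s₁ → ∀ y : E,
        w (y', t') - U * σ - ‖y - y'‖ ^ 2 / (2 * σ) ≤ w (y, t' - σ) := by
  obtain ⟨s₁, hs0, hs4, hsΛ⟩ : ∃ s₁ : ℝ, 0 < s₁ ∧ s₁ ≤ 1 / 4 ∧ 4 * Λ * s₁ ≤ 1 := by
    refine ⟨min (1 / 4) (1 / (4 * Λ + 1)), by positivity, min_le_left _ _, ?_⟩
    have h1 : min (1 / 4) (1 / (4 * Λ + 1)) ≤ 1 / (4 * Λ + 1) := min_le_right _ _
    have h2 : 4 * Λ * (1 / (4 * Λ + 1)) ≤ 1 := by
      rw [mul_one_div, div_le_one (by positivity)]; linarith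
    exact (mul_le_mul_of_nonneg_left h1 (by positivity)).trans h2
  refine ⟨(2 * K + 3 * Λ) / s₁, s₁, by positivity, hs0, hs4, hsΛ, fun y' t' hy ht => ?_⟩
  have ht' := abs_le.1 ht
  have hin : ∀ X : E × ℝ, X.2 ∈ Icc (t' - s₁) t' → |X.2| < 1 := fun X hX => by
    rw [abs_lt]; constructor <;> linarith [hX.1, hX.2]
  refine cc_vertex_super (O := slab E 1) (K := K) (Λ := Λ) hw.1.2 hs0 hin
    (fun X hX => (abs_le.1 (hw.2.2.2 X (hin X hX))).1) (by nlinarith) fun y => ?_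
  have h1 := (abs_le.1 (hw.2.2.2 (y', t') (by rw [abs_lt]; constructor <;> simp only <;> linarith))).2
  have h2 := (abs_le.1 (hw.2.2.2 (y, t' - s₁)
    (by rw [abs_lt]; constructor <;> simp only <;> linarith))).1
  simp only at h1 h2
  have h3 : ‖y‖ ^ 2 ≤ 2 * ‖y - y'‖ ^ 2 + 2 * ‖y'‖ ^ 2 := by
    have := ns1_add_sq (y - y') y'
    rwa [sub_add_cancel] at this
  have h4 : ‖y'‖ ^ 2 ≤ 1 := by nlinarith [norm_nonneg y']
  have h5 : (2 * K + 3 * Λ) / s₁ * s₁ = 2 * K + 3 * Λ := by field_simp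
  have h6 : 2 * Λ * ‖y - y'‖ ^ 2 ≤ ‖y - y'‖ ^ 2 / (2 * s₁) := by
    rw [le_div_iff₀ (by positivity)]
    nlinarith [sq_nonneg ‖y - y'‖]
  have h7 := mul_le_mul_of_nonneg_left h3 hΛ
  have h8 := mul_le_mul_of_nonneg_left h4 hΛ
  rw [h5]
  nlinarith

private theorem ns1_abs (hw : Slab K Λ w) : Slab |K| |Λ| w :=
  hw.mono (le_abs_self _) (le_abs_self _)

theorem nsm_iff_rev : NSm w ↔ NSp (rev w) := by
  constructor
  · rintro ⟨C, s₀, h0, H⟩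
    refine ⟨C, s₀, h0, fun s hs hs' => ?_⟩
    obtain ⟨y, hy⟩ := H s hs hs'
    refine ⟨-y, ?_⟩
    simp only [rev_apply, Prod.neg_mk, neg_neg, norm_neg]
    linarith
  · rintro ⟨C, s₀, h0, H⟩
    refine ⟨C, s₀, h0, fun s hs hs' => ?_⟩
    obtain ⟨y, hy⟩ := H s hs hs'
    refine ⟨-y, ?_⟩
    simp only [rev_apply, Prod.neg_mk] at hy
    rw [norm_neg]
    linarith

/-- `sym 0 b h 1 1 w (y, s) - ‖y‖²/(2s) = w (y + s • b, s) - ‖y + s • b‖²/(2s) - h s` (`w 0 = 0`). -/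
theorem nsp_gal (h0 : w 0 = 0) (b : E) (h : ℝ) : NSp (sym 0 b h 1 1 w) ↔ NSp w := by
  constructor
  · rintro ⟨C, s₀, hs0, H⟩
    refine ⟨C - h, s₀, hs0, fun s hs hs' => ?_⟩
    obtain ⟨y, hy⟩ := H s hs hs'
    refine ⟨y + s • b, ?_⟩
    rw [ns1_sym h0] at hy
    rw [ns1_exp b y hs.ne']
    linarith
  · rintro ⟨C, s₀, hs0, H⟩
    refine ⟨C + h, s₀, hs0, fun s hs hs' => ?_⟩
    obtain ⟨y, hy⟩ := H s hs hs'
    refine ⟨y - s • b, ?_⟩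
    have e := ns1_exp b (y - s • b) hs.ne'
    rw [ns1_sym h0]
    rw [sub_add_cancel] at e ⊢
    linarith
theorem nsm_gal (h0 : w 0 = 0) (b : E) (h : ℝ) : NSm (sym 0 b h 1 1 w) ↔ NSm w := by
  constructor
  · rintro ⟨C, s₀, hs0, H⟩
    refine ⟨C - h, s₀, hs0, fun s hs hs' => ?_⟩
    obtain ⟨y, hy⟩ := H s hs hs'
    refine ⟨y + (-s) • b, ?_⟩
    rw [ns1_sym h0] at hy
    rw [ns1_exp' b y hs.ne']
    linarith
  · rintro ⟨C, s₀, hs0, H⟩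
    refine ⟨C + h, s₀, hs0, fun s hs hs' => ?_⟩
    obtain ⟨y, hy⟩ := H s hs hs'
    refine ⟨y - (-s) • b, ?_⟩
    have e := ns1_exp' b (y - (-s) • b) hs.ne'
    rw [ns1_sym h0]
    rw [sub_add_cancel] at e ⊢
    linarith

/-- With `a₀ = (a - 10D)/11`: `w (y,-s) ≥ a₀ - ‖y‖²/(6s)` (use the first bound if
`‖y‖²/s ≤ (6/5)(a - a₀) = 12(a₀ + D)`, the second otherwise) and `w (y,s) ≥ -D - ‖y‖²/(2s)`.
`cc_slab_super` on `[-s,s]` with vertex `(0, 2s)` and the linear part interpolating `a₀` and `-D`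
gives `w 0 ≥ (a₀ - D)/2`. -/
theorem lb_lemma (hw : Slab K Λ w) {s a D : ℝ} (hs : 0 < s) (hs1 : s < 1) (hΛ : 6 * Λ * s < 1)
    (h1 : ∀ y : E, a - ‖y‖ ^ 2 / s ≤ w (y, -s)) (h2 : ∀ y : E, -D - ‖y‖ ^ 2 / (12 * s) ≤ w (y, -s))
    (h3 : ∀ y : E, -D - ‖y‖ ^ 2 / (12 * s) ≤ w (y, s)) : a ≤ 21 * D := by
  have hin : ∀ X : E × ℝ, X.2 ∈ Icc (-s) s → |X.2| < 1 := fun X hX => by
    rw [abs_lt]; constructor <;> linarith [hX.1, hX.2]
  set a₀ := (a - 10 * D) / 11 with ha₀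
  have hk : -(D + a₀) / (2 * s) * s = -(D + a₀) / 2 := by field_simp
  have key := cc_slab_super (O := slab E 1) (y₀ := (0 : E)) (t₀ := 2 * s) (t₁ := -s) (t₂ := s)
    (c₀ := -D - (D + a₀) / 2) (k := -(D + a₀) / (2 * s)) (K := K) (Λ := Λ) hw.1.2 (by linarith) hin
    (fun X hX => (abs_le.1 (hw.2.2.2 X (hin X hX))).1) (by linarith) (fun y => ?_) (fun y => ?_)
    0 ⟨by simp only [Prod.snd_zero]; linarith, by simp only [Prod.snd_zero]; linarith⟩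
  · rw [hw.2.2.1] at key
    simp only [Prod.fst_zero, Prod.snd_zero, sub_zero, norm_zero] at key
    have e : -(D + a₀) / (2 * s) * (2 * s) = -(D + a₀) := by field_simp
    rw [e] at key
    norm_num at key
    linarith
  · have e1 : ‖y - 0‖ ^ 2 / (2 * (2 * s - -s)) = ‖y‖ ^ 2 / s / 6 := by
      rw [sub_zero]; field_simp; ring
    have e2 : ‖y‖ ^ 2 / (12 * s) = ‖y‖ ^ 2 / s / 12 := by field_simp
    have e3 : -(D + a₀) / (2 * s) * (2 * s - -s) = -(D + a₀) * 3 / 2 := by field_simp; ring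
    have g1 := h1 y
    have g2 := h2 y
    rw [e2] at g2
    rw [e1, e3]
    rcases le_total (‖y‖ ^ 2 / s) (12 * (a + D) / 11) with hq | hq <;> linarith
  · have e1 : ‖y - 0‖ ^ 2 / (2 * (2 * s - s)) = ‖y‖ ^ 2 / s / 2 := by
      rw [sub_zero, show 2 * s - s = s by ring]; field_simp
    have e2 : ‖y‖ ^ 2 / (12 * s) = ‖y‖ ^ 2 / s / 12 := by field_simp
    have e3 : -(D + a₀) / (2 * s) * (2 * s - s) = -(D + a₀) / 2 := by
      rw [show 2 * s - s = s by ring]; exact hk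
    have g3 := h3 y
    have hq : 0 ≤ ‖y‖ ^ 2 / s := by positivity
    rw [e2] at g3
    rw [e1, e3]
    linarith

/-- Wlog `K, Λ ≥ 0`. Let `s₁ = min (1/4) (1/(4Λ+1))`, `U s₁ = 2K + 3Λ`. For `X' = (y',t')`,
`‖y'‖ ≤ 1`, `|t'| ≤ 1/4`, the growth bound gives the face condition of `cc_vertex_super` at time
`t' - s₁`, so `w (y, t' - σ) ≥ w X' - Uσ - ‖y - y'‖²/(2σ)` for `σ ≤ s₁`. A point `y_S` from `NSp` has
`‖y_S‖² = O(S)`. With `b = S⁻¹ • y_S`, `X' = (y_S,S)`, time `σ ∈ [-S/2, S/2]`, expand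
`‖η + σ • b - S • b‖²/(2(S-σ)) = ‖η‖²/(2(S-σ)) - ⟪b,η⟫ + (S-σ)‖b‖²/2`. -/
theorem lower_of_nsp (hw : Slab K Λ w) (hn : NSp w) : ∃ C S₀ : ℝ, 0 ≤ C ∧ 0 < S₀ ∧ S₀ < 1 ∧
    ∀ S : ℝ, 0 < S → S ≤ S₀ → ∃ b : E, ∀ (η : E) (σ : ℝ), |σ| ≤ S / 2 →
      ⟪b, η⟫_ℝ + ‖b‖ ^ 2 / 2 * σ - C * S - ‖η‖ ^ 2 / S ≤ w (η + σ • b, σ) := by
  replace hw := ns1_abs hw
  have hK := abs_nonneg K
  have hΛ := abs_nonneg Λ
  generalize |K| = K at hw hK
  generalize |Λ| = Λ at hw hΛ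
  obtain ⟨U, s₁, hU, hs1, hs4, hsΛ, hb⟩ := ns1_back hw hK hΛ
  obtain ⟨C, s₀, hs0, H⟩ := hn
  have hC := abs_nonneg C
  have hC' := le_abs_self C
  refine ⟨|C| + 2 * U, min s₀ (min (s₁ / 2) (1 / (4 * (K + |C|) + 1))), by positivity,
    by positivity, ?_, fun S hS hS' => ?_⟩
  · exact ((min_le_right _ _).trans (min_le_left _ _)).trans_lt (by linarith)
  have hS0 : S ≤ s₀ := hS'.trans (min_le_left _ _)
  have hS1 : S ≤ s₁ / 2 := hS'.trans ((min_le_right _ _).trans (min_le_left _ _))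
  have hS2 : S ≤ 1 / (4 * (K + |C|) + 1) := hS'.trans ((min_le_right _ _).trans (min_le_right _ _))
  rw [le_div_iff₀ (by positivity)] at hS2
  obtain ⟨y, hy⟩ := H S hS hS0
  have hg := (abs_le.1 (hw.2.2.2 (y, S) (by rw [abs_lt]; constructor <;> simp only <;> linarith))).2
  simp only at hg
  have hy1 : ‖y‖ ≤ 1 := by
    have h1 : ‖y‖ ^ 2 / (2 * S) ≤ K + Λ * ‖y‖ ^ 2 + C * S := by linarith
    rw [div_le_iff₀ (by positivity)] at h1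
    have h2 : 4 * Λ * S ≤ 1 := by nlinarith
    have h3 : C * S ≤ |C| := by nlinarith
    have h4 : 4 * Λ * S * ‖y‖ ^ 2 ≤ 1 * ‖y‖ ^ 2 := mul_le_mul_of_nonneg_right h2 (sq_nonneg _)
    have h5 : C * S * S ≤ |C| * S := mul_le_mul_of_nonneg_right h3 hS.le
    have h6 : ‖y‖ ^ 2 ≤ 1 := by nlinarith
    nlinarith [norm_nonneg y]
  obtain ⟨b, rfl⟩ : ∃ b : E, y = S • b := ⟨S⁻¹ • y, by rw [smul_inv_smul₀ hS.ne']⟩
  refine ⟨b, fun η σ hσ => ?_⟩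
  have hσ' := abs_le.1 hσ
  have hpos : 0 < S - σ := by linarith
  have h1 := hb (S • b) S hy1 (by rw [abs_le]; constructor <;> linarith) (S - σ) hpos (by linarith)
    (η + σ • b)
  have e1 : η + σ • b - S • b = η + (-(S - σ)) • b := by module
  rw [e1, ns1_exp' b η hpos.ne', sub_sub_cancel] at h1
  have e2 : ‖S • b‖ ^ 2 / (2 * S) = S * ‖b‖ ^ 2 / 2 := by
    rw [norm_smul, mul_pow, Real.norm_eq_abs, sq_abs]; field_simp
  rw [e2] at hy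
  have h2 : ‖η‖ ^ 2 / (2 * (S - σ)) ≤ ‖η‖ ^ 2 / S := ns1_div_le (sq_nonneg _) hS (by linarith)
  have h3 : U * (S - σ) ≤ U * (2 * S) := mul_le_mul_of_nonneg_left (by linarith) hU
  have h4 : C * S ≤ |C| * S := mul_le_mul_of_nonneg_right hC' hS.le
  linarith

/-- If not `NSm`, there are arbitrarily small `s` with `w (y,-s) + ‖y‖²/(2s) > C₁ s` for all `y`,
`C₁ = 252 C + 1`. Take `b` from `lower_of_nsp` with `S = 12 s` and `û = sym 0 b 0 1 1 w`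
(`Slab.gal`, growth coefficient `2Λ+1` independent of `b`): `û (η,-s) ≥ C₁ s - ‖η‖²/(2s)`, and
`û (η, ±s) ≥ -12Cs - ‖η‖²/(12 s)`; `lb_lemma`. -/
theorem nsm_of_nsp (hw : Slab K Λ w) (hn : NSp w) : NSm w := by
  replace hw := ns1_abs hw
  have hΛ := abs_nonneg Λ
  generalize |K| = K at hw
  generalize |Λ| = Λ at hw hΛ
  obtain ⟨C, S₀, hC, hS0, hS1, H⟩ := lower_of_nsp hw hn
  by_contra hm
  unfold NSm at hm
  push Not at hm
  obtain ⟨s, hs, hs', hy⟩ := hm (252 * C + 1) (min (S₀ / 12) (1 / (6 * (2 * Λ + 1) + 1)))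
    (by positivity)
  have hs1 : s ≤ S₀ / 12 := hs'.trans (min_le_left _ _)
  have hs2 : s ≤ 1 / (6 * (2 * Λ + 1) + 1) := hs'.trans (min_le_right _ _)
  rw [le_div_iff₀ (by positivity)] at hs2
  obtain ⟨b, hb⟩ := H (12 * s) (by positivity) (by linarith)
  obtain ⟨K', hK'⟩ := hw.gal hΛ b 0
  have h0 := hw.2.2.1
  have key := lb_lemma hK' (s := s) (a := (252 * C + 1) * s) (D := C * (12 * s)) hs (by linarith)
    (by linarith) (fun y => ?_) (fun y => ?_) (fun y => ?_)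
  · linarith
  · rw [ns1_sym h0]
    have h1 := hy (y + (-s) • b)
    rw [ns1_exp' b y hs.ne'] at h1
    have h2 : ‖y‖ ^ 2 / (2 * s) ≤ ‖y‖ ^ 2 / s := ns1_div_le (sq_nonneg _) hs (by linarith)
    linarith
  · rw [ns1_sym h0]
    have h1 := hb y (-s) (by rw [abs_le]; constructor <;> linarith)
    linarith
  · rw [ns1_sym h0]
    have h1 := hb y s (by rw [abs_le]; constructor <;> linarith)
    linarith

theorem nsp_of_nsm (hw : Slab K Λ w) (hn : NSm w) : NSp w := by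
  have h1 := nsm_of_nsp hw.rev (nsm_iff_rev.1 hn)
  have h2 := nsm_iff_rev.1 h1
  rwa [rev_rev] at h2

/-- `lower_of_nsp` for `w` (frame `b`) and for `rev w` (frame `b'`, an upper bound for `w`) with
`S = 8ρ`; at `σ = 0`, `norm_sq_le_of_inner_le` gives `‖b - b'‖² ≤ const`; rewrite the upper bound in
the frame `b` as in `CFw.change_frame`. -/
theorem cf_of_ns (hw : Slab K Λ w) (hp : NSp w) (hm : NSm w) : ∃ C ρ₀ : ℝ, 0 < C ∧ 0 < ρ₀ ∧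
    ∀ ρ : ℝ, 0 < ρ → ρ ≤ ρ₀ → ∃ b : E, CFw univ w 0 ρ C b 0 := by
  obtain ⟨C₁, S₁, hC1, hS1, -, H1⟩ := lower_of_nsp hw hp
  obtain ⟨C₂, S₂, hC2, hS2, -, H2⟩ := lower_of_nsp hw.rev (nsm_iff_rev.1 hm)
  refine ⟨24 * (C₁ + C₂) + 1, min S₁ S₂ / 8, by positivity, by positivity, fun ρ hρ hρ' => ?_⟩
  have hm1 := min_le_left S₁ S₂
  have hm2 := min_le_right S₁ S₂
  obtain ⟨b, hb⟩ := H1 (8 * ρ) (by positivity) (by linarith)
  obtain ⟨b', hb'⟩ := H2 (8 * ρ) (by positivity) (by linarith)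
  have hup : ∀ (η : E) (σ : ℝ), |σ| ≤ 8 * ρ / 2 → w (η + σ • b', σ) ≤
      ⟪b', η⟫_ℝ + ‖b'‖ ^ 2 / 2 * σ + C₂ * (8 * ρ) + ‖η‖ ^ 2 / (8 * ρ) := by
    intro η σ hσ
    have h1 := hb' (-η) (-σ) (by rwa [abs_neg])
    have e : -(-η + -σ • b', -σ) = (η + σ • b', σ) := by
      simp only [Prod.neg_mk, neg_neg, Prod.mk.injEq, and_true]; module
    rw [rev_apply, e, inner_neg_right, norm_neg] at h1
    linarith
  obtain ⟨β, rfl⟩ : ∃ β : E, b' = b - β := ⟨b - b', by abel⟩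
  have hβ : ‖β‖ ^ 2 ≤ 8 * (C₁ + C₂) := by
    have h := norm_sq_le_of_inner_le (β := β) (D := (C₁ + C₂) * (8 * ρ)) (A := 2 / (8 * ρ))
      (by positivity) fun η => by
        have h1 := hb η 0 (by rw [abs_zero]; positivity)
        have h2 := hup η 0 (by rw [abs_zero]; positivity)
        simp only [zero_smul, add_zero, mul_zero] at h1 h2
        rw [inner_sub_left] at h2
        have e : 2 / (8 * ρ) * ‖η‖ ^ 2 = 2 * (‖η‖ ^ 2 / (8 * ρ)) := by ring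
        rw [e]
        linarith
    have e : 4 * (2 / (8 * ρ)) * ((C₁ + C₂) * (8 * ρ)) = 8 * (C₁ + C₂) := by field_simp; ring
    rwa [e] at h
  refine ⟨b, fun η σ hσ _ => ?_⟩
  simp only [Prod.fst_zero, Prod.snd_zero, zero_add, hw.2.2.1, sub_zero]
  have hσ' := abs_le.1 hσ
  have h1 := hb η σ (by linarith)
  have h2 := hup (η + σ • β) σ (by linarith)
  have e1 : η + σ • β + σ • (b - β) = η + σ • b := by module
  have e2 : ⟪b - β, η + σ • β⟫_ℝ + ‖b - β‖ ^ 2 / 2 * σ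
      = ⟪b, η⟫_ℝ + ‖b‖ ^ 2 / 2 * σ - ⟪β, η⟫_ℝ - σ * ‖β‖ ^ 2 / 2 := by
    rw [norm_sub_sq_real, inner_sub_left, inner_add_right, inner_add_right, inner_smul_right,
      inner_smul_right, real_inner_self_eq_norm_sq]
    ring
  rw [e1, e2] at h2
  obtain ⟨q, hq⟩ : ∃ q, q = ‖η‖ ^ 2 / ρ := ⟨_, rfl⟩
  have hq0 : 0 ≤ q := by rw [hq]; positivity
  have hqρ : q * ρ = ‖η‖ ^ 2 := by rw [hq]; field_simp
  have e3 : ‖η‖ ^ 2 / (8 * ρ) = q / 8 := by rw [hq]; field_simp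
  have h3 : ‖η + σ • β‖ ^ 2 / (8 * ρ) ≤ q / 4 + ρ * ‖β‖ ^ 2 / 4 := by
    rw [div_le_iff₀ (by positivity)]
    have h := ns1_add_sq η (σ • β)
    rw [norm_smul, mul_pow, Real.norm_eq_abs, sq_abs] at h
    have hs : σ ^ 2 ≤ ρ ^ 2 := sq_le_sq' hσ'.1 hσ'.2
    have := mul_le_mul_of_nonneg_right hs (sq_nonneg ‖β‖)
    nlinarith
  have h4 : -⟪β, η⟫_ℝ ≤ q / 2 + ρ * ‖β‖ ^ 2 / 2 := by
    have h := (abs_le.1 (abs_real_inner_le_norm β η)).1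
    have h' : ‖β‖ * ‖η‖ ≤ q / 2 + ρ * ‖β‖ ^ 2 / 2 := by
      refine le_of_mul_le_mul_right ?_ hρ
      nlinarith [sq_nonneg (‖η‖ - ρ * ‖β‖)]
    linarith
  have h5 : -(σ * ‖β‖ ^ 2) ≤ ρ * ‖β‖ ^ 2 := by nlinarith [sq_nonneg ‖β‖]
  have h6 : ρ * ‖β‖ ^ 2 ≤ ρ * (8 * (C₁ + C₂)) := mul_le_mul_of_nonneg_left hβ hρ.le
  have h7 : 0 ≤ C₁ * ρ := by positivity
  have h8 : 0 ≤ C₂ * ρ := by positivity
  rw [e3] at h1
  rw [← hq, abs_le]
  constructor <;> nlinarith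

end R94
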