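import Crest.Agent.R94.NS1

/-!
# R94/NS2: non-singularity lemmas, part 2
-/

set_option autoImplicit false
set_option linter.unusedSectionVars false
set_option linter.unusedVariables false

open Set Filter Topology Metric
open scoped InnerProductSpace

namespace R94

variable {E : Type} [NormedAddCommGroup E] [InnerProductSpace ℝ E] [FiniteDimensional ℝ E]

variable {u : E × ℝ → ℝ} {K Λ : ℝ}

private theorem ns2_add_sq (a b : E) : ‖a + b‖ ^ 2 ≤ 2 * ‖a‖ ^ 2 + 2 * ‖b‖ ^ 2 := by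
  have h := norm_add_le a b
  have h0 := norm_nonneg (a + b)
  nlinarith [sq_nonneg (‖a‖ - ‖b‖), norm_nonneg a, norm_nonneg b]

/-- one step of the dyadic barrier. -/
private theorem ns2_step (hu : Slab K Λ u) {t D P : ℝ} (ht : 0 < t) (ht1 : t < 1)
    (hΛ : 4 * Λ * t < 1) (hP : 0 ≤ P) (h1 : ∀ y : E, u (y, -t) ≤ D * t + ‖y‖ ^ 2 / (2 * t))
    (h2 : ∀ y : E, u (y, 0) ≤ ‖y‖ ^ 2 / (4 * t) + P * t) {s : ℝ} (hs1 : t / 2 ≤ s) (hs2 : s ≤ t)
    (y : E) : u (y, -s) ≤ (D + P) * s + ‖y‖ ^ 2 / (2 * s) := by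
  have hin : ∀ X : E × ℝ, X.2 ∈ Icc (-t) 0 → |X.2| < 1 := fun X hX => by
    rw [abs_lt]; constructor <;> linarith [hX.1, hX.2]
  have key := cc_slab (O := slab E 1) (y₀ := (0 : E)) (t₀ := -(2 * t)) (t₁ := -t) (t₂ := 0)
    (c₀ := 2 * D * t - P * t) (k := P - D) (K := K) (Λ := Λ) hu.1.1 (by linarith) hin
    (fun X hX => (abs_le.1 (hu.2.2.2 X (hin X hX))).2) (by linarith) (fun y => ?_) (fun y => ?_)
    (y, -s) ⟨by simp only; linarith, by simp only; linarith⟩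
  · simp only [sub_zero] at key
    have h3 : ‖y‖ ^ 2 / (2 * (-s - -(2 * t))) ≤ ‖y‖ ^ 2 / (2 * s) :=
      div_le_div_of_nonneg_left (sq_nonneg _) (by linarith) (by linarith)
    have h4 : P * t ≤ P * (2 * s) := mul_le_mul_of_nonneg_left (by linarith) hP
    linarith
  · rw [sub_zero, show -t - -(2 * t) = t by ring]
    linarith [h1 y]
  · rw [sub_zero, show 2 * (0 - -(2 * t)) = 4 * t by ring]
    linarith [h2 y]

/-- Fix `y₀`, `a = u (y₀,0)`, small `T`. From the hypothesis with `ρ = 4T`: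
`u (y,-T) ≥ -C(4T)^(1+α) - ‖y - y₀‖²/(2T) - ‖y₀‖²/(2T)`; `cc_vertex_super` with vertex `(y₀,0)` and
`kT = a + C(4T)^(1+α) + ‖y₀‖²/(2T)`; at `s = T/2`: `u (y,-s) ≥ a'' - ‖y‖²/s`,
`a'' = a/2 - C(4T)^(1+α)/2 - ‖y₀‖²/(4T) - ‖y₀‖²/s`. `lb_lemma` with `D = C(12s)^(1+α)` gives
`a ≤ 4.5‖y₀‖²/T + C''T^(1+α)`; rename `T = 4.5 T'`. -/
theorem slice_upper (hu : Slab K Λ u) {α C ρ₀ : ℝ} (hα : 0 < α) (hC : 0 ≤ C) (hρ₀ : 0 < ρ₀)
    (H : ∀ ρ : ℝ, 0 < ρ → ρ ≤ ρ₀ → ∀ (η : E) (σ : ℝ), |σ| ≤ ρ →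
      -(C * ρ ^ (1 + α)) - ‖η‖ ^ 2 / ρ ≤ u (η, σ)) :
    ∃ C' T₀ : ℝ, 0 ≤ C' ∧ 0 < T₀ ∧ ∀ T : ℝ, 0 < T → T ≤ T₀ → ∀ y : E,
      u (y, 0) ≤ ‖y‖ ^ 2 / T + C' * T ^ (1 + α) := by
  replace hu : Slab K |Λ| u := hu.mono le_rfl (le_abs_self _)
  have hΛ := abs_nonneg Λ
  generalize |Λ| = Λ at hu hΛ
  refine ⟨43 * C * 30 ^ (1 + α), min (ρ₀ / 30) (1 / (15 * Λ + 6)), by positivity, by positivity,
    fun τ hτ hτ' y₀ => ?_⟩
  have h1 : τ ≤ ρ₀ / 30 := hτ'.trans (min_le_left _ _)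
  have h2 : τ ≤ 1 / (15 * Λ + 6) := hτ'.trans (min_le_right _ _)
  rw [le_div_iff₀ (by positivity)] at h2
  have hΛτ : 0 ≤ Λ * τ := by positivity
  obtain ⟨P, hP⟩ : ∃ P, P = C * (30 * τ) ^ (1 + α) := ⟨_, rfl⟩
  have hP' : C * (20 * τ) ^ (1 + α) ≤ P := by
    rw [hP]
    exact mul_le_mul_of_nonneg_left
      (Real.rpow_le_rpow (by positivity) (by linarith) (by positivity)) hC
  have hPe : 43 * C * 30 ^ (1 + α) * τ ^ (1 + α) = 43 * P := by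
    rw [hP, Real.mul_rpow (by norm_num) hτ.le]; ring
  obtain ⟨q, hq⟩ : ∃ q, q = ‖y₀‖ ^ 2 / τ := ⟨_, rfl⟩
  have hq0 : 0 ≤ q := by rw [hq]; positivity
  have hin : ∀ X : E × ℝ, X.2 ∈ Icc (0 - 5 * τ) 0 → |X.2| < 1 := fun X hX => by
    rw [abs_lt]; constructor <;> linarith [hX.1, hX.2]
  have hk : (u (y₀, 0) + P + q / 10) / (5 * τ) * (5 * τ) = u (y₀, 0) + P + q / 10 := by field_simp
  have hk' : (u (y₀, 0) + P + q / 10) / (5 * τ) * (5 * τ / 2) = (u (y₀, 0) + P + q / 10) / 2 := by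
    field_simp
  have key := cc_vertex_super (O := slab E 1) (y₀ := y₀) (t₀ := 0) (s := 5 * τ)
    (k := (u (y₀, 0) + P + q / 10) / (5 * τ)) (K := K) (Λ := Λ) hu.1.2 (by positivity) hin
    (fun X hX => (abs_le.1 (hu.2.2.2 X (hin X hX))).1) (by linarith) (fun y => ?_)
    (5 * τ / 2) (by positivity) (by linarith)
  · have key2 := lb_lemma hu (s := 5 * τ / 2) (a := u (y₀, 0) / 2 - P / 2 - q / 20 - 2 * q / 5)
      (D := P) (by positivity) (by linarith) (by linarith) (fun y => ?_) (fun y => ?_) (fun y => ?_)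
    · rw [hPe, ← hq]
      linarith
    · have h3 := key y
      rw [hk', zero_sub] at h3
      have h4 : ‖y - y₀‖ ^ 2 / (2 * (5 * τ / 2)) ≤ ‖y‖ ^ 2 / (5 * τ / 2) + 2 * q / 5 := by
        have h5 := ns2_add_sq y (-y₀)
        rw [norm_neg, ← sub_eq_add_neg] at h5
        have e : ‖y‖ ^ 2 / (5 * τ / 2) + 2 * q / 5
            = (2 * ‖y‖ ^ 2 + 2 * ‖y₀‖ ^ 2) / (2 * (5 * τ / 2)) := by
          rw [hq]; field_simp
        rw [e]
        exact div_le_div_of_nonneg_right h5 (by positivity)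
      linarith
    · have h3 := H (30 * τ) (by positivity) (by linarith) y (-(5 * τ / 2))
        (by rw [abs_le]; constructor <;> linarith)
      rw [show 12 * (5 * τ / 2) = 30 * τ by ring, hP]
      exact h3
    · have h3 := H (30 * τ) (by positivity) (by linarith) y (5 * τ / 2)
        (by rw [abs_le]; constructor <;> linarith)
      rw [show 12 * (5 * τ / 2) = 30 * τ by ring, hP]
      exact h3
  · have h3 := H (20 * τ) (by positivity) (by linarith) y (0 - 5 * τ)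
      (by rw [abs_le]; constructor <;> linarith)
    have h4 : ‖y‖ ^ 2 / (20 * τ) ≤ ‖y - y₀‖ ^ 2 / (2 * (5 * τ)) + q / 10 := by
      have h5 := ns2_add_sq (y - y₀) y₀
      rw [sub_add_cancel] at h5
      have e : ‖y - y₀‖ ^ 2 / (2 * (5 * τ)) + q / 10
          = (2 * ‖y - y₀‖ ^ 2 + 2 * ‖y₀‖ ^ 2) / (20 * τ) := by
        rw [hq]; field_simp; ring
      rw [e]
      exact div_le_div_of_nonneg_right h5 (by positivity)
    rw [hk]
    linarith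

/-- Dyadic barrier. `tₖ = 2⁻ᵏ t₀`, `t₀` small. Claim `u (y,-tₖ) ≤ Dₖ tₖ + ‖y‖²/(2tₖ)` with
`Dₖ₊₁ = Dₖ + C 4^(1+α) tₖ^α` (bounded: geometric series), `D₀ t₀ = K⁺`. Step: `cc_slab` on
`[-tₖ, 0]` with vertex `(0,-2tₖ)`, linear part interpolating `Dₖtₖ` and `C(4tₖ)^(1+α)`; at time
`-tₖ/2` the cone is `‖y‖²/(3tₖ) ≤ ‖y‖²/(2tₖ₊₁)`. For `s ∈ [tₖ₊₁,tₖ]` the same comparison at
`(0,-s)` gives `u (0,-s) ≤ D s`. -/
theorem nsm_of_slice (hu : Slab K Λ u) {α C T₀ : ℝ} (hα : 0 < α) (hC : 0 ≤ C) (hT₀ : 0 < T₀)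
    (H : ∀ T : ℝ, 0 < T → T ≤ T₀ → ∀ y : E, u (y, 0) ≤ ‖y‖ ^ 2 / T + C * T ^ (1 + α)) :
    NSm u := by
  replace hu : Slab |K| |Λ| u := hu.mono (le_abs_self _) (le_abs_self _)
  have hΛ := abs_nonneg Λ
  have hK := abs_nonneg K
  generalize |Λ| = Λ at hu hΛ
  generalize |K| = K at hu hK
  obtain ⟨t₀, ht0, ht1, ht2⟩ : ∃ t₀ : ℝ, 0 < t₀ ∧ 4 * t₀ ≤ T₀ ∧ t₀ * (4 * Λ + 2) ≤ 1 := by
    refine ⟨min (T₀ / 4) (1 / (4 * Λ + 2)), by positivity, ?_, ?_⟩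
    · linarith [min_le_left (T₀ / 4) (1 / (4 * Λ + 2))]
    · exact (le_div_iff₀ (by positivity)).1 (min_le_right _ _)
  obtain ⟨q, hq⟩ : ∃ q : ℝ, q = (1 / 2) ^ α := ⟨_, rfl⟩
  have hq0 : 0 < q := by rw [hq]; positivity
  have hq1 : q < 1 := by rw [hq]; exact Real.rpow_lt_one (by norm_num) (by norm_num) hα
  obtain ⟨c, hc⟩ : ∃ c : ℝ, c = C * 4 ^ (1 + α) := ⟨_, rfl⟩
  have hc0 : 0 ≤ c := by rw [hc]; positivity
  obtain ⟨M, hM0, hM⟩ : ∃ M : ℝ, 0 ≤ M ∧ M * q = M - c :=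
    ⟨c / (1 - q), div_nonneg hc0 (by linarith), by
      have : 1 - q ≠ 0 := by linarith
      field_simp; ring⟩
  obtain ⟨D, hD⟩ : ∃ D : ℝ, D = K / t₀ + M * t₀ ^ α := ⟨_, rfl⟩
  have hstep : ∀ t : ℝ, 0 < t → t ≤ t₀ →
      (∀ y : E, u (y, -t) ≤ (D - M * t ^ α) * t + ‖y‖ ^ 2 / (2 * t)) → ∀ s : ℝ, t / 2 ≤ s → s ≤ t →
      ∀ y : E, u (y, -s) ≤ (D - M * (t * (1 / 2)) ^ α) * s + ‖y‖ ^ 2 / (2 * s) := by
    intro t ht htt h1 s hs1 hs2 y
    have hΛt : Λ * t ≤ Λ * t₀ := mul_le_mul_of_nonneg_left htt hΛ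
    have hΛ0 : 0 ≤ Λ * t₀ := by positivity
    have key := ns2_step hu (P := c * t ^ α) ht (by linarith) (by linarith) (by positivity) h1
      (fun y => ?_) hs1 hs2 y
    · have e : D - M * (t * (1 / 2)) ^ α = D - M * t ^ α + c * t ^ α := by
        rw [Real.mul_rpow ht.le (by norm_num), ← hq]
        linear_combination (-t ^ α) * hM
      rwa [e]
    · have h2 := H (4 * t) (by positivity) (by linarith) y
      have e : C * (4 * t) ^ (1 + α) = c * t ^ α * t := by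
        rw [Real.mul_rpow (by norm_num) ht.le, Real.rpow_add ht, Real.rpow_one, hc]; ring
      rwa [e] at h2
  have hle : ∀ n : ℕ, t₀ * (1 / 2) ^ n ≤ t₀ := fun n =>
    mul_le_of_le_one_right ht0.le (pow_le_one₀ (by norm_num) (by norm_num))
  have hind : ∀ n : ℕ, ∀ y : E, u (y, -(t₀ * (1 / 2) ^ n)) ≤
      (D - M * (t₀ * (1 / 2) ^ n) ^ α) * (t₀ * (1 / 2) ^ n) + ‖y‖ ^ 2 / (2 * (t₀ * (1 / 2) ^ n)) := by
    intro n
    induction n with
    | zero =>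
      intro y
      have hΛ0 : 0 ≤ Λ * t₀ := by positivity
      rw [pow_zero, mul_one]
      have h1 := (abs_le.1 (hu.2.2.2 (y, -t₀)
        (by rw [abs_lt]; constructor <;> simp only <;> linarith))).2
      simp only at h1
      have e : (D - M * t₀ ^ α) * t₀ = K := by rw [hD]; field_simp; ring
      have h2 : Λ * ‖y‖ ^ 2 ≤ ‖y‖ ^ 2 / (2 * t₀) := by
        rw [le_div_iff₀ (by positivity)]
        have : 2 * Λ * t₀ ≤ 1 := by linarith
        nlinarith [sq_nonneg ‖y‖]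
      rw [e]
      linarith
    | succ n ih =>
      intro y
      have hpos : 0 < t₀ * (1 / 2) ^ n := by positivity
      rw [pow_succ, ← mul_assoc]
      exact hstep _ hpos (hle n) ih _ (by linarith) (by linarith) y
  refine ⟨D, t₀, ht0, fun s hs hs' => ⟨0, ?_⟩⟩
  obtain ⟨n, hn1, hn2⟩ := exists_nat_pow_near_of_lt_one (x := s / t₀) (y := (1 / 2 : ℝ))
    (by positivity) ((div_le_one ht0).2 hs') (by norm_num) (by norm_num)
  rw [lt_div_iff₀ ht0, pow_succ] at hn1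
  rw [div_le_iff₀ ht0] at hn2
  have hpos : 0 < t₀ * (1 / 2) ^ n := by positivity
  have key := hstep _ hpos (hle n) (hind n) s (by linarith) (by linarith) 0
  have h3 : 0 ≤ M * (t₀ * (1 / 2) ^ n * (1 / 2)) ^ α * s := by positivity
  simp only [norm_zero, ne_eq, OfNat.ofNat_ne_zero, not_false_eq_true, zero_pow, zero_div,
    add_zero] at key ⊢
  linarith

end R94
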