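import Crest.Agent.R94.NoC2

/-!
# R94/NoC1: from a non-singular contact to an extremal function
-/

set_option autoImplicit false
set_option linter.unusedSectionVars false
set_option linter.unusedVariables false

open Set Filter Topology Metric
open scoped InnerProductSpace

namespace R94

variable {E : Type} [NormedAddCommGroup E] [InnerProductSpace ℝ E] [FiniteDimensional ℝ E]

variable {c κ : ℝ}

/-- `s = ‖η‖`, `W = sym (x,t) b 0 s s w`, `Λ = |L| + 3` (`abs_h_le`); `pl` with `U = L₀ = L`,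
`s₁ = 1/2`; pull back (`jge_sym_iff`, `cfw_sym_iff`); the frame of `W` at scale `1/2` is bounded by
`grow_frame_small`. -/
theorem Xtr.halve (hc0 : 0 < c) (hc1 : c < 1) (hκ : 0 < κ) {w : E × ℝ → ℝ} {L : ℝ}
    (hX : Xtr c κ w L) : ∃ R : ℝ, 0 < R ∧ ∀ (x η : E) (t : ℝ) (b : E) (h : ℝ), η ≠ 0 →
      JGe c κ w x η t L → CFw univ w (x, t) ‖η‖ 1 b h →
      ∃ (x' η' : E) (t' : ℝ) (b' : E) (h' : ℝ), ‖η'‖ = ‖η‖ / 2 ∧ JGe c κ w x' η' t' L ∧
        CFw univ w (x', t') ‖η'‖ 1 b' h' ∧ |t' - t| ≤ R * ‖η‖ ∧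
        ‖x' - x - (t' - t) • b‖ ≤ R * ‖η‖ ∧ ‖b' - b‖ ≤ R := by
  obtain ⟨R₁, hR₁, hpl⟩ := pl (E := E) hc0 hc1 hκ (|L| + 3)
  obtain ⟨C, hC, hgr⟩ := grow_frame_small (E := E) (|L| + 3) R₁
  have hlog : 0 ≤ Real.log (1 / 2 : ℝ)⁻¹ := Real.log_nonneg (by norm_num)
  have hC' : 0 ≤ C * (1 + Real.log (1 / 2 : ℝ)⁻¹) := by positivity
  refine ⟨R₁ + C * (1 + Real.log (1 / 2 : ℝ)⁻¹), by linarith, fun x η t b h hη hJ hF => ?_⟩
  have hsq := hX.bmo.ent.2
  have hs : 0 < ‖η‖ := norm_pos_iff.2 hη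
  set s := ‖η‖ with hsdef
  have hWb : BMO (sym (x, t) b 0 s s w) := hX.bmo.sym hs
  have hWn : Nrm (|L| + 3) (sym (x, t) b 0 s s w) := (hF.nrm (h' := 0) hs).mono (by
    have := hJ.abs_h_le hX.fle hX.hle hc0.le hc1.le hs hF
    rw [sub_zero]
    linarith)
  obtain ⟨x₁, η₁, t₁, hx₁, ht₁, hη₁, hJ₁⟩ := hpl _ (s⁻¹ • η) L L hWb (hX.fle.sym hs) hWn
    (by rw [norm_smul, norm_inv, Real.norm_eq_abs, abs_of_pos hs, inv_mul_cancel₀ hs.ne'])
    (by linarith [neg_abs_le L])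
    (by
      rw [jge_sym_iff hsq hs, show ((0 : E), (0 : ℝ)) = 0 from rfl, pt_zero, smul_smul,
        mul_inv_cancel₀ hs.ne', one_smul, mul_zero, add_zero]
      exact hJ)
    (by
      intro x' η' t' L' _ _ h1 _ h2
      rw [jge_sym_iff hsq hs, mul_zero, add_zero] at h2
      exact hX.max _ _ _ _ (smul_ne_zero hs.ne' h1) h2)
    (1 / 2) (by norm_num) (by norm_num)
  rw [jge_sym_iff hsq hs, sub_self, mul_zero, sub_zero, mul_zero, add_zero] at hJ₁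
  obtain ⟨b₁, h₁, hb₁⟩ := hWb.2 (x₁, t₁) (1 / 2) (by norm_num)
  have hb := (hgr _ hWb hWn (x₁, t₁) (by
    rw [Prod.norm_def, max_le_iff]; exact ⟨hx₁, ht₁⟩) _ _ _ (by norm_num) (by norm_num) hb₁).1
  have hb₂ := (cfw_sym_iff (O := univ) hs hs (by norm_num)).1 hb₁
  rw [div_self hs.ne', one_pow, one_mul, one_smul] at hb₂
  have hn : ‖s • η₁‖ = s * (1 / 2) := by rw [norm_smul, Real.norm_eq_abs, abs_of_pos hs, hη₁]
  have hCs := mul_nonneg hC' hs.le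
  refine ⟨_, _, _, b + b₁, _, by rw [hn]; ring, hJ₁, by rw [hn]; exact hb₂, ?_, ?_, ?_⟩
  · simp only [pt, add_sub_cancel_left, abs_mul, abs_of_pos hs]
    nlinarith
  · simp only [pt, add_sub_cancel_left]
    rw [show x + s • x₁ + (s * t₁) • b - x - (s * t₁) • b = s • x₁ by abel, norm_smul,
      Real.norm_eq_abs, abs_of_pos hs]
    nlinarith
  · rw [add_sub_cancel_left]
    linarith

end R94
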