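import Crest.Agent.R94.NoC3

/-!
# R94/NoC2: from a non-singular contact to an extremal function
-/

set_option autoImplicit false
set_option linter.unusedSectionVars false
set_option linter.unusedVariables false

open Set Filter Topology Metric
open scoped InnerProductSpace

namespace R94

variable {E : Type} [NormedAddCommGroup E] [InnerProductSpace ℝ E] [FiniteDimensional ℝ E]

variable {c κ : ℝ}

theorem noc2_norm (hc0 : 0 < c) (hc1 : c < 1) {w : E × ℝ → ℝ} {x η : E} {t L : ℝ}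
    (hw : BMO w) (hF : FLe c κ w) (hH : HLe w) (hη : η ≠ 0) (hJ : JGe c κ w x η t L) :
    ∃ (W : E × ℝ → ℝ) (e : E), BMO W ∧ FLe c κ W ∧ HLe W ∧ ‖e‖ = 1 ∧ Nrm (|L| + 3) W ∧
      JGe c κ W 0 e 0 L := by
  have hρ : 0 < ‖η‖ := norm_pos_iff.2 hη
  obtain ⟨b, h, H⟩ := hw.2 (x, t) ‖η‖ hρ
  have hh := hJ.abs_h_le hF hH hc0.le hc1.le hρ H
  refine ⟨sym (x, t) b 0 ‖η‖ ‖η‖ w, ‖η‖⁻¹ • η, hw.sym hρ, hF.sym hρ, hH.sym hρ,
    norm_smul_inv_norm (𝕜 := ℝ) hη, (H.nrm hρ).mono (by rw [sub_zero]; linarith),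
    (jge_sym_iff hw.ent.2 hρ).2 ?_⟩
  simpa [pt, smul_smul, mul_inv_cancel₀ hρ.ne'] using hJ

/-- `L* = sSup` of all levels `L` over all `w` (`BMO`, `FLe`, `HLe`) and all configurations with
`η ≠ 0`; bounded by `0` (`JGe.le_Sm`, `HLe.Sm_le`). Take `Lₙ → L*`, normalise with
`sym (xₙ,tₙ) bₙ 0 ‖ηₙ‖ ‖ηₙ‖` (`HLe.sym`, `CFw.nrm`, `JGe.abs_h_le`, `Nrm.mono`), `compB`,
`JGe.of_tendsto`. The limit belongs to the class, so all its levels are `≤ L*`. -/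
theorem exists_xtr (hc0 : 0 < c) (hc1 : c < 1) {w : E × ℝ → ℝ} {η : E} {L : ℝ}
    (hw : BMO w) (hF : FLe c κ w) (hH : HLe w) (hη : η ≠ 0) (hJ : JGe c κ w 0 η 0 L) :
    ∃ (w' : E × ℝ → ℝ) (η' : E) (L' : ℝ), Xtr c κ w' L' ∧ η' ≠ 0 ∧ JGe c κ w' 0 η' 0 L' := by
  let S : Set ℝ := {L | ∃ (w : E × ℝ → ℝ) (x η : E) (t : ℝ), BMO w ∧ FLe c κ w ∧ HLe w ∧ η ≠ 0 ∧
    JGe c κ w x η t L}
  have hS : ∀ L ∈ S, L ≤ 0 := by
    rintro L ⟨w, x, η, t, -, h2, h3, -, h5⟩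
    exact (h5.le_Sm h2 h3 hc0.le hc1.le one_pos).trans (h3.Sm_le one_pos _)
  have hb : BddAbove S := ⟨0, hS⟩
  obtain ⟨u, u1, u2, u3⟩ := exists_seq_tendsto_sSup (S := S) ⟨L, w, 0, η, 0, hw, hF, hH, hη, hJ⟩ hb
  have key : ∀ n, ∃ (W : E × ℝ → ℝ) (e : E), BMO W ∧ FLe c κ W ∧ HLe W ∧ ‖e‖ = 1 ∧
      Nrm (|u 0| + 3) W ∧ JGe c κ W 0 e 0 (u n) := fun n => by
    obtain ⟨w, x, η, t, h1, h2, h3, h4, h5⟩ := u3 n
    obtain ⟨W, e, k1, k2, k3, k4, k5, k6⟩ := noc2_norm hc0 hc1 h1 h2 h3 h4 h5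
    refine ⟨W, e, k1, k2, k3, k4, k5.mono ?_, k6⟩
    rw [abs_of_nonpos (hS _ (u3 n)), abs_of_nonpos (hS _ (u3 0))]
    linarith [u1 (Nat.zero_le n)]
  choose W e k1 k2 k3 k4 k5 k6 using key
  have hU : (hyperfilter ℕ : Filter ℕ) ≤ atTop := Nat.hyperfilter_le_atTop
  obtain ⟨v, v1, -, v2⟩ := compB (hyperfilter ℕ) W _ k1 k5
  obtain ⟨e', -, he'⟩ := exists_ulim (hyperfilter ℕ) (x := e) (M := 1)
    (Eventually.of_forall fun n => (k4 n).le)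
  have he1 : ‖e'‖ = 1 := tendsto_nhds_unique he'.norm (by simpa only [k4] using tendsto_const_nhds)
  have vF : FLe c κ v := FLe.of_tendsto v2 (Eventually.of_forall k2)
  have vH : HLe v := HLe.of_tendsto v2 (Eventually.of_forall k3)
  refine ⟨v, e', sSup S, ⟨v1, vF, vH, fun x η t L' h1 h2 =>
    le_csSup hb ⟨v, x, η, t, v1, vF, vH, h1, h2⟩⟩, norm_ne_zero_iff.1 (by rw [he1]; norm_num), ?_⟩
  exact JGe.of_tendsto hc0.le hc1.le k1 k5 k2 v2 v1.ent.csq.1 tendsto_const_nhds he'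
    tendsto_const_nhds (u2.mono_left hU) (δ := fun n : ℕ => 1 / ((n : ℝ) + 1))
    (fun n => by positivity) (tendsto_one_div_add_atTop_nhds_zero_nat.mono_left hU)
    (Eventually.of_forall fun n => k6 n _ (by positivity))

end R94
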