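import Crest.Agent.R94.PLim

/-!
# R94/NoC3: from a non-singular contact to an extremal function
-/

set_option autoImplicit false
set_option linter.unusedSectionVars false
set_option linter.unusedVariables false

open Set Filter Topology Metric
open scoped InnerProductSpace

namespace R94

variable {E : Type} [NormedAddCommGroup E] [InnerProductSpace ℝ E] [FiniteDimensional ℝ E]

variable {c κ : ℝ}

theorem noc3_unit {η : E} {ρ : ℝ} (hρ : 0 < ρ) (h : ‖η‖ = ρ) : ‖ρ⁻¹ • η‖ = 1 := by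
  rw [norm_smul, Real.norm_of_nonneg (inv_pos.2 hρ).le, h, inv_mul_cancel₀ hρ.ne']

theorem noc3_jge {w : E × ℝ → ℝ} {x η : E} {t L ρ : ℝ} (hw : BMO w) (hρ : 0 < ρ) (b : E) (h : ℝ)
    (hJ : JGe c κ w x η t L) : JGe c κ (sym (x, t) b h ρ ρ w) 0 (ρ⁻¹ • η) 0 (L - 2 * h) := by
  rw [jge_sym_iff hw.ent.2 hρ, Prod.mk_zero_zero, pt_zero, smul_inv_smul₀ hρ.ne', sub_add_cancel]
  exact hJ

theorem noc3_Jd (hc0 : 0 < c) (hc1 : c < 1) {w : E × ℝ → ℝ} (hF : FLe c κ w) {R C₁ δ : ℝ}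
    (hδ : 0 < δ) (hS : ∀ X : E × ℝ, ‖X‖ ≤ R + 2 → Sp δ w X ≤ C₁) {x η : E} {t : ℝ} (hx : ‖x‖ ≤ R)
    (ht : |t| ≤ R) (hη : ‖η‖ ≤ 2) : Jd c κ δ w x η t ≤ C₁ + Sm δ w (x, t) := by
  have h0 : (Del c w x η t - κ * ‖η‖) / δ ≤ 0 :=
    div_nonpos_of_nonpos_of_nonneg (sub_nonpos.2 (hF x η t)) hδ.le
  have hn := norm_nonneg η
  have h1 : Sp δ w (x - c • η, t) ≤ C₁ := by
    refine hS _ ?_
    rw [Prod.norm_mk, Real.norm_eq_abs]
    refine max_le ((norm_sub_le _ _).trans ?_) (by linarith)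
    rw [norm_smul, Real.norm_of_nonneg hc0.le]
    nlinarith
  have h2 : Sp δ w (x + (1 - c) • η, t) ≤ C₁ := by
    refine hS _ ?_
    rw [Prod.norm_mk, Real.norm_eq_abs]
    refine max_le ((norm_add_le _ _).trans ?_) (by linarith)
    rw [norm_smul, Real.norm_of_nonneg (sub_pos.2 hc1).le]
    nlinarith
  have h3 := mul_le_mul_of_nonneg_left h1 (sub_pos.2 hc1).le
  have h4 := mul_le_mul_of_nonneg_left h2 hc0.le
  rw [Jd_eq hδ]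
  linarith

theorem noc3_core (hc0 : 0 < c) (hc1 : c < 1) (hκ : 0 < κ) {w : E × ℝ → ℝ} {η₀ : E} {L₀ Λ : ℝ}
    (hw : BMO w) (hF : FLe c κ w) (hN : Nrm Λ w) (hη : ‖η₀‖ = 1) (hL : -Λ ≤ L₀)
    (hJ : JGe c κ w 0 η₀ 0 L₀) :
    ∃ (w' : E × ℝ → ℝ) (η' : E) (L' : ℝ), BMO w' ∧ FLe c κ w' ∧ HLe w' ∧ η' ≠ 0 ∧
      JGe c κ w' 0 η' 0 L' := by
  obtain ⟨R, hR, hpl⟩ := pl (E := E) hc0 hc1 hκ Λ
  obtain ⟨C, -, hC⟩ := grow_flow (E := E) Λ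
  obtain ⟨C', hC'0, hC'⟩ := grow_frame_small (E := E) Λ R
  set C₁ := C * √(R + 2) with hC₁
  have hS : ∀ s : ℝ, 0 < s → s ≤ 1 / 2 → ∀ X : E × ℝ, ‖X‖ ≤ R + 2 →
      Sp s w X ≤ C₁ ∧ Sm s w X ≤ C₁ := fun s h1 h2 X hX =>
    ⟨(hC w hw.cls hN X (R + 2) (by linarith) hX s h1 h2).1,
      (hC w hw.cls hN X (R + 2) (by linarith) hX s h1 h2).2.1⟩
  have hxt : ∀ {x : E} {t : ℝ}, ‖x‖ ≤ R → |t| ≤ R → ‖((x, t) : E × ℝ)‖ ≤ R := fun hx ht => by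
    rw [Prod.norm_mk, Real.norm_eq_abs]; exact max_le hx ht
  set L₁ := L₀ - 3 * (2 * C₁ - L₀) with hL₁
  let ρ : ℕ → ℝ := fun i => 1 / ((i : ℝ) + 1)
  have hρ0 : ∀ i, 0 < ρ i := fun i => Nat.one_div_pos_of_nat
  have hρ1 : ∀ i, ρ i ≤ 1 := fun i => by
    simp only [ρ]
    rw [div_le_one (by positivity)]
    linarith [i.cast_nonneg (α := ℝ)]
  have hρ : Tendsto ρ (hyperfilter ℕ) (𝓝 0) :=
    tendsto_one_div_add_atTop_nhds_zero_nat.mono_left Nat.hyperfilter_le_atTop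
  choose x η t hx ht hηn hJi using fun i => hpl w η₀ L₀ (2 * C₁) hw hF hN hη hL hJ
    (fun x η t L hx ht _ hη2 hJ' => by
      have h1 := hJ' (1 / 2) (by norm_num)
      have h2 := noc3_Jd hc0 hc1 hF (by norm_num : (0 : ℝ) < 1 / 2)
        (fun X hX => (hS _ (by norm_num) le_rfl X hX).1) hx ht hη2
      have h3 := (hS (1 / 2) (by norm_num) le_rfl (x, t) (by linarith [hxt hx ht])).2
      linarith) (ρ i) (hρ0 i) (hρ1 i)
  choose b h hbh using fun i => hw.2 (x i, t i) (ρ i) (hρ0 i)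
  have hh : ∀ i, 1 + |h i - C₁| ≤ 3 + |L₁ - 2 * C₁| := by
    intro i
    have h0 : 0 < ρ i / 2 := half_pos (hρ0 i)
    have h00 : ρ i / 2 ≤ 1 / 2 := by linarith [hρ1 i]
    have h1 := (hbh i).abs_Sm_le h0 (by linarith)
    have e : 1 * ρ i / (ρ i / 2) = 2 := by have := (hρ0 i).ne'; field_simp
    rw [e, abs_le] at h1
    have h2 := noc3_Jd hc0 hc1 hF h0 (fun X hX => (hS _ h0 h00 X hX).1) (hx i) (ht i)
      (by rw [hηn]; linarith [hρ1 i])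
    have h3 := (hS _ h0 h00 (x i, t i) (by linarith [hxt (hx i) (ht i)])).2
    have h4 := hJi i _ h0
    have h5 := neg_abs_le (L₁ - 2 * C₁)
    have h6 := abs_nonneg (L₁ - 2 * C₁)
    have : |h i - C₁| ≤ 2 + |L₁ - 2 * C₁| := by
      rw [abs_le]; constructor <;> linarith [h1.1, h1.2]
    linarith
  let W : ℕ → E × ℝ → ℝ := fun i => sym (x i, t i) (b i) C₁ (ρ i) (ρ i) w
  have hW : ∀ i, BMO (W i) := fun i => hw.sym (hρ0 i)
  have hWN : ∀ i, Nrm (3 + |L₁ - 2 * C₁|) (W i) := fun i => ((hbh i).nrm (hρ0 i)).mono (hh i)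
  have hWF : ∀ i, FLe c κ (W i) := fun i => hF.sym (hρ0 i)
  obtain ⟨v, hv, -, hlim⟩ := compB (hyperfilter ℕ) W _ hW hWN
  have hpt : ∀ X, Tendsto (fun i => W i X) (hyperfilter ℕ) (𝓝 (v X)) := fun X =>
    hlim.tendstoLocallyUniformlyOn.tendsto_at (mem_univ X)
  obtain ⟨y, -, hy⟩ := exists_ulim (hyperfilter ℕ) (x := fun i => (ρ i)⁻¹ • η i) (M := 1)
    (.of_forall fun i => (noc3_unit (hρ0 i) (hηn i)).le)
  have hy1 : ‖y‖ = 1 := by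
    have h1 := hy.norm
    simp only [fun i => noc3_unit (hρ0 i) (hηn i)] at h1
    exact tendsto_nhds_unique h1 tendsto_const_nhds
  have hb : Tendsto (fun i => ρ i * ‖b i‖) (hyperfilter ℕ) (𝓝 0) := by
    have h1 : Tendsto (fun i => C' * (ρ i + Real.negMulLog (ρ i))) (hyperfilter ℕ) (𝓝 0) := by
      have := (hρ.add ((Real.continuous_negMulLog.tendsto 0).comp hρ)).const_mul C'
      simpa using this
    refine squeeze_zero (fun i => mul_nonneg (hρ0 i).le (norm_nonneg _)) (fun i => ?_) h1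
    have h2 := (hC' w hw hN (x i, t i) (hxt (hx i) (ht i)) (ρ i) (b i) (h i) (hρ0 i) (hρ1 i)
      (hbh i)).1
    have h3 := mul_le_mul_of_nonneg_left h2 (hρ0 i).le
    rw [Real.log_inv] at h3
    rw [Real.negMulLog]
    linarith
  refine ⟨v, y, L₁ - 2 * C₁, hv, FLe.of_tendsto hlim (.of_forall hWF), fun X ζ s hs => ?_,
    fun h0 => by simp [h0] at hy1, ?_⟩
  · have e1 : ∀ᶠ i in (hyperfilter ℕ : Filter ℕ), ρ i * s < 1 / 2 :=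
      (hρ.mul_const s).eventually_lt_const (by norm_num)
    have e2 : ∀ᶠ i in (hyperfilter ℕ : Filter ℕ), (ρ i + ρ i * ‖b i‖ + ρ i) * ‖X‖ < 2 :=
      (((hρ.add hb).add hρ).mul_const ‖X‖).eventually_lt_const (by norm_num)
    have e3 : ∀ᶠ i in (hyperfilter ℕ : Filter ℕ),
        W i (X.1 + ζ, X.2 + s) ≤ W i X + ‖ζ‖ ^ 2 / (2 * s) := by
      filter_upwards [e1, e2] with i h1 h2
      have h3 := hold_pt_lip (x i, t i) (b i) (hρ0 i) (hρ0 i) X 0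
      rw [pt_zero, sub_zero] at h3
      have h4 := norm_sub_norm_le (pt (x i, t i) (b i) (ρ i) (ρ i) X) (x i, t i)
      have h5 := (hS _ (mul_pos (hρ0 i) hs) h1.le (pt (x i, t i) (b i) (ρ i) (ρ i) X)
        (by linarith [hxt (hx i) (ht i)])).1
      have h6 : Sp s (W i) X ≤ 0 := by
        rw [hw.ent.2.Sp_sym (hρ0 i) (hρ0 i) hs]
        exact mul_nonpos_of_nonpos_of_nonneg (sub_nonpos.2 h5) (sq_nonneg _)
      have h7 := (hW i).ent.2.le_Tp hs X ζ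
      rw [Sp, div_le_iff₀ hs, zero_mul] at h6
      linarith
    exact le_of_tendsto_of_tendsto (hpt _) ((hpt X).add_const _) e3
  · exact JGe.of_tendsto hc0.le hc1.le hW hWN hWF hlim (continuousOn_univ.1 hv.1.1.1)
      tendsto_const_nhds hy tendsto_const_nhds tendsto_const_nhds hρ0 hρ
      (.of_forall fun i => noc3_jge hw (hρ0 i) (b i) C₁ (hJi i) _ (hρ0 i))

/-- Normalise (`sym (x,t) b h ‖η‖ ‖η‖ w` with a frame at scale `‖η‖`; `CFw.nrm`, `jge_sym_iff`),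
`Λ = max 1 |L₀|`. `pl` with `U = 2C√(R+2)` (`L ≤ Jd (1/2)`, `Jd_eq`, `grow_flow`) gives
configurations `(xᵢ,ηᵢ,tᵢ)` with `‖ηᵢ‖ = ρᵢ = 1/(i+1)` and level `L₁`. `C₁ = C√(R+2)` bounds `Sp s`,
`Sm s` (`s ≤ 1/2`) on `‖X‖ ≤ R + 2`. Frames `(bᵢ,hᵢ)` at scale `ρᵢ`: `|hᵢ - Sm (ρᵢ/2)| ≤ 2` and
`L₁ - C₁ ≤ Sm ≤ C₁`; `ρᵢ‖bᵢ‖ → 0` (`grow_frame_small`). `Wᵢ = sym (xᵢ,tᵢ) bᵢ C₁ ρᵢ ρᵢ w`; `compB`;
for fixed `X, s`, eventually `Sp s Wᵢ X ≤ 0` (`Sp_sym`), which gives `HLe` in the limit (`le_Tp`);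
`FLe.of_tendsto`; `JGe.of_tendsto` with `δᵢ = 1/(i+1)` and the unit vectors `ρᵢ⁻¹ • ηᵢ`. -/
theorem exists_hle (hc0 : 0 < c) (hc1 : c < 1) (hκ : 0 < κ) {w : E × ℝ → ℝ} {x η : E} {t L : ℝ}
    (hw : BMO w) (hF : FLe c κ w) (hη : η ≠ 0) (hJ : JGe c κ w x η t L) :
    ∃ (w' : E × ℝ → ℝ) (η' : E) (L' : ℝ), BMO w' ∧ FLe c κ w' ∧ HLe w' ∧ η' ≠ 0 ∧
      JGe c κ w' 0 η' 0 L' := by
  have hρ : 0 < ‖η‖ := norm_pos_iff.2 hη
  obtain ⟨b, h, hbh⟩ := hw.2 (x, t) _ hρ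
  refine noc3_core (Λ := max 1 |L - 2 * h|) hc0 hc1 hκ (hw.sym hρ) (hF.sym hρ)
    ((hbh.nrm (h' := h) hρ).mono (by simp)) (noc3_unit hρ rfl) ?_ (noc3_jge hw hρ b h hJ)
  have := le_max_right 1 |L - 2 * h|
  have := neg_abs_le (L - 2 * h)
  linarith

end R94
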