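import Crest.Agent.R94.Grow
import Crest.Agent.R94.EngineC

/-!
# R94/PL: propagation of near-extremal contacts to a smaller scale (fixed flow time)
-/

set_option autoImplicit false
set_option linter.unusedSectionVars false
set_option linter.unusedVariables false

open Set Filter Topology Metric
open scoped InnerProductSpace

namespace R94

variable {E : Type} [NormedAddCommGroup E] [InnerProductSpace ℝ E] [FiniteDimensional ℝ E]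

/-- the final real inequality of `pl_delta`: for large `R` it has no solution.
(First `V ≥ κ²R²/67`; then `k + V/2 ≥ V/4`, so `V ≤ 64·268·C₂² R`.) -/
theorem pl_real {κ C₂ C₃ : ℝ} (hκ : 0 < κ) (h₂ : 0 < C₂) : ∃ R₀ : ℝ, ∀ R V k : ℝ, R₀ ≤ R → 0 ≤ V →
    -(C₃ * √R) ≤ k →
    (k + V / 2) ^ 2 / (4 * (C₂ * (R * √R)) ^ 2) + 4 * κ ^ 2 ≤ 67 * (4 / R ^ 2) * V → False := by
  refine ⟨max 1 (max (268 * |C₃| / κ ^ 2) (67 * (64 * 268) * C₂ ^ 2 / κ ^ 2 + 1)),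
    fun R V k hR hV hk h => ?_⟩
  have hR1 : 1 ≤ R := (le_max_left _ _).trans hR
  have hR2 : 268 * |C₃| / κ ^ 2 ≤ R := ((le_max_left _ _).trans (le_max_right _ _)).trans hR
  have hR3 : 67 * (64 * 268) * C₂ ^ 2 / κ ^ 2 + 1 ≤ R :=
    ((le_max_right _ _).trans (le_max_right _ _)).trans hR
  have hκ2 : 0 < κ ^ 2 := by positivity
  have hR0 : 0 < R := by linarith
  rw [div_le_iff₀ hκ2] at hR2
  have hR3' : 67 * (64 * 268) * C₂ ^ 2 < R * κ ^ 2 := by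
    rw [← div_lt_iff₀ hκ2]; linarith
  have hsq : √R * √R = R := Real.mul_self_sqrt hR0.le
  have hs1 : 1 ≤ √R := Real.one_le_sqrt.mpr hR1
  have hsR : √R ≤ R := by nlinarith
  have hM : 4 * (C₂ * (R * √R)) ^ 2 = 4 * C₂ ^ 2 * R ^ 3 := by
    have : (R * √R) ^ 2 = R ^ 3 := by rw [mul_pow, Real.sq_sqrt hR0.le]; ring
    rw [mul_pow, this]; ring
  rw [hM] at h
  have hD : 0 < 4 * C₂ ^ 2 * R ^ 3 := by positivity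
  have e1 : 67 * (4 / R ^ 2) * V = 268 * V / R ^ 2 := by ring
  rw [e1] at h
  have h0 : 0 ≤ (k + V / 2) ^ 2 / (4 * C₂ ^ 2 * R ^ 3) := by positivity
  have h1 : 4 * κ ^ 2 * R ^ 2 ≤ 268 * V := by
    rw [← le_div_iff₀ (by positivity)]; linarith
  have h2 : V / 4 ≤ k + V / 2 := by
    have a1 : C₃ * √R ≤ |C₃| * R :=
      (mul_le_mul_of_nonneg_right (le_abs_self _) (by positivity)).trans
        (mul_le_mul_of_nonneg_left hsR (abs_nonneg _))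
    have a2 : 268 * |C₃| * R ≤ R * κ ^ 2 * R := mul_le_mul_of_nonneg_right hR2 hR0.le
    nlinarith
  have h3 : (V / 4) ^ 2 ≤ (k + V / 2) ^ 2 := pow_le_pow_left₀ (by positivity) h2 2
  have h4 : (V / 4) ^ 2 / (4 * C₂ ^ 2 * R ^ 3) ≤ 268 * V / R ^ 2 := by
    have := div_le_div_of_nonneg_right h3 hD.le
    linarith
  rw [div_le_div_iff₀ hD (by positivity)] at h4
  have hV0 : 0 < V := by
    have : 0 < 4 * κ ^ 2 * R ^ 2 := by positivity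
    linarith
  have h5 : V ≤ 64 * 268 * C₂ ^ 2 * R := by
    have hp : 0 < V * R ^ 2 := by positivity
    refine le_of_mul_le_mul_right ?_ hp
    nlinarith
  have h6 : 67 * (64 * 268) * C₂ ^ 2 * R < R * κ ^ 2 * R := mul_lt_mul_of_pos_right hR3' hR0
  nlinarith

theorem pl_add_sq (a b : E) : ‖a + b‖ ^ 2 ≤ 2 * ‖a‖ ^ 2 + 2 * ‖b‖ ^ 2 := by
  rw [norm_add_sq_real]
  nlinarith [real_inner_le_norm a b, sq_nonneg (‖a‖ - ‖b‖)]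

theorem pl_smul_sq (r : ℝ) (a : E) : ‖r • a‖ ^ 2 = r ^ 2 * ‖a‖ ^ 2 := by
  rw [norm_smul, mul_pow, Real.norm_eq_abs, sq_abs]

theorem pl_proj_le {η : E} (hη : η ≠ 0) (d : E) (μ : ℝ) :
    ‖d - (⟪η, d⟫_ℝ / ‖η‖ ^ 2) • η‖ ^ 2 ≤ ‖d - μ • η‖ ^ 2 := by
  have hn : 0 < ‖η‖ ^ 2 := by positivity
  rw [norm_sub_sq_real, norm_sub_sq_real, pl_smul_sq, pl_smul_sq, real_inner_smul_right,
    real_inner_smul_right, real_inner_comm η d]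
  obtain ⟨l, hl⟩ : ∃ l, ⟪η, d⟫_ℝ = l * ‖η‖ ^ 2 := ⟨⟪η, d⟫_ℝ / ‖η‖ ^ 2, by field_simp⟩
  rw [hl, mul_div_cancel_right₀ _ hn.ne']
  nlinarith [mul_nonneg (sq_nonneg (μ - l)) hn.le]

/-- the real inequality behind `pl_alg` -/
theorem pl_num {c κ δ Θ β M R s₁ e n V Q Nd Np Nv Nq : ℝ} (hc1 : c < 1) (hκ : 0 < κ) (hδ : 0 < δ)
    (hΘ : 0 < Θ) (hM : 0 < M) (hR : 0 < R) (hβ : 0 < β) (hs : 0 < s₁) (hs1 : s₁ ≤ 1) (hn : s₁ ≤ n)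
    (hV : 0 ≤ V) (hNp : 0 ≤ Np) (h1 : 3 * δ * Θ ≤ κ) (h2 : δ * κ ≤ (1 - c) ^ 2 * s₁)
    (h3 : Θ ≤ β * M ^ 2)
    (h4 : β * (64 * κ ^ 2 / (1 - c) ^ 2 + 4) + 1024 * Θ / R ^ 2 ≤ 4 * κ ^ 2)
    (he : 16 * M ^ 2 * ((1 - c) * e) ^ 2 ≤ (δ * Θ) ^ 2) (heβ : e ^ 2 ≤ β)
    (d1 : 8 * κ ^ 2 - e ^ 2 * V ≤ Nd) (d2 : Np ≤ e ^ 2 * V)
    (d3 : Nv ≤ 8 * V + 8 * κ ^ 2 / (1 - c) ^ 2)
    (d4 : Nq ≤ 128 * (δ * Θ) ^ 2 / R ^ 2 + 2 * ((1 - c) * e) ^ 2 * V)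
    (hE : δ * (Θ / (4 * M ^ 2)) * Q ≤ 4 * (-(δ * Θ * Nd / 4) + δ * Θ * β * (2 * Nv + 1)) +
      8 * (κ + 3 * δ * Θ) * Np / n + 8 * Nq / δ) :
    Q / (4 * M ^ 2) + 4 * κ ^ 2 ≤ 67 * β * V := by
  have hc : 0 < 1 - c := by linarith
  have hp : 0 < δ * Θ := mul_pos hδ hΘ
  have hn0 : 0 < n := hs.trans_le hn
  have hM2 : 0 < M ^ 2 := by positivity
  -- `16 ((1-c) e)² ≤ δ² Θ β`
  have k0 : 16 * ((1 - c) * e) ^ 2 ≤ δ * (δ * Θ) * β := by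
    refine le_of_mul_le_mul_right ?_ hM2
    have : δ * (δ * Θ) * Θ ≤ δ * (δ * Θ) * (β * M ^ 2) :=
      mul_le_mul_of_nonneg_left h3 (by positivity)
    linarith
  have k1 : 8 * (κ + 3 * δ * Θ) * Np / n ≤ δ * Θ * (β * V) := by
    rw [div_le_iff₀ hn0]
    have a1 : 8 * (κ + 3 * δ * Θ) * Np ≤ 16 * κ * (e ^ 2 * V) :=
      mul_le_mul (by linarith) d2 hNp (by positivity)
    have a2 : 16 * κ * e ^ 2 ≤ δ * Θ * β * s₁ := by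
      refine le_of_mul_le_mul_right ?_ (pow_pos hc 2)
      have b1 : κ * (16 * ((1 - c) * e) ^ 2) ≤ κ * (δ * (δ * Θ) * β) :=
        mul_le_mul_of_nonneg_left k0 hκ.le
      have b2 : δ * Θ * β * (δ * κ) ≤ δ * Θ * β * ((1 - c) ^ 2 * s₁) :=
        mul_le_mul_of_nonneg_left h2 (by positivity)
      linarith
    have a3 : δ * Θ * β * s₁ ≤ δ * Θ * β * n := mul_le_mul_of_nonneg_left hn (by positivity)
    have a4 : 16 * κ * e ^ 2 * V ≤ δ * Θ * β * n * V :=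
      mul_le_mul_of_nonneg_right (a2.trans a3) hV
    linarith
  have k2 : 8 * Nq / δ ≤ δ * Θ * (1024 * Θ / R ^ 2 + β * V) := by
    rw [div_le_iff₀ hδ]
    have a1 : 16 * ((1 - c) * e) ^ 2 * V ≤ δ * (δ * Θ) * β * V := mul_le_mul_of_nonneg_right k0 hV
    have a2 : δ * Θ * (1024 * Θ / R ^ 2 + β * V) * δ =
        8 * (128 * (δ * Θ) ^ 2 / R ^ 2) + δ * (δ * Θ) * β * V := by ring
    rw [a2]
    linarith
  have k3 : β * (2 * Nv + 1) * 4 ≤ 64 * β * V + β * (64 * κ ^ 2 / (1 - c) ^ 2 + 4) := by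
    have a1 := mul_le_mul_of_nonneg_left d3 hβ.le
    have a2 : β * (64 * κ ^ 2 / (1 - c) ^ 2 + 4) = 8 * (β * (8 * κ ^ 2 / (1 - c) ^ 2)) + 4 * β := by
      ring
    rw [a2]
    linarith
  have k4 : e ^ 2 * V ≤ β * V := mul_le_mul_of_nonneg_right heβ hV
  refine le_of_mul_le_mul_left ?_ hp
  have k5 : δ * Θ * (-Nd + β * (2 * Nv + 1) * 4 + β * V + (1024 * Θ / R ^ 2 + β * V) + 4 * κ ^ 2) ≤
      δ * Θ * (67 * β * V) := mul_le_mul_of_nonneg_left (by linarith) hp.le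
  have e1 : δ * Θ * (Q / (4 * M ^ 2) + 4 * κ ^ 2) =
      δ * (Θ / (4 * M ^ 2)) * Q + δ * Θ * (4 * κ ^ 2) := by ring
  rw [e1]
  linarith

/-- the algebra at the maximiser -/
theorem pl_alg {c κ δ Θ M R s₁ a Q : ℝ} {x η p v₁ v₂ : E} (hc0 : 0 < c) (hc1 : c < 1) (hκ : 0 < κ)
    (hδ : 0 < δ) (hΘ : 0 < Θ) (hM : 0 < M) (hR : 2 ≤ R) (hs : 0 < s₁) (hs1 : s₁ ≤ 1)
    (hn : s₁ ≤ ‖η‖) (hn2 : ‖η‖ ≤ 2) (hx : ‖x‖ ≤ R) (h1 : 3 * δ * Θ ≤ κ)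
    (h2 : δ * κ ≤ (1 - c) ^ 2 * s₁) (h3 : Θ ≤ 4 / R ^ 2 * M ^ 2)
    (h4 : 4 / R ^ 2 * (64 * κ ^ 2 / (1 - c) ^ 2 + 4) + 1024 * Θ / R ^ 2 ≤ 4 * κ ^ 2)
    (ha : 16 * M ^ 2 * a ^ 2 ≤ (δ * Θ) ^ 2) (haβ : a ^ 2 ≤ 4 / R ^ 2 * (1 - c) ^ 2)
    (hv₁ : (1 - c + a) • v₁ = (1 - c) • (p + (2 * (δ * Θ * (4 / R ^ 2))) • x) -
      ((κ + 3 * δ * Θ) / ‖η‖) • η - (-(δ * Θ)) • η)
    (hv₂ : c • v₂ = c • (p + (2 * (δ * Θ * (4 / R ^ 2))) • x) +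
      ((κ + 3 * δ * Θ) / ‖η‖) • η + (-(δ * Θ)) • η)
    (hE : δ * (Θ / (4 * M ^ 2)) * Q ≤ 4 * (-(δ * Θ * ‖v₂ - v₁‖ ^ 2 / 4) +
        δ * Θ * (4 / R ^ 2) * (2 * ‖(1 - c) • v₁ + c • v₂‖ ^ 2 + 1)) +
      8 * (κ + 3 * δ * Θ) * ‖(v₂ - v₁) - (⟪η, v₂ - v₁⟫_ℝ / ‖η‖ ^ 2) • η‖ ^ 2 / ‖η‖ +
        8 * ‖(1 - c) • v₁ + c • v₂ - p‖ ^ 2 / δ) :
    Q / (4 * M ^ 2) + 4 * κ ^ 2 ≤ 67 * (4 / R ^ 2) * ‖v₁‖ ^ 2 := by
  have hc : 0 < 1 - c := by linarith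
  have hn0 : 0 < ‖η‖ := hs.trans_le hn
  have hη : η ≠ 0 := norm_pos_iff.mp hn0
  have hR0 : 0 < R := by linarith
  have hp : 0 < δ * Θ := mul_pos hδ hΘ
  obtain ⟨e, rfl⟩ : ∃ e, a = (1 - c) * e := ⟨a / (1 - c), by field_simp⟩
  obtain ⟨ψ, hψ⟩ : ∃ ψ, (κ + 3 * δ * Θ) / ‖η‖ = δ * Θ + c * (1 - c) * ψ :=
    ⟨((κ + 3 * δ * Θ) / ‖η‖ - δ * Θ) / (c * (1 - c)), by field_simp; ring⟩
  have hψ' : c * (1 - c) * (ψ * ‖η‖) = κ + 3 * δ * Θ - δ * Θ * ‖η‖ := by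
    rw [div_eq_iff hn0.ne'] at hψ
    linarith
  have hφ1 : κ ≤ c * (1 - c) * (ψ * ‖η‖) := by
    linarith only [hψ', mul_le_mul_of_nonneg_left hn2 hp.le, hp]
  have hφ2 : c * (1 - c) * (ψ * ‖η‖) ≤ 2 * κ := by
    linarith only [hψ', h1, mul_pos hp hn0]
  have hψ0 : 0 < ψ * ‖η‖ := (mul_pos_iff_of_pos_left (mul_pos hc0 hc)).mp (hκ.trans_le hφ1)
  rw [hψ] at hv₁ hv₂
  set gx : E := (2 * (δ * Θ * (4 / R ^ 2))) • x with hgx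
  have hP : p = (1 + e) • v₁ + (c * ψ) • η - gx := by
    apply smul_right_injective E hc.ne'
    linear_combination (norm := module) -hv₁
  have hV₂ : v₂ = (1 + e) • v₁ + ψ • η := by
    apply smul_right_injective E hc0.ne'
    rw [hP] at hv₂
    linear_combination (norm := module) hv₂
  have hd : v₂ - v₁ = e • v₁ + ψ • η := by rw [hV₂]; module
  have hb : (1 - c) • v₁ + c • v₂ = (1 + c * e) • v₁ + (c * ψ) • η := by rw [hV₂]; module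
  have hq : (1 - c) • v₁ + c • v₂ - p = gx + (-((1 - c) * e)) • v₁ := by rw [hb, hP]; module
  have heβ : e ^ 2 ≤ 4 / R ^ 2 := by
    refine le_of_mul_le_mul_right ?_ (pow_pos hc 2)
    linarith only [haβ]
  have hβ1 : 4 / R ^ 2 ≤ 1 := by
    rw [div_le_one (by positivity)]
    nlinarith only [hR]
  have he1 : e ^ 2 ≤ 1 := heβ.trans hβ1
  refine pl_num hc1 hκ hδ hΘ hM hR0 (by positivity) hs hs1 hn (sq_nonneg _) (sq_nonneg _) h1 h2 h3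
    h4 ha heβ ?_ ?_ ?_ ?_ hE
  · have a1 := pl_add_sq (v₂ - v₁) ((-e) • v₁)
    have a2 : v₂ - v₁ + (-e) • v₁ = ψ • η := by rw [hd]; module
    rw [a2, pl_smul_sq, pl_smul_sq] at a1
    have a3 : 4 * κ ≤ ψ * ‖η‖ := by
      linarith only [mul_nonneg (sq_nonneg (1 - 2 * c)) hψ0.le, hφ1]
    have a4 : (4 * κ) ^ 2 ≤ (ψ * ‖η‖) ^ 2 := pow_le_pow_left₀ (by positivity) a3 2
    linarith only [a1, a4]
  · refine (pl_proj_le hη _ ψ).trans (le_of_eq ?_)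
    rw [hd, add_sub_cancel_right, pl_smul_sq]
  · rw [hb]
    refine (pl_add_sq _ _).trans ?_
    rw [pl_smul_sq, pl_smul_sq]
    have a1 : (1 + c * e) ^ 2 ≤ 4 := by
      have b1 : |e| ≤ 1 := sq_le_one_iff_abs_le_one e |>.mp he1
      have b2 := abs_le.mp b1
      have b3 : c * e ≤ 1 := by nlinarith only [b2.2, hc0, hc1]
      have b4 : -1 ≤ c * e := by nlinarith only [b2.1, hc0, hc1]
      nlinarith only [b3, b4]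
    have a2 : (c * ψ) ^ 2 * ‖η‖ ^ 2 ≤ 4 * κ ^ 2 / (1 - c) ^ 2 := by
      rw [le_div_iff₀ (pow_pos hc 2)]
      have := pow_le_pow_left₀ (hκ.le.trans hφ1) hφ2 2
      linarith only [this]
    have a3 := mul_le_mul_of_nonneg_right a1 (sq_nonneg ‖v₁‖)
    have a4 : 8 * κ ^ 2 / (1 - c) ^ 2 = 2 * (4 * κ ^ 2 / (1 - c) ^ 2) := by ring
    rw [a4]
    linarith only [a2, a3]
  · rw [hq]
    refine (pl_add_sq _ _).trans ?_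
    rw [hgx, pl_smul_sq, pl_smul_sq]
    have a1 : ‖x‖ ^ 2 ≤ R ^ 2 := pow_le_pow_left₀ (norm_nonneg _) hx 2
    have a2 := mul_le_mul_of_nonneg_left a1 (sq_nonneg (2 * (δ * Θ * (4 / R ^ 2))))
    have a3 : 2 * ((2 * (δ * Θ * (4 / R ^ 2))) ^ 2 * R ^ 2) = 128 * (δ * Θ) ^ 2 / R ^ 2 := by
      field_simp
      ring
    linarith only [a2, a3]

/-- the second order expansion of the penalty -/
theorem pl_pen {m β : ℝ} (hm : 0 < m) (hβ : 0 < β) (x η ξ u vb d : E) (t σ : ℝ) :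
    -(m * ‖η + u‖ ^ 2 / 2) + m * β * (‖x + ξ‖ ^ 2 + (t + σ) ^ 2) ≤
      -(m * ‖η‖ ^ 2 / 2) + m * β * (‖x‖ ^ 2 + t ^ 2) + ⟪(2 * (m * β)) • x, ξ⟫_ℝ +
        ⟪(-m) • η, u⟫_ℝ + 2 * (m * β) * t * σ +
        (2 * (m * β) + m / 2) * (‖ξ - σ • vb‖ ^ 2 + ‖u - σ • d‖ ^ 2) +
        (-(m * ‖d‖ ^ 2 / 4) + m * β * (2 * ‖vb‖ ^ 2 + 1)) * σ ^ 2 := by
  rw [norm_add_sq_real, norm_add_sq_real, real_inner_smul_left, real_inner_smul_left]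
  have a1 := pl_add_sq (ξ - σ • vb) (σ • vb)
  rw [sub_add_cancel, pl_smul_sq] at a1
  have a2 := pl_add_sq u (-(u - σ • d))
  rw [norm_neg, neg_sub, add_sub_cancel, pl_smul_sq] at a2
  have hmβ : 0 < m * β := mul_pos hm hβ
  have b1 := mul_le_mul_of_nonneg_left a1 hmβ.le
  have b2 := mul_le_mul_of_nonneg_left a2 hm.le
  have b3 := mul_nonneg hmβ.le (sq_nonneg ‖u - σ • d‖)
  have b4 := mul_nonneg hm.le (sq_nonneg ‖ξ - σ • vb‖)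
  linarith only [b1, b2, b3, b4]

theorem pl_Phi_eq {c κ δ g : ℝ} (hδ : 0 < δ) (w : E × ℝ → ℝ) (x η : E) (t : ℝ) :
    Phi c δ (1 - c) g c 0 w x η t 0 =
      δ * Jd c κ δ w x η t + κ * ‖η‖ + g / 2 * Tp δ w (x - c • η, t) ^ 2 := by
  unfold Phi Jd Reg Gam
  field_simp
  ring

theorem pl_isCompact (R s₁ : ℝ) : IsCompact {Y : E × E × ℝ |
    ‖Y.1‖ ≤ R ∧ |Y.2.2| ≤ R ∧ s₁ ≤ ‖Y.2.1‖ ∧ ‖Y.2.1‖ ≤ 2} := by
  refine ((isCompact_closedBall (0 : E) R).prod ((isCompact_closedBall (0 : E) 2).prod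
    (isCompact_closedBall (0 : ℝ) R))).of_isClosed_subset ?_ ?_
  · refine IsClosed.and ?_ (IsClosed.and ?_ (IsClosed.and ?_ ?_)) <;>
      exact isClosed_le (by fun_prop) (by fun_prop)
  · rintro Y ⟨h1, h2, -, h4⟩
    exact ⟨mem_closedBall_zero_iff.mpr h1, mem_closedBall_zero_iff.mpr h4,
      mem_closedBall_zero_iff.mpr h2⟩

/-- the maximum principle argument with all constants fixed -/
theorem pl_key {c κ δ Θ M R s₁ B L₀ : ℝ} {w : E × ℝ → ℝ} {η₀ : E} (hw : Ent w) (hc0 : 0 < c)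
    (hc1 : c < 1) (hκ : 0 < κ) (hδ : 0 < δ) (hΘ : 0 < Θ) (hM : 0 < M) (hR : 4 ≤ R) (hs : 0 < s₁)
    (hs1 : s₁ ≤ 1) (h1 : 3 * δ * Θ ≤ κ) (h2 : δ * κ ≤ (1 - c) ^ 2 * s₁)
    (h3 : Θ ≤ 4 / R ^ 2 * M ^ 2)
    (h4 : 4 / R ^ 2 * (64 * κ ^ 2 / (1 - c) ^ 2 + 4) + 1024 * Θ / R ^ 2 ≤ 4 * κ ^ 2)
    (hη₀ : ‖η₀‖ = 1) (hL : L₀ ≤ Jd c κ δ w 0 η₀ 0)
    (hK : ∀ (x η : E) (t : ℝ), ‖x‖ ≤ R → |t| ≤ R → s₁ ≤ ‖η‖ → ‖η‖ ≤ 2 →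
      Jd c κ δ w x η t ≤ L₀ + Θ ∧ |Tp δ w (x - c • η, t)| ≤ M ∧
        (L₀ - 3 * Θ ≤ Jd c κ δ w x η t → -B ≤ Sp δ w (x - c • η, t)))
    (hfalse : ∀ V k : ℝ, 0 ≤ V → -B ≤ k →
      (k + V / 2) ^ 2 / (4 * M ^ 2) + 4 * κ ^ 2 ≤ 67 * (4 / R ^ 2) * V → False) :
    ∃ (x η : E) (t : ℝ), ‖x‖ ≤ R ∧ |t| ≤ R ∧ ‖η‖ = s₁ ∧ L₀ - 3 * Θ ≤ Jd c κ δ w x η t := by
  have hc : 0 < 1 - c := by linarith
  have hR0 : 0 < R := by linarith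
  have hm : 0 < δ * Θ := mul_pos hδ hΘ
  have hβ : 0 < 4 / R ^ 2 := by positivity
  have hβR : 4 / R ^ 2 * R ^ 2 = 4 := by field_simp
  have hTp := (hw.csq.flowp hδ).1
  have hTm := (hw.csq.flowm hδ).1
  set g : ℝ := δ * (Θ / (4 * M ^ 2)) with hg
  have hg0 : 0 < g := by positivity
  let Φ : E × E × ℝ → ℝ := fun Y => Phi c δ (1 - c) g c 0 w Y.1 Y.2.1 Y.2.2 0 -
    (κ + 3 * δ * Θ) * ‖Y.2.1‖ -
      (-(δ * Θ * ‖Y.2.1‖ ^ 2 / 2) + δ * Θ * (4 / R ^ 2) * (‖Y.1‖ ^ 2 + Y.2.2 ^ 2))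
  have hΦc : Continuous Φ := by
    simp only [Φ, Phi, Gam]
    fun_prop
  obtain ⟨⟨x, η, t⟩, ⟨hx, ht, hn, hn2⟩, hmax⟩ := (pl_isCompact (E := E) R s₁).exists_isMaxOn
    ⟨(0, η₀, 0), by simp [hη₀, hR0.le, hs1]⟩ hΦc.continuousOn
  dsimp only at hx ht hn hn2
  obtain ⟨hJ, hT, hS⟩ := hK x η t hx ht hn hn2
  set f := Tp δ w (x - c • η, t) with hf
  have hf2 : f ^ 2 ≤ M ^ 2 := by
    rw [← sq_abs]; exact pow_le_pow_left₀ (abs_nonneg _) hT 2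
  have hgM : g * M ^ 2 = δ * Θ / 4 := by rw [hg]; field_simp
  have hgf : g * f ^ 2 ≤ δ * Θ / 4 := hgM ▸ mul_le_mul_of_nonneg_left hf2 hg0.le
  have hstart : Φ (0, η₀, 0) ≤ Φ (x, η, t) := hmax (a := (0, η₀, 0)) (by simp [hη₀, hR0.le, hs1])
  have hmain : 3 * ‖η‖ - ‖η‖ ^ 2 / 2 + 4 / R ^ 2 * (‖x‖ ^ 2 + t ^ 2) ≤
      (Jd c κ δ w x η t - L₀) / Θ + 21 / 8 := by
    simp only [Φ, pl_Phi_eq (κ := κ) hδ, hη₀, norm_zero] at hstart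
    have a1 := mul_le_mul_of_nonneg_left hL hδ.le
    have a2 := mul_nonneg hg0.le (sq_nonneg (Tp δ w (0 - c • η₀, 0)))
    refine le_of_mul_le_mul_left ?_ hm
    have e1 : δ * Θ * ((Jd c κ δ w x η t - L₀) / Θ + 21 / 8) =
        δ * Jd c κ δ w x η t - δ * L₀ + δ * Θ * (21 / 8) := by field_simp
    rw [e1]
    linarith only [hstart, a1, a2, hgf]
  have hpos1 : 0 ≤ 3 * ‖η‖ - ‖η‖ ^ 2 / 2 := by nlinarith only [norm_nonneg η, hn2]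
  have hpos2 : 0 ≤ 4 / R ^ 2 * ‖x‖ ^ 2 := by positivity
  have hpos3 : 0 ≤ 4 / R ^ 2 * t ^ 2 := by positivity
  have hup : (Jd c κ δ w x η t - L₀) / Θ ≤ 1 := by
    rw [div_le_one hΘ]; linarith only [hJ]
  have hlow : L₀ - 3 * Θ ≤ Jd c κ δ w x η t := by
    have : -3 ≤ (Jd c κ δ w x η t - L₀) / Θ := by linarith only [hmain, hpos1, hpos2, hpos3]
    rw [le_div_iff₀ hΘ] at this
    linarith only [this]
  rcases hn.eq_or_lt with hn' | hn'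
  · exact ⟨x, η, t, hx, ht, hn'.symm, hlow⟩
  exfalso
  have hx' : ‖x‖ < R := by
    refine lt_of_le_of_ne hx fun e => ?_
    rw [e] at hmain
    linarith only [hmain, hpos1, hpos3, hup, hβR]
  have ht' : |t| < R := by
    refine lt_of_le_of_ne ht fun e => ?_
    rw [← sq_abs t, e] at hmain
    linarith only [hmain, hpos1, hpos2, hup, hβR]
  have hn2' : ‖η‖ < 2 := by
    refine lt_of_le_of_ne hn2 fun e => ?_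
    rw [e] at hmain
    linarith only [hmain, hpos2, hpos3, hup]
  have hn0 : 0 < ‖η‖ := hs.trans hn'
  have hη : η ≠ 0 := norm_pos_iff.mp hn0
  -- the size of `a = g f`
  have ha : 16 * M ^ 2 * (g * f) ^ 2 ≤ (δ * Θ) ^ 2 := by
    have a1 := mul_le_mul_of_nonneg_left hgf (mul_pos hg0 (pow_pos hM 2)).le
    calc 16 * M ^ 2 * (g * f) ^ 2 = 16 * (g * M ^ 2 * (g * f ^ 2)) := by ring
      _ ≤ 16 * (g * M ^ 2 * (δ * Θ / 4)) := by linarith only [a1]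
      _ = (δ * Θ) ^ 2 := by rw [hgM]; ring
  have haβ : (g * f) ^ 2 ≤ 4 / R ^ 2 * (1 - c) ^ 2 := by
    refine le_of_mul_le_mul_left ?_ (by positivity : 0 < 16 * M ^ 2)
    have a1 : δ * (δ * Θ) * Θ ≤ δ * (δ * Θ) * (4 / R ^ 2 * M ^ 2) :=
      mul_le_mul_of_nonneg_left h3 (by positivity)
    have a2 : δ * (3 * δ * Θ) ≤ δ * κ := mul_le_mul_of_nonneg_left h1 hδ.le
    have a3 : (1 - c) ^ 2 * s₁ ≤ (1 - c) ^ 2 * 1 := mul_le_mul_of_nonneg_left hs1 (by positivity)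
    have a4 : δ * (δ * Θ) ≤ 16 * (1 - c) ^ 2 := by linarith only [sq_nonneg (1 - c), a2, a3, h2]
    have a5 := mul_le_mul_of_nonneg_right a4 (by positivity : 0 ≤ 4 / R ^ 2 * M ^ 2)
    linarith only [ha, a1, a5]
  have ha₁ : 0 < 1 - c + g * f := by
    have a1 : 4 / R ^ 2 ≤ 1 / 4 := by
      rw [div_le_div_iff₀ (by positivity) (by positivity)]
      nlinarith only [hR]
    have a2 : (g * f) ^ 2 ≤ ((1 - c) / 2) ^ 2 := by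
      linarith only [haβ, mul_le_mul_of_nonneg_right a1 (sq_nonneg (1 - c))]
    have a3 := (abs_le_of_sq_le_sq' a2 (by positivity)).1
    linarith only [a3, hc]
  obtain ⟨p, hp⟩ := hw.csq.exists_isVel hδ (x + 0, t)
  obtain ⟨v₁, hv₁⟩ : ∃ v₁ : E, (1 - c + g * f) • v₁ =
      (1 - c) • (p + (2 * (δ * Θ * (4 / R ^ 2))) • x) - ((κ + 3 * δ * Θ) / ‖η‖) • η -
        (-(δ * Θ)) • η := ⟨_, smul_inv_smul₀ ha₁.ne' _⟩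
  obtain ⟨v₂, hv₂⟩ : ∃ v₂ : E, c • v₂ = c • (p + (2 * (δ * Θ * (4 / R ^ 2))) • x) +
      ((κ + 3 * δ * Θ) / ‖η‖) • η + (-(δ * Θ)) • η := ⟨_, smul_inv_smul₀ hc0.ne' _⟩
  have hnhds : ∀ᶠ Z : E × E × ℝ in 𝓝 0, ‖x + Z.1‖ < R ∧ |t + Z.2.2| < R ∧ s₁ < ‖η + Z.2.1‖ ∧
      ‖η + Z.2.1‖ < 2 := by
    refine IsOpen.mem_nhds ?_ (by simpa using ⟨hx', ht', hn', hn2'⟩)
    refine IsOpen.and ?_ (IsOpen.and ?_ (IsOpen.and ?_ ?_)) <;>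
      exact isOpen_lt (by fun_prop) (by fun_prop)
  obtain ⟨k₁, k₂, hk₁, -, -, -, hE⟩ := engineC hw hδ c x η 0 t hη (α₁ := 1 - c) (γ₁ := g) (α₂ := c)
    (γ₂ := 0) (κ' := κ + 3 * δ * Θ) hg0.le le_rfl rfl (by ring) ha₁ hc0 (by positivity) hp _ _
    v₁ v₂ hv₁ hv₂ (2 * (δ * Θ * (4 / R ^ 2)) * t) (2 * (δ * Θ * (4 / R ^ 2)) + δ * Θ / 2)
    (-(δ * Θ * ‖v₂ - v₁‖ ^ 2 / 4) + δ * Θ * (4 / R ^ 2) * (2 * ‖(1 - c) • v₁ + c • v₂‖ ^ 2 + 1))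
    (hnhds.mono fun Z hZ => by
      have a1 : Φ (x + Z.1, η + Z.2.1, t + Z.2.2) ≤ Φ (x, η, t) :=
        hmax (a := (x + Z.1, η + Z.2.1, t + Z.2.2)) ⟨hZ.1.le, hZ.2.1.le, hZ.2.2.1.le, hZ.2.2.2.le⟩
      have a2 := pl_pen hm hβ x η Z.1 Z.2.1 ((1 - c) • v₁ + c • v₂) (v₂ - v₁) t Z.2.2
      simp only [Φ] at a1
      linarith only [a1, a2])
  rw [zero_mul, add_zero] at hE
  exact hfalse _ k₁ (sq_nonneg ‖v₁‖) ((hS hlow).trans hk₁)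
    (pl_alg hc0 hc1 hκ hδ hΘ hM (by linarith only [hR]) hs hs1 hn hn2 hx h1 h2 h3 h4 ha haβ hv₁ hv₂ hE)

/-- `K = {‖x‖, |t| ≤ R, s₁ ≤ ‖η‖ ≤ 2}`; on `K`, `Jd ≤ C₁√R` (`Jd_eq`, `FLe`, `grow_flow`), so wlog
`Θ = U - L₀ ≤ C₁'√R` (replace `U` by a minimum). `f = Tp δ w`, `|f| ≤ M = C₂R√R` at `z₁`,
`γ = Θ/(4M²)`, `β = 4/R²`. Maximise over `K`
`Φ = Phi c δ (1-c) (δγ) c 0 w x η t 0 - (κ + 3δΘ)‖η‖ + δΘ‖η‖²/2 - δΘβ(‖x‖² + t²)`, i.e.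
`Φ/δ = Jd + γf₁²/2 - Θ(3‖η‖ - ‖η‖²/2 + β(‖x‖²+t²))`. Start: `≥ L₀ - 5Θ/2`. On `‖η‖ = 2`, `‖x‖ = R`
or `|t| = R`: `≤ U + Θ/8 - 4Θ`, smaller. At the maximiser `Jd ≥ L₀ - 3Θ`; if `‖η‖ = s₁` done.
Otherwise `engineC`: `κ' = κ + 3δΘ`, `gx = 2δΘβ • x`, `gη = -δΘ • η`, `a₁ = 1 - c + δγf₁`,
`D = -δΘ‖d‖²/4 + δΘβ(2‖v̄‖² + 1)`. With `e = δγf₁/(1-c)`, `φ = κ' - δΘ‖η‖ ∈ [κ, 2κ]`, `V = ‖v₁‖²`:
`d = e • v₁ + (φ/(c(1-c))) • η̂`, `v̄ = (1+ce) • v₁ + (φ/(1-c)) • η̂`, `v̄ - p = gx - δγf₁ • v₁`; so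
`‖d‖² ≥ 8κ² - e²V`, `‖d⊥‖² ≤ e²V`, `‖v̄‖² ≤ 8V + 8κ²/(1-c)²`,
`‖v̄-p‖² ≤ δ²Θ²V/(8M²) + 128δ²Θ²/R²`. Dividing by `δΘ`: `(k₁+V/2)²/(4M²) + 8κ² ≤ e²V +
β(64V + 64κ²/(1-c)² + 4) + 16κe²V/(δΘs₁) + ΘV/M² + 1024Θ/R²`; `e² ≤ δ²Θ²/(16M²(1-c)²)`. For `R`
large, then `δ` small, this is the hypothesis of `pl_real`, with
`k₁ ≥ Sp δ w z₁ ≥ (L₀ - 3Θ - C√R)/(1-c) ≥ -C₃√R` (`Jd_eq`). -/
theorem pl_delta {c κ : ℝ} (hc0 : 0 < c) (hc1 : c < 1) (hκ : 0 < κ) (Λ : ℝ) :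
    ∃ R : ℝ, 1 ≤ R ∧ ∀ s₁ : ℝ, 0 < s₁ → s₁ ≤ 1 → ∃ δ₀ : ℝ, 0 < δ₀ ∧
      ∀ (w : E × ℝ → ℝ) (η₀ : E) (δ L₀ U : ℝ), BMO w → FLe c κ w → Nrm Λ w → ‖η₀‖ = 1 → 0 < δ →
        δ ≤ δ₀ → -Λ ≤ L₀ → L₀ < U → L₀ ≤ Jd c κ δ w 0 η₀ 0 →
        (∀ (x η : E) (t : ℝ), ‖x‖ ≤ R → |t| ≤ R → s₁ ≤ ‖η‖ → ‖η‖ ≤ 2 → Jd c κ δ w x η t ≤ U) →
        ∃ (x η : E) (t : ℝ), ‖x‖ ≤ R ∧ |t| ≤ R ∧ ‖η‖ = s₁ ∧
          L₀ - 3 * (U - L₀) ≤ Jd c κ δ w x η t := by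
  obtain ⟨C, hC, hG⟩ := grow_flow (E := E) Λ
  have hc : 0 < 1 - c := by linarith
  set C₁ : ℝ := 4 * C + 1 + |Λ| with hC₁
  have hC₁0 : 0 < C₁ := by positivity
  obtain ⟨R₀, hR₀⟩ := pl_real (κ := κ) (C₂ := 8 * C) (C₃ := (|Λ| + 3 * C₁ + 4 * C) / (1 - c)) hκ
    (by positivity)
  set N : ℝ := 4 * (64 * κ ^ 2 / (1 - c) ^ 2 + 4) + 1024 * C₁ with hN
  obtain ⟨R, hR4, hRR₀, hR1, hR2⟩ : ∃ R : ℝ, 4 ≤ R ∧ R₀ ≤ R ∧ C₁ / (4 * (8 * C) ^ 2) ≤ √R ∧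
      N / (4 * κ ^ 2) ≤ R := by
    refine ⟨max (max 4 R₀) (max ((C₁ / (4 * (8 * C) ^ 2)) ^ 2) (N / (4 * κ ^ 2))),
      (le_max_left _ _).trans (le_max_left _ _), (le_max_right _ _).trans (le_max_left _ _),
      Real.le_sqrt_of_sq_le ((le_max_left _ _).trans (le_max_right _ _)),
      (le_max_right _ _).trans (le_max_right _ _)⟩
  have hR0 : 0 < R := by linarith
  have hsq : √R * √R = R := Real.mul_self_sqrt hR0.le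
  have hs1 : 1 ≤ √R := Real.one_le_sqrt.mpr (by linarith)
  have hsR : √R ≤ R := by nlinarith
  have h4R : √(4 * R) = 2 * √R := by
    rw [Real.sqrt_mul (by norm_num), show (4 : ℝ) = 2 ^ 2 by norm_num, Real.sqrt_sq (by norm_num)]
  refine ⟨R, by linarith, fun s₁ hs hs' => ⟨min (1 / 2) (min (κ / (3 * (C₁ * √R)))
    ((1 - c) ^ 2 * s₁ / κ)), by positivity, ?_⟩⟩
  intro w η₀ δ L₀ U hw hF hNrm hη₀ hδ hδ₀ hΛ hLU hL hU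
  have hδ1 : δ ≤ 1 / 2 := hδ₀.trans (min_le_left _ _)
  have hδ2 : δ ≤ κ / (3 * (C₁ * √R)) := hδ₀.trans ((min_le_right _ _).trans (min_le_left _ _))
  have hδ3 : δ ≤ (1 - c) ^ 2 * s₁ / κ := hδ₀.trans ((min_le_right _ _).trans (min_le_right _ _))
  rw [le_div_iff₀ (by positivity)] at hδ2 hδ3
  have hbd : ∀ (y : E) (t : ℝ), ‖y‖ ≤ 4 * R → |t| ≤ R →
      Sp δ w (y, t) ≤ 2 * C * √R ∧ Sm δ w (y, t) ≤ 2 * C * √R ∧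
        |Tp δ w (y, t)| ≤ 8 * C * (R * √R) := by
    intro y t hy ht
    obtain ⟨a1, a2, a3, -⟩ := hG w hw.cls hNrm (y, t) (4 * R) (by linarith)
      (norm_prod_le_iff.mpr ⟨hy, by rw [Real.norm_eq_abs]; linarith⟩) δ hδ hδ1
    rw [h4R] at a1 a2 a3
    exact ⟨by linarith, by linarith, by linarith⟩
  have hJd : ∀ (x η : E) (t : ℝ), ‖x‖ ≤ R → |t| ≤ R → ‖η‖ ≤ 2 →
      Jd c κ δ w x η t ≤ (1 - c) * Sp δ w (x - c • η, t) + (c + 1) * (2 * C * √R) ∧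
      Sp δ w (x - c • η, t) ≤ 2 * C * √R ∧ |Tp δ w (x - c • η, t)| ≤ 8 * C * (R * √R) := by
    intro x η t hx ht hη
    have n1 : ‖x - c • η‖ ≤ 4 * R := by
      refine (norm_sub_le _ _).trans ?_
      rw [norm_smul, Real.norm_of_nonneg hc0.le]
      nlinarith [norm_nonneg η]
    have n2 : ‖x + (1 - c) • η‖ ≤ 4 * R := by
      refine (norm_add_le _ _).trans ?_
      rw [norm_smul, Real.norm_of_nonneg hc.le]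
      nlinarith [norm_nonneg η]
    obtain ⟨a1, -, a2⟩ := hbd _ t n1 ht
    obtain ⟨a3, -, -⟩ := hbd _ t n2 ht
    obtain ⟨-, a4, -⟩ := hbd x t (by linarith) ht
    refine ⟨?_, a1, a2⟩
    rw [Jd_eq hδ]
    have a5 : (Del c w x η t - κ * ‖η‖) / δ ≤ 0 :=
      div_nonpos_of_nonpos_of_nonneg (sub_nonpos.mpr (hF x η t)) hδ.le
    have a6 := mul_le_mul_of_nonneg_left a3 hc0.le
    linarith
  have hJd' : ∀ (x η : E) (t : ℝ), ‖x‖ ≤ R → |t| ≤ R → ‖η‖ ≤ 2 →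
      Jd c κ δ w x η t ≤ 4 * C * √R := by
    intro x η t hx ht hη
    obtain ⟨a1, a2, -⟩ := hJd x η t hx ht hη
    have a3 := mul_le_mul_of_nonneg_left a2 hc.le
    linarith
  have hΛ' : Λ ≤ |Λ| * √R := (le_abs_self Λ).trans (le_mul_of_one_le_right (abs_nonneg _) hs1)
  obtain ⟨Θ, hΘ, hΘU, hΘC, hΘJ⟩ : ∃ Θ : ℝ, 0 < Θ ∧ Θ ≤ U - L₀ ∧ Θ ≤ C₁ * √R ∧
      ∀ (x η : E) (t : ℝ), ‖x‖ ≤ R → |t| ≤ R → s₁ ≤ ‖η‖ → ‖η‖ ≤ 2 →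
        Jd c κ δ w x η t ≤ L₀ + Θ := by
    have a1 := hJd' 0 η₀ 0 (by simp [hR0.le]) (by simp [hR0.le]) (by rw [hη₀]; norm_num)
    refine ⟨min U (4 * C * √R + 1) - L₀, sub_pos.mpr (lt_min hLU (by linarith)),
      sub_le_sub_right (min_le_left _ _) _, ?_, fun x η t hx ht hn hn2 => ?_⟩
    · have := min_le_right U (4 * C * √R + 1)
      rw [hC₁]
      linarith
    · rw [add_sub_cancel]
      exact le_min (hU x η t hx ht hn hn2) ((hJd' x η t hx ht hn2).trans (by linarith))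
  have h3 : Θ ≤ 4 / R ^ 2 * (8 * C * (R * √R)) ^ 2 := by
    have e : 4 / R ^ 2 * (8 * C * (R * √R)) ^ 2 = √R * (4 * (8 * C) ^ 2) * √R := by
      field_simp
    rw [div_le_iff₀ (by positivity)] at hR1
    rw [e]
    exact hΘC.trans (mul_le_mul_of_nonneg_right hR1 (by positivity))
  have h4 : 4 / R ^ 2 * (64 * κ ^ 2 / (1 - c) ^ 2 + 4) + 1024 * Θ / R ^ 2 ≤ 4 * κ ^ 2 := by
    have e : 4 / R ^ 2 * (64 * κ ^ 2 / (1 - c) ^ 2 + 4) + 1024 * Θ / R ^ 2 =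
        (4 * (64 * κ ^ 2 / (1 - c) ^ 2 + 4) + 1024 * Θ) / R ^ 2 := by ring
    rw [e, div_le_iff₀ (by positivity)]
    rw [div_le_iff₀ (by positivity)] at hR2
    have a1 : 0 ≤ 4 * (64 * κ ^ 2 / (1 - c) ^ 2 + 4) := by positivity
    have a2 := mul_le_mul_of_nonneg_right hR2 hR0.le
    have a3 := mul_le_mul_of_nonneg_left hsR hC₁0.le
    have a4 := le_mul_of_one_le_right a1 (by linarith only [hR4] : 1 ≤ R)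
    rw [hN] at a2
    linarith only [a2, a3, a4, hΘC]
  have h1 : 3 * δ * Θ ≤ κ := by
    linarith only [hδ2, mul_le_mul_of_nonneg_left hΘC hδ.le]
  obtain ⟨x, η, t, hx, ht, hn, hJ⟩ := pl_key (M := 8 * C * (R * √R))
    (B := (|Λ| + 3 * C₁ + 4 * C) / (1 - c) * √R) hw.ent hc0 hc1 hκ hδ hΘ (by positivity) hR4 hs hs'
    h1 hδ3 h3 h4 hη₀ hL (fun x η t hx ht hn hn2 => ⟨hΘJ x η t hx ht hn hn2,
      (hJd x η t hx ht hn2).2.2, fun h => by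
        have a1 := (hJd x η t hx ht hn2).1
        have a2 : c * (2 * C * √R) ≤ 1 * (2 * C * √R) :=
          mul_le_mul_of_nonneg_right hc1.le (by positivity)
        rw [div_mul_eq_mul_div, ← neg_div, div_le_iff₀ hc]
        linarith only [a1, a2, h, hΛ, hΛ', hΘC]⟩) fun V k hV hk h => hR₀ R V k hRR₀ hV hk h
  exact ⟨x, η, t, hx, ht, hn, by linarith only [hJ, hΘU]⟩

end R94
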