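import Crest.Agent.R94.PL
import Crest.Agent.R94.CompB

/-!
# R94/PLim: propagation of non-singular contacts; existence of extremal functions
-/

set_option autoImplicit false
set_option linter.unusedSectionVars false
set_option linter.unusedVariables false

open Set Filter Topology Metric
open scoped InnerProductSpace

namespace R94

variable {E : Type} [NormedAddCommGroup E] [InnerProductSpace ℝ E] [FiniteDimensional ℝ E]

theorem plim_lim {c κ Λ R a b L' : ℝ} (hc0 : 0 < c) (hc1 : c < 1) {w : E × ℝ → ℝ} (hw : BMO w)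
    (hF : FLe c κ w) (hN : Nrm Λ w) {x η : ℕ → E} {t δ L : ℕ → ℝ} (hx : ∀ n, ‖x n‖ ≤ R)
    (ht : ∀ n, |t n| ≤ R) (ha : ∀ n, a ≤ ‖η n‖) (hb : ∀ n, ‖η n‖ ≤ b) (hδ0 : ∀ n, 0 < δ n)
    (hδ : ∀ n, δ n ≤ 1 / ((n : ℝ) + 1)) (hL : Tendsto L atTop (𝓝 L'))
    (hJ : ∀ n, L n ≤ Jd c κ (δ n) w (x n) (η n) (t n)) :
    ∃ (x η : E) (t : ℝ), ‖x‖ ≤ R ∧ |t| ≤ R ∧ a ≤ ‖η‖ ∧ ‖η‖ ≤ b ∧ JGe c κ w x η t L' := by
  let U := hyperfilter ℕ
  have hU : (U : Filter ℕ) ≤ atTop := Nat.hyperfilter_le_atTop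
  obtain ⟨x', h1, tx⟩ := exists_ulim U (Eventually.of_forall hx)
  obtain ⟨η', h2, tη⟩ := exists_ulim U (Eventually.of_forall hb)
  obtain ⟨t', h3, tt⟩ := exists_ulim U (x := t) (Eventually.of_forall ht)
  refine ⟨x', η', t', h1, h3, ge_of_tendsto' tη.norm ha, h2, ?_⟩
  have hv : Continuous w := hw.ent.csq.1
  refine JGe.of_tendsto (W := fun _ => w) hc0.le hc1.le (fun _ => hw) (fun _ => hN) (fun _ => hF)
    ?_ hv tx tη tt (hL.mono_left hU) hδ0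
    ((squeeze_zero (fun n => (hδ0 n).le) hδ tendsto_one_div_add_atTop_nhds_zero_nat).mono_left hU)
    (Eventually.of_forall hJ)
  exact fun u hu y => ⟨univ, univ_mem, Eventually.of_forall fun _ _ _ => refl_mem_uniformity hu⟩

/-- `R` from `pl_delta`. Dini: for `d > 0` there is `δ₁` with `Jd δ ≤ U + d` on the compact set `K`
for `δ ≤ δ₁` (otherwise `exists_ulim` and `JGe.of_tendsto` for the constant sequence `w` give a
configuration in `K` with `JGe (U + d)`). `L₀ ≤ U` by the hypothesis at the start. Apply `pl_delta`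
with `U + 1/(n+1)` and `δₙ ≤ 1/(n+1)`, then `exists_ulim`, `JGe.of_tendsto` again. -/
theorem pl {c κ : ℝ} (hc0 : 0 < c) (hc1 : c < 1) (hκ : 0 < κ) (Λ : ℝ) :
    ∃ R : ℝ, 1 ≤ R ∧ ∀ (w : E × ℝ → ℝ) (η₀ : E) (L₀ U : ℝ), BMO w → FLe c κ w → Nrm Λ w →
      ‖η₀‖ = 1 → -Λ ≤ L₀ → JGe c κ w 0 η₀ 0 L₀ →
      (∀ (x η : E) (t L : ℝ), ‖x‖ ≤ R → |t| ≤ R → η ≠ 0 → ‖η‖ ≤ 2 → JGe c κ w x η t L → L ≤ U) →
      ∀ s₁ : ℝ, 0 < s₁ → s₁ ≤ 1 → ∃ (x η : E) (t : ℝ), ‖x‖ ≤ R ∧ |t| ≤ R ∧ ‖η‖ = s₁ ∧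
        JGe c κ w x η t (L₀ - 3 * (U - L₀)) := by
  obtain ⟨R, hR, H⟩ := pl_delta (E := E) hc0 hc1 hκ Λ
  refine ⟨R, hR, fun w η₀ L₀ U hw hF hN hη hL hJ hU s₁ hs0 hs1 => ?_⟩
  obtain ⟨δ₀, hδ₀, H⟩ := H s₁ hs0 hs1
  have hLU : L₀ ≤ U := hU 0 η₀ 0 L₀ (by rw [norm_zero]; linarith) (by rw [abs_zero]; linarith)
    (by rw [← norm_ne_zero_iff, hη]; exact one_ne_zero) (by linarith) hJ
  have dini : ∀ d : ℝ, 0 < d → ∃ δ₁ : ℝ, 0 < δ₁ ∧ ∀ δ : ℝ, 0 < δ → δ ≤ δ₁ →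
      ∀ (x η : E) (t : ℝ), ‖x‖ ≤ R → |t| ≤ R → s₁ ≤ ‖η‖ → ‖η‖ ≤ 2 → Jd c κ δ w x η t ≤ U + d := by
    intro d hd
    by_contra hcon
    push Not at hcon
    choose δ h0 h1 x η t h2 h3 h4 h5 h6 using fun n : ℕ => hcon (1 / ((n : ℝ) + 1)) (by positivity)
    obtain ⟨x', η', t', i1, i2, i3, i4, i5⟩ := plim_lim hc0 hc1 hw hF hN h2 h3 h4 h5 h0 h1
      (tendsto_const_nhds (x := U + d)) fun n => (h6 n).le
    have := hU x' η' t' _ i1 i2 (norm_pos_iff.1 (hs0.trans_le i3)) i4 i5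
    linarith
  choose δ₁ h0 h1 using fun n : ℕ => dini (1 / ((n : ℝ) + 1)) (by positivity)
  have hp : ∀ n : ℕ, 0 < min (min δ₀ (δ₁ n)) (1 / ((n : ℝ) + 1)) := fun n =>
    lt_min (lt_min hδ₀ (h0 n)) (by positivity)
  choose x η t h2 h3 h4 h5 using fun n : ℕ => H w η₀ _ L₀ (U + 1 / ((n : ℝ) + 1)) hw hF hN hη (hp n)
    ((min_le_left _ _).trans (min_le_left _ _)) hL
    (lt_of_le_of_lt hLU (lt_add_of_pos_right _ (by positivity))) (hJ _ (hp n))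
    (h1 n _ (hp n) ((min_le_left _ _).trans (min_le_right _ _)))
  have hlim : Tendsto (fun n : ℕ => L₀ - 3 * (U + 1 / ((n : ℝ) + 1) - L₀)) atTop
      (𝓝 (L₀ - 3 * (U - L₀))) := by
    simpa using (((tendsto_one_div_add_atTop_nhds_zero_nat (𝕜 := ℝ)).const_add U).sub_const
      L₀).const_mul 3 |>.const_sub L₀
  obtain ⟨x', η', t', i1, i2, i3, i4, i5⟩ := plim_lim hc0 hc1 hw hF hN h2 h3
    (fun n => (h4 n).ge) (fun n => (h4 n).le) hp (fun n => min_le_right _ _) hlim h5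
  exact ⟨x', η', t', i1, i2, le_antisymm i4 i3, i5⟩

end R94
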