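import Crest.Agent.R94.Hold

/-!
# R94/Perron: a solution between a subsolution and a Hölder supersolution
-/

set_option autoImplicit false
set_option linter.unusedSectionVars false
set_option linter.unusedVariables false

open Set Filter Topology Metric
open scoped InnerProductSpace

namespace R94

variable {E : Type} [NormedAddCommGroup E] [InnerProductSpace ℝ E] [FiniteDimensional ℝ E]

/-- increment of the quadratic -/
theorem perron_quad_incr (X Y Z : E × ℝ) (q : E) (k r A ε : ℝ) :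
    (k + ⟪q, (Y + Z).1 - X.1⟫_ℝ + r * ((Y + Z).2 - X.2)
      - A * ‖((Y + Z).1 - X.1) - ((Y + Z).2 - X.2) • q‖ ^ 2 + ε * ((Y + Z).2 - X.2) ^ 2) =
    (k + ⟪q, Y.1 - X.1⟫_ℝ + r * (Y.2 - X.2)
      - A * ‖(Y.1 - X.1) - (Y.2 - X.2) • q‖ ^ 2 + ε * (Y.2 - X.2) ^ 2) +
      ⟪q, Z.1⟫_ℝ + r * Z.2 - A * (2 * ⟪(Y.1 - X.1) - (Y.2 - X.2) • q, Z.1 - Z.2 • q⟫_ℝ +
        ‖Z.1 - Z.2 • q‖ ^ 2) + ε * (2 * (Y.2 - X.2) * Z.2 + Z.2 ^ 2) := by
  have e1 : ((Y + Z).1 - X.1) - ((Y + Z).2 - X.2) • q =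
      ((Y.1 - X.1) - (Y.2 - X.2) • q) + (Z.1 - Z.2 • q) := by
    simp only [Prod.fst_add, Prod.snd_add]; module
  have e2 : (Y + Z).1 - X.1 = (Y.1 - X.1) + Z.1 := by simp only [Prod.fst_add]; abel
  rw [e1, norm_add_sq_real, e2, inner_add_right]
  simp only [Prod.snd_add]
  ring

theorem perron_line (v : E) (s : ℝ) :
    Tendsto (fun σ : ℝ => ((σ • v, σ * s) : E × ℝ)) (𝓝 0) (𝓝 0) := by
  have : Continuous fun σ : ℝ => ((σ • v, σ * s) : E × ℝ) := by fun_prop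
  exact this.tendsto' 0 0 (by simp)

/-- near `X` the function below is a subsolution: at `Y` near `X` its spatial gradient is
`q' = q - 2A • ((Y.1 - X.1) - (Y.2 - X.2) • q)`; if it were touched from above at `Y` with data
`(q'', r'', A'', ε'')`, first-order terms force `q'' = q'` and the matching `r''`; test
`Z = (σ • q', σ)`: `-A‖q' - q‖²σ² + εσ² ≤ -ε''σ²`, impossible when `|A| ‖q' - q‖² < ε`. -/
theorem subAt_quad (X : E × ℝ) (q : E) (k r A ε : ℝ) (hε : 0 < ε) :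
    ∀ᶠ Y in 𝓝 X, SubAt (fun Y : E × ℝ => k + ⟪q, Y.1 - X.1⟫_ℝ + r * (Y.2 - X.2)
      - A * ‖(Y.1 - X.1) - (Y.2 - X.2) • q‖ ^ 2 + ε * (Y.2 - X.2) ^ 2) Y := by
  have hc : Continuous fun Y : E × ℝ => A * (4 * A ^ 2 * ‖(Y.1 - X.1) - (Y.2 - X.2) • q‖ ^ 2) := by
    fun_prop
  have h0 : ∀ᶠ Y : E × ℝ in 𝓝 X, A * (4 * A ^ 2 * ‖(Y.1 - X.1) - (Y.2 - X.2) • q‖ ^ 2) < ε :=
    (hc.tendsto X).eventually (gt_mem_nhds (by simpa using hε))
  filter_upwards [h0] with Y hY q' r' A' ε' hε' H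
  simp only [perron_quad_incr X Y] at H
  generalize hu : (Y.1 - X.1) - (Y.2 - X.2) • q = u at H hY
  generalize k + ⟪q, Y.1 - X.1⟫_ℝ + r * (Y.2 - X.2) - A * ‖u‖ ^ 2 + ε * (Y.2 - X.2) ^ 2 = φ at H
  -- first order: `q' = q - 2 A u`
  have hq : q' = q - (2 * A) • u := by
    by_contra hne
    have hv : 0 < ‖q - (2 * A) • u - q'‖ ^ 2 := by
      have : q - (2 * A) • u - q' ≠ 0 := fun e => hne (sub_eq_zero.1 e).symm
      positivity
    have h1 := (perron_line (q - (2 * A) • u - q') 0).eventually H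
    have h2 : ∀ᶠ σ : ℝ in 𝓝 0, (A + A') * σ < 1 := by
      have : Continuous fun σ : ℝ => (A + A') * σ := by fun_prop
      exact (this.tendsto 0).eventually (gt_mem_nhds (by simp))
    obtain ⟨σ, ⟨h3, h4⟩, h5⟩ := (((h1.and h2).filter_mono nhdsWithin_le_nhds).and
      (self_mem_nhdsWithin (s := Ioi (0 : ℝ)))).exists
    have h5' : 0 < σ := h5
    have e : ‖q - (2 * A) • u - q'‖ ^ 2 = ⟪q, q - (2 * A) • u - q'⟫_ℝ -
        2 * A * ⟪u, q - (2 * A) • u - q'⟫_ℝ - ⟪q', q - (2 * A) • u - q'⟫_ℝ := by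
      rw [← real_inner_self_eq_norm_sq]
      nth_rewrite 1 [inner_sub_left, inner_sub_left, real_inner_smul_left]
      rfl
    generalize q - (2 * A) • u - q' = v at *
    simp only [mul_zero, zero_smul, sub_zero, real_inner_smul_right, norm_smul, mul_pow,
      Real.norm_eq_abs, sq_abs] at h3
    have h6 : σ * ‖v‖ ^ 2 ≤ (A + A') * σ * (σ * ‖v‖ ^ 2) := by rw [e] at *; nlinarith
    have h7 : 0 < σ * ‖v‖ ^ 2 := by positivity
    nlinarith
  have h1 := (perron_line q' 1).eventually H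
  have h2 := (perron_line (-q') (-1)).eventually H
  obtain ⟨σ, ⟨h3, h4⟩, h5⟩ := (((h1.and h2).filter_mono nhdsWithin_le_nhds).and
    (self_mem_nhdsWithin (s := Ioi (0 : ℝ)))).exists
  have h5' : 0 < σ := h5
  have e1 : σ • q' - (σ * 1) • q' = 0 := by module
  have e2 : σ • -q' - (σ * -1) • q' = 0 := by module
  have e3 : σ • q' - (σ * 1) • q = (-(2 * A * σ)) • u := by rw [hq]; module
  have e4 : σ • -q' - (σ * -1) • q = (2 * A * σ) • u := by rw [hq]; module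
  simp only [e1, e2, e3, e4, norm_zero, real_inner_smul_right, inner_neg_right, norm_smul, mul_pow,
    Real.norm_eq_abs, sq_abs] at h3 h4
  have h6 : 0 < σ ^ 2 := by positivity
  have h7 := mul_lt_mul_of_pos_right hY h6
  nlinarith

theorem perron_add_const {w : E × ℝ → ℝ} {X : E × ℝ} (hw : SubAt w X) (k : ℝ) :
    SubAt (fun Y => w Y + k) X := by
  intro q r A ε hε H
  refine hw q r A ε hε (H.mono fun Z hZ => ?_)
  simp only at hZ
  linarith

/-- the dilation argument -/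
theorem perron_shift {B v : E × ℝ → ℝ} {L r' : ℝ} (hL0 : 0 ≤ L)
    (hL : HolOn (1 / 4) L (ball 0 1) B) (hv : IsSub (ball 0 1) v)
    (hvB : ∀ Y ∈ ball (0 : E × ℝ) 1, v Y ≤ B Y) (hr' : r' < 1) {X X' : E × ℝ} (hX : ‖X‖ ≤ r')
    (hX' : ‖X - X'‖ < 1 - r') :
    ∃ v' : E × ℝ → ℝ, IsSub (ball 0 1) v' ∧ (∀ Y ∈ ball (0 : E × ℝ) 1, v' Y ≤ B Y) ∧
      v' X = v X' - L * (4 * (‖X - X'‖ / (1 - r'))) ^ (1 / 4 : ℝ) := by
  have hr1 : 0 < 1 - r' := by linarith
  have hr0 : 0 ≤ r' := (norm_nonneg _).trans hX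
  obtain ⟨κ, hκ⟩ : ∃ κ, κ = ‖X - X'‖ / (1 - r') := ⟨_, rfl⟩
  have hκ0 : 0 ≤ κ := by rw [hκ]; positivity
  have hκ1 : κ < 1 := by rw [hκ, div_lt_one hr1]; exact hX'
  have hρ : ‖X - X'‖ = κ * (1 - r') := by rw [hκ]; field_simp
  rw [← hκ]
  obtain ⟨k, hk⟩ : ∃ k, k = 1 - κ := ⟨_, rfl⟩
  have hk0 : 0 < k := by linarith
  have hk1 : k ≤ 1 := by linarith
  have hX1 : ‖X.1‖ ≤ r' := (norm_fst_le X).trans hX
  have hX2 : |X.2| ≤ r' := (norm_snd_le X).trans hX
  have hd1 : ‖X.1 - X'.1‖ ≤ κ * (1 - r') := hρ ▸ norm_fst_le (X - X')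
  have hd2 : |X.2 - X'.2| ≤ κ * (1 - r') := hρ ▸ norm_snd_le (X - X')
  obtain ⟨z, hz⟩ : ∃ z, z = X'.1 - k • X.1 := ⟨_, rfl⟩
  obtain ⟨s, hs⟩ : ∃ s, s = X'.2 - k ^ 2 * X.2 := ⟨_, rfl⟩
  have hz1 : ‖z‖ ≤ κ := by
    have e : z = -(X.1 - X'.1) + κ • X.1 := by rw [hz, hk]; module
    rw [e]
    refine (norm_add_le _ _).trans ?_
    rw [norm_neg, norm_smul, Real.norm_of_nonneg hκ0]
    nlinarith
  have hk2 : 0 ≤ 1 - k ^ 2 := by nlinarith
  have hk3 : κ ≤ 1 - k ^ 2 := by nlinarith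
  have hk4 : 1 - k ^ 2 ≤ 2 * κ := by nlinarith
  have hs1 : |s| ≤ 1 - k ^ 2 := by
    have e : s = -(X.2 - X'.2) + (1 - k ^ 2) * X.2 := by rw [hs]; ring
    rw [e]
    refine (abs_add_le _ _).trans ?_
    rw [abs_neg, abs_mul, abs_of_nonneg hk2]
    nlinarith
  have hpt : ∀ Y : E × ℝ, pt (z, s) 0 k (k ^ 2) Y = (z + k • Y.1, s + k ^ 2 * Y.2) := by
    intro Y; simp [pt]
  have hmem : ∀ Y ∈ ball (0 : E × ℝ) 1, pt (z, s) 0 k (k ^ 2) Y ∈ ball (0 : E × ℝ) 1 := by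
    intro Y hY
    rw [mem_ball_zero_iff] at hY ⊢
    have h1 : ‖Y.1‖ < 1 := (norm_fst_le Y).trans_lt hY
    have h2 : |Y.2| < 1 := (norm_snd_le Y).trans_lt hY
    rw [hpt, Prod.norm_mk, max_lt_iff]
    constructor
    · refine (norm_add_le _ _).trans_lt ?_
      rw [norm_smul, Real.norm_of_nonneg hk0.le]
      nlinarith
    · refine (abs_add_le _ _).trans_lt ?_
      rw [abs_mul, abs_of_nonneg (sq_nonneg k)]
      have : 0 < k ^ 2 := by positivity
      nlinarith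
  have hnear : ∀ Y ∈ ball (0 : E × ℝ) 1, ‖pt (z, s) 0 k (k ^ 2) Y - Y‖ ≤ 4 * κ := by
    intro Y hY
    rw [mem_ball_zero_iff] at hY
    have h1 : ‖Y.1‖ < 1 := (norm_fst_le Y).trans_lt hY
    have h2 : |Y.2| < 1 := (norm_snd_le Y).trans_lt hY
    rw [hpt, Prod.norm_def, max_le_iff]
    constructor
    · have e : ((z + k • Y.1, s + k ^ 2 * Y.2) - Y).1 = z + (-κ) • Y.1 := by
        simp only [Prod.fst_sub]; rw [hk]; module
      rw [e]
      refine (norm_add_le _ _).trans ?_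
      rw [norm_smul, norm_neg, Real.norm_of_nonneg hκ0]
      nlinarith
    · have e : ((z + k • Y.1, s + k ^ 2 * Y.2) - Y).2 = s + -((1 - k ^ 2) * Y.2) := by
        simp only [Prod.snd_sub]; ring
      rw [e]
      refine (abs_add_le _ _).trans ?_
      rw [abs_neg, abs_mul, abs_of_nonneg hk2]
      nlinarith
  have hsym : ∀ Y : E × ℝ, sym (z, s) 0 0 k (k ^ 2) v Y = v (pt (z, s) 0 k (k ^ 2) Y) - v (z, s) := by
    intro Y
    simp only [sym, inner_zero_left, norm_zero]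
    field_simp
    ring
  refine ⟨fun Y => sym (z, s) 0 0 k (k ^ 2) v Y + (v (z, s) - L * (4 * κ) ^ (1 / 4 : ℝ)),
    ((hv.sym hk0 (by positivity)).mono hmem).add_const _, fun Y hY => ?_, ?_⟩
  · have h1 := hvB _ (hmem Y hY)
    have h2 := (le_abs_self _).trans (hL _ (hmem Y hY) Y hY)
    have h3 : L * ‖pt (z, s) 0 k (k ^ 2) Y - Y‖ ^ (1 / 4 : ℝ) ≤ L * (4 * κ) ^ (1 / 4 : ℝ) :=
      mul_le_mul_of_nonneg_left (Real.rpow_le_rpow (norm_nonneg _) (hnear Y hY) (by norm_num)) hL0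
    simp only [hsym]
    linarith
  · have e : pt (z, s) 0 k (k ^ 2) X = X' := by
      rw [hpt, hz, hs]; ext <;> simp
    simp only [hsym, e]
    ring

/-- `U X = sSup {v X | IsSub (ball 0 1) v, v ≤ B on ball 0 1}` (contains `A`; bounded by `B X`).
Wlog `L ≥ 0`. **Regularity:** let `X, X' ∈ ball 0 r'`, `r' < 1`, `ρ = ‖X - X'‖ < 1 - r'`,
`k = 1 - ρ/(1-r') ∈ (0,1]`, `m Y = (k • Y.1 + z, k² Y.2 + s)` with `z = X'.1 - k • X.1`,
`s = X'.2 - k² X.2`, i.e. `m = pt (z,s) 0 k k²`. Then `‖z‖ ≤ 1 - k`, `|s| ≤ 1 - k²`, so `m` maps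
`ball 0 1` into itself, `m X = X'`, `‖m Y - Y‖ ≤ 4(1-k)`. For `v` in the family,
`v ∘ m - L (4(1-k))^(1/4) = sym (z,s) 0 0 k k² v + const` is in the family (`IsSub.sym`,
`add_const`, Hölder bound of `B`). Hence `U X' - U X ≤ L (4ρ/(1-r'))^(1/4)`: `U` is continuous on
the ball and Hölder on `ball 0 (1/2)` (far points: `A ≤ U ≤ B`, bounded on `closedBall 0 (1/2)`).
**Sub:** `subAt_of_approx`. **Super:** if `U` is touched from below at `X` with `(q,r,A₀,ε)`: if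
`U X = B X` then `B` is touched from below, contradiction. Otherwise let `φ` be the quadratic of
`subAt_quad` with `k = U X`, `A = |A₀| + 1`, `ε/2`; `U - φ ≥ m‖Y - X‖²` near `X`. For small `r₀`, `δ'`
let `v = max U (φ + δ')` on `ball X r₀`, `v = U` elsewhere (`φ + δ' < U` on `r₀/2 ≤ ‖Y-X‖ < r₀`,
`φ + δ' ≤ B` on the ball): continuous, sub (`SubAt.of_touch`, `congr`), `≤ B`, `v X > U X`. -/
theorem perron {A B : E × ℝ → ℝ} {L : ℝ} (hA : IsSub (ball 0 1) A) (hB : IsSuper (ball 0 1) B)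
    (hAB : ∀ X ∈ ball (0 : E × ℝ) 1, A X ≤ B X) (hL : HolOn (1 / 4) L (ball 0 1) B) :
    ∃ U : E × ℝ → ℝ, IsSol (ball 0 1) U ∧ (∀ X ∈ ball (0 : E × ℝ) 1, A X ≤ U X ∧ U X ≤ B X) ∧
      ∃ L' : ℝ, HolOn (1 / 4) L' (ball 0 (1 / 2)) U := by
  classical
  have hL' : HolOn (1 / 4) |L| (ball 0 1) B := fun X hX X' hX' =>
    (hL X hX X' hX').trans (mul_le_mul_of_nonneg_right (le_abs_self L) (by positivity))
  have hL0 := abs_nonneg L
  generalize |L| = L₀ at hL' hL0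
  let F : Set (E × ℝ → ℝ) := {v | IsSub (ball 0 1) v ∧ ∀ Y ∈ ball (0 : E × ℝ) 1, v Y ≤ B Y}
  obtain ⟨U, hU⟩ : ∃ U : E × ℝ → ℝ, U = fun X => sSup ((fun v => v X) '' F) := ⟨_, rfl⟩
  have hAF : A ∈ F := ⟨hA, hAB⟩
  have hle : ∀ v ∈ F, ∀ X ∈ ball (0 : E × ℝ) 1, v X ≤ U X := by
    intro v hv X hX
    rw [hU]
    exact le_csSup ⟨B X, by rintro _ ⟨v', hv', rfl⟩; exact hv'.2 X hX⟩ ⟨v, hv, rfl⟩
  have hge : ∀ (X : E × ℝ) (M : ℝ), (∀ v ∈ F, v X ≤ M) → U X ≤ M := by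
    intro X M h
    rw [hU]
    exact csSup_le ⟨_, A, hAF, rfl⟩ (by rintro _ ⟨v', hv', rfl⟩; exact h v' hv')
  have hUB : ∀ X ∈ ball (0 : E × ℝ) 1, U X ≤ B X := fun X hX => hge X _ fun v hv => hv.2 X hX
  have hreg0 : ∀ r' < (1 : ℝ), ∀ X X' : E × ℝ, ‖X‖ ≤ r' → ‖X - X'‖ < 1 - r' →
      U X' ≤ U X + L₀ * (4 * (‖X - X'‖ / (1 - r'))) ^ (1 / 4 : ℝ) := by
    intro r' hr' X X' hX hX'
    refine hge _ _ fun v hv => ?_
    obtain ⟨v', h1, h2, h3⟩ := perron_shift hL0 hL' hv.1 hv.2 hr' hX hX'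
    have := hle v' ⟨h1, h2⟩ X (mem_ball_zero_iff.2 (hX.trans_lt hr'))
    linarith
  have hreg : ∀ r' < (1 : ℝ), ∀ X X' : E × ℝ, ‖X‖ ≤ r' → ‖X'‖ ≤ r' → ‖X - X'‖ < 1 - r' →
      |U X - U X'| ≤ L₀ * (4 * (‖X - X'‖ / (1 - r'))) ^ (1 / 4 : ℝ) := by
    intro r' hr' X X' hX hX' h
    have h1 := hreg0 r' hr' X X' hX h
    have h2 := hreg0 r' hr' X' X hX' (by rwa [norm_sub_rev])
    rw [norm_sub_rev] at h2
    rw [abs_le]
    constructor <;> linarith
  have hcont : ∀ X ∈ ball (0 : E × ℝ) 1, ContinuousAt U X := by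
    intro X hX
    rw [mem_ball_zero_iff] at hX
    obtain ⟨r', h1, h2⟩ := exists_between hX
    refine tendsto_iff_dist_tendsto_zero.2 (squeeze_zero' (Eventually.of_forall
      fun _ => dist_nonneg) (g := fun Y => L₀ * (4 * (‖Y - X‖ / (1 - r'))) ^ (1 / 4 : ℝ)) ?_ ?_)
    · have c1 : Continuous fun Y : E × ℝ => ‖Y - X‖ := by fun_prop
      filter_upwards [(continuous_norm.tendsto X).eventually (gt_mem_nhds h1),
        (c1.tendsto X).eventually (gt_mem_nhds (show ‖X - X‖ < 1 - r' by simpa using h2))]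
        with Y a1 a2
      exact hreg r' h2 Y X a1.le h1.le a2
    · have c1 : Continuous fun Y : E × ℝ => L₀ * (4 * (‖Y - X‖ / (1 - r'))) ^ (1 / 4 : ℝ) := by
        refine continuous_const.mul (Continuous.rpow_const (by fun_prop) fun _ => Or.inr ?_)
        norm_num
      simpa using c1.tendsto X
  have hcOn : ContinuousOn U (ball 0 1) := fun X hX => (hcont X hX).continuousWithinAt
  have hsub : ∀ X ∈ ball (0 : E × ℝ) 1, SubAt U X := by
    intro X hX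
    obtain ⟨r, hr, hrX⟩ := Metric.isOpen_iff.1 isOpen_ball X hX
    refine subAt_of_approx hr fun ε hε => ?_
    by_contra hc
    push Not at hc
    have := hge X (U X - ε) fun v hv => (hc v (hv.1.mono hrX) fun Y hY => by
      have := hle v hv Y (hrX hY); linarith).le
    linarith
  refine ⟨U, ⟨⟨hcOn, hsub⟩, hcOn, fun X hX q r A₀ ε hε H => ?_⟩,
    fun X hX => ⟨hle A hAF X hX, hUB X hX⟩, 2 * L₀ * (4 : ℝ) ^ (1 / 4 : ℝ), fun X hX X' hX' => ?_⟩
  · have hT : Tendsto (fun Z : E × ℝ => X + Z) (𝓝 0) (𝓝 X) := by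
      have : Continuous fun Z : E × ℝ => X + Z := by fun_prop
      simpa using this.tendsto 0
    have hT' : Tendsto (fun Y : E × ℝ => Y - X) (𝓝 X) (𝓝 0) := by
      have : Continuous fun Y : E × ℝ => Y - X := by fun_prop
      simpa using this.tendsto X
    have hball : ball (0 : E × ℝ) 1 ∈ 𝓝 X := isOpen_ball.mem_nhds hX
    rcases (hUB X hX).eq_or_lt with he | hlt
    · refine hB.2 X hX q r A₀ ε hε ?_
      filter_upwards [H, hT.eventually hball] with Z h1 h2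
      have := hUB _ h2
      linarith
    obtain ⟨φ, hφ⟩ : ∃ φ : E × ℝ → ℝ, φ = fun Y : E × ℝ => U X + ⟪q, Y.1 - X.1⟫_ℝ + r * (Y.2 - X.2)
      - (A₀ + 1) * ‖(Y.1 - X.1) - (Y.2 - X.2) • q‖ ^ 2 + ε / 2 * (Y.2 - X.2) ^ 2 := ⟨_, rfl⟩
    obtain ⟨g, hg⟩ : ∃ g : E × ℝ → ℝ, g = fun Y : E × ℝ =>
      ‖(Y.1 - X.1) - (Y.2 - X.2) • q‖ ^ 2 + ε / 2 * (Y.2 - X.2) ^ 2 := ⟨_, rfl⟩
    have hφc : Continuous φ := by rw [hφ]; fun_prop
    have hgc : Continuous g := by rw [hg]; fun_prop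
    have hφX : φ X = U X := by simp [hφ]
    have hg0 : ∀ Y, Y ≠ X → 0 < g Y := by
      intro Y hY
      rw [hg]
      by_cases h2 : Y.2 - X.2 = 0
      · have h1 : Y.1 - X.1 ≠ 0 := fun h1 => hY (Prod.ext (sub_eq_zero.1 h1) (sub_eq_zero.1 h2))
        simp only [h2, zero_smul, sub_zero]
        positivity
      · positivity
    have e1 : ∀ᶠ Y in 𝓝 X, SubAt φ Y := hφ ▸ subAt_quad X q (U X) r (A₀ + 1) (ε / 2) (by positivity)
    have e2 : ∀ᶠ Y in 𝓝 X, φ Y + g Y ≤ U Y := by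
      filter_upwards [hT'.eventually H] with Y hY
      simp only [add_sub_cancel, Prod.fst_sub, Prod.snd_sub] at hY
      simp only [hφ, hg]
      linarith
    have e3 : ∀ᶠ Y in 𝓝 X, φ Y + (B X - U X) / 2 < B Y := by
      refine ContinuousAt.eventually_lt (by fun_prop) (hB.1.continuousAt hball) ?_
      rw [hφX]; linarith
    obtain ⟨r₀, hr₀, hr⟩ := nhds_basis_closedBall.eventually_iff.1
      ((e1.and e2).and (e3.and hball))
    have hK : IsCompact (closedBall X r₀ \ ball X (r₀ / 2)) :=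
      (isCompact_closedBall X r₀).diff isOpen_ball
    obtain ⟨m, hm0, hm⟩ := hK.exists_forall_le' (a := 0) hgc.continuousOn fun Y hY =>
      hg0 Y fun e => hY.2 (e ▸ mem_ball_self (by positivity))
    obtain ⟨δ', hδ0, hδ1, hδ2⟩ : ∃ δ' : ℝ, 0 < δ' ∧ δ' ≤ m ∧ δ' ≤ (B X - U X) / 2 :=
      ⟨min m ((B X - U X) / 2), lt_min hm0 (by linarith), min_le_left _ _, min_le_right _ _⟩
    let v : E × ℝ → ℝ := fun Y => if Y ∈ ball X r₀ then max (U Y) (φ Y + δ') else U Y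
    have hv1 : ∀ Y ∈ ball X r₀, v =ᶠ[𝓝 Y] fun Y => max (U Y) (φ Y + δ') := by
      intro Y hY
      filter_upwards [isOpen_ball.mem_nhds hY] with Y' hY'
      simp only [v, if_pos hY']
    have hv2 : ∀ Y ∉ ball X r₀, v =ᶠ[𝓝 Y] U := by
      intro Y hY
      have : (closedBall X (r₀ / 2))ᶜ ∈ 𝓝 Y := isClosed_closedBall.isOpen_compl.mem_nhds
        fun h => hY (closedBall_subset_ball (by linarith) h)
      filter_upwards [this] with Y' hY'
      by_cases h : Y' ∈ ball X r₀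
      · simp only [v, if_pos h]
        have h1 := hm Y' ⟨ball_subset_closedBall h, fun h' => hY' (ball_subset_closedBall h')⟩
        have h2 := (hr (ball_subset_closedBall h)).1.2
        exact max_eq_left (by linarith)
      · simp only [v, if_neg h]
    have hvF : v ∈ F := by
      refine ⟨⟨fun Y hY => ContinuousAt.continuousWithinAt ?_, fun Y hY => ?_⟩, fun Y hY => ?_⟩
      · by_cases h : Y ∈ ball X r₀
        · exact ContinuousAt.congr ((hcont Y hY).max (hφc.add continuous_const).continuousAt) (hv1 Y h).symm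
        · exact (hcont Y hY).congr (hv2 Y h).symm
      · by_cases h : Y ∈ ball X r₀
        · refine SubAt.congr ?_ (hv1 Y h).symm
          rcases le_total (U Y) (φ Y + δ') with h' | h'
          · exact (perron_add_const (hr (ball_subset_closedBall h)).1.1 δ').of_touch
              (Eventually.of_forall fun _ => le_max_right _ _) (max_eq_right h').symm
          · exact (hsub Y hY).of_touch
              (Eventually.of_forall fun _ => le_max_left _ _) (max_eq_left h').symm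
        · exact (hsub Y hY).congr (hv2 Y h).symm
      · by_cases h : Y ∈ ball X r₀
        · simp only [v, if_pos h]
          have := (hr (ball_subset_closedBall h)).2.1
          exact max_le (hUB Y hY) (by linarith)
        · simp only [v, if_neg h]
          exact hUB Y hY
    have h1 := hle v hvF X hX
    simp only [v, if_pos (mem_ball_self hr₀), hφX, max_le_iff] at h1
    linarith [h1.2]
  · rw [mem_ball_zero_iff] at hX hX'
    have hM : ‖(1 / 2 : ℝ) • (X + X')‖ ≤ 1 / 2 := by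
      rw [norm_smul, Real.norm_of_nonneg (by norm_num)]
      have := norm_add_le X X'
      linarith
    have hd : ‖X - X'‖ < 1 := by
      have := norm_sub_le X X'
      linarith
    have e1 : ‖X - (1 / 2 : ℝ) • (X + X')‖ = ‖X - X'‖ / 2 := by
      rw [show X - (1 / 2 : ℝ) • (X + X') = (1 / 2 : ℝ) • (X - X') by module, norm_smul,
        Real.norm_of_nonneg (by norm_num)]
      ring
    have e2 : ‖(1 / 2 : ℝ) • (X + X') - X'‖ = ‖X - X'‖ / 2 := by
      rw [show (1 / 2 : ℝ) • (X + X') - X' = (1 / 2 : ℝ) • (X - X') by module, norm_smul,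
        Real.norm_of_nonneg (by norm_num)]
      ring
    have h1 := hreg (1 / 2) (by norm_num) X _ hX.le hM (by rw [e1]; linarith)
    have h2 := hreg (1 / 2) (by norm_num) _ X' hM hX'.le (by rw [e2]; linarith)
    rw [e1] at h1
    rw [e2] at h2
    have e3 : (4 * (‖X - X'‖ / 2 / (1 - 1 / 2))) ^ (1 / 4 : ℝ) =
        (4 : ℝ) ^ (1 / 4 : ℝ) * ‖X - X'‖ ^ (1 / 4 : ℝ) := by
      rw [← Real.mul_rpow (by norm_num) (norm_nonneg _)]
      congr 1
      ring
    rw [e3] at h1 h2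
    have := abs_sub_le (U X) (U ((1 / 2 : ℝ) • (X + X'))) (U X')
    linarith

end R94
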