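import Crest.Agent.R94.RedA
import Crest.Agent.R94.Perron
import Crest.Agent.R94.Comp0

/-!
# R94/Red: dimension reduction
-/

set_option autoImplicit false
set_option linter.unusedSectionVars false
set_option linter.unusedVariables false

open Set Filter Topology Metric
open scoped InnerProductSpace

namespace R94

variable {E : Type} [NormedAddCommGroup E] [InnerProductSpace ℝ E] [FiniteDimensional ℝ E]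

/-- normalised solutions on the slab of height `2` -/
def RedN (v : E × ℝ → ℝ) : Prop :=
  IsSol (slab E 2) v ∧ AP (slab E 2) v ∧ v 0 = 0 ∧
    ∀ (y : E) (σ : ℝ), |σ| < 2 → |v (y, σ)| ≤ 1 / 8 + ‖y‖ ^ 2 / 8

theorem red_neg_slab : {X : E × ℝ | -X ∈ slab E 2} = slab E 2 := by
  ext X; simp

theorem red_neg_ball : {X : E × ℝ | -X ∈ ball (0 : E × ℝ) 1} = ball 0 1 := by
  ext X; simp

theorem RedN.rev {v : E × ℝ → ℝ} (hv : RedN v) : RedN (rev v) := by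
  refine ⟨red_neg_slab (E := E) ▸ hv.1.rev, red_neg_slab (E := E) ▸ hv.2.1.rev, by simp [hv.2.2.1],
    fun y σ hσ => ?_⟩
  simpa using hv.2.2.2 (-y) (-σ) (by simpa using hσ)

theorem red_ball {F : Type} [NormedAddCommGroup F] {X : F × ℝ} {r : ℝ} :
    X ∈ ball (0 : F × ℝ) r ↔ ‖X.1‖ < r ∧ |X.2| < r := by
  rw [mem_ball_zero_iff, Prod.norm_def, max_lt_iff, Real.norm_eq_abs]

theorem RedN.quarter {v : E × ℝ → ℝ} (hv : RedN v) {S : Submodule ℝ E} {X : S × ℝ}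
    (hX : X ∈ ball (0 : S × ℝ) 1) : |v ((X.1 : E), X.2)| ≤ 1 / 4 := by
  obtain ⟨h1, h2⟩ := red_ball.1 hX
  have := hv.2.2.2 X.1 X.2 (by linarith)
  have h3 : ‖(X.1 : E)‖ < 1 := h1
  nlinarith [norm_nonneg (X.1 : E)]

theorem red_sup {e : E} (he : ‖e‖ = 1) {v₁ v₀ : E × ℝ → ℝ} (h1 : RedN v₁) (h0 : RedN v₀)
    (hle : ∀ (y : E) (τ σ : ℝ), |σ| < 2 → v₁ (y, σ) ≤ v₀ (y + τ • e, σ)) {ε : ℝ} (hε : 0 < ε) :
    ∃ A : (ℝ ∙ e)ᗮ × ℝ → ℝ, IsSub (ball 0 1) A ∧ (∃ L, HolOn (1 / 4) L (ball 0 1) A) ∧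
      ∀ X ∈ ball (0 : (ℝ ∙ e)ᗮ × ℝ) 1,
        (∀ Y : ℝ, v₁ ((X.1 : E) + Y • e, X.2) - ε * Y ^ 2 - 4 * ε ^ 2 ≤ A X) ∧
          ∃ Y : ℝ, A X ≤ v₁ ((X.1 : E) + Y • e, X.2) := by
  obtain ⟨a1, ⟨L, a2⟩, a3⟩ := supE_sub he (M := 1 / 4) hε h1.1.1 h1.2.1
    (fun X hX => (abs_le.1 (h1.quarter hX)).1) (fun X hX Y => by
      have := hle ((X.1 : E) + Y • e) (-Y) X.2 (by linarith [(red_ball.1 hX).2])
      rw [neg_smul, add_neg_cancel_right] at this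
      exact this.trans (abs_le.1 (h0.quarter hX)).2)
  refine ⟨_, a1.add_const (-(4 * ε ^ 2)), ⟨L, fun X hX X' hX' => ?_⟩, fun X hX => ⟨fun Y => ?_, ?_⟩⟩
  · rw [add_sub_add_right_eq_sub]
    exact a2 X hX X' hX'
  · have := (a3 X hX).1 Y
    nlinarith [mul_nonneg (sq_nonneg ε) (sq_nonneg X.2)]
  · obtain ⟨Y, hY⟩ := (a3 X hX).2
    refine ⟨Y, ?_⟩
    have h2 : X.2 ^ 2 ≤ 1 := (sq_le_one_iff_abs_le_one _).2 (red_ball.1 hX).2.le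
    nlinarith [mul_nonneg hε.le (sq_nonneg Y), mul_nonneg (sq_nonneg ε) (sub_nonneg.2 h2)]

theorem red_perron {e : E} (he : ‖e‖ = 1) {v₁ v₀ : E × ℝ → ℝ} (h1 : RedN v₁) (h0 : RedN v₀)
    (hle : ∀ (y : E) (τ σ : ℝ), |σ| < 2 → v₁ (y, σ) ≤ v₀ (y + τ • e, σ)) {ε : ℝ} (hε : 0 < ε) :
    ∃ U : (ℝ ∙ e)ᗮ × ℝ → ℝ, IsSol (ball 0 1) U ∧ (∃ L, HolOn (1 / 4) L (ball 0 (1 / 2)) U) ∧
      ∀ X ∈ ball (0 : (ℝ ∙ e)ᗮ × ℝ) 1, ∀ Y : ℝ,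
        v₁ ((X.1 : E) + Y • e, X.2) - ε * Y ^ 2 - 4 * ε ^ 2 ≤ U X ∧
          U X ≤ v₀ ((X.1 : E) + Y • e, X.2) + ε * Y ^ 2 + 4 * ε ^ 2 := by
  obtain ⟨A, a1, -, a3⟩ := red_sup he h1 h0 hle hε
  obtain ⟨B, b1, ⟨L, b2⟩, b3⟩ := red_sup he h0.rev h1.rev (fun y τ σ hσ => by
    have := hle (-(y + τ • e)) τ (-σ) (by simpa using hσ)
    rw [show -(y + τ • e) + τ • e = -y by abel] at this
    simpa using this) hε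
  have hn : ∀ X ∈ ball (0 : (ℝ ∙ e)ᗮ × ℝ) 1, -X ∈ ball (0 : (ℝ ∙ e)ᗮ × ℝ) 1 := fun X hX => by
    simpa using hX
  have hv : ∀ (X : (ℝ ∙ e)ᗮ × ℝ) (Y : ℝ),
      rev v₀ (((-X).1 : E) + Y • e, (-X).2) = -v₀ ((X.1 : E) + (-Y) • e, X.2) := fun X Y => by
    simp [add_comm]
  obtain ⟨U, u1, u2, u3⟩ := perron (A := A) (B := rev B) (L := L) a1
    (red_neg_ball (E := (ℝ ∙ e)ᗮ) ▸ b1.rev)
    (fun X hX => by
      obtain ⟨Y, hY⟩ := (a3 X hX).2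
      obtain ⟨Y', hY'⟩ := (b3 _ (hn X hX)).2
      have := hle ((X.1 : E) + Y • e) (-Y' - Y) X.2 (by linarith [(red_ball.1 hX).2])
      rw [add_assoc, ← add_smul, add_sub_cancel] at this
      rw [hv] at hY'
      rw [rev_apply]
      linarith)
    (fun X hX X' hX' => by
      have := b2 _ (hn X hX) _ (hn X' hX')
      rw [neg_sub_neg, norm_sub_rev] at this
      rwa [rev_apply, rev_apply, neg_sub_neg, abs_sub_comm])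
  refine ⟨U, u1, u3, fun X hX Y => ⟨((a3 X hX).1 Y).trans (u2 X hX).1, (u2 X hX).2.trans ?_⟩⟩
  have := (b3 _ (hn X hX)).1 (-Y)
  rw [hv, neg_neg, neg_sq] at this
  rw [rev_apply]
  linarith

/-- the interior estimate on the small box -/
theorem red_est {F : Type} [NormedAddCommGroup F] [InnerProductSpace ℝ F] [FiniteDimensional ℝ F]
    (hE : Est F) : ∃ α C : ℝ, 0 < α ∧ 0 ≤ C ∧ ∀ U : F × ℝ → ℝ, IsSol (ball 0 1) U →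
      (∃ L, HolOn (1 / 4) L (ball 0 (1 / 2)) U) → (∀ X ∈ ball (0 : F × ℝ) 1, |U X| ≤ 1 / 2) →
      ∃ x : F × ℝ, ‖x‖ ≤ C ∧ ∀ ρ : ℝ, 0 < ρ → ρ ≤ 1 / 4 → ∀ (Z : F) (σ : ℝ), ‖Z‖ < 1 / 2 →
        |σ| < 1 / 4 → |σ| ≤ ρ →
        |U (Z, σ) - U 0 - ⟪x.1, Z - σ • x.1⟫_ℝ - (x.2 + ‖x.1‖ ^ 2 / 2) * σ| ≤
          C * ρ ^ (1 + α) + ‖Z - σ • x.1‖ ^ 2 / ρ := by
  obtain ⟨α, C, hα, hα1, hC, H⟩ := hE
  refine ⟨α, 16 * C, hα, by positivity, fun U hU ⟨L, hL⟩ hb => ?_⟩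
  have hpt : ∀ X : F × ℝ, pt 0 0 (1 / 2) (1 / 4) X = ((1 / 2 : ℝ) • X.1, 1 / 4 * X.2) := fun X => by
    simp [pt]
  have hs : ∀ X : F × ℝ, sym 0 0 0 (1 / 2) (1 / 4) U X = U (pt 0 0 (1 / 2) (1 / 4) X) - U 0 :=
    fun X => by
      simp only [sym, inner_zero_left, norm_zero]
      ring
  have hm : ∀ X ∈ ball (0 : F × ℝ) 1, pt 0 0 (1 / 2) (1 / 4) X ∈ ball (0 : F × ℝ) (1 / 2) :=
    fun X hX => by
      obtain ⟨h1, h2⟩ := red_ball.1 hX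
      rw [hpt, red_ball, norm_smul, abs_mul, Real.norm_eq_abs, abs_of_pos (by norm_num),
        abs_of_pos (by norm_num)]
      constructor <;> linarith
  have hm' : ∀ X ∈ ball (0 : F × ℝ) 1, pt 0 0 (1 / 2) (1 / 4) X ∈ ball (0 : F × ℝ) 1 :=
    fun X hX => ball_subset_ball (by norm_num) (hm X hX)
  obtain ⟨b, h, hb1, hh1, H⟩ := H (sym 0 0 0 (1 / 2) (1 / 4) U)
    ⟨(hU.sym (by norm_num) (by norm_num)).mono hm', fun X hX => by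
      have := abs_le.1 (hb _ (hm' X hX))
      have := abs_le.1 (hb 0 (mem_ball_self one_pos))
      rw [hs, abs_le]
      constructor <;> linarith, |L|, fun X hX X' hX' => by
      rw [hs, hs, sub_sub_sub_cancel_right]
      refine (hL _ (hm X hX) _ (hm X' hX')).trans (mul_le_mul (le_abs_self L)
        (Real.rpow_le_rpow (norm_nonneg _) ?_ (by norm_num)) (by positivity) (abs_nonneg L))
      rw [hpt, hpt, Prod.mk_sub_mk, ← smul_sub, ← mul_sub, Prod.norm_def, Prod.norm_def, norm_smul,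
        norm_mul, Real.norm_eq_abs, Real.norm_eq_abs (1 / 4), abs_of_pos (by norm_num),
        abs_of_pos (by norm_num)]
      exact max_le_max (mul_le_of_le_one_left (norm_nonneg _) (by norm_num))
        (mul_le_of_le_one_left (norm_nonneg _) (by norm_num))⟩
  refine ⟨((2 : ℝ) • b, 4 * h), ?_, fun ρ hρ hρ1 Z σ hZ hσ hσρ => ?_⟩
  · rw [Prod.norm_def, norm_smul, norm_mul, Real.norm_eq_abs, Real.norm_eq_abs 4,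
      abs_of_pos (by norm_num), abs_of_pos (by norm_num), Real.norm_eq_abs, max_le_iff]
    constructor <;> linarith
  have H1 := (cfw_sym_iff (O := {X : F × ℝ | ‖X.1‖ < 1 / 2 ∧ |X.2| < 1 / 4}) (by norm_num)
    (by norm_num) (by positivity)).1 ((H (4 * ρ) (by positivity) (by linarith)).mono_set
      fun X hX => by
        rw [mem_preimage, hpt, mem_ofPred_eq, norm_smul, abs_mul, Real.norm_eq_abs,
          abs_of_pos (by norm_num), abs_of_pos (by norm_num)] at hX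
        rw [red_ball]
        constructor <;> linarith [hX.1, hX.2])
  rw [pt_zero, show (1 / 4 : ℝ) * (4 * ρ) = ρ by ring, show (1 / 2 : ℝ) / (1 / 4) = 2 by norm_num,
    zero_add, zero_add, show (2 : ℝ) ^ 2 = 4 by norm_num] at H1
  have H2 := H1 (Z - σ • (2 : ℝ) • b) σ hσρ (by simpa using ⟨by simpa using hZ, by simpa using hσ⟩)
  simp only [Prod.fst_zero, Prod.snd_zero, zero_add, sub_add_cancel] at H2
  refine H2.trans (add_le_add_left ?_ _)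
  have h4 : (4 : ℝ) ^ α ≤ 4 := by
    simpa using Real.rpow_le_rpow_of_exponent_le (by norm_num : (1 : ℝ) ≤ 4) hα1
  rw [Real.mul_rpow (by norm_num) hρ.le, Real.rpow_add hρ, Real.rpow_one]
  have : 0 ≤ C * (ρ * ρ ^ α) := by positivity
  nlinarith

theorem red_lim {e : E} (he : ‖e‖ = 1) (hE : Est (ℝ ∙ e)ᗮ) {v₁ v₀ : E × ℝ → ℝ} (h1 : RedN v₁)
    (h0 : RedN v₀) (hle : ∀ (y : E) (τ σ : ℝ), |σ| < 2 → v₁ (y, σ) ≤ v₀ (y + τ • e, σ)) :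
    ∃ (α C : ℝ) (b : (ℝ ∙ e)ᗮ) (h : ℝ), 0 < α ∧ 0 ≤ C ∧ ∀ ρ : ℝ, 0 < ρ → ρ < 1 / 4 →
      ∀ (Z : (ℝ ∙ e)ᗮ) (σ Y : ℝ), ‖Z‖ < 1 / 2 → |σ| ≤ ρ →
        v₁ ((Z : E) + Y • e, σ) ≤
          ⟪b, Z - σ • b⟫_ℝ + (h + ‖b‖ ^ 2 / 2) * σ + C * ρ ^ (1 + α) + ‖Z - σ • b‖ ^ 2 / ρ ∧
        ⟪b, Z - σ • b⟫_ℝ + (h + ‖b‖ ^ 2 / 2) * σ - C * ρ ^ (1 + α) - ‖Z - σ • b‖ ^ 2 / ρ ≤
          v₀ ((Z : E) + Y • e, σ) := by
  obtain ⟨α, C, hα, hC, H⟩ := red_est hE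
  have key : ∀ n : ℕ, ∃ x : ((ℝ ∙ e)ᗮ × ℝ) × ℝ, ‖x.1‖ ≤ C ∧ x.2 = 1 / 4 * (1 / ((n : ℝ) + 1)) ∧
      ∀ ρ : ℝ, 0 < ρ → ρ < 1 / 4 → ∀ (Z : (ℝ ∙ e)ᗮ) (σ Y : ℝ), ‖Z‖ < 1 / 2 → |σ| ≤ ρ →
        v₁ ((Z : E) + Y • e, σ) ≤ ⟪x.1.1, Z - σ • x.1.1⟫_ℝ + (x.1.2 + ‖x.1.1‖ ^ 2 / 2) * σ +
          C * ρ ^ (1 + α) + ‖Z - σ • x.1.1‖ ^ 2 / ρ + (x.2 * Y ^ 2 + 8 * x.2 ^ 2) ∧
        ⟪x.1.1, Z - σ • x.1.1⟫_ℝ + (x.1.2 + ‖x.1.1‖ ^ 2 / 2) * σ - C * ρ ^ (1 + α) -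
          ‖Z - σ • x.1.1‖ ^ 2 / ρ - (x.2 * Y ^ 2 + 8 * x.2 ^ 2) ≤ v₀ ((Z : E) + Y • e, σ) := by
    intro n
    obtain ⟨ε, hεn⟩ : ∃ ε : ℝ, ε = 1 / 4 * (1 / ((n : ℝ) + 1)) := ⟨_, rfl⟩
    have hε : 0 < ε := by rw [hεn]; positivity
    have hε1 : ε ≤ 1 / 4 := by
      rw [hεn]
      refine mul_le_of_le_one_right (by norm_num) ?_
      rw [div_le_one (by positivity)]
      linarith [n.cast_nonneg (α := ℝ)]
    obtain ⟨U, u1, u2, u3⟩ := red_perron he h1 h0 hle hε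
    obtain ⟨x, hx, H⟩ := H U u1 u2 fun X hX => by
      have := u3 X hX 0
      rw [zero_smul, add_zero] at this
      have a1 := abs_le.1 (h1.quarter hX)
      have a0 := abs_le.1 (h0.quarter hX)
      rw [abs_le]
      constructor <;> nlinarith
    refine ⟨(x, ε), hx, hεn, fun ρ hρ hρ1 Z σ Y hZ hσ => ?_⟩
    have a := abs_le.1 (H ρ hρ hρ1.le Z σ hZ (hσ.trans_lt hρ1) hσ)
    have a1 := u3 (Z, σ) (red_ball.2 ⟨by linarith, by linarith⟩) Y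
    have a0 := u3 0 (mem_ball_self one_pos) 0
    simp only [Prod.fst_zero, Prod.snd_zero, ZeroMemClass.coe_zero, zero_smul, add_zero,
      Prod.mk_zero_zero, h1.2.2.1, h0.2.2.1] at a0
    constructor <;> linarith [a.1, a.2, a1.1, a1.2, a0.1, a0.2]
  choose x hx1 hx2 hx using key
  obtain ⟨y, -, hy⟩ := exists_ulim (hyperfilter ℕ) (x := fun n => (x n).1) (.of_forall hx1)
  have hε : Tendsto (fun n => (x n).2) (hyperfilter ℕ) (𝓝 0) := by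
    simp only [hx2]
    simpa using (tendsto_one_div_add_atTop_nhds_zero_nat.const_mul (1 / 4 : ℝ)).mono_left
      Nat.hyperfilter_le_atTop
  have ht : Tendsto x (hyperfilter ℕ) (𝓝 (y, 0)) := hy.prodMk_nhds hε
  refine ⟨α, C, y.1, y.2, hα, hC, fun ρ hρ hρ1 Z σ Y hZ hσ => ⟨?_, ?_⟩⟩
  · have hc : Continuous fun x : ((ℝ ∙ e)ᗮ × ℝ) × ℝ => ⟪x.1.1, Z - σ • x.1.1⟫_ℝ +
        (x.1.2 + ‖x.1.1‖ ^ 2 / 2) * σ + C * ρ ^ (1 + α) + ‖Z - σ • x.1.1‖ ^ 2 / ρ +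
        (x.2 * Y ^ 2 + 8 * x.2 ^ 2) := by fun_prop
    have := ge_of_tendsto' ((hc.tendsto _).comp ht) fun n => (hx n ρ hρ hρ1 Z σ Y hZ hσ).1
    dsimp only at this
    linarith
  · have hc : Continuous fun x : ((ℝ ∙ e)ᗮ × ℝ) × ℝ => ⟪x.1.1, Z - σ • x.1.1⟫_ℝ +
        (x.1.2 + ‖x.1.1‖ ^ 2 / 2) * σ - C * ρ ^ (1 + α) - ‖Z - σ • x.1.1‖ ^ 2 / ρ -
        (x.2 * Y ^ 2 + 8 * x.2 ^ 2) := by fun_prop
    have := le_of_tendsto' ((hc.tendsto _).comp ht) fun n => (hx n ρ hρ hρ1 Z σ Y hZ hσ).2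
    dsimp only at this
    linarith

/-- far from the axis the growth bound suffices -/
theorem red_far {v : E × ℝ → ℝ} (hv : RedN v) {b η : E} {H ρ σ : ℝ} (hρ : 0 < ρ)
    (hρ1 : ρ * (5 + 4 * ‖b‖ + 16 * |H|) ≤ 1) (hσ : |σ| ≤ ρ) (hη : 1 / 4 ≤ ‖η‖) :
    |v (η + σ • b, σ) - (⟪b, η⟫_ℝ + H * σ)| ≤ ‖η‖ ^ 2 / ρ := by
  have hb := norm_nonneg b
  have hH := abs_nonneg H
  have a1 : ρ * ‖b‖ ≤ 1 / 4 := by nlinarith [mul_nonneg hρ.le hH]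
  have a2 : ρ ≤ 1 := by nlinarith [mul_nonneg hρ.le hH, mul_nonneg hρ.le hb]
  have a3 : ‖η + σ • b‖ ≤ 2 * ‖η‖ := by
    refine (norm_add_le _ _).trans ?_
    rw [norm_smul, Real.norm_eq_abs]
    nlinarith [mul_le_mul_of_nonneg_right hσ hb]
  have a4 := hv.2.2.2 (η + σ • b) σ (by linarith)
  have a5 : ‖η + σ • b‖ ^ 2 ≤ (2 * ‖η‖) ^ 2 := pow_le_pow_left₀ (norm_nonneg _) a3 2
  have a6 := abs_real_inner_le_norm b η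
  have a7 : |H * σ| ≤ |H| := by
    rw [abs_mul]
    exact mul_le_of_le_one_right hH (by linarith)
  have a8 : 1 ≤ 16 * ‖η‖ ^ 2 := by nlinarith
  have a9 : ‖η‖ ≤ 4 * ‖η‖ ^ 2 := by nlinarith
  have : |v (η + σ • b, σ) - (⟪b, η⟫_ℝ + H * σ)| ≤ (5 + 4 * ‖b‖ + 16 * |H|) * ‖η‖ ^ 2 := by
    refine (abs_sub _ _).trans ((add_le_add_right (abs_add_le _ _) _).trans ?_)
    nlinarith [mul_le_mul_of_nonneg_left a8 hH, mul_le_mul_of_nonneg_left a9 hb]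
  refine this.trans ?_
  rw [le_div_iff₀ hρ]
  nlinarith [mul_le_mul_of_nonneg_right hρ1 (sq_nonneg ‖η‖)]

theorem red_core {e : E} (he : ‖e‖ = 1) (hE : Est (ℝ ∙ e)ᗮ) {v₁ v₀ : E × ℝ → ℝ} (h1 : RedN v₁)
    (h0 : RedN v₀) (hle : ∀ (y : E) (τ σ : ℝ), |σ| < 2 → v₁ (y, σ) ≤ v₀ (y + τ • e, σ)) :
    ∃ (α C ρ₀ : ℝ) (b : E) (h : ℝ), 0 < α ∧ 0 ≤ C ∧ 0 < ρ₀ ∧ ρ₀ < 1 ∧
      ∀ ρ : ℝ, 0 < ρ → ρ ≤ ρ₀ → ∀ (η : E) (σ : ℝ), |σ| ≤ ρ →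
        v₁ (η + σ • b, σ) ≤ ⟪b, η⟫_ℝ + (h + ‖b‖ ^ 2 / 2) * σ + C * ρ ^ (1 + α) + ‖η‖ ^ 2 / ρ ∧
        ⟪b, η⟫_ℝ + (h + ‖b‖ ^ 2 / 2) * σ - C * ρ ^ (1 + α) - ‖η‖ ^ 2 / ρ ≤ v₀ (η + σ • b, σ) := by
  obtain ⟨α, C, b, h, hα, hC, H⟩ := red_lim he hE h1 h0 hle
  obtain ⟨D, hD⟩ : ∃ D, D = 5 + 4 * ‖(b : E)‖ + 16 * |h + ‖(b : E)‖ ^ 2 / 2| := ⟨_, rfl⟩
  have hD5 : 5 ≤ D := by
    have := norm_nonneg (b : E)
    have := abs_nonneg (h + ‖(b : E)‖ ^ 2 / 2)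
    linarith
  refine ⟨α, C, 1 / D, b, h, hα, hC, by positivity, (div_lt_one (by linarith)).2 (by linarith),
    fun ρ hρ hρ1 η σ hσ => ?_⟩
  rw [le_div_iff₀ (by linarith)] at hρ1
  have hCρ : 0 ≤ C * ρ ^ (1 + α) := by positivity
  by_cases hη : 1 / 4 ≤ ‖η‖
  · have a1 := abs_le.1 (red_far h1 hρ (hD ▸ hρ1) hσ hη)
    have a0 := abs_le.1 (red_far h0 hρ (hD ▸ hρ1) hσ hη)
    constructor <;> linarith [a1.2, a0.1]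
  have hee : ⟪e, e⟫_ℝ = 1 := by rw [real_inner_self_eq_norm_sq, he, one_pow]
  let ζ : (ℝ ∙ e)ᗮ := ⟨η - ⟪e, η⟫_ℝ • e, by
    rw [Submodule.mem_orthogonal_singleton_iff_inner_right, inner_sub_right, inner_smul_right, hee,
      mul_one, sub_self]⟩
  have hζ : η = ζ + ⟪e, η⟫_ℝ • e := (sub_add_cancel _ _).symm
  generalize ⟪e, η⟫_ℝ = Y at hζ
  clear_value ζ
  have o : ∀ z : (ℝ ∙ e)ᗮ, ⟪(z : E), Y • e⟫_ℝ = 0 := fun z => by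
    rw [inner_smul_right, Submodule.mem_orthogonal_singleton_iff_inner_left.1 z.2, mul_zero]
  have n1 : ‖ζ‖ ^ 2 ≤ ‖η‖ ^ 2 := by
    rw [hζ, norm_add_sq_real, o]
    have := sq_nonneg ‖Y • e‖
    change ‖(ζ : E)‖ ^ 2 ≤ _
    linarith
  have n2 : ‖ζ‖ ≤ ‖η‖ := (pow_le_pow_iff_left₀ (norm_nonneg _) (norm_nonneg _) two_ne_zero).1 n1
  have hb := norm_nonneg (b : E)
  have a1 : ρ * ‖(b : E)‖ ≤ 1 / 4 := by
    nlinarith [mul_nonneg hρ.le (abs_nonneg (h + ‖(b : E)‖ ^ 2 / 2))]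
  have a := H ρ hρ (by nlinarith) (ζ + σ • b) σ Y (by
    refine (norm_add_le _ _).trans_lt ?_
    rw [norm_smul, Real.norm_eq_abs]
    have := mul_le_mul_of_nonneg_right hσ hb
    change _ + _ * ‖(b : E)‖ < _
    linarith) hσ
  have e1 : ((ζ + σ • b : (ℝ ∙ e)ᗮ) : E) + Y • e = η + σ • (b : E) := by
    rw [hζ, Submodule.coe_add, Submodule.coe_smul]; abel
  have e2 : ⟪(b : E), η⟫_ℝ = ⟪b, ζ⟫_ℝ := by
    rw [hζ, inner_add_right, o, add_zero]; rfl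
  rw [e1, add_sub_cancel_right, ← e2, show ‖b‖ = ‖(b : E)‖ from rfl] at a
  have n3 := div_le_div_of_nonneg_right n1 hρ.le
  constructor <;> linarith [a.1, a.2]

theorem red_sym {u : E × ℝ → ℝ} (hu : u 0 = 0) (τ : ℝ) (y : E) (σ : ℝ) :
    sym 0 0 0 1 τ u (y, σ) = τ * u (y, τ * σ) := by
  simp [sym, pt, hu, mul_comm]

theorem red_norm {u : E × ℝ → ℝ} {K Λ τ : ℝ} (hu : Slab K Λ u) (hτ : 0 < τ)
    (h : τ * (|K| + |Λ| + 1) ≤ 1 / 8) : RedN (sym 0 0 0 1 τ u) := by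
  have hK := mul_nonneg hτ.le (abs_nonneg K)
  have hΛ := mul_nonneg hτ.le (abs_nonneg Λ)
  have hs : ∀ σ : ℝ, |σ| < 2 → |τ * σ| < 1 := fun σ hσ => by
    rw [abs_mul, abs_of_pos hτ]
    nlinarith
  have hm : slab E 2 ⊆ pt 0 0 1 τ ⁻¹' slab E 1 := fun X hX => by simpa [pt] using hs X.2 hX
  refine ⟨(hu.1.sym one_pos hτ).mono hm, (hu.2.1.sym one_pos hτ).mono hm, sym_zero _ _ _ _ _ _,
    fun y σ hσ => ?_⟩
  rw [red_sym hu.2.2.1, abs_mul, abs_of_pos hτ]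
  have := mul_le_mul_of_nonneg_left ((hu.mono (le_abs_self K) (le_abs_self Λ)).2.2.2 (y, τ * σ)
    (hs σ hσ)) hτ.le
  have h2 : τ * |Λ| * ‖y‖ ^ 2 ≤ 1 / 8 * ‖y‖ ^ 2 :=
    mul_le_mul_of_nonneg_right (by linarith) (sq_nonneg _)
  dsimp only at this
  linarith

/-- Wlog `K, Λ ≥ 0`. Rescale time: `ûᵢ = sym 0 0 0 1 τ₀ uᵢ = τ₀ uᵢ (y, τ₀σ)`,
`τ₀ = 1/(4(K+Λ+1))`; they live on `slab E 2`, `|ûᵢ| ≤ 1/4` for `‖y‖ ≤ 1`, and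
`û₁ (y' + Y • e) ≤ û₀ (y') ≤ 1/4`, `û₀ (y' + Y • e) ≥ û₁ (y') ≥ -1/4`. For small `ε`, `η₀ = 4ε²`:
`A = supE e ε û₁ + η₀σ² - η₀`, `B = rev (supE e ε (rev û₀) + η₀σ²) + η₀`
(`= inf_Y [û₀ (y' - Y • e) + εY²] - η₀σ² + η₀`); `supE_sub` (`M = 1/4`), `A ≤ B`, `perron` gives `U`,
`|U| ≤ 1/2`, `|U 0| ≤ η₀`. `U' = sym 0 0 0 (1/2) (1/4) U = U (y/2, σ/4) - U 0` is `Box`; `Est` gives
`(b_ε,h_ε)` bounded, so for `|σ| ≤ ρ ≤ 1/4`, `(ζ + σ • b, σ) ∈` the small box: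
`û₁ (ζ + σ • b + Y • e, σ) ≤ εY² + 2η₀ + ⟪b,ζ⟫ + (h + ‖b‖²/2)σ + C'ρ^(1+α) + ‖ζ‖²/ρ` (covariance
`cfw_sym_iff`), and the mirror bound for `û₀`. Let `ε = 1/(n+N)`, ultralimit of the frames
(`exists_ulim`), continuity of `ûᵢ`. A general `η ∈ E` is `ζ + Y • e`, `⟪b,η⟫ = ⟪b,ζ⟫`,
`‖ζ‖ ≤ ‖η‖`. If the point is outside the small box then `‖η‖ ≥ r₀ > 0` (for small `ρ₀`) and the
growth bound gives the claim (`K' + 2Λ'‖η‖² + ‖b‖‖η‖ ≤ ‖η‖²/ρ`). Undo the scaling. -/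
theorem reduce {e : E} (he : ‖e‖ = 1) (hE : Est (ℝ ∙ e)ᗮ) {u₁ u₀ : E × ℝ → ℝ} {K Λ : ℝ}
    (h1 : Slab K Λ u₁) (h0 : Slab K Λ u₀)
    (hle : ∀ (y : E) (τ σ : ℝ), |σ| < 1 → u₁ (y, σ) ≤ u₀ (y + τ • e, σ)) :
    ∃ (α C ρ₀ : ℝ) (b : E) (h : ℝ), 0 < α ∧ 0 ≤ C ∧ 0 < ρ₀ ∧ ρ₀ < 1 ∧
      ∀ ρ : ℝ, 0 < ρ → ρ ≤ ρ₀ → ∀ (η : E) (σ : ℝ), |σ| ≤ ρ →
        u₁ (η + σ • b, σ) ≤ ⟪b, η⟫_ℝ + (h + ‖b‖ ^ 2 / 2) * σ + C * ρ ^ (1 + α) + ‖η‖ ^ 2 / ρ ∧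
        ⟪b, η⟫_ℝ + (h + ‖b‖ ^ 2 / 2) * σ - C * ρ ^ (1 + α) - ‖η‖ ^ 2 / ρ ≤ u₀ (η + σ • b, σ) := by
  obtain ⟨τ, hτ, hτ1⟩ : ∃ τ : ℝ, 0 < τ ∧ τ * (|K| + |Λ| + 1) ≤ 1 / 8 :=
    ⟨1 / 8 / (|K| + |Λ| + 1), by positivity, (div_mul_cancel₀ _ (by positivity)).le⟩
  have hτ2 : τ ≤ 1 / 8 := by
    nlinarith [mul_nonneg hτ.le (abs_nonneg K), mul_nonneg hτ.le (abs_nonneg Λ)]
  obtain ⟨α, C, ρ₀, b, h, hα, hC, hρ₀, hρ₁, H⟩ := red_core he hE (red_norm h1 hτ hτ1)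
    (red_norm h0 hτ hτ1) fun y t σ hσ => by
      rw [red_sym h1.2.2.1, red_sym h0.2.2.1]
      refine mul_le_mul_of_nonneg_left (hle _ _ _ ?_) hτ.le
      rw [abs_mul, abs_of_pos hτ]
      nlinarith
  refine ⟨α, C / τ ^ (1 + α) / τ, τ * ρ₀, τ⁻¹ • b, h / τ ^ 2, hα, by positivity, by positivity,
    by nlinarith, fun ρ hρ hρ1 η σ hσ => ?_⟩
  have a := H (ρ / τ) (by positivity) (by rwa [div_le_iff₀' hτ]) η (σ / τ) (by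
    rw [abs_div, abs_of_pos hτ]
    exact div_le_div_of_nonneg_right hσ hτ.le)
  rw [red_sym h1.2.2.1, red_sym h0.2.2.1, mul_div_cancel₀ _ hτ.ne', Real.div_rpow hρ.le hτ.le] at a
  have hp : 0 < τ ^ (1 + α) := by positivity
  rw [smul_smul, ← div_eq_mul_inv, inner_smul_left, norm_smul, Real.norm_eq_abs,
    abs_of_pos (inv_pos.2 hτ), conj_trivial]
  refine ⟨le_of_mul_le_mul_left (a.1.trans_eq ?_) hτ, le_of_mul_le_mul_left (Eq.trans_le ?_ a.2) hτ⟩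
  · field_simp
  · field_simp

end R94
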