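import Crest.Agent.R94.Hold

/-!
# R94/RedA: the penalised supremum along `e` is a subsolution in one dimension less
-/

set_option autoImplicit false
set_option linter.unusedSectionVars false
set_option linter.unusedVariables false

open Set Filter Topology Metric
open scoped InnerProductSpace

namespace R94

variable {E : Type} [NormedAddCommGroup E] [InnerProductSpace ℝ E] [FiniteDimensional ℝ E]

/-- the orthogonal projection onto `(ℝ ∙ e)ᗮ` for a unit vector `e`. -/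
noncomputable def redA_proj {e : E} (he : ‖e‖ = 1) (ζ : E) : (ℝ ∙ e)ᗮ :=
  ⟨ζ - ⟪e, ζ⟫_ℝ • e, by
    rw [Submodule.mem_orthogonal_singleton_iff_inner_right, inner_sub_right, inner_smul_right,
      real_inner_self_eq_norm_sq, he]
    ring⟩

theorem redA_proj_coe {e : E} (he : ‖e‖ = 1) (ζ : E) :
    (redA_proj he ζ : E) = ζ - ⟪e, ζ⟫_ℝ • e := rfl

theorem redA_tendsto {e : E} (he : ‖e‖ = 1) :
    Tendsto (fun Z : E × ℝ => ((redA_proj he Z.1, Z.2) : (ℝ ∙ e)ᗮ × ℝ)) (𝓝 0) (𝓝 0) := by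
  have h : Continuous fun Z : E × ℝ => ((redA_proj he Z.1, Z.2) : (ℝ ∙ e)ᗮ × ℝ) :=
    Continuous.prodMk (Continuous.subtype_mk (by fun_prop) _) continuous_snd
  refine h.tendsto' _ _ (Prod.ext (Subtype.ext ?_) rfl)
  simp [redA_proj_coe]

theorem redA_pyth {e : E} (he : ‖e‖ = 1) (v : (ℝ ∙ e)ᗮ) (y : ℝ) :
    ‖(v : E) + y • e‖ ^ 2 = ‖v‖ ^ 2 + y ^ 2 := by
  have h0 : ⟪(v : E), e⟫_ℝ = 0 := Submodule.mem_orthogonal_singleton_iff_inner_left.1 v.2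
  rw [norm_add_sq_real, inner_smul_right, h0, norm_smul, he, Real.norm_eq_abs, mul_one, sq_abs]
  simp

theorem redA_abs_le {ε M Y : ℝ} (hε : 0 < ε) (h : ε * Y ^ 2 ≤ 2 * M) : |Y| ≤ 2 * M / ε + 1 := by
  have h1 : Y ^ 2 ≤ 2 * M / ε := by
    rw [le_div_iff₀ hε]
    linarith
  nlinarith [sq_abs Y, sq_nonneg (|Y| - 1), abs_nonneg Y]

theorem redA_le_rpow {d : ℝ} (h0 : 0 ≤ d) (h2 : d ≤ 2) : d ≤ 2 * d ^ (1 / 4 : ℝ) := by
  have h1 : d / 2 ≤ (d / 2) ^ (1 / 4 : ℝ) := by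
    have := Real.rpow_le_rpow_of_exponent_ge' (x := d / 2) (y := 1) (z := 1 / 4) (by linarith)
      (by linarith) (by norm_num) (by norm_num)
    rwa [Real.rpow_one] at this
  have h3 : (d / 2) ^ (1 / 4 : ℝ) ≤ d ^ (1 / 4 : ℝ) :=
    Real.rpow_le_rpow (by linarith) (by linarith) (by norm_num)
  linarith

/-- For `X ∈ ball 0 1` the value at `Y = 0` is `≥ -M`, so only `ε Y² ≤ 2M` matters and the supremum
is attained on `|Y| ≤ Y₀ = √(2M/ε)`. `u` is uniformly Hölder on the compact set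
`{‖y‖ ≤ 1 + Y₀, |t| ≤ 1}` (`holOn_compact`), whence the Hölder bound (same `Y` for both points) and
continuity. Sub: suppose the function is touched from above at `X` with `(q,r,A,ε')`, wlog `A ≥ 0`,
maximiser `Y*`. For `Z = (ζ, σ)` near `0` in `E × ℝ` split `ζ = ζ' + y • e` (`ζ'` the orthogonal
projection on `(ℝ ∙ e)ᗮ`, `y = ⟪e, ζ⟫`). Then `u (X* + Z) ≤ u X* + ⟪q,ζ'⟫ + 2εY* y + r'σ +
A‖ζ' - σ • q‖² + εy² - (ε' + 16Mε²)σ²`. With the full gradient `Q = q + 2εY* • e`: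
`‖ζ - σ • Q‖² = ‖ζ' - σ • q‖² + (y - 2εY*σ)²` and `εy² ≤ 2ε(y - 2εY*σ)² + 8ε³Y*²σ²`,
`8ε³Y*² ≤ 16Mε²`: contradiction with `SubAt u X*`. -/
theorem supE_sub {e : E} (he : ‖e‖ = 1) {u : E × ℝ → ℝ} {ε M : ℝ} (hε : 0 < ε)
    (hu : IsSub (slab E 2) u) (hap : AP (slab E 2) u)
    (hlo : ∀ X ∈ ball (0 : (ℝ ∙ e)ᗮ × ℝ) 1, -M ≤ u ((X.1 : E), X.2))
    (hup : ∀ X ∈ ball (0 : (ℝ ∙ e)ᗮ × ℝ) 1, ∀ Y : ℝ, u ((X.1 : E) + Y • e, X.2) ≤ M) :
    IsSub (ball 0 1) (fun X => supE e ε u X + 16 * M * ε ^ 2 * X.2 ^ 2) ∧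
      (∃ L : ℝ, HolOn (1 / 4) L (ball 0 1) (fun X => supE e ε u X + 16 * M * ε ^ 2 * X.2 ^ 2)) ∧
      ∀ X ∈ ball (0 : (ℝ ∙ e)ᗮ × ℝ) 1, (∀ Y : ℝ, u ((X.1 : E) + Y • e, X.2) - ε * Y ^ 2 ≤
        supE e ε u X) ∧ ∃ Y : ℝ, supE e ε u X = u ((X.1 : E) + Y • e, X.2) - ε * Y ^ 2 := by
  have hb : ∀ X ∈ ball (0 : (ℝ ∙ e)ᗮ × ℝ) 1, ‖X.1‖ < 1 ∧ |X.2| < 1 := fun X hX => by
    rw [mem_ball_zero_iff, Prod.norm_def, max_lt_iff, Real.norm_eq_abs] at hX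
    exact hX
  have hM : 0 ≤ M := by
    have h1 := hlo 0 (mem_ball_self one_pos)
    have h2 := hup 0 (mem_ball_self one_pos) 0
    rw [zero_smul, add_zero] at h2
    linarith
  have hle : ∀ X ∈ ball (0 : (ℝ ∙ e)ᗮ × ℝ) 1, ∀ Y : ℝ,
      u ((X.1 : E) + Y • e, X.2) - ε * Y ^ 2 ≤ supE e ε u X := fun X hX Y => by
    refine le_ciSup (f := fun Y : ℝ => u ((X.1 : E) + Y • e, X.2) - ε * Y ^ 2) ⟨M, ?_⟩ Y
    rintro _ ⟨Y, rfl⟩
    have := hup X hX Y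
    have := mul_nonneg hε.le (sq_nonneg Y)
    dsimp only
    linarith
  have hex : ∀ X ∈ ball (0 : (ℝ ∙ e)ᗮ × ℝ) 1, ∃ Y : ℝ, ε * Y ^ 2 ≤ 2 * M ∧
      supE e ε u X = u ((X.1 : E) + Y • e, X.2) - ε * Y ^ 2 := fun X hX => by
    have hc : Continuous fun Y : ℝ => u ((X.1 : E) + Y • e, X.2) - ε * Y ^ 2 := by
      refine Continuous.sub (hu.1.comp_continuous (by fun_prop) fun Y => ?_) (by fun_prop)
      rw [mem_slab]
      linarith [(hb X hX).2]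
    have h0 := hlo X hX
    obtain ⟨Y, hY⟩ := hc.exists_forall_ge' 0 (by
      filter_upwards [(isCompact_Icc (a := -(2 * M / ε + 1))
        (b := 2 * M / ε + 1)).compl_mem_cocompact] with Y hY
      have h1 : ¬ε * Y ^ 2 ≤ 2 * M := fun h => hY (abs_le.1 (redA_abs_le hε h))
      have h2 := hup X hX Y
      rw [zero_smul, add_zero]
      linarith [not_le.1 h1])
    refine ⟨Y, ?_, le_antisymm (ciSup_le hY) (hle X hX Y)⟩
    have h1 := hY 0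
    have h2 := hup X hX Y
    rw [zero_smul, add_zero] at h1
    linarith
  have hhol : ∃ L : ℝ, HolOn (1 / 4) L (ball 0 1)
      (fun X => supE e ε u X + 16 * M * ε ^ 2 * X.2 ^ 2) := by
    obtain ⟨L, hL0, hL⟩ := hap.holOn_compact
      (K := closedBall (0 : E) (1 + (2 * M / ε + 1)) ×ˢ Icc (-1 : ℝ) 1)
      ((isCompact_closedBall _ _).prod isCompact_Icc) fun X hX => by
        rw [mem_slab]
        linarith [abs_le.2 hX.2]
    have hK : ∀ X ∈ ball (0 : (ℝ ∙ e)ᗮ × ℝ) 1, ∀ Y : ℝ, ε * Y ^ 2 ≤ 2 * M →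
        ((X.1 : E) + Y • e, X.2) ∈ closedBall (0 : E) (1 + (2 * M / ε + 1)) ×ˢ Icc (-1 : ℝ) 1 :=
      fun X hX Y hY => by
        refine ⟨?_, abs_le.1 (hb X hX).2.le⟩
        rw [mem_closedBall_zero_iff]
        refine (norm_add_le _ _).trans (add_le_add (hb X hX).1.le ?_)
        rw [norm_smul, he, mul_one, Real.norm_eq_abs]
        exact redA_abs_le hε hY
    have h1 : ∀ X ∈ ball (0 : (ℝ ∙ e)ᗮ × ℝ) 1, ∀ X' ∈ ball (0 : (ℝ ∙ e)ᗮ × ℝ) 1,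
        supE e ε u X - supE e ε u X' ≤ L * ‖X - X'‖ ^ (1 / 4 : ℝ) := fun X hX X' hX' => by
      obtain ⟨Y, hY, e1⟩ := hex X hX
      have e2 := hle X' hX' Y
      have e3 := hL _ (hK X hX Y hY) _ (hK X' hX' Y hY)
      have e4 : ‖(((X.1 : E) + Y • e, X.2) : E × ℝ) - ((X'.1 : E) + Y • e, X'.2)‖ = ‖X - X'‖ := by
        rw [Prod.mk_sub_mk, add_sub_add_right_eq_sub]
        rfl
      rw [e4] at e3
      linarith [le_abs_self (u ((X.1 : E) + Y • e, X.2) - u ((X'.1 : E) + Y • e, X'.2))]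
    refine ⟨L + 64 * M * ε ^ 2, fun X hX X' hX' => ?_⟩
    have a1 := h1 X hX X' hX'
    have a2 := h1 X' hX' X hX
    rw [norm_sub_rev] at a2
    have a3 : ‖X - X'‖ ≤ 2 := by
      have := norm_sub_le X X'
      linarith [mem_ball_zero_iff.1 hX, mem_ball_zero_iff.1 hX']
    have a4 := redA_le_rpow (norm_nonneg _) a3
    have a5 : |X.2 - X'.2| ≤ ‖X - X'‖ := norm_snd_le (X - X')
    have a6 : |X.2 ^ 2 - X'.2 ^ 2| ≤ 4 * ‖X - X'‖ ^ (1 / 4 : ℝ) := by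
      rw [sq_sub_sq, abs_mul]
      have : |X.2 + X'.2| ≤ 2 := by
        linarith [abs_add_le X.2 X'.2, (hb X hX).2, (hb X' hX').2]
      nlinarith [abs_nonneg (X.2 - X'.2)]
    have a7 := mul_le_mul_of_nonneg_left (abs_le.1 a6).1 (by positivity : 0 ≤ 16 * M * ε ^ 2)
    have a8 := mul_le_mul_of_nonneg_left (abs_le.1 a6).2 (by positivity : 0 ≤ 16 * M * ε ^ 2)
    rw [abs_le]
    constructor <;> linarith
  refine ⟨⟨?_, fun X hX q r A ε' hε' hev => ?_⟩, hhol, fun X hX => ⟨hle X hX, ?_⟩⟩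
  · obtain ⟨L, hL⟩ := hhol
    exact hL.continuousOn (by norm_num)
  · obtain ⟨Y, hY, e1⟩ := hex X hX
    refine hu.2 ((X.1 : E) + Y • e, X.2) (by rw [mem_slab]; linarith [(hb X hX).2])
      ((q : E) + (2 * ε * Y) • e) (r - 32 * M * ε ^ 2 * X.2) (|A| + 2 * ε) ε' hε' ?_
    have hball : ∀ᶠ Z : (ℝ ∙ e)ᗮ × ℝ in 𝓝 0, X + Z ∈ ball (0 : (ℝ ∙ e)ᗮ × ℝ) 1 :=
      ((continuous_const_add X).tendsto' 0 X (add_zero X)).eventually (isOpen_ball.mem_nhds hX)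
    filter_upwards [(redA_tendsto he).eventually hev, (redA_tendsto he).eventually hball]
      with Z h1 h2
    have h3 := hle _ h2 (Y + ⟪e, Z.1⟫_ℝ)
    have e2 : ((((X + (redA_proj he Z.1, Z.2)).1 : (ℝ ∙ e)ᗮ) : E) + (Y + ⟪e, Z.1⟫_ℝ) • e,
        (X + (redA_proj he Z.1, Z.2)).2) = ((X.1 : E) + Y • e, X.2) + Z := by
      refine Prod.ext ?_ rfl
      simp only [Prod.fst_add, Submodule.coe_add, redA_proj_coe, add_smul]
      abel
    rw [e2] at h3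
    have h0 : ⟪(q : E), e⟫_ℝ = 0 := Submodule.mem_orthogonal_singleton_iff_inner_left.1 q.2
    have e3 : ⟪(q : E) + (2 * ε * Y) • e, Z.1⟫_ℝ =
        ⟪q, redA_proj he Z.1⟫_ℝ + 2 * ε * Y * ⟪e, Z.1⟫_ℝ := by
      rw [inner_add_left, real_inner_smul_left, Submodule.coe_inner, redA_proj_coe,
        inner_sub_right, inner_smul_right, h0, mul_zero, sub_zero]
    have e4 : ‖Z.1 - Z.2 • ((q : E) + (2 * ε * Y) • e)‖ ^ 2 =
        ‖redA_proj he Z.1 - Z.2 • q‖ ^ 2 + (⟪e, Z.1⟫_ℝ - 2 * ε * Y * Z.2) ^ 2 := by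
      rw [← redA_pyth he]
      congr 2
      simp only [Submodule.coe_sub, Submodule.coe_smul, redA_proj_coe, smul_add, sub_smul,
        smul_smul, mul_comm Z.2]
      abel
    rw [e3, e4]
    simp only [Prod.snd_add] at h1
    rw [e1] at h1
    have n0 := sq_nonneg ‖redA_proj he Z.1 - Z.2 • q‖
    generalize ‖redA_proj he Z.1 - Z.2 • q‖ ^ 2 = n at *
    generalize ⟪e, Z.1⟫_ℝ = y at *
    have b1 := mul_le_mul_of_nonneg_right (le_abs_self A) n0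
    have b2 := mul_nonneg hε.le n0
    have b3 := mul_nonneg (abs_nonneg A) (sq_nonneg (y - 2 * ε * Y * Z.2))
    have b4 := mul_nonneg hε.le (sq_nonneg (y - 4 * ε * Y * Z.2))
    have b5 := mul_le_mul_of_nonneg_left hY (by positivity : 0 ≤ 8 * ε ^ 2 * Z.2 ^ 2)
    linarith
  · obtain ⟨Y, -, hY⟩ := hex X hX
    exact ⟨Y, hY⟩

end R94
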