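import Crest.Agent.R94.B3

/-!
# R94/Top: the initial state of the iteration
-/

set_option autoImplicit false
set_option linter.unusedSectionVars false
set_option linter.unusedVariables false

open Set Filter Topology Metric
open scoped InnerProductSpace

namespace R94

variable {E : Type} [NormedAddCommGroup E] [InnerProductSpace ℝ E] [FiniteDimensional ℝ E]

/-- for a unit vector: `‖η₀ + u‖ ≤ (1 + ‖η₀ + u‖²)/2`. -/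
theorem norm_unit_add_le {η₀ : E} (h : ‖η₀‖ = 1) (u : E) :
    ‖η₀ + u‖ ≤ 1 + ⟪η₀, u⟫_ℝ + ‖u‖ ^ 2 / 2 := by
  have e := norm_add_sq_real η₀ u
  rw [h] at e
  nlinarith [sq_nonneg (‖η₀ + u‖ - 1)]

theorem top_space {w : E × ℝ → ℝ} {x b : E} {ρ lam h : ℝ} (H : CFw univ w (x, 0) ρ lam b h)
    (hρ : 0 < ρ) (ξ : E) : |w (x + ξ, 0) - w (x, 0) - ⟪b, ξ⟫_ℝ| ≤ lam * ρ + ‖ξ‖ ^ 2 / ρ := by
  simpa using H ξ 0 (by simpa using hρ.le) (mem_univ _)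

theorem top_first {c κ r h0 h1 : ℝ} {w : E × ℝ → ℝ} {η₀ b0 b1 : E} (hc0 : 0 < c) (hc1 : c < 1)
    (hr : 0 < r) (hκ : κ * r ≤ 2 * c ^ 2) (hF : FLe c κ w) (hκ0 : 0 < κ) (hu : ‖η₀‖ = 1)
    (hD : κ - r ≤ Del c w 0 η₀ 0) (H0 : CFw univ w (0, 0) r 1 b0 h0)
    (H1 : CFw univ w (-(c • η₀), 0) r 1 b1 h1) :
    ‖b1 - (b0 - (κ / (1 - c)) • η₀)‖ ^ 2 ≤ 36 / (1 - c) ^ 2 := by
  have hc : 0 < 1 - c := by linarith
  have key : ∀ ξ : E, ⟪(1 - c) • (b1 - (b0 - (κ / (1 - c)) • η₀)), ξ⟫_ℝ ≤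
      3 * r + 3 / r * ‖ξ‖ ^ 2 := by
    intro ξ
    have a1 := hF ((1 - c) • ξ) (η₀ + -ξ) 0
    have a2 := norm_unit_add_le hu (-ξ)
    have a3 := (abs_le.1 (top_space H0 hr ((1 - c) • ξ))).2
    have a4 := (abs_le.1 (top_space H1 hr ξ)).1
    have e1 : (1 - c) • ξ - c • (η₀ + -ξ) = -(c • η₀) + ξ := by module
    have e2 : (1 - c) • ξ + (1 - c) • (η₀ + -ξ) = (1 - c) • η₀ := by module
    have e3 : ⟪(1 - c) • (b1 - (b0 - (κ / (1 - c)) • η₀)), ξ⟫_ℝ =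
        (1 - c) * ⟪b1, ξ⟫_ℝ - (1 - c) * ⟪b0, ξ⟫_ℝ + κ * ⟪η₀, ξ⟫_ℝ := by
      simp only [inner_sub_left, real_inner_smul_left]
      field_simp
      ring
    simp only [Del, e1, e2, zero_sub, zero_add] at a1 hD
    rw [zero_add, real_inner_smul_right, norm_smul, Real.norm_of_nonneg hc.le, mul_pow,
      mul_div_assoc] at a3
    rw [inner_neg_right, norm_neg] at a2
    rw [e3, show 3 / r * ‖ξ‖ ^ 2 = 3 * (‖ξ‖ ^ 2 / r) by ring]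
    have a5 : κ * (‖ξ‖ ^ 2 / 2) ≤ ‖ξ‖ ^ 2 / r := by
      rw [le_div_iff₀ hr]
      have : c ^ 2 ≤ 1 := pow_le_one₀ hc0.le hc1.le
      nlinarith [sq_nonneg ‖ξ‖]
    have a6 : 0 ≤ ‖ξ‖ ^ 2 / r := by positivity
    generalize ‖ξ‖ ^ 2 / r = q at *
    have a7 := mul_le_mul_of_nonneg_left a2 hκ0.le
    have a8 := mul_le_mul_of_nonneg_left a4 hc.le
    have a9 : (1 - c) ^ 2 * q ≤ q := mul_le_of_le_one_left a6 (pow_le_one₀ hc.le (by linarith))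
    nlinarith [mul_nonneg hc0.le a6, mul_pos hc0 hr]
  have := norm_sq_le_of_inner_le (by positivity) key
  rw [norm_smul, Real.norm_of_nonneg hc.le, mul_pow,
    show 4 * (3 / r) * (3 * r) = 36 by field_simp; norm_num] at this
  rw [le_div_iff₀ (by positivity)]
  linarith

theorem top_second {c κ r h0 h2 : ℝ} {w : E × ℝ → ℝ} {η₀ b0 b2 : E} (hc0 : 0 < c)
    (hr : 0 < r) (hκ : κ * r ≤ 2 * c ^ 2) (hF : FLe c κ w) (hκ0 : 0 < κ) (hu : ‖η₀‖ = 1)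
    (hD : κ - r ≤ Del c w 0 η₀ 0) (H0 : CFw univ w (0, 0) r 1 b0 h0)
    (H2 : CFw univ w ((1 - c) • η₀, 0) (r / c) 1 b2 h2) :
    ‖b2 - (b0 + (κ / c) • η₀)‖ ^ 2 ≤ 36 := by
  have key : ∀ ξ : E, ⟪c • (b2 - (b0 + (κ / c) • η₀)), ξ⟫_ℝ ≤
      3 * r + 3 * c ^ 2 / r * ‖ξ‖ ^ 2 := by
    intro ξ
    have a1 := hF (c • ξ) (η₀ + ξ) 0
    have a2 := norm_unit_add_le hu ξ
    have a3 := (abs_le.1 (top_space H0 hr (c • ξ))).2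
    have a4 := (abs_le.1 (top_space H2 (by positivity) ξ)).1
    have e1 : c • ξ - c • (η₀ + ξ) = -(c • η₀) := by module
    have e2 : c • ξ + (1 - c) • (η₀ + ξ) = (1 - c) • η₀ + ξ := by module
    have e3 : ⟪c • (b2 - (b0 + (κ / c) • η₀)), ξ⟫_ℝ =
        c * ⟪b2, ξ⟫_ℝ - c * ⟪b0, ξ⟫_ℝ - κ * ⟪η₀, ξ⟫_ℝ := by
      simp only [inner_sub_left, inner_add_left, real_inner_smul_left]
      field_simp
      ring
    simp only [Del, e1, e2, zero_sub, zero_add] at a1 hD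
    rw [zero_add, real_inner_smul_right, norm_smul, Real.norm_of_nonneg hc0.le, mul_pow,
      mul_div_assoc] at a3
    rw [e3, show 3 * c ^ 2 / r * ‖ξ‖ ^ 2 = 3 * (c ^ 2 * (‖ξ‖ ^ 2 / r)) by ring]
    have a5 : κ * (‖ξ‖ ^ 2 / 2) ≤ c ^ 2 * (‖ξ‖ ^ 2 / r) := by
      rw [← mul_div_assoc (c ^ 2), le_div_iff₀ hr]
      nlinarith [sq_nonneg ‖ξ‖]
    have a7 := mul_le_mul_of_nonneg_left a2 hκ0.le
    have a8 := mul_le_mul_of_nonneg_left a4 hc0.le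
    have e4 : c * -(1 * (r / c) + ‖ξ‖ ^ 2 / (r / c)) = -(r + c ^ 2 * (‖ξ‖ ^ 2 / r)) := by
      field_simp
    rw [e4] at a8
    linarith
  have := norm_sq_le_of_inner_le (by positivity) key
  rw [norm_smul, Real.norm_of_nonneg hc0.le, mul_pow,
    show 4 * (3 * c ^ 2 / r) * (3 * r) = c ^ 2 * 36 by field_simp; norm_num] at this
  exact le_of_mul_le_mul_left this (by positivity)

/-- `ρ' = 4ρ`; frames of constant 1: `b⁰` at `0` and `b¹` at `z₁*` (scale `ρ'`), `b²` at `z₂*`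
(scale `ρ'/c`). `F = κ - Del ≤ ρ'` (`ext_cons`), `κρ' ≤ 2c²`. `FLe` at `((1-c) • ξ, η₀ - ξ, 0)` gives
`⟪(1-c) • (b¹-b⁰) + κ • η₀, ξ⟫ ≤ 3ρ' + 3‖ξ‖²/ρ'`; at `(c • ξ, η₀ + ξ, 0)` gives
`⟪c • (b²-b⁰) - κ • η₀, ξ⟫ ≤ 3ρ' + 3c²‖ξ‖²/ρ'`. `norm_sq_le_of_inner_le`, `change_frame`,
`V² = 4 + 72/(1-c)²`; `grow_frame_small`. -/
theorem top {c κ Λ CE : ℝ} (hc0 : 0 < c) (hc1 : c < 1) (hκ : 0 < κ) (hCE : 0 ≤ CE) :
    ∃ V C η' : ℝ, 1 ≤ V ∧ 0 < C ∧ 0 < η' ∧ ∀ (w : E × ℝ → ℝ) (δ : ℝ) (η₀ Z₀ : E) (n a : ℝ),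
      Ext c κ Λ CE w δ η₀ Z₀ n a → ∀ ρ : ℝ, 0 < ρ → ρ ≤ η' → δ * (1 + ‖Z₀‖ ^ 2) ≤ η' * ρ →
      ∃ b : E, St c κ w η₀ ρ V b ∧ ‖b‖ ≤ C * (1 + Real.log ρ⁻¹) := by
  obtain ⟨C₁, δ₀, hC₁, hδ₀, h1⟩ := ext_cons (E := E) (Λ := Λ) hc0 hc1 hκ hCE
  obtain ⟨C₂, hC₂, h2⟩ := grow_frame_small (E := E) Λ 0
  have hc : 0 < 1 - c := by linarith
  have hV : 72 ≤ 72 / (1 - c) ^ 2 :=
    le_div_self (by norm_num) (by positivity) (pow_le_one₀ hc.le (by linarith))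
  refine ⟨√(4 + 72 / (1 - c) ^ 2), C₂, min (min (1 / 4) (c ^ 2 / (2 * κ))) (min δ₀ (4 / C₁)),
    Real.le_sqrt_of_sq_le (by linarith), hC₂, by positivity, ?_⟩
  intro w δ η₀ Z₀ n a hE ρ hρ hρη hδ
  simp only [le_min_iff] at hρη
  obtain ⟨⟨b1, b2⟩, -, -⟩ := hρη
  have hδ0 := hE.δpos
  have c1 : δ * (1 + ‖Z₀‖ ^ 2) ≤ δ₀ * ρ :=
    hδ.trans (mul_le_mul_of_nonneg_right ((min_le_right _ _).trans (min_le_left _ _)) hρ.le)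
  have c2 : δ * (1 + ‖Z₀‖ ^ 2) ≤ 4 / C₁ * ρ :=
    hδ.trans (mul_le_mul_of_nonneg_right ((min_le_right _ _).trans (min_le_right _ _)) hρ.le)
  have c3 : δ * (1 + ‖Z₀‖) ≤ δ₀ := by
    have : 1 + ‖Z₀‖ ≤ 2 * (1 + ‖Z₀‖ ^ 2) := by nlinarith [sq_nonneg (‖Z₀‖ - 1)]
    nlinarith
  have c4 : κ - 4 * ρ ≤ Del c w 0 η₀ 0 := by
    refine le_trans ?_ (h1 w δ η₀ Z₀ n a hE c3).2.1
    have := mul_le_mul_of_nonneg_left c2 hC₁.le
    rw [show C₁ * (4 / C₁ * ρ) = 4 * ρ by field_simp] at this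
    linarith
  have c5 : κ * (4 * ρ) ≤ 2 * c ^ 2 := by
    rw [le_div_iff₀ (by positivity)] at b2
    linarith
  have hr : 0 < 4 * ρ := by positivity
  obtain ⟨b0, k0, H0⟩ := hE.bmo.2 0 (4 * ρ) hr
  obtain ⟨β1, k1, H1⟩ := hE.bmo.2 (-(c • η₀), 0) (4 * ρ) hr
  obtain ⟨β2, k2, H2⟩ := hE.bmo.2 ((1 - c) • η₀, 0) (4 * ρ / c) (by positivity)
  have d1 := top_first hc0 hc1 hr c5 hE.fle hκ hE.unit c4 H0 H1
  have d2 := top_second hc0 hr c5 hE.fle hκ hE.unit c4 H0 H2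
  have e1 : 4 * ρ / 4 = ρ := by ring
  have e2 : 4 * ρ / c / 4 = ρ / c := by ring
  refine ⟨b0, ⟨k0, k1, k2, ?_, ?_, ?_⟩, ?_⟩
  · have := H0.change_frame hr b0
    rw [e1] at this
    refine this.mono_lam hρ ?_
    rw [Real.sq_sqrt (by positivity), sub_self, norm_zero]
    linarith
  · have := H1.change_frame hr (b0 - (κ / (1 - c)) • η₀)
    rw [e1] at this
    refine this.mono_lam hρ ?_
    rw [Real.sq_sqrt (by positivity), show 72 / (1 - c) ^ 2 = 2 * (36 / (1 - c) ^ 2) by ring]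
    linarith
  · have := H2.change_frame (by positivity) (b0 + (κ / c) • η₀)
    rw [e2] at this
    refine this.mono_lam (by positivity) ?_
    rw [Real.sq_sqrt (by positivity)]
    linarith
  · refine (h2 w hE.bmo hE.nrm 0 (by simp) (4 * ρ) b0 k0 hr (by linarith) H0).1.trans ?_
    have : Real.log (4 * ρ)⁻¹ ≤ Real.log ρ⁻¹ :=
      Real.log_le_log (by positivity) (inv_anti₀ hρ (by linarith))
    gcongr

end R94
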