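import Crest.Agent.R94.B4
import Crest.Agent.R94.Top

/-!
# R94/Step: one step of the iteration
-/

set_option autoImplicit false
set_option linter.unusedSectionVars false
set_option linter.unusedVariables false

open Set Filter Topology Metric
open scoped InnerProductSpace

namespace R94

variable {E : Type} [NormedAddCommGroup E] [InnerProductSpace ℝ E] [FiniteDimensional ℝ E]

theorem step_key {c κ ρ v : ℝ} (hc0 : 0 < c) (hc1 : c < 1) (hκ : 0 ≤ κ) (hρ : 0 < ρ) (hv : 0 < v)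
    {w : E × ℝ → ℝ} (hF : FLe c κ w) {η₀ : E} (hη : ‖η₀‖ = 1) (b : E) (h0 h1 h2 : ℝ) (y y' : E)
    (σ : ℝ) :
    v ^ 2 * ρ * ((1 - c) * sym (-(c • η₀), 0) (b - (κ / (1 - c)) • η₀) h1 (v * ρ) ρ w (y, σ) +
      sym ((1 - c) • η₀, 0) (b + (κ / c) • η₀) h2 (v * (ρ / c)) (ρ / c) w (y', c * σ) -
      sym 0 b h0 (v * ρ) ρ w ((1 - c) • y + y', σ)) +
      ρ * σ * ((1 - c) * (h1 + ‖b - (κ / (1 - c)) • η₀‖ ^ 2 / 2) +
        c * (h2 + ‖b + (κ / c) • η₀‖ ^ 2 / 2) - (h0 + ‖b‖ ^ 2 / 2) - κ ^ 2 / (c * (1 - c))) ≤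
      κ - Del c w 0 η₀ 0 +
        κ * (‖(v * ρ) • (c⁻¹ • y' - y) + (ρ * σ * κ / (c * (1 - c))) • η₀‖ ^ 2 / 2) := by
  have hc2 : 0 < 1 - c := by linarith
  set u : E := (v * ρ) • (c⁻¹ • y' - y) + (ρ * σ * κ / (c * (1 - c))) • η₀ with hu
  set x : E := (v * ρ) • ((1 - c) • y + y') + (ρ * σ) • b with hx
  have P0 : pt 0 b (v * ρ) ρ ((1 - c) • y + y', σ) = (x, ρ * σ) := by simp [pt, hx]
  have P1 : pt (-(c • η₀), 0) (b - (κ / (1 - c)) • η₀) (v * ρ) ρ (y, σ) =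
      (x - c • (η₀ + u), ρ * σ) := by
    refine Prod.ext ?_ (by simp [pt])
    simp only [pt, hx, hu]
    match_scalars <;> field_simp <;> ring
  have P2 : pt ((1 - c) • η₀, 0) (b + (κ / c) • η₀) (v * (ρ / c)) (ρ / c) (y', c * σ) =
      (x + (1 - c) • (η₀ + u), ρ * σ) := by
    refine Prod.ext ?_ (by simp only [pt]; field_simp; ring)
    simp only [pt, hx, hu]
    match_scalars <;> field_simp <;> ring
  have h3 := (hF x (η₀ + u) (ρ * σ)).trans (mul_le_mul_of_nonneg_left (norm_unit_add_le hη u) hκ)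
  have h4 : ⟪η₀, u⟫_ℝ = v * ρ * (c⁻¹ * ⟪η₀, y'⟫_ℝ - ⟪η₀, y⟫_ℝ) + ρ * σ * κ / (c * (1 - c)) := by
    simp only [hu, inner_add_right, inner_smul_right, inner_sub_right, real_inner_self_eq_norm_sq,
      hη]
    ring
  have h5 : v ^ 2 * ρ *
      ((1 - c) * sym (-(c • η₀), 0) (b - (κ / (1 - c)) • η₀) h1 (v * ρ) ρ w (y, σ) +
      sym ((1 - c) • η₀, 0) (b + (κ / c) • η₀) h2 (v * (ρ / c)) (ρ / c) w (y', c * σ) -
      sym 0 b h0 (v * ρ) ρ w ((1 - c) • y + y', σ)) +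
      ρ * σ * ((1 - c) * (h1 + ‖b - (κ / (1 - c)) • η₀‖ ^ 2 / 2) +
        c * (h2 + ‖b + (κ / c) • η₀‖ ^ 2 / 2) - (h0 + ‖b‖ ^ 2 / 2) - κ ^ 2 / (c * (1 - c))) =
      Del c w x (η₀ + u) (ρ * σ) - Del c w 0 η₀ 0 - κ * ⟪η₀, u⟫_ℝ := by
    simp only [sym, P0, P1, P2, Del, h4, zero_sub, zero_add, Prod.mk_zero_zero, inner_add_left,
      inner_sub_left, inner_add_right, real_inner_smul_left, real_inner_smul_right]
    generalize ‖b - (κ / (1 - c)) • η₀‖ = n1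
    generalize ‖b + (κ / c) • η₀‖ = n2
    field_simp
    ring
  rw [h5]
  linarith

theorem step_back {ρ v θ h h' : ℝ} (hρ : 0 < ρ) (hv : 0 < v) (hθ : 0 < θ) {w : E × ℝ → ℝ}
    {X₀ : E × ℝ} {b b' : E} (H : CFw univ (sym X₀ b h (v * ρ) ρ w) 0 θ (1 / 4) b' h') :
    CFw univ w X₀ (ρ * θ) ((v / 2) ^ 2) (b + v • b') (h + v ^ 2 * h') := by
  have h1 := (cfw_sym_iff (O := univ) (mul_pos hv hρ) hρ hθ).1 H
  rw [pt_zero, mul_div_cancel_right₀ _ hρ.ne'] at h1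
  convert h1 using 1
  ring

theorem step_u {c κ ρ v R σ : ℝ} (hc0 : 0 < c) (hc1 : c < 1) (hκ : 0 ≤ κ) (hρ : 0 < ρ) (hv : 0 < v)
    {η₀ y y' : E} (hη : ‖η₀‖ = 1) (hy : ‖y‖ ≤ R) (hy' : ‖y'‖ ≤ R) (hσ : |σ| < 1) :
    ‖(v * ρ) • (c⁻¹ • y' - y) + (ρ * σ * κ / (c * (1 - c))) • η₀‖ ^ 2 / 2 ≤
      ρ ^ 2 * (v ^ 2 * (c⁻¹ * R + R) ^ 2 + (κ / (c * (1 - c))) ^ 2) := by
  have hc2 : 0 < 1 - c := by linarith
  have h1 : ‖c⁻¹ • y' - y‖ ≤ c⁻¹ * R + R := by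
    refine (norm_sub_le _ _).trans (add_le_add ?_ hy)
    rw [norm_smul, Real.norm_of_nonneg (by positivity)]
    gcongr
  have h2 : ‖(v * ρ) • (c⁻¹ • y' - y)‖ ≤ ρ * (v * (c⁻¹ * R + R)) := by
    rw [norm_smul, Real.norm_of_nonneg (by positivity)]
    calc v * ρ * ‖c⁻¹ • y' - y‖ ≤ v * ρ * (c⁻¹ * R + R) := by gcongr
      _ = _ := by ring
  have h3 : ‖(ρ * σ * κ / (c * (1 - c))) • η₀‖ ≤ ρ * (κ / (c * (1 - c))) := by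
    have e : ρ * σ * κ / (c * (1 - c)) = ρ * (κ / (c * (1 - c))) * σ := by ring
    rw [norm_smul, hη, mul_one, e, norm_mul, Real.norm_of_nonneg (by positivity)]
    exact mul_le_of_le_one_right (by positivity) hσ.le
  have h4 := pow_le_pow_left₀ (norm_nonneg _) ((norm_add_le _ _).trans (add_le_add h2 h3)) 2
  nlinarith [sq_nonneg (ρ * (v * (c⁻¹ * R + R)) - ρ * (κ / (c * (1 - c))))]

/-- `W0 = sym 0 b h0 (vρ) ρ w`, `W1 = sym (-(c • η₀),0) b₁ h1 (vρ) ρ w`,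
`W2 = sym ((1-c) • η₀,0) b₂ h2 (v(ρ/c)) (ρ/c) w` are `Slab 1 1`. For `(y,y',σ)` take `t = ρσ`,
`x = vρ • ((1-c) • y + y') + t • b`, `η = η₀ + u`, `u = vρ • (c⁻¹ • y' - y) + (tκ/(c(1-c))) • η₀`;
then `(x - c • η, t)`, `(x + (1-c) • η, t)`, `(x,t)` are the `pt`-images of `(y,σ)`, `(y',cσ)`,
`((1-c) • y + y',σ)`. `FLe` and `norm_unit_add_le`: the terms linear in `y, y'` cancel, leaving
`v²ρ((1-c)W1 + W2 - W0) + tλ ≤ (κ - Del c w 0 η₀ 0) + κ‖u‖²/2`, with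
`λ = (1-c)(h1 + ‖b₁‖²/2) + c(h2 + ‖b₂‖²/2) - h0 - ‖b‖²/2 - κ²/(c(1-c))`; `l = λ/v²`; both error terms
are `≤ ε₁v²ρ/2` for small `η'` (`ext_cons`; `ρ ≤ η'V¹⁴v²`). Chord: `b4` at scale `ρ/c` with
`e = ‖-Z₀-b‖⁻¹ • (-Z₀-b)`. `TripleAt` and `cfw_sym_iff`; `‖b'‖√θ ≤ 4` by `norm_b_le`. -/
theorem step {c θm ε₁ R κ Λ CE V : ℝ} (hc0 : 0 < c) (hc1 : c < 1) (hθ : 0 < θm) (hε₁ : 0 < ε₁)
    (hR : 1 ≤ R) (hT : TripleAt E c θm ε₁ R) (hκ : 0 < κ) (hCE : 0 ≤ CE) (hV : 0 < V) :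
    ∃ η' : ℝ, 0 < η' ∧ ∀ (w : E × ℝ → ℝ) (δ : ℝ) (η₀ Z₀ : E) (n a : ℝ),
      Ext c κ Λ CE w δ η₀ Z₀ n a → ∀ (ρ v : ℝ) (b : E), 0 < ρ → 0 < v → v ≤ V →
      ‖b‖ ≤ ‖Z₀‖ / 4 → ρ * (1 + ‖Z₀‖) ^ 8 ≤ η' * v ^ 16 →
      δ * (1 + ‖Z₀‖ ^ 2) ≤ η' * (v ^ 2 * ρ) → 1 ≤ η' * ‖Z₀‖ → St c κ w η₀ ρ v b →
      ∃ (θ : ℝ) (b' : E), θm ≤ θ ∧ θ ≤ 1 / 65536 ∧ ‖b'‖ ≤ 4 / √θm ∧
        St c κ w η₀ (θ * ρ) (v / 2) (b + v • b') := by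
  have hc2 : 0 < 1 - c := by linarith
  obtain ⟨η₄, hη₄, H4⟩ := b4 (E := E) (Λ := Λ) hc0 hc1 hκ hCE hR hε₁ hV
  obtain ⟨C, δ₀, hC, hδ₀, HC⟩ := ext_cons (E := E) (Λ := Λ) hc0 hc1 hκ hCE
  set K : ℝ := κ * V ^ 14 * (V ^ 2 * (c⁻¹ * R + R) ^ 2 + (κ / (c * (1 - c))) ^ 2) with hK
  have hK0 : 0 < K := by positivity
  obtain ⟨η', h0, g1, g2, g3, g4, g5⟩ : ∃ η' : ℝ, 0 < η' ∧ η' ≤ c * η₄ ∧ η' ≤ ε₁ / (2 * C) ∧
      η' ≤ ε₁ / (2 * K) ∧ η' ≤ 1 ∧ η' ≤ δ₀ / (2 * V ^ 18) :=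
    ⟨min (c * η₄) (min (ε₁ / (2 * C)) (min (ε₁ / (2 * K)) (min 1 (δ₀ / (2 * V ^ 18))))),
      by positivity, by simp, by simp, by simp, by simp, by simp⟩
  rw [le_div_iff₀ (by positivity)] at g2 g3 g5
  refine ⟨η', h0, fun w δ η₀ Z₀ n a hE ρ v b hρ hv hvV hb hρ1 hδ hQ hS => ?_⟩
  obtain ⟨h0', h1, h2, S0, S1, S2⟩ := hS
  have hQ0 := norm_nonneg Z₀
  have hδ0 := hE.δpos
  have g1' : η' ≤ η₄ := g1.trans (mul_le_of_le_one_left hη₄.le hc1.le)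
  have hρ2 : ρ ≤ η' * (V ^ 14 * v ^ 2) :=
    calc ρ ≤ ρ * (1 + ‖Z₀‖) ^ 8 := le_mul_of_one_le_right hρ.le (one_le_pow₀ (by linarith))
      _ ≤ η' * (v ^ 14 * v ^ 2) := by rw [← pow_add]; exact hρ1
      _ ≤ η' * (V ^ 14 * v ^ 2) := by gcongr
  have hδ1 : δ * (1 + ‖Z₀‖) ≤ δ₀ :=
    calc δ * (1 + ‖Z₀‖) ≤ δ * (2 * (1 + ‖Z₀‖ ^ 2)) := by gcongr; nlinarith
      _ ≤ 2 * (η' * (v ^ 2 * ρ)) := by linarith
      _ ≤ 2 * (η' * (V ^ 2 * (1 * (V ^ 14 * V ^ 2)))) := by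
          gcongr
          exact hρ2.trans (by gcongr)
      _ ≤ δ₀ := by linarith
  have hDel := (HC w δ η₀ Z₀ n a hE hδ1).2.1
  have hρc : 0 < ρ / c := by positivity
  have hne : 0 < ‖-Z₀ - b‖ := by
    have h3 := norm_sub_norm_le (-Z₀) b
    have h4 : 0 < ‖Z₀‖ := by
      by_contra h4
      have : ‖Z₀‖ = 0 := by linarith
      rw [this] at hQ
      linarith
    rw [norm_neg] at h3
    linarith
  have W0 := hE.bmo.slab_sym hρ hv S0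
  obtain ⟨θ, b', k0, k1, k2, t1, t2, T0, T1, T2⟩ := hT _ _ _ (‖-Z₀ - b‖⁻¹ • (-Z₀ - b))
    (((1 - c) * (h1 + ‖b - (κ / (1 - c)) • η₀‖ ^ 2 / 2) +
        c * (h2 + ‖b + (κ / c) • η₀‖ ^ 2 / 2) - (h0' + ‖b‖ ^ 2 / 2) - κ ^ 2 / (c * (1 - c))) / v ^ 2)
    W0 (hE.bmo.slab_sym hρ hv S1) (hE.bmo.slab_sym hρc hv S2)
    (by rw [norm_smul, norm_inv, norm_norm, inv_mul_cancel₀ hne.ne'])
    (fun y y' σ hy hy' hσ => by
      have a1 := step_key hc0 hc1 hκ.le hρ hv hE.fle hE.unit b h0' h1 h2 y y' σ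
      have a2 := mul_le_mul_of_nonneg_left (step_u hc0 hc1 hκ.le hρ hv hE.unit hy hy' hσ) hκ.le
      have a3 : κ * (ρ ^ 2 * (v ^ 2 * (c⁻¹ * R + R) ^ 2 + (κ / (c * (1 - c))) ^ 2)) ≤
          ε₁ / 2 * (v ^ 2 * ρ) :=
        calc _ = κ * (ρ * ρ * (v ^ 2 * (c⁻¹ * R + R) ^ 2 + (κ / (c * (1 - c))) ^ 2)) := by ring
          _ ≤ κ * (η' * (V ^ 14 * v ^ 2) * ρ *
              (V ^ 2 * (c⁻¹ * R + R) ^ 2 + (κ / (c * (1 - c))) ^ 2)) := by gcongr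
          _ = η' * K * (v ^ 2 * ρ) := by rw [hK]; ring
          _ ≤ _ := by gcongr; linarith
      have a4 : C * δ * (1 + ‖Z₀‖ ^ 2) ≤ ε₁ / 2 * (v ^ 2 * ρ) :=
        calc _ = C * (δ * (1 + ‖Z₀‖ ^ 2)) := by ring
          _ ≤ C * (η' * (v ^ 2 * ρ)) := by gcongr
          _ = η' * C * (v ^ 2 * ρ) := by ring
          _ ≤ _ := by gcongr; linarith
      generalize (1 - c) * (h1 + ‖b - (κ / (1 - c)) • η₀‖ ^ 2 / 2) +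
        c * (h2 + ‖b + (κ / c) • η₀‖ ^ 2 / 2) - (h0' + ‖b‖ ^ 2 / 2) - κ ^ 2 / (c * (1 - c)) = lam
        at a1 ⊢
      refine le_of_mul_le_mul_left ?_ (by positivity : 0 < v ^ 2 * ρ)
      have a5 : v ^ 2 * ρ * (lam / v ^ 2 * σ) = ρ * σ * lam := by field_simp
      linarith)
    (H4 w δ η₀ Z₀ n a hE (ρ / c) v b h2 _ hρc hv hvV hb
      (by
        rw [div_mul_eq_mul_div, div_le_iff₀ hc0]
        calc _ ≤ η' * v ^ 16 := hρ1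
          _ ≤ c * η₄ * v ^ 16 := by gcongr
          _ = _ := by ring)
      (hδ.trans (by
        gcongr
        exact le_div_self hρ.le hc0 hc1.le))
      (hQ.trans (by gcongr))
      (by rw [norm_smul, norm_inv, norm_norm, inv_mul_cancel₀ hne.ne'])
      (by rw [smul_smul, mul_inv_cancel₀ hne.ne', one_smul]) S2)
  have hθ0 : 0 < θ := hθ.trans_le t1
  refine ⟨θ, b', t1, t2, ?_, h0' + v ^ 2 * k0, h1 + v ^ 2 * k1, h2 + v ^ 2 * k2, ?_, ?_, ?_⟩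
  · have a1 := T0.norm_b_le (M := 2) hθ0 fun η hη => ⟨mem_univ _, by
      have a2 := W0.2.2.2 (η, 0) (by simp)
      have a3 := pow_le_pow_left₀ (norm_nonneg _) hη 2
      rw [Real.sq_sqrt hθ0.le] at a3
      simp only [Prod.fst_zero, Prod.snd_zero, zero_add, sym_zero, sub_zero]
      linarith⟩
    rw [le_div_iff₀ (Real.sqrt_pos.2 hθ)]
    calc ‖b'‖ * √θm ≤ ‖b'‖ * √θ := by gcongr
      _ ≤ 4 := by linarith
  · rw [mul_comm θ]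
    exact step_back hρ hv hθ0 T0
  · rw [mul_comm θ, add_sub_right_comm]
    exact step_back hρ hv hθ0 T1
  · rw [mul_div_assoc, mul_comm θ, add_right_comm]
    exact step_back hρc hv hθ0 T2

end R94
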