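import Crest.Agent.R94.Red
import Crest.Agent.R94.NS2

/-!
# R94/TL: the limit triple is non-singular
-/

set_option autoImplicit false
set_option linter.unusedSectionVars false
set_option linter.unusedVariables false

open Set Filter Topology Metric
open scoped InnerProductSpace

namespace R94

variable {E : Type} [NormedAddCommGroup E] [InnerProductSpace ℝ E] [FiniteDimensional ℝ E]

theorem tl_sym {w : E × ℝ → ℝ} (h0 : w 0 = 0) (b : E) (h : ℝ) (y : E) (s : ℝ) :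
    sym 0 b h 1 1 w (y, s) = w (y + s • b, s) - ⟪b, y⟫_ℝ - (h + ‖b‖ ^ 2 / 2) * s := by
  simp [sym, pt, h0]

theorem tl_slope {f : ℝ → ℝ} (h0 : f 0 = 0)
    (hch : ∀ τ₁ τ₂ : ℝ, 0 < τ₁ → 0 < τ₂ → 0 ≤ τ₂ * f (-τ₁) + τ₁ * f τ₂) :
    ∃ μ : ℝ, ∀ τ : ℝ, μ * τ ≤ f τ := by
  let S : Set ℝ := {x | ∃ τ : ℝ, 0 < τ ∧ x = f τ / τ}
  have hlb : ∀ τ₁ : ℝ, 0 < τ₁ → -f (-τ₁) / τ₁ ∈ lowerBounds S := by
    rintro τ₁ h1 _ ⟨τ₂, h2, rfl⟩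
    rw [div_le_div_iff₀ h1 h2]
    have := hch τ₁ τ₂ h1 h2
    linarith
  refine ⟨sInf S, fun τ => ?_⟩
  rcases lt_trichotomy τ 0 with h | h | h
  · have h1 := le_csInf (s := S) ⟨_, 1, one_pos, rfl⟩ (hlb (-τ) (neg_pos.2 h))
    rw [neg_neg, div_le_iff₀ (neg_pos.2 h)] at h1
    linarith
  · rw [h, h0, mul_zero]
  · have h1 := csInf_le (s := S) ⟨_, hlb 1 one_pos⟩ ⟨τ, h, rfl⟩
    rwa [le_div_iff₀ h] at h1

theorem tl_rpow {s α : ℝ} (hs : 0 < s) (hs1 : s ≤ 1) (hα : 0 < α) : s ^ (1 + α) ≤ s := by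
  have := Real.rpow_le_rpow_of_exponent_ge hs hs1 (by linarith : (1 : ℝ) ≤ 1 + α)
  rwa [Real.rpow_one] at this

/-- Wlog `Λ ≥ 0`. The chord condition gives `μ` with `w₂ (τ • e, 0) ≥ μτ` for all `τ` (every
`-w₂(-τ₁ • e)/τ₁` is `≤` every `w₂(τ₂ • e)/τ₂`; take `μ` the infimum of the latter). Then
`ŵᵢ = sym 0 (μ • e) 0 1 1 wᵢ` (`Slab.gal`; take the larger constant) satisfy
`ŵ₁ (y,σ) ≤ ŵ₀ (y + τ • e, σ)`. `reduce` gives `(b,h)`; `uᵢ = sym 0 b h 1 1 ŵᵢ` satisfy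
`u₁ ≤ Cρ^(1+α) + ‖η‖²/ρ`, `u₀ ≥ -Cρ^(1+α) - ‖η‖²/ρ`. `η = 0`, `σ = ±ρ`: `NSp u₀`, `NSm u₁`.
`slice_upper` for `u₀`; `u₂ = sym 0 (μ • e + b) 0 1 1 w₂` has `u₂ (y,0) ≤ u₀ (y,0)` (from `hL` with
`y = 0`, `σ = 0`); `nsm_of_slice`. Conclude with `nsp_gal`, `nsm_gal`, `nsm_of_nsp`, `nsp_of_nsm`. -/
theorem triple_limit {e : E} (he : ‖e‖ = 1) (hE : Est (ℝ ∙ e)ᗮ) {w₀ w₁ w₂ : E × ℝ → ℝ} {K Λ : ℝ}
    (h0 : Slab K Λ w₀) (h1 : Slab K Λ w₁) (h2 : Slab K Λ w₂)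
    (hL : ∀ (y y' : E) (σ : ℝ), |σ| < 1 → w₁ (y, σ) + w₂ (y', 0) ≤ w₀ (y + y', σ))
    (hch : ∀ τ₁ τ₂ : ℝ, 0 < τ₁ → 0 < τ₂ → 0 ≤ τ₂ * w₂ (-(τ₁ • e), 0) + τ₁ * w₂ (τ₂ • e, 0)) :
    (NSp w₀ ∧ NSm w₀) ∧ (NSp w₁ ∧ NSm w₁) ∧ (NSp w₂ ∧ NSm w₂) := by
  replace h0 : Slab K |Λ| w₀ := h0.mono le_rfl (le_abs_self _)
  replace h1 : Slab K |Λ| w₁ := h1.mono le_rfl (le_abs_self _)
  replace h2 : Slab K |Λ| w₂ := h2.mono le_rfl (le_abs_self _)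
  have hΛ := abs_nonneg Λ
  generalize |Λ| = Λ at h0 h1 h2 hΛ
  have z0 := h0.2.2.1
  have z1 := h1.2.2.1
  have z2 := h2.2.2.1
  obtain ⟨μ, hμ⟩ := tl_slope (f := fun τ => w₂ (τ • e, 0)) (by rw [zero_smul]; exact z2)
    fun τ₁ τ₂ a1 a2 => by simpa only [neg_smul] using hch τ₁ τ₂ a1 a2
  obtain ⟨K₀, g0⟩ := h0.gal hΛ (μ • e) 0
  obtain ⟨K₁, g1⟩ := h1.gal hΛ (μ • e) 0
  have hee : ⟪e, e⟫_ℝ = 1 := by rw [real_inner_self_eq_norm_sq, he, one_pow]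
  obtain ⟨α, C, ρ₀, b, h, hα, hC, hρ₀, hρ₁, H⟩ := reduce he hE (g1.mono (le_max_right K₀ K₁) le_rfl)
    (g0.mono (le_max_left K₀ K₁) le_rfl) fun y τ σ hσ => by
      have e1 : ⟪μ • e, τ • e⟫_ℝ = μ * τ := by
        rw [real_inner_smul_left, real_inner_smul_right, hee, mul_one]
      have a := hL (y + σ • μ • e) (τ • e) σ hσ
      have a' := hμ τ
      rw [tl_sym z0, tl_sym z1, inner_add_right, e1, add_right_comm y]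
      linarith
  set v₀ := sym 0 (μ • e) 0 1 1 w₀ with hv₀
  set v₁ := sym 0 (μ • e) 0 1 1 w₁ with hv₁
  have y0 : v₀ 0 = 0 := g0.2.2.1
  have y1 : v₁ 0 = 0 := g1.2.2.1
  have lo : ∀ ρ : ℝ, 0 < ρ → ρ ≤ ρ₀ → ∀ (η : E) (σ : ℝ), |σ| ≤ ρ →
      -(C * ρ ^ (1 + α)) - ‖η‖ ^ 2 / ρ ≤ sym 0 b h 1 1 v₀ (η, σ) := by
    intro ρ a1 a2 η σ a3
    have := (H ρ a1 a2 η σ a3).2
    rw [tl_sym y0]
    linarith
  have p0 : NSp w₀ := by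
    refine (nsp_gal z0 (μ • e) 0).1 ((nsp_gal y0 b h).1 ⟨C, ρ₀, hρ₀, fun s a1 a2 => ⟨0, ?_⟩⟩)
    have := lo s a1 a2 0 s (abs_of_pos a1).le
    have := mul_le_mul_of_nonneg_left (tl_rpow a1 (a2.trans hρ₁.le) hα) hC
    simp only [norm_zero, ne_eq, OfNat.ofNat_ne_zero, not_false_eq_true, zero_pow, zero_div,
      sub_zero] at *
    linarith
  have m1 : NSm w₁ := by
    refine (nsm_gal z1 (μ • e) 0).1 ((nsm_gal y1 b h).1 ⟨C, ρ₀, hρ₀, fun s a1 a2 => ⟨0, ?_⟩⟩)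
    have a := (H s a1 a2 0 (-s) (by rw [abs_neg, abs_of_pos a1])).1
    have := mul_le_mul_of_nonneg_left (tl_rpow a1 (a2.trans hρ₁.le) hα) hC
    rw [tl_sym y1]
    simp only [norm_zero, ne_eq, OfNat.ofNat_ne_zero, not_false_eq_true, zero_pow, zero_div,
      add_zero] at a ⊢
    linarith
  have m2 : NSm w₂ := by
    obtain ⟨K₂, g2⟩ := g0.gal (by positivity) b h
    obtain ⟨C', T₀, hC', hT₀, hup⟩ := slice_upper g2 hα hC hρ₀ lo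
    obtain ⟨K₃, g3⟩ := h2.gal hΛ (μ • e + b) 0
    refine (nsm_gal z2 (μ • e + b) 0).1 (nsm_of_slice g3 hα hC' hT₀ fun T a1 a2 y => ?_)
    refine le_trans ?_ (hup T a1 a2 y)
    have a := hL 0 y 0 (by simp)
    rw [tl_sym z2, tl_sym y0, hv₀, tl_sym z0, inner_add_left]
    simp only [zero_smul, add_zero, mul_zero, sub_zero, zero_add, Prod.mk_zero_zero, z1] at a ⊢
    linarith
  exact ⟨⟨p0, nsm_of_nsp h0 p0⟩, ⟨nsp_of_nsm h1 m1, m1⟩, nsp_of_nsm h2 m2, m2⟩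

end R94
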