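import Crest.Agent.R94.Defs

/-!
# R94/Visc0: viscosity toolkit (no PDE theory, only the definitions `SubAt`, `SuperAt`)
-/

set_option autoImplicit false
set_option linter.unusedSectionVars false
set_option linter.unusedVariables false

open Set Filter Topology Metric
open scoped InnerProductSpace

namespace R94

variable {E : Type} [NormedAddCommGroup E] [InnerProductSpace ℝ E] [FiniteDimensional ℝ E]

variable {w v w' : E × ℝ → ℝ} {X X₀ : E × ℝ} {O O' : Set (E × ℝ)} {b : E} {h a τ : ℝ}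

theorem visc0_neg : Tendsto (fun Z : E × ℝ => -Z) (𝓝 0) (𝓝 0) := by
  simpa using (continuous_neg (G := E × ℝ)).tendsto 0

theorem visc0_add (X : E × ℝ) : Tendsto (fun Z : E × ℝ => X + Z) (𝓝 0) (𝓝 X) := by
  simpa using (continuous_const_add X).tendsto 0

theorem visc0_norm (Z : E × ℝ) (q : E) : ‖(-Z).1 - (-Z).2 • q‖ = ‖Z.1 - Z.2 • q‖ := by
  rw [← norm_neg]
  congr 1
  simp only [Prod.fst_neg, Prod.snd_neg, neg_smul]
  abel

/-- Substitute `Z ↦ -Z` (a homeomorphism fixing `𝓝 0`): `rev w (-X + Z) = - w (X + (-Z))`. -/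
theorem superAt_iff_rev : SuperAt w X ↔ SubAt (rev w) (-X) := by
  refine forall₅_congr fun q r A ε _ => not_congr ⟨fun h => ?_, fun h => ?_⟩
  · filter_upwards [visc0_neg.eventually h] with Z hZ
    rw [visc0_norm] at hZ
    simp only [Prod.fst_neg, Prod.snd_neg, inner_neg_right] at hZ
    simp only [rev_apply, neg_add, neg_neg]
    linarith
  · filter_upwards [visc0_neg.eventually h] with Z hZ
    rw [visc0_norm] at hZ
    simp only [Prod.fst_neg, Prod.snd_neg, inner_neg_right, rev_apply, neg_add, neg_neg] at hZ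
    linarith

theorem subAt_iff_rev : SubAt w X ↔ SuperAt (rev w) (-X) := by
  rw [superAt_iff_rev, rev_rev, neg_neg]

theorem visc0_cont_rev (hw : ContinuousOn w O) : ContinuousOn (rev w) {X | -X ∈ O} :=
  (hw.comp continuous_neg.continuousOn fun _ h => h).neg

theorem IsSub.rev (hw : IsSub O w) : IsSuper {X | -X ∈ O} (rev w) :=
  ⟨visc0_cont_rev hw.1, fun X hX => by simpa using subAt_iff_rev.1 (hw.2 _ hX)⟩
theorem IsSuper.rev (hw : IsSuper O w) : IsSub {X | -X ∈ O} (rev w) :=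
  ⟨visc0_cont_rev hw.1, fun X hX => by simpa using superAt_iff_rev.1 (hw.2 _ hX)⟩
theorem IsSol.rev (hw : IsSol O w) : IsSol {X | -X ∈ O} (rev w) := ⟨hw.2.rev, hw.1.rev⟩

theorem IsSub.mono (hw : IsSub O w) (hO : O' ⊆ O) : IsSub O' w :=
  ⟨hw.1.mono hO, fun X hX => hw.2 X (hO hX)⟩
theorem IsSuper.mono (hw : IsSuper O w) (hO : O' ⊆ O) : IsSuper O' w :=
  ⟨hw.1.mono hO, fun X hX => hw.2 X (hO hX)⟩
theorem IsSol.mono (hw : IsSol O w) (hO : O' ⊆ O) : IsSol O' w :=
  ⟨hw.1.mono hO, hw.2.mono hO⟩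

/-- a function touched from below by a subsolution is a subsolution at that point. -/
theorem SubAt.of_touch (hv : SubAt v X) (hle : ∀ᶠ Y in 𝓝 X, v Y ≤ w Y) (heq : v X = w X) :
    SubAt w X := fun q r A ε hε h => hv q r A ε hε (by
  filter_upwards [h, (visc0_add X).eventually hle] with Z h1 h2
  linarith)

theorem SuperAt.of_touch (hv : SuperAt v X) (hle : ∀ᶠ Y in 𝓝 X, w Y ≤ v Y) (heq : v X = w X) :
    SuperAt w X := fun q r A ε hε h => hv q r A ε hε (by
  filter_upwards [h, (visc0_add X).eventually hle] with Z h1 h2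
  linarith)

theorem SubAt.congr (hw : SubAt w X) (he : w =ᶠ[𝓝 X] w') : SubAt w' X :=
  hw.of_touch he.le he.eq_of_nhds
theorem SuperAt.congr (hw : SuperAt w X) (he : w =ᶠ[𝓝 X] w') : SuperAt w' X :=
  hw.of_touch he.symm.le he.eq_of_nhds

/-- Invariance. With `v = a / τ`, `pt (X + Z) = pt X + Z̃`, `Z̃ = (a • Z.1 + (τ Z.2) • b, τ Z.2)`,
and `Z ↦ Z̃` is a linear homeomorphism. If `sym .. w` is touched with data `(q', r', A', ε')` then
`w` is touched at `pt X` with `q = b + v • q'` (so `Z̃.1 - Z̃.2 • q = a • (Z.1 - Z.2 • q')`),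
`A = A' / τ`, `ε = ε' a² / τ³` and the `r` that makes the linear parts agree. -/
theorem SubAt.sym (ha : 0 < a) (hτ : 0 < τ) (hw : SubAt w (pt X₀ b a τ X)) :
    SubAt (sym X₀ b h a τ w) X := by
  intro q r A ε hε hh
  refine hw (b + (a / τ) • q) (h - ‖b‖ ^ 2 / 2 + a ^ 2 * r / τ ^ 2 - a / τ * ⟪q, b⟫_ℝ) (A / τ)
    (ε * a ^ 2 / τ ^ 3) (by positivity) ?_
  have ht : Tendsto (fun W : E × ℝ => (a⁻¹ • (W.1 - W.2 • b), W.2 / τ)) (𝓝 0) (𝓝 0) := by
    have : Continuous fun W : E × ℝ => (a⁻¹ • (W.1 - W.2 • b), W.2 / τ) := by fun_prop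
    simpa [Prod.zero_eq_mk] using this.tendsto 0
  filter_upwards [ht.eventually hh] with W hW
  obtain ⟨y, s, rfl⟩ : ∃ (y : E) (s : ℝ), W = (a • y + (τ * s) • b, τ * s) :=
    ⟨a⁻¹ • (W.1 - W.2 • b), W.2 / τ, by
      rw [smul_inv_smul₀ ha.ne', mul_div_cancel₀ _ hτ.ne', sub_add_cancel]⟩
  simp only [add_sub_cancel_right, inv_smul_smul₀ ha.ne', mul_div_cancel_left₀ _ hτ.ne'] at hW
  have e1 : pt X₀ b a τ (X + (y, s)) = pt X₀ b a τ X + (a • y + (τ * s) • b, τ * s) := by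
    ext
    · simp only [pt, Prod.fst_add, Prod.snd_add, smul_add, mul_add, add_smul]; abel
    · simp only [pt, Prod.snd_add]; ring
  have e2 : a • y + (τ * s) • b - (τ * s) • (b + (a / τ) • q) = a • (y - s • q) := by
    rw [smul_add, smul_smul, smul_sub, smul_smul, show τ * s * (a / τ) = a * s by field_simp]
    abel
  simp only [R94.sym, e1, Prod.fst_add, Prod.snd_add, inner_add_right] at hW
  simp only [e2, norm_smul, Real.norm_eq_abs, mul_pow, sq_abs, inner_add_left, inner_add_right,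
    real_inner_smul_left, real_inner_smul_right, real_inner_self_eq_norm_sq]
  have h1 := mul_le_mul_of_nonneg_right hW (by positivity : 0 ≤ a ^ 2 / τ)
  rw [← sub_nonneg] at h1 ⊢
  refine h1.trans_eq ?_
  field_simp
  ring

theorem visc0_pt_neg (X₀ : E × ℝ) (b : E) (a τ : ℝ) (X : E × ℝ) :
    pt (-X₀) b a τ (-X) = -pt X₀ b a τ X := by
  ext
  · simp only [pt, Prod.fst_neg, Prod.snd_neg, smul_neg, mul_neg, neg_smul]; abel
  · simp only [pt, Prod.snd_neg]; ring

theorem visc0_rev_sym (X₀ : E × ℝ) (b : E) (h a τ : ℝ) (w : E × ℝ → ℝ) :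
    rev (sym X₀ b h a τ w) = sym (-X₀) b h a τ (rev w) := by
  funext X
  have := visc0_pt_neg X₀ b a τ (-X)
  rw [neg_neg] at this
  simp only [rev, sym, this, neg_neg, Prod.fst_neg, Prod.snd_neg, inner_neg_right]
  ring

theorem visc0_cont_sym (hw : ContinuousOn w O) :
    ContinuousOn (sym X₀ b h a τ w) (pt X₀ b a τ ⁻¹' O) := by
  have h1 : ContinuousOn (fun X => w (pt X₀ b a τ X)) (pt X₀ b a τ ⁻¹' O) :=
    hw.comp (continuous_pt _ _ _ _).continuousOn fun _ h => h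
  exact (((h1.sub continuousOn_const).sub (by fun_prop)).sub (by fun_prop)).mul continuousOn_const

theorem SuperAt.sym (ha : 0 < a) (hτ : 0 < τ) (hw : SuperAt w (pt X₀ b a τ X)) :
    SuperAt (sym X₀ b h a τ w) X := by
  rw [superAt_iff_rev, visc0_rev_sym]
  refine SubAt.sym ha hτ ?_
  rw [visc0_pt_neg]
  exact superAt_iff_rev.1 hw

theorem IsSub.sym (hw : IsSub O w) (ha : 0 < a) (hτ : 0 < τ) :
    IsSub (pt X₀ b a τ ⁻¹' O) (sym X₀ b h a τ w) :=
  ⟨visc0_cont_sym hw.1, fun _ hX => (hw.2 _ hX).sym ha hτ⟩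
theorem IsSuper.sym (hw : IsSuper O w) (ha : 0 < a) (hτ : 0 < τ) :
    IsSuper (pt X₀ b a τ ⁻¹' O) (sym X₀ b h a τ w) :=
  ⟨visc0_cont_sym hw.1, fun _ hX => (hw.2 _ hX).sym ha hτ⟩
theorem IsSol.sym (hw : IsSol O w) (ha : 0 < a) (hτ : 0 < τ) :
    IsSol (pt X₀ b a τ ⁻¹' O) (sym X₀ b h a τ w) := ⟨hw.1.sym ha hτ, hw.2.sym ha hτ⟩

/-- adding a convex quadratic in time: new `r` is `r - l - 2 m X.2`, new `ε` is `ε + m`. -/
theorem SubAt.add_time (hw : SubAt w X) (k l m : ℝ) (hm : 0 ≤ m) :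
    SubAt (fun Y => w Y + k + l * Y.2 + m * Y.2 ^ 2) X := fun q r A ε hε h =>
  hw q (r - l - 2 * m * X.2) A (ε + m) (by linarith) (h.mono fun Z hZ => by
    simp only [Prod.snd_add] at hZ
    linarith)

theorem SuperAt.add_time (hw : SuperAt w X) (k l m : ℝ) (hm : 0 ≤ m) :
    SuperAt (fun Y => w Y + k + l * Y.2 - m * Y.2 ^ 2) X := fun q r A ε hε h =>
  hw q (r - l + 2 * m * X.2) A (ε + m) (by linarith) (h.mono fun Z hZ => by
    simp only [Prod.snd_add] at hZ
    linarith)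

theorem IsSub.add_const (hw : IsSub O w) (k : ℝ) : IsSub O (fun Y => w Y + k) :=
  ⟨hw.1.add continuousOn_const, fun X hX => by simpa using (hw.2 X hX).add_time k 0 0 le_rfl⟩
theorem IsSuper.add_const (hw : IsSuper O w) (k : ℝ) : IsSuper O (fun Y => w Y + k) :=
  ⟨hw.1.add continuousOn_const, fun X hX => by simpa using (hw.2 X hX).add_time k 0 0 le_rfl⟩
theorem IsSol.add_time (hw : IsSol O w) (l : ℝ) : IsSol O (fun Y => w Y + l * Y.2) :=
  ⟨⟨hw.1.1.add (by fun_prop), fun X hX => by simpa using (hw.1.2 X hX).add_time 0 l 0 le_rfl⟩,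
    ⟨hw.1.1.add (by fun_prop), fun X hX => by simpa using (hw.2.2 X hX).add_time 0 l 0 le_rfl⟩⟩

end R94
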